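import Mathlib
import Crest.Prelude.Def_VNFactor

/-! Row 95, von Neumann algebra layer, basic API (helper62).

`N : VonNeumannAlgebra H`, `ξ : ℕ → H` with `IsFaithfulTracialVectorState N ξ`.
`traceNormSq ξ x = ∑' n, ‖x (ξ n)‖ ^ 2` is the squared trace 2-norm; for a projection `p` in `N` it is the
trace of `p`.  Projections are Mathlib's `IsStarProjection`; `q * p = p` says `p ≤ q`. -/

set_option autoImplicit false
set_option linter.unusedSectionVars false
set_option linter.deprecated false

open Crest.OpAlg Filter Topology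
open scoped InnerProductSpace

namespace Crest.Agent.R95.VN

variable {H : Type*} [NormedAddCommGroup H] [InnerProductSpace ℂ H] [CompleteSpace H]

/-! ### membership in `N` -/

theorem comm_of_mem {N : VonNeumannAlgebra H} {x y : H →L[ℂ] H} (hx : x ∈ N)
    (hy : y ∈ N.commutant) : y * x = x * y :=
  (VonNeumannAlgebra.mem_commutant_iff.1 hy x hx).symm

theorem mem_of_comm {N : VonNeumannAlgebra H} {x : H →L[ℂ] H}
    (h : ∀ y ∈ N.commutant, y * x = x * y) : x ∈ N := by
  rw [← N.commutant_commutant, VonNeumannAlgebra.mem_commutant_iff]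
  exact h

theorem smul_mem {N : VonNeumannAlgebra H} {x : H →L[ℂ] H} (c : ℂ) (hx : x ∈ N) : c • x ∈ N :=
  N.toStarSubalgebra.smul_mem hx c

theorem rsmul_mem {N : VonNeumannAlgebra H} {x : H →L[ℂ] H} (c : ℝ) (hx : x ∈ N) : c • x ∈ N := by
  have := smul_mem (N := N) (c : ℂ) hx
  simpa using this

/-- strong (pointwise) limits of elements of `N` are in `N`. -/
theorem mem_of_tendsto {N : VonNeumannAlgebra H} {x : ℕ → H →L[ℂ] H} {y : H →L[ℂ] H}
    (hx : ∀ n, x n ∈ N) (h : ∀ v, Tendsto (fun n => x n v) atTop (𝓝 (y v))) : y ∈ N := by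
  apply mem_of_comm
  intro z hz
  ext v
  have h1 : Tendsto (fun n => z (x n v)) atTop (𝓝 (z (y v))) :=
    (z.continuous.tendsto _).comp (h v)
  have h2 : Tendsto (fun n => x n (z v)) atTop (𝓝 (y (z v))) := h (z v)
  have h3 : ∀ n, z (x n v) = x n (z v) := fun n => by
    have := comm_of_mem (hx n) hz
    exact congrArg (fun T : H →L[ℂ] H => T v) this
  simp only [h3] at h1
  exact tendsto_nhds_unique h1 h2

/-- the orthogonal projection onto a subspace invariant under the commutant is in `N`. -/
theorem starProjection_mem {N : VonNeumannAlgebra H} (K : Submodule ℂ H)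
    [K.HasOrthogonalProjection] (h : ∀ y ∈ N.commutant, ∀ v ∈ K, y v ∈ K) :
    K.starProjection ∈ N := by
  rw [VonNeumannAlgebra.IsStarProjection.mem_iff isStarProjection_starProjection]
  intro y hy
  rw [Module.End.mem_invtSubmodule]
  intro v hv
  have hv' : v ∈ K := by simpa using hv
  have : y v ∈ K := h y hy v hv'
  simpa using this

theorem cfc_mem {N : VonNeumannAlgebra H} {h : H →L[ℂ] H} (hh : h ∈ N) (f : ℝ → ℝ) :
    cfc f h ∈ N := by
  apply mem_of_comm
  intro y hy
  have h1 : Commute h y := (comm_of_mem hh hy).symm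
  exact ((h1.cfc_real f).eq).symm

theorem posPart_mem {N : VonNeumannAlgebra H} {h : H →L[ℂ] H} (hh : h ∈ N) :
    h⁺ ∈ N := by
  apply mem_of_comm
  intro y hy
  have h1 : Commute h y := (comm_of_mem hh hy).symm
  rw [CFC.posPart_def]
  exact ((h1.cfcₙ_real _).eq).symm

/-! ### the trace 2-norm -/

section tn

variable {ξ : ℕ → H}

theorem summable_tn (hξ : Summable fun n => ‖ξ n‖ ^ 2) (x : H →L[ℂ] H) :
    Summable fun n => ‖x (ξ n)‖ ^ 2 := by
  refine Summable.of_nonneg_of_le (fun n => by positivity) (fun n => ?_) (hξ.mul_left (‖x‖ ^ 2))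
  rw [← mul_pow]
  exact pow_le_pow_left₀ (norm_nonneg _) (x.le_opNorm _) 2

theorem sumsq {N : VonNeumannAlgebra H} (hξ : IsFaithfulTracialVectorState N ξ) :
    Summable fun n => ‖ξ n‖ ^ 2 := hξ.1.summable

theorem tn_nonneg (x : H →L[ℂ] H) : 0 ≤ traceNormSq ξ x :=
  tsum_nonneg fun _ => by positivity

theorem tn_zero : traceNormSq ξ (0 : H →L[ℂ] H) = 0 := by simp [traceNormSq]

theorem tn_one {N : VonNeumannAlgebra H} (hξ : IsFaithfulTracialVectorState N ξ) :
    traceNormSq ξ (1 : H →L[ℂ] H) = 1 := by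
  simpa [traceNormSq] using hξ.1.tsum_eq

theorem tn_neg (x : H →L[ℂ] H) : traceNormSq ξ (-x) = traceNormSq ξ x := by
  simp [traceNormSq]

theorem tn_sub_comm (x y : H →L[ℂ] H) : traceNormSq ξ (x - y) = traceNormSq ξ (y - x) := by
  rw [← tn_neg, neg_sub]

theorem tn_mul_le (hξ : Summable fun n => ‖ξ n‖ ^ 2) (y x : H →L[ℂ] H) :
    traceNormSq ξ (y * x) ≤ ‖y‖ ^ 2 * traceNormSq ξ x := by
  unfold traceNormSq
  rw [← tsum_mul_left]
  refine (summable_tn hξ _).tsum_le_tsum (fun n => ?_) ((summable_tn hξ _).mul_left _)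
  rw [← mul_pow]
  exact pow_le_pow_left₀ (norm_nonneg _) (y.le_opNorm _) 2

theorem tn_smul (c : ℂ) (x : H →L[ℂ] H) :
    traceNormSq ξ (c • x) = ‖c‖ ^ 2 * traceNormSq ξ x := by
  unfold traceNormSq
  rw [← tsum_mul_left]
  exact tsum_congr fun n => by simp [norm_smul, mul_pow]

/-- Pythagoras -/
theorem tn_add_orth (hξ : Summable fun n => ‖ξ n‖ ^ 2) {x y : H →L[ℂ] H} (h : star x * y = 0) :
    traceNormSq ξ (x + y) = traceNormSq ξ x + traceNormSq ξ y := by
  unfold traceNormSq
  rw [← (summable_tn hξ x).tsum_add (summable_tn hξ y)]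
  refine tsum_congr fun n => ?_
  have h0 : ⟪x (ξ n), y (ξ n)⟫_ℂ = 0 := by
    have : ⟪x (ξ n), y (ξ n)⟫_ℂ = ⟪ξ n, (star x * y) (ξ n)⟫_ℂ := by
      rw [ContinuousLinearMap.star_eq_adjoint, ContinuousLinearMap.mul_apply,
        ContinuousLinearMap.adjoint_inner_right]
    rw [this, h]; simp
  have := norm_add_sq (𝕜 := ℂ) (x (ξ n)) (y (ξ n))
  rw [h0] at this
  simpa using this

/-- triangle inequality -/
theorem tn_add_le (hξ : Summable fun n => ‖ξ n‖ ^ 2) (x y : H →L[ℂ] H) :
    traceNormSq ξ (x + y) ≤ 2 * traceNormSq ξ x + 2 * traceNormSq ξ y := by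
  unfold traceNormSq
  rw [← tsum_mul_left, ← tsum_mul_left,
    ← ((summable_tn hξ x).mul_left 2).tsum_add ((summable_tn hξ y).mul_left 2)]
  refine (summable_tn hξ _).tsum_le_tsum (fun n => ?_)
    (((summable_tn hξ x).mul_left 2).add ((summable_tn hξ y).mul_left 2))
  have h1 := norm_add_le (x (ξ n)) (y (ξ n))
  have h2 : ‖(x + y) (ξ n)‖ ^ 2 ≤ (‖x (ξ n)‖ + ‖y (ξ n)‖) ^ 2 :=
    pow_le_pow_left₀ (norm_nonneg _) h1 2
  nlinarith [sq_nonneg (‖x (ξ n)‖ - ‖y (ξ n)‖)]

theorem vs_star_mul (x : H →L[ℂ] H) :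
    vectorState ξ (star x * x) = (traceNormSq ξ x : ℂ) := by
  unfold vectorState traceNormSq
  rw [Complex.ofReal_tsum]
  refine tsum_congr fun n => ?_
  rw [ContinuousLinearMap.star_eq_adjoint, ContinuousLinearMap.mul_apply,
    ContinuousLinearMap.adjoint_inner_right, inner_self_eq_norm_sq_to_K]
  simp

/-- the trace property -/
theorem tn_star {N : VonNeumannAlgebra H} (hξ : IsFaithfulTracialVectorState N ξ)
    {x : H →L[ℂ] H} (hx : x ∈ N) : traceNormSq ξ (star x) = traceNormSq ξ x := by
  have h1 := vs_star_mul (ξ := ξ) x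
  have h2 := vs_star_mul (ξ := ξ) (star x)
  rw [star_star] at h2
  have h3 := hξ.2.1 x hx (star x) (star_mem hx)
  rw [h1, h2] at h3
  exact_mod_cast h3

theorem tn_eq_zero {N : VonNeumannAlgebra H} (hξ : IsFaithfulTracialVectorState N ξ)
    {x : H →L[ℂ] H} (hx : x ∈ N) (h : traceNormSq ξ x = 0) : x = 0 := by
  apply hξ.2.2 x hx
  intro n
  have h1 := (summable_tn (sumsq hξ) x).hasSum
  unfold traceNormSq at h
  rw [h] at h1
  have h2 := (hasSum_zero_iff_of_nonneg (fun n => by positivity)).1 h1
  have h3 := congrFun h2 n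
  simpa using h3

theorem tn_pos {N : VonNeumannAlgebra H} (hξ : IsFaithfulTracialVectorState N ξ)
    {x : H →L[ℂ] H} (hx : x ∈ N) (h : x ≠ 0) : 0 < traceNormSq ξ x :=
  lt_of_le_of_ne (tn_nonneg x) fun h0 => h (tn_eq_zero hξ hx h0.symm)

theorem tn_mul_le' {N : VonNeumannAlgebra H} (hξ : IsFaithfulTracialVectorState N ξ)
    {x y : H →L[ℂ] H} (hx : x ∈ N) (hy : y ∈ N) :
    traceNormSq ξ (x * y) ≤ ‖y‖ ^ 2 * traceNormSq ξ x := by
  rw [← tn_star hξ (mul_mem hx hy), star_mul]
  refine (tn_mul_le (sumsq hξ) _ _).trans ?_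
  rw [tn_star hξ hx, norm_star]

theorem tn_add_orth' {N : VonNeumannAlgebra H} (hξ : IsFaithfulTracialVectorState N ξ)
    {x y : H →L[ℂ] H} (hx : x ∈ N) (hy : y ∈ N) (h : x * star y = 0) :
    traceNormSq ξ (x + y) = traceNormSq ξ x + traceNormSq ξ y := by
  rw [← tn_star hξ (add_mem hx hy), star_add, tn_add_orth (sumsq hξ) (by simpa using h),
    tn_star hξ hx, tn_star hξ hy]

/-! ### projections -/

theorem proj_star {p : H →L[ℂ] H} (hp : IsStarProjection p) : star p = p := hp.isSelfAdjoint

theorem proj_mul {p : H →L[ℂ] H} (hp : IsStarProjection p) : p * p = p := hp.isIdempotentElem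

theorem proj_flip {p q : H →L[ℂ] H} (hp : IsStarProjection p) (hq : IsStarProjection q)
    (h : q * p = p) : p * q = p := by
  have := congrArg star h
  rwa [star_mul, proj_star hp, proj_star hq] at this

/-- `q - p` for `p ≤ q`. -/
theorem proj_sub {p q : H →L[ℂ] H} (hp : IsStarProjection p) (hq : IsStarProjection q)
    (h : q * p = p) : IsStarProjection (q - p) := by
  refine ⟨?_, ?_⟩
  · show (q - p) * (q - p) = q - p
    rw [mul_sub, sub_mul, sub_mul, proj_mul hq, proj_mul hp, h, proj_flip hp hq h]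
    abel
  · show star (q - p) = q - p
    rw [star_sub, proj_star hp, proj_star hq]

theorem proj_add {p q : H →L[ℂ] H} (hp : IsStarProjection p) (hq : IsStarProjection q)
    (h : q * p = 0) : IsStarProjection (q + p) := by
  have h' : p * q = 0 := by
    have := congrArg star h
    rwa [star_mul, proj_star hp, proj_star hq, star_zero] at this
  refine ⟨?_, ?_⟩
  · show (q + p) * (q + p) = q + p
    rw [mul_add, add_mul, add_mul, proj_mul hq, proj_mul hp, h, h']
    abel
  · show star (q + p) = q + p
    rw [star_add, proj_star hp, proj_star hq]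

/-- `D(q) = D(p) + D(q - p)` for `p ≤ q`. -/
theorem tn_proj_sub (hξ : Summable fun n => ‖ξ n‖ ^ 2) {p q : H →L[ℂ] H}
    (hp : IsStarProjection p) (hq : IsStarProjection q) (h : q * p = p) :
    traceNormSq ξ (q - p) = traceNormSq ξ q - traceNormSq ξ p := by
  have h1 : traceNormSq ξ (p + (q - p)) = traceNormSq ξ p + traceNormSq ξ (q - p) := by
    apply tn_add_orth hξ
    rw [proj_star hp, mul_sub, proj_mul hp, proj_flip hp hq h, sub_self]
  rw [add_sub_cancel] at h1
  linarith

theorem tn_proj_mono (hξ : Summable fun n => ‖ξ n‖ ^ 2) {p q : H →L[ℂ] H}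
    (hp : IsStarProjection p) (hq : IsStarProjection q) (h : q * p = p) :
    traceNormSq ξ p ≤ traceNormSq ξ q := by
  have := tn_proj_sub hξ hp hq h
  have := tn_nonneg (ξ := ξ) (q - p)
  linarith

theorem tn_proj_add (hξ : Summable fun n => ‖ξ n‖ ^ 2) {p q : H →L[ℂ] H}
    (hp : IsStarProjection p) (h : p * q = 0) :
    traceNormSq ξ (p + q) = traceNormSq ξ p + traceNormSq ξ q :=
  tn_add_orth hξ (by rwa [proj_star hp])

theorem tn_proj_le_one {N : VonNeumannAlgebra H} (hξ : IsFaithfulTracialVectorState N ξ)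
    {p : H →L[ℂ] H} (hp : IsStarProjection p) : traceNormSq ξ p ≤ 1 := by
  have := tn_proj_mono (sumsq hξ) hp (IsStarProjection.one _) (one_mul p)
  rwa [tn_one hξ] at this

/-- equality of projections `p ≤ q` of the same trace. -/
theorem proj_eq_of_tn_eq {N : VonNeumannAlgebra H} (hξ : IsFaithfulTracialVectorState N ξ)
    {p q : H →L[ℂ] H} (hpN : p ∈ N) (hqN : q ∈ N)
    (hp : IsStarProjection p) (hq : IsStarProjection q) (h : q * p = p)
    (ht : traceNormSq ξ q ≤ traceNormSq ξ p) : p = q := by
  have h1 := tn_proj_sub (sumsq hξ) hp hq h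
  have h2 : traceNormSq ξ (q - p) = 0 :=
    le_antisymm (by linarith) (tn_nonneg _)
  have h3 := tn_eq_zero hξ (sub_mem hqN hpN) h2
  exact (sub_eq_zero.1 h3).symm

/-! ### partial isometries: `v * star v * v = v` -/

theorem pi_left {v : H →L[ℂ] H} (hv : v * star v * v = v) : IsStarProjection (star v * v) := by
  refine ⟨?_, ?_⟩
  · show star v * v * (star v * v) = star v * v
    rw [show star v * v * (star v * v) = star v * (v * star v * v) by simp only [mul_assoc], hv]
  · show star (star v * v) = star v * v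
    simp

theorem pi_right {v : H →L[ℂ] H} (hv : v * star v * v = v) : IsStarProjection (v * star v) := by
  refine ⟨?_, ?_⟩
  · show v * star v * (v * star v) = v * star v
    rw [show v * star v * (v * star v) = (v * star v * v) * star v by simp only [mul_assoc], hv]
  · show star (v * star v) = v * star v
    simp

theorem pi_star {v : H →L[ℂ] H} (hv : v * star v * v = v) : star v * v * star v = star v := by
  have := congrArg star hv
  simpa [mul_assoc] using this

/-- `v* v` projection implies `v v* v = v`. -/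
theorem pi_of_left {v : H →L[ℂ] H} (hv : star v * v * (star v * v) = star v * v) :
    v * star v * v = v := by
  have h : star (v * star v * v - v) * (v * star v * v - v) = 0 := by
    have h1 : star (v * star v * v - v) * (v * star v * v - v)
        = (star v * v * (star v * v)) * (star v * v) - star v * v * (star v * v)
          - star v * v * (star v * v) + star v * v := by
      simp only [star_sub, star_mul, star_star, mul_sub, sub_mul, mul_assoc]
      abel
    rw [h1, hv, hv]; abel
  exact sub_eq_zero.1 (CStarRing.star_mul_self_eq_zero_iff _ |>.1 h)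

theorem tn_pi_left {v : H →L[ℂ] H} (hv : v * star v * v = v) :
    traceNormSq ξ (star v * v) = traceNormSq ξ v := by
  have h1 := vs_star_mul (ξ := ξ) v
  have h2 := vs_star_mul (ξ := ξ) (star v * v)
  rw [proj_star (pi_left hv), proj_mul (pi_left hv), h1] at h2
  exact_mod_cast h2.symm

theorem tn_pi_right {N : VonNeumannAlgebra H} (hξ : IsFaithfulTracialVectorState N ξ)
    {v : H →L[ℂ] H} (hN : v ∈ N) (hv : v * star v * v = v) :
    traceNormSq ξ (v * star v) = traceNormSq ξ v := by
  have h1 := tn_pi_left (ξ := ξ) (v := star v) (by simpa using pi_star hv)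
  rw [star_star, tn_star hξ hN] at h1
  exact h1

theorem tn_pi {N : VonNeumannAlgebra H} (hξ : IsFaithfulTracialVectorState N ξ)
    {v : H →L[ℂ] H} (hN : v ∈ N) (hv : v * star v * v = v) :
    traceNormSq ξ (star v * v) = traceNormSq ξ (v * star v) := by
  rw [tn_pi_left hv, tn_pi_right hξ hN hv]

end tn

/-! ### range projections -/

/-- projection onto the closure of the range of `x`. -/
noncomputable def rp (x : H →L[ℂ] H) : H →L[ℂ] H :=
  (LinearMap.range x.toLinearMap).topologicalClosure.starProjection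

theorem rp_proj (x : H →L[ℂ] H) : IsStarProjection (rp x) := isStarProjection_starProjection

theorem rp_mul (x : H →L[ℂ] H) : rp x * x = x := by
  ext v
  show rp x (x v) = x v
  apply Submodule.starProjection_eq_self_iff.2
  exact Submodule.le_topologicalClosure _ ⟨v, rfl⟩

/-- `y` kills `rp x` iff it kills `x`. -/
theorem mul_rp_eq_zero {x y : H →L[ℂ] H} (h : y * x = 0) : y * rp x = 0 := by
  have h1 : (LinearMap.range x.toLinearMap).topologicalClosure ≤ LinearMap.ker y.toLinearMap := by
    apply Submodule.topologicalClosure_minimal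
    · rintro _ ⟨v, rfl⟩
      exact congrArg (fun T : H →L[ℂ] H => T v) h
    · exact y.isClosed_ker
  ext v
  exact h1 (Submodule.starProjection_apply_mem _ v)

theorem mul_rp_eq_of {x y z : H →L[ℂ] H} (h : y * x = z * x) : y * rp x = z * rp x := by
  have := mul_rp_eq_zero (x := x) (y := y - z) (by rw [sub_mul, h, sub_self])
  rwa [sub_mul, sub_eq_zero] at this

/-- `x ∈ qH` implies `rp x ≤ q`. -/
theorem rp_le {x q : H →L[ℂ] H} (h : q * x = x) : q * rp x = rp x := by
  have := mul_rp_eq_of (x := x) (y := q) (z := 1) (by rw [h, one_mul])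
  rwa [one_mul] at this

theorem rp_eq_zero {x : H →L[ℂ] H} (h : rp x = 0) : x = 0 := by
  rw [← rp_mul x, h, zero_mul]

/-- for selfadjoint `x`, `x * rp x = x`. -/
theorem mul_rp {x : H →L[ℂ] H} (hx : star x = x) : x * rp x = x := by
  have := congrArg star (rp_mul x)
  rwa [star_mul, hx, proj_star (rp_proj x)] at this

theorem rp_mem {N : VonNeumannAlgebra H} {x : H →L[ℂ] H} (hx : x ∈ N) : rp x ∈ N := by
  apply starProjection_mem
  intro y hy
  have h1 : (LinearMap.range x.toLinearMap).topologicalClosure ≤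
      ((LinearMap.range x.toLinearMap).topologicalClosure).comap y.toLinearMap := by
    apply Submodule.topologicalClosure_minimal
    · rintro _ ⟨v, rfl⟩
      apply Submodule.le_topologicalClosure
      exact ⟨y v, (congrArg (fun T : H →L[ℂ] H => T v) (comm_of_mem hx hy)).symm⟩
    · exact (Submodule.isClosed_topologicalClosure _).preimage y.continuous
  intro v hv
  exact h1 hv

/-- `y` with `y x = x y` and `y* x = x y*` commutes with `rp x`. -/
theorem rp_comm {x y : H →L[ℂ] H} (h : y * x = x * y) (h' : star y * x = x * star y) :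
    y * rp x = rp x * y := by
  have h1 : rp x * (y * rp x) = y * rp x := by
    have : (rp x * y) * x = y * x := by
      rw [mul_assoc, h, ← mul_assoc, rp_mul]
    rw [← mul_assoc]
    exact mul_rp_eq_of this
  have h2 : rp x * (star y * rp x) = star y * rp x := by
    have : (rp x * star y) * x = star y * x := by
      rw [mul_assoc, h', ← mul_assoc, rp_mul]
    rw [← mul_assoc]
    exact mul_rp_eq_of this
  have h3 := congrArg star h2
  simp only [star_mul, star_star, proj_star (rp_proj x)] at h3
  rw [← h1, ← h3]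
  simp only [mul_assoc]

/-- an element commuting with a selfadjoint `x` commutes with `rp x⁺`. -/
theorem rp_posPart_comm {x y : H →L[ℂ] H} (hx : star x = x) (h : y * x = x * y) :
    y * rp x⁺ = rp x⁺ * y := by
  have h1 : Commute x y := h.symm
  have h2 : Commute x (star y) := by
    have := congrArg star h
    rw [star_mul, star_mul, hx] at this
    exact this
  apply rp_comm
  · rw [CFC.posPart_def]; exact ((h1.cfcₙ_real _).eq).symm
  · rw [CFC.posPart_def]; exact ((h2.cfcₙ_real _).eq).symm

end Crest.Agent.R95.VN
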