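import Crest.Agent.R95.SpecA

/-!
# Row 95, piece LAYER CAKE

`a ∈ P`, `0 ≤ a ≤ 1`, `n ≥ 1`: there are projections `f_0,…,f_{n-1} ∈ P`, commuting with everything
that commutes with `a`, such that `‖a - (1/n) ∑_k f_k‖ ≤ 1/n`.
-/

set_option autoImplicit false

namespace Crest.Agent.R95

open Crest.OpAlg
open scoped InnerProductSpace ComplexConjugate

variable {H : Type*} [NormedAddCommGroup H] [InnerProductSpace ℂ H] [CompleteSpace H]
variable {ξ : ℕ → H} {P M : VonNeumannAlgebra H}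

theorem norm_le_of_form {R : H →L[ℂ] H} (hR : IsSelfAdjoint R) {c : ℝ}
    (h0 : ∀ v : H, 0 ≤ (⟪v, R v⟫_ℂ).re) (h1 : ∀ v : H, (⟪v, R v⟫_ℂ).re ≤ c * ‖v‖ ^ 2) (hc : 0 ≤ c) :
    ‖R‖ ≤ c := by
  have hsa : ∀ v : H, ⟪R v, v⟫_ℂ = ⟪v, R v⟫_ℂ := fun v => by
    rw [← ContinuousLinearMap.adjoint_inner_right, ← ContinuousLinearMap.star_eq_adjoint, hR.star_eq]
  have hpos : (0 : H →L[ℂ] H) ≤ R := by
    rw [ContinuousLinearMap.nonneg_iff_isPositive]
    refine ⟨hR.isSymmetric, fun v => ?_⟩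
    rw [ContinuousLinearMap.reApplyInnerSelf_apply, hsa]
    exact h0 v
  have hle : R ≤ (c : ℂ) • (1 : H →L[ℂ] H) := by
    rw [ContinuousLinearMap.le_def]
    have hsc : IsSelfAdjoint ((c : ℂ) • (1 : H →L[ℂ] H)) := by
      rw [IsSelfAdjoint, star_smul, star_one, RCLike.star_def, Complex.conj_ofReal]
    refine ⟨(hsc.sub hR).isSymmetric, fun v => ?_⟩
    rw [ContinuousLinearMap.reApplyInnerSelf_apply, ContinuousLinearMap.sub_apply, inner_sub_left, hsa]
    simp only [ContinuousLinearMap.smul_apply, ContinuousLinearMap.one_apply, inner_smul_left,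
      Complex.conj_ofReal, map_sub, RCLike.re_to_complex, Complex.re_ofReal_mul]
    have := h1 v
    have e : (⟪v, v⟫_ℂ).re = ‖v‖ ^ 2 := by
      rw [← RCLike.re_to_complex, inner_self_eq_norm_sq]
    rw [e]; linarith
  have := CStarAlgebra.norm_le_norm_of_nonneg_of_le hpos hle
  refine this.trans ?_
  rw [norm_smul]
  have hn : ‖(1 : H →L[ℂ] H)‖ ≤ 1 := ContinuousLinearMap.norm_id_le
  rw [Complex.norm_real, Real.norm_eq_abs, abs_of_nonneg hc]
  nlinarith

theorem layer_cake (P : VonNeumannAlgebra H) {a : H →L[ℂ] H} (ha : a ∈ P) (hs : IsSelfAdjoint a)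
    (h0 : ∀ v : H, 0 ≤ (⟪v, a v⟫_ℂ).re) (h1 : ∀ v : H, (⟪v, a v⟫_ℂ).re ≤ ‖v‖ ^ 2)
    (n : ℕ) (hn : 1 ≤ n) :
    ∃ f : Fin n → (H →L[ℂ] H), (∀ k, Pj P (f k)) ∧
      (∀ k, ∀ T : H →L[ℂ] H, T * a = a * T → T * f k = f k * T) ∧
      (∀ k, ∀ v : H, (1 / n : ℝ) * ‖f k v‖ ^ 2 ≤ (⟪f k v, a (f k v)⟫_ℂ).re) ∧
      ‖a - (1 / n : ℂ) • ∑ k, f k‖ ≤ 1 / n := by
  have hn0 : (0 : ℝ) < n := by exact_mod_cast hn
  choose e he1 he2 he3 he4 he5 using fun lam : ℝ => spec_cut P ha hs lam
  have hcomm : ∀ l m : ℝ, e l * e m = e m * e l := fun l m => he3 m (e l) (he2 l)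
  -- inner product rule for a self-adjoint operator
  have hsw : ∀ {R : H →L[ℂ] H}, IsSelfAdjoint R → ∀ v w : H, ⟪R v, w⟫_ℂ = ⟪v, R w⟫_ℂ := by
    intro R hR v w
    rw [← ContinuousLinearMap.adjoint_inner_right, ← ContinuousLinearMap.star_eq_adjoint, hR.star_eq]
  have hmono : ∀ {l m : ℝ}, l < m → e m * e l = e m := by
    intro l m hlm
    have key : e m * (1 - e l) = 0 := by
      ext v
      set w := (e m * (1 - e l)) v with hw
      have w1 : e m w = w := by
        rw [hw, ← ContinuousLinearMap.mul_apply, ← mul_assoc, (he1 m).2.isIdempotentElem.eq]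
      have w2 : (1 - e l) w = w := by
        have : (1 - e l) * (e m * (1 - e l)) = e m * (1 - e l) := by
          have h2 : (1 - e l) * (1 - e l) = 1 - e l := (he1 l).2.isIdempotentElem.one_sub.eq
          calc (1 - e l) * (e m * (1 - e l)) = ((1 - e l) * e m) * (1 - e l) := by rw [mul_assoc]
            _ = (e m * (1 - e l)) * (1 - e l) := by
                congr 1; rw [sub_mul, mul_sub, one_mul, mul_one, hcomm]
            _ = e m * (1 - e l) := by rw [mul_assoc, h2]
        rw [hw, ← ContinuousLinearMap.mul_apply, this]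
      have i1 := he4 m w
      have i2 := he5 l w
      rw [w1] at i1
      rw [w2] at i2
      have i3 : (m - l) * ‖w‖ ^ 2 ≤ 0 := by nlinarith
      have i4 : ‖w‖ ^ 2 ≤ 0 := by
        by_contra hcon
        push_neg at hcon
        have := mul_pos (sub_pos.2 hlm) hcon
        linarith
      have i5 : ‖w‖ = 0 := by nlinarith [norm_nonneg w, sq_nonneg ‖w‖]
      simpa using norm_eq_zero.1 i5
    rw [mul_sub, mul_one, sub_eq_zero] at key
    exact key.symm
  set F : ℕ → (H →L[ℂ] H) := fun m => if m = 0 then 1 else if m ≤ n then e ((m : ℝ) / n) else 0 with hF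
  have F0 : F 0 = 1 := by simp [hF]
  have Fmid : ∀ m, 1 ≤ m → m ≤ n → F m = e ((m : ℝ) / n) := by
    intro m h1 h2
    simp only [hF]
    rw [if_neg (by omega), if_pos h2]
  have Ftop : F (n + 1) = 0 := by
    simp only [hF]
    rw [if_neg (by omega), if_neg (by omega)]
  have Fproj : ∀ m, IsStarProjection (F m) := by
    intro m
    simp only [hF]
    split_ifs
    · exact IsStarProjection.one _
    · exact (he1 _).2
    · exact IsStarProjection.zero _
  have Fcomm : ∀ m, F m * a = a * F m := by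
    intro m
    simp only [hF]
    split_ifs
    · simp
    · exact he2 _
    · simp
  have Fmono : ∀ m, m ≤ n → F (m + 1) * F m = F (m + 1) := by
    intro m hm
    rcases Nat.eq_zero_or_pos m with rfl | hpos
    · rw [F0, mul_one]
    · rcases Nat.lt_or_ge m n with hlt | hge
      · rw [Fmid m hpos hm, Fmid (m + 1) (by omega) hlt]
        apply hmono
        rw [div_lt_div_iff_of_pos_right hn0]
        push_cast; linarith
      · have : m = n := le_antisymm hm hge
        rw [this, Ftop, zero_mul]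
  have Fmono' : ∀ m, m ≤ n → F m * F (m + 1) = F (m + 1) := by
    intro m hm
    have := congrArg star (Fmono m hm)
    rw [star_mul, (Fproj m).isSelfAdjoint.star_eq, (Fproj (m + 1)).isSelfAdjoint.star_eq] at this
    exact this
  -- quadratic form
  set q : H → ℝ := fun v => (⟪v, a v⟫_ℂ).re with hq
  have pyth : ∀ m, m ≤ n → ∀ v : H,
      ‖F m v‖ ^ 2 = ‖F (m + 1) v‖ ^ 2 + ‖(F m - F (m + 1)) v‖ ^ 2 := by
    intro m hm v
    have ho : ⟪F (m + 1) v, (F m - F (m + 1)) v⟫_ℂ = 0 := by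
      rw [hsw (Fproj (m + 1)).isSelfAdjoint, ← ContinuousLinearMap.mul_apply, mul_sub, Fmono m hm,
        (Fproj (m + 1)).isIdempotentElem.eq, sub_self]
      simp
    have hd : F m v = F (m + 1) v + (F m - F (m + 1)) v := by
      rw [ContinuousLinearMap.sub_apply]; abel
    rw [hd]
    have := norm_add_sq_eq_norm_sq_add_norm_sq_of_inner_eq_zero (F (m + 1) v) ((F m - F (m + 1)) v) ho
    nlinarith [this]
  have qsplit : ∀ m, m ≤ n → ∀ v : H,
      q (F m v) = q (F (m + 1) v) + q ((F m - F (m + 1)) v) := by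
    intro m hm v
    have ho : ⟪F (m + 1) v, a ((F m - F (m + 1)) v)⟫_ℂ = 0 := by
      rw [hsw (Fproj (m + 1)).isSelfAdjoint]
      have : F (m + 1) (a ((F m - F (m + 1)) v)) = (F (m + 1) * a * (F m - F (m + 1))) v := rfl
      rw [this, Fcomm, mul_assoc, mul_sub, Fmono m hm, (Fproj (m + 1)).isIdempotentElem.eq, sub_self,
        mul_zero]
      simp
    have ho' : ⟪(F m - F (m + 1)) v, a (F (m + 1) v)⟫_ℂ = 0 := by
      rw [← hsw hs, ← inner_conj_symm, ho, map_zero]
    have hd : F m v = F (m + 1) v + (F m - F (m + 1)) v := by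
      rw [ContinuousLinearMap.sub_apply]; abel
    show (⟪F m v, a (F m v)⟫_ℂ).re = (⟪F (m + 1) v, a (F (m + 1) v)⟫_ℂ).re +
      (⟪(F m - F (m + 1)) v, a ((F m - F (m + 1)) v)⟫_ℂ).re
    rw [hd, map_add, inner_add_left, inner_add_right, inner_add_right, ho, ho', add_zero, zero_add,
      Complex.add_re]
  have glow : ∀ m, m ≤ n → ∀ v : H,
      ((m : ℝ) / n) * ‖(F m - F (m + 1)) v‖ ^ 2 ≤ q ((F m - F (m + 1)) v) := by
    intro m hm v
    rcases Nat.eq_zero_or_pos m with rfl | hpos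
    · simp only [Nat.cast_zero, zero_div, zero_mul]
      exact h0 _
    · have hw : F m ((F m - F (m + 1)) v) = (F m - F (m + 1)) v := by
        rw [← ContinuousLinearMap.mul_apply, mul_sub, (Fproj m).isIdempotentElem.eq, Fmono' m hm]
      have := he4 ((m : ℝ) / n) ((F m - F (m + 1)) v)
      rw [← Fmid m hpos hm, hw] at this
      exact this
  have gup : ∀ m, m ≤ n → ∀ v : H,
      q ((F m - F (m + 1)) v) ≤ (((m : ℝ) + 1) / n) * ‖(F m - F (m + 1)) v‖ ^ 2 := by
    intro m hm v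
    rcases Nat.lt_or_ge m n with hlt | hge
    · have hw : (1 - F (m + 1)) ((F m - F (m + 1)) v) = (F m - F (m + 1)) v := by
        rw [← ContinuousLinearMap.mul_apply]
        congr 1
        rw [sub_mul, one_mul, mul_sub, Fmono m hm, (Fproj (m + 1)).isIdempotentElem.eq, sub_self,
          sub_zero]
      have := he5 (((m + 1 : ℕ) : ℝ) / n) ((F m - F (m + 1)) v)
      rw [← Fmid (m + 1) (by omega) hlt, hw] at this
      push_cast at this
      exact this
    · have e1 : m = n := le_antisymm hm hge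
      have := h1 ((F m - F (m + 1)) v)
      refine this.trans ?_
      have h2 : (1 : ℝ) ≤ ((m : ℝ) + 1) / n := by
        rw [le_div_iff₀ hn0, e1]; linarith
      nlinarith [sq_nonneg ‖(F m - F (m + 1)) v‖]
  -- the induction
  have main : ∀ v : H, ∀ m, m ≤ n + 1 →
      0 ≤ q v - q (F m v) - (1 / n : ℝ) * (∑ k ∈ Finset.range m, (‖F (k + 1) v‖ ^ 2 - ‖F m v‖ ^ 2)) ∧
      q v - q (F m v) - (1 / n : ℝ) * (∑ k ∈ Finset.range m, (‖F (k + 1) v‖ ^ 2 - ‖F m v‖ ^ 2))
        ≤ (1 / n : ℝ) * (‖v‖ ^ 2 - ‖F m v‖ ^ 2) := by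
    intro v m
    induction m with
    | zero => intro _; simp [F0]
    | succ m ih =>
      intro hm
      have hm' : m ≤ n := by omega
      obtain ⟨i1, i2⟩ := ih (by omega)
      have hA := pyth m hm' v
      have hB := qsplit m hm' v
      have hC := glow m hm' v
      have hD := gup m hm' v
      set G := ‖(F m - F (m + 1)) v‖ ^ 2 with hG
      have hsum : ∑ k ∈ Finset.range (m + 1), (‖F (k + 1) v‖ ^ 2 - ‖F (m + 1) v‖ ^ 2) =
          ∑ k ∈ Finset.range m, (‖F (k + 1) v‖ ^ 2 - ‖F m v‖ ^ 2) + m * G := by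
        rw [Finset.sum_range_succ, sub_self, add_zero]
        have : ∀ k ∈ Finset.range m, ‖F (k + 1) v‖ ^ 2 - ‖F (m + 1) v‖ ^ 2 =
            (‖F (k + 1) v‖ ^ 2 - ‖F m v‖ ^ 2) + G := by
          intro k _; rw [hA]; ring
        rw [Finset.sum_congr rfl this, Finset.sum_add_distrib, Finset.sum_const, Finset.card_range,
          nsmul_eq_mul]
      rw [hsum]
      have e1 : (1 / n : ℝ) * (m * G) = ((m : ℝ) / n) * G := by ring
      have e2 : (((m : ℝ) + 1) / n) * G = ((m : ℝ) / n) * G + (1 / n : ℝ) * G := by ring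
      rw [e2] at hD
      rw [mul_add, e1]
      constructor
      · linarith
      · have : (1 / n : ℝ) * (‖v‖ ^ 2 - ‖F (m + 1) v‖ ^ 2) =
            (1 / n : ℝ) * (‖v‖ ^ 2 - ‖F m v‖ ^ 2) + (1 / n : ℝ) * G := by rw [hA]; ring
        rw [this]
        linarith
  refine ⟨fun k => F (k + 1), fun k => ?_, fun k T hT => ?_, fun k v => ?_, ?_⟩
  · show Pj P (F (k + 1))
    rw [Fmid (k + 1) (by omega) k.2]; exact he1 _
  · show T * F (k + 1) = F (k + 1) * T
    rw [Fmid (k + 1) (by omega) k.2]; exact he3 _ T hT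
  · show (1 / n : ℝ) * ‖F (k + 1) v‖ ^ 2 ≤ (⟪F (k + 1) v, a (F (k + 1) v)⟫_ℂ).re
    rw [Fmid (k + 1) (by omega) k.2]
    have := he4 (((k + 1 : ℕ) : ℝ) / n) v
    refine le_trans ?_ this
    apply mul_le_mul_of_nonneg_right _ (sq_nonneg _)
    rw [div_le_div_iff_of_pos_right hn0]
    push_cast
    have : (0 : ℝ) ≤ (k : ℕ) := Nat.cast_nonneg _
    linarith
  · have hform : ∀ v : H, (⟪v, (a - (1 / n : ℂ) • ∑ k : Fin n, F (k + 1)) v⟫_ℂ).re =
        q v - (1 / n : ℝ) * ∑ k ∈ Finset.range n, ‖F (k + 1) v‖ ^ 2 := by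
      intro v
      rw [ContinuousLinearMap.sub_apply, inner_sub_right, Complex.sub_re]
      congr 1
      rw [ContinuousLinearMap.smul_apply, inner_smul_right]
      have : (1 / n : ℂ) = ((1 / n : ℝ) : ℂ) := by push_cast; rfl
      rw [this, Complex.re_ofReal_mul]
      congr 1
      rw [ContinuousLinearMap.sum_apply, inner_sum, Complex.re_sum, ← Fin.sum_univ_eq_sum_range
        (fun k => ‖F (k + 1) v‖ ^ 2) n]
      refine Finset.sum_congr rfl fun k _ => ?_
      have hidem : F (k + 1) v = F (k + 1) (F (k + 1) v) := by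
        rw [← ContinuousLinearMap.mul_apply, (Fproj _).isIdempotentElem.eq]
      rw [hidem, ← hsw (Fproj _).isSelfAdjoint, ← hidem, ← RCLike.re_to_complex,
        inner_self_eq_norm_sq]
    have hsa : IsSelfAdjoint (a - (1 / n : ℂ) • ∑ k : Fin n, F (k + 1)) := by
      refine hs.sub ?_
      rw [IsSelfAdjoint, star_smul, star_sum]
      congr 1
      · simp
      · exact Finset.sum_congr rfl fun k _ => (Fproj _).isSelfAdjoint.star_eq
    have hend : ∀ v : H, 0 ≤ q v - (1 / n : ℝ) * ∑ k ∈ Finset.range n, ‖F (k + 1) v‖ ^ 2 ∧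
        q v - (1 / n : ℝ) * ∑ k ∈ Finset.range n, ‖F (k + 1) v‖ ^ 2 ≤ (1 / n : ℝ) * ‖v‖ ^ 2 := by
      intro v
      have := main v (n + 1) le_rfl
      rw [Ftop, Finset.sum_range_succ, Ftop] at this
      simpa [hq] using this
    refine norm_le_of_form hsa (fun v => ?_) (fun v => ?_) (by positivity)
    · rw [hform]; exact (hend v).1
    · rw [hform]; exact (hend v).2

end Crest.Agent.R95
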