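import Crest.Agent.R95.TrB

/-!
# Row 95, piece VNA: basic closure properties of a von Neumann algebra

`M : VonNeumannAlgebra H` is a `StarSubalgebra` equal to its bicommutant.  Use
`VonNeumannAlgebra.commutant`, `mem_commutant_iff`, `commutant_commutant`.
`gen S` = bicommutant of `S ∪ star S`.
-/

set_option autoImplicit false

namespace Crest.Agent.R95

open Crest.OpAlg
open scoped InnerProductSpace ComplexConjugate

variable {H : Type*} [NormedAddCommGroup H] [InnerProductSpace ℂ H] [CompleteSpace H]
variable {ξ : ℕ → H} {P M : VonNeumannAlgebra H}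

theorem vn_smul_mem (M : VonNeumannAlgebra H) (c : ℂ) {x : H →L[ℂ] H} (hx : x ∈ M) :
    c • x ∈ M := M.toStarSubalgebra.smul_mem hx c

theorem vn_rsmul_mem (M : VonNeumannAlgebra H) (c : ℝ) {x : H →L[ℂ] H} (hx : x ∈ M) :
    c • x ∈ M := by
  have : c • x = ((c : ℂ)) • x := by
    ext v; simp
  rw [this]; exact vn_smul_mem M _ hx

/-- `M` is norm closed -/
theorem vn_isClosed (M : VonNeumannAlgebra H) : IsClosed (M : Set (H →L[ℂ] H)) := by
  rw [← VonNeumannAlgebra.centralizer_centralizer M]
  exact Set.isClosed_centralizer _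

/-- continuous functional calculus of a self-adjoint element stays in `M`
(norm closed star subalgebra, e.g. `StarAlgebra.elemental` and `cfc_mem`-type lemmas, or
approximate `f` by polynomials on the spectrum) -/
theorem vn_cfc_mem (M : VonNeumannAlgebra H) {a : H →L[ℂ] H} (ha : a ∈ M)
    (hs : IsSelfAdjoint a) (f : ℝ → ℝ) (hf : Continuous f) : cfc f a ∈ M := by
  have hcl : IsClosed (M.toStarSubalgebra : Set (H →L[ℂ] H)) := vn_isClosed M
  have := hcl
  exact cfc_mem (𝕜 := ℝ) (𝕜' := ℂ) (s := M.toStarSubalgebra) f ha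

/-- membership by commutation -/
theorem vn_mem_of_comm (M : VonNeumannAlgebra H) {x : H →L[ℂ] H}
    (h : ∀ y ∈ M.commutant, x * y = y * x) : x ∈ M := by
  rw [← VonNeumannAlgebra.commutant_commutant M]
  exact VonNeumannAlgebra.mem_commutant_iff.2 fun y hy => (h y hy).symm

/-- the orthogonal projection onto a closed subspace invariant under `M'` lies in `M` -/
theorem vn_proj_mem (M : VonNeumannAlgebra H) (K : Submodule ℂ H) [K.HasOrthogonalProjection]
    (hK : ∀ y ∈ M.commutant, ∀ v ∈ K, y v ∈ K) : K.starProjection ∈ M := by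
  rw [VonNeumannAlgebra.IsStarProjection.mem_iff isStarProjection_starProjection M]
  intro y hy
  rw [Module.End.mem_invtSubmodule]
  intro v hv
  rw [Submodule.range_starProjection] at hv
  rw [Submodule.mem_comap, Submodule.range_starProjection]
  exact hK y hy v hv

/-- the generated von Neumann algebra -/
noncomputable def gen (S : Set (H →L[ℂ] H)) : VonNeumannAlgebra H where
  toStarSubalgebra := StarSubalgebra.centralizer ℂ
    (StarSubalgebra.centralizer ℂ S : Set (H →L[ℂ] H))
  centralizer_centralizer' := by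
    have key : ∀ T : Set (H →L[ℂ] H), ((StarSubalgebra.centralizer ℂ
        (StarSubalgebra.centralizer ℂ T : Set (H →L[ℂ] H)) : StarSubalgebra ℂ (H →L[ℂ] H)) :
          Set (H →L[ℂ] H)) = (T ∪ star T).centralizer.centralizer := fun T =>
      StarSubalgebra.coe_centralizer_centralizer ℂ T
    change Set.centralizer (Set.centralizer ((StarSubalgebra.centralizer ℂ
        (StarSubalgebra.centralizer ℂ S : Set (H →L[ℂ] H)) : StarSubalgebra ℂ (H →L[ℂ] H)) :
          Set (H →L[ℂ] H))) = ((StarSubalgebra.centralizer ℂ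
        (StarSubalgebra.centralizer ℂ S : Set (H →L[ℂ] H)) : StarSubalgebra ℂ (H →L[ℂ] H)) :
          Set (H →L[ℂ] H))
    rw [key S, Set.centralizer_centralizer_centralizer]

theorem coe_gen (S : Set (H →L[ℂ] H)) :
    (gen S : Set (H →L[ℂ] H)) = (S ∪ star S).centralizer.centralizer :=
  StarSubalgebra.coe_centralizer_centralizer ℂ S

theorem subset_gen (S : Set (H →L[ℂ] H)) : S ⊆ gen S := by
  rw [coe_gen]
  exact Set.subset_union_left.trans Set.subset_centralizer_centralizer

theorem gen_le {S : Set (H →L[ℂ] H)} {N : VonNeumannAlgebra H} (h : S ⊆ N) : gen S ≤ N := by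
  have h1 : S ∪ star S ⊆ N := by
    rintro x (hx | hx)
    · exact h hx
    · have : star x ∈ N := h hx
      simpa using star_mem this
  intro x hx
  have hx' : x ∈ (S ∪ star S).centralizer.centralizer := by
    rw [← coe_gen]; exact hx
  have h2 := Set.centralizer_subset (Set.centralizer_subset h1) hx'
  rw [VonNeumannAlgebra.centralizer_centralizer] at h2
  exact h2

/-- `x ∈ gen S` iff `x` commutes with everything that commutes with `S` and `star S` -/
theorem mem_gen_iff {S : Set (H →L[ℂ] H)} {x : H →L[ℂ] H} :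
    x ∈ gen S ↔ ∀ T : H →L[ℂ] H, (∀ s ∈ S, s * T = T * s) → (∀ s ∈ S, star s * T = T * star s) →
      x * T = T * x := by
  have h0 : x ∈ gen S ↔ x ∈ (S ∪ star S).centralizer.centralizer := by
    rw [← coe_gen]; rfl
  rw [h0]
  constructor
  · intro h T hT1 hT2
    refine (h T ?_).symm
    rintro s (hs | hs)
    · exact hT1 s hs
    · have := hT2 (star s) hs
      rwa [star_star] at this
  · intro h T hT
    refine (h T (fun s hs => hT s (Or.inl hs)) (fun s hs => hT (star s) (Or.inr ?_))).symm
    simpa using hs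

/-- relative commutant of a set `S` in `M` -/
noncomputable def rc (S : Set (H →L[ℂ] H)) (M : VonNeumannAlgebra H) : VonNeumannAlgebra H :=
  (gen (S ∪ (M.commutant : Set (H →L[ℂ] H)))).commutant

theorem mem_rc_iff {S : Set (H →L[ℂ] H)} {M : VonNeumannAlgebra H} {x : H →L[ℂ] H} :
    x ∈ rc S M ↔ x ∈ M ∧ (∀ s ∈ S, s * x = x * s) ∧ (∀ s ∈ S, star s * x = x * star s) := by
  unfold rc
  constructor
  · intro h
    rw [VonNeumannAlgebra.mem_commutant_iff] at h
    have hsub := subset_gen (S ∪ (M.commutant : Set (H →L[ℂ] H)))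
    refine ⟨?_, ?_, ?_⟩
    · apply vn_mem_of_comm
      intro y hy
      exact (h y (hsub (Or.inr hy))).symm
    · intro s hs
      exact h s (hsub (Or.inl hs))
    · intro s hs
      exact h (star s) (star_mem (hsub (Or.inl hs)))
  · rintro ⟨h1, h2, h3⟩
    rw [VonNeumannAlgebra.mem_commutant_iff]
    intro g hg
    rw [mem_gen_iff] at hg
    refine hg x ?_ ?_
    · rintro s (hs | hs)
      · exact h2 s hs
      · exact (VonNeumannAlgebra.mem_commutant_iff.1 hs x h1).symm
    · rintro s (hs | hs)
      · exact h3 s hs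
      · exact (VonNeumannAlgebra.mem_commutant_iff.1 (star_mem hs) x h1).symm

theorem rc_le (S : Set (H →L[ℂ] H)) (M : VonNeumannAlgebra H) : rc S M ≤ M := by
  intro x hx
  exact (mem_rc_iff.1 hx).1

end Crest.Agent.R95
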