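import Crest.Agent.R95.VNa

/-!
# Row 95, piece SPEC-CUT

For a self-adjoint `a ∈ P` and `lam : ℝ` there is a projection `e ∈ P` commuting with `a` such that
`lam e ≤ a e` and `a (1 - e) ≤ lam (1 - e)`.
Proof.  `b = (a - lam)₊ = cfc (fun t => max (t - lam) 0) a ∈ P` (`vn_cfc_mem`).  `K` = closure of
the range of `b`; `K` is invariant under everything commuting with `b`, so its projection
`e ∈ P` (`vn_proj_mem`), `e` commutes with `a`, `e b = b = b e`.
`(a - lam)₋ b = 0` gives `(a - lam)₋ e = 0`.
So `(a - lam) e = b e ≥ 0` and `(a - lam)(1 - e) = - (a - lam)₋ (1 - e) ≤ 0`.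
We state the inequalities as positivity of quadratic forms:
`lam ‖e v‖² ≤ re ⟪e v, a (e v)⟫`, etc.
-/

set_option autoImplicit false

namespace Crest.Agent.R95

open Crest.OpAlg
open scoped InnerProductSpace ComplexConjugate

variable {H : Type*} [NormedAddCommGroup H] [InnerProductSpace ℂ H] [CompleteSpace H]
variable {ξ : ℕ → H} {P M : VonNeumannAlgebra H}

omit [CompleteSpace H] in
/-- a projection onto the closure of the range of a self-adjoint operator: invariance -/
private theorem range_closure_inv {b T : H →L[ℂ] H} (h : T * b = b * T) {v : H}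
    (hv : v ∈ (LinearMap.range (b : H →ₗ[ℂ] H)).topologicalClosure) :
    T v ∈ (LinearMap.range (b : H →ₗ[ℂ] H)).topologicalClosure := by
  have hmap : Set.MapsTo T (LinearMap.range (b : H →ₗ[ℂ] H) : Set H)
      (LinearMap.range (b : H →ₗ[ℂ] H) : Set H) := by
    rintro _ ⟨w, rfl⟩
    refine ⟨T w, ?_⟩
    have := congrArg (fun S : H →L[ℂ] H => S w) h
    simpa using this.symm
  exact (map_mem_closure T.continuous hv hmap : _)

theorem spec_cut (P : VonNeumannAlgebra H) {a : H →L[ℂ] H} (ha : a ∈ P) (hs : IsSelfAdjoint a)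
    (lam : ℝ) :
    ∃ e, Pj P e ∧ e * a = a * e ∧
      (∀ T : H →L[ℂ] H, T * a = a * T → T * e = e * T) ∧
      (∀ v : H, lam * ‖e v‖ ^ 2 ≤ (⟪e v, a (e v)⟫_ℂ).re) ∧
      (∀ v : H, (⟪(1 - e) v, a ((1 - e) v)⟫_ℂ).re ≤ lam * ‖(1 - e) v‖ ^ 2) := by
  set b : H →L[ℂ] H := cfc (fun t : ℝ => max (t - lam) 0) a with hb
  set c : H →L[ℂ] H := cfc (fun t : ℝ => max (lam - t) 0) a with hc
  have hb0 : 0 ≤ b := cfc_nonneg fun x _ => le_max_right _ _
  have hc0 : 0 ≤ c := cfc_nonneg fun x _ => le_max_right _ _
  have hbP : b ∈ P := vn_cfc_mem P ha hs _ (by fun_prop)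
  have hbs : IsSelfAdjoint b := hb0.isSelfAdjoint
  have hcb : c * b = 0 := by
    rw [hb, hc, ← cfc_mul (fun t : ℝ => max (lam - t) 0) (fun t : ℝ => max (t - lam) 0) a]
    have : (fun t : ℝ => max (lam - t) 0 * max (t - lam) 0) = fun _ => 0 := by
      funext t
      rcases le_total t lam with h | h
      · rw [max_eq_right (show t - lam ≤ 0 by linarith), mul_zero]
      · rw [max_eq_right (show lam - t ≤ 0 by linarith), zero_mul]
    rw [this, cfc_const_zero]
  have hsub : a - (lam : ℂ) • (1 : H →L[ℂ] H) = b - c := by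
    have h1 : cfc (fun t : ℝ => t - lam) a = a - algebraMap ℝ (H →L[ℂ] H) lam := by
      rw [cfc_sub (fun t : ℝ => t) (fun _ => lam) a, cfc_id' ℝ a, cfc_const lam a]
    have h2 : cfc (fun t : ℝ => t - lam) a = b - c := by
      rw [hb, hc, ← cfc_sub (fun t : ℝ => max (t - lam) 0) (fun t : ℝ => max (lam - t) 0) a]
      congr 1
      funext t
      rcases le_total t lam with h | h
      · rw [max_eq_right (show t - lam ≤ 0 by linarith),
          max_eq_left (show 0 ≤ lam - t by linarith)]
        ring
      · rw [max_eq_left (show 0 ≤ t - lam by linarith),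
          max_eq_right (show lam - t ≤ 0 by linarith)]
        ring
    rw [← h2, h1]
    congr 1
  set K : Submodule ℂ H := (LinearMap.range (b : H →ₗ[ℂ] H)).topologicalClosure with hK
  have : CompleteSpace K := (Submodule.isClosed_topologicalClosure _).completeSpace_coe
  set e : H →L[ℂ] H := K.starProjection with he
  have hestar : IsStarProjection e := isStarProjection_starProjection
  have hesa : star e = e := hestar.isSelfAdjoint
  have hinv : ∀ T : H →L[ℂ] H, T * b = b * T → ∀ v ∈ K, T v ∈ K := fun T hT v hv =>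
    range_closure_inv hT hv
  have heK : ∀ v, e v ∈ K := fun v => Submodule.starProjection_apply_mem K v
  have heq : ∀ v ∈ K, e v = v := fun v hv => Submodule.starProjection_eq_self_iff.2 hv
  have hcomm : ∀ T : H →L[ℂ] H, T * a = a * T → T * e = e * T := by
    intro T hT
    have hT1 : T * b = b * T := by
      have : Commute a T := hT.symm
      exact (this.cfc_real _).eq.symm
    have hT2 : star T * b = b * star T := by
      have h3 := congrArg star hT1
      rw [star_mul, star_mul, hbs.star_eq] at h3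
      exact h3.symm
    have h4 : e * (T * e) = T * e := by
      ext v
      exact heq _ (hinv T hT1 _ (heK v))
    have h5 : e * (star T * e) = star T * e := by
      ext v
      exact heq _ (hinv (star T) hT2 _ (heK v))
    have h6 := congrArg star h5
    rw [star_mul, star_mul, star_star, hesa] at h6
    calc T * e = e * (T * e) := h4.symm
      _ = (e * T) * e := by rw [mul_assoc]
      _ = e * T := h6
  have heP : e ∈ P := by
    refine vn_proj_mem P K fun y hy v hv => hinv y ?_ v hv
    exact (VonNeumannAlgebra.mem_commutant_iff.1 hy b hbP).symm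
  -- `c e = 0`, `b (1 - e) = 0`
  have hce : ∀ v ∈ K, c v = 0 := by
    intro v hv
    have hcl : IsClosed {w : H | c w = 0} := isClosed_eq c.continuous continuous_const
    have hsubset : (LinearMap.range (b : H →ₗ[ℂ] H) : Set H) ⊆ {w : H | c w = 0} := by
      rintro _ ⟨w, rfl⟩
      have := congrArg (fun S : H →L[ℂ] H => S w) hcb
      simpa using this
    exact closure_minimal hsubset hcl hv
  have heb : e * b = b := by
    ext v
    exact heq _ (subset_closure ⟨v, rfl⟩)
  have hbe : b * e = b := by
    have h7 := congrArg star heb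
    rwa [star_mul, hbs.star_eq, hesa] at h7
  have hav : ∀ w : H, a w = (lam : ℂ) • w + (b w - c w) := by
    intro w
    have := congrArg (fun S : H →L[ℂ] H => S w) hsub
    have h13 : a w - (lam : ℂ) • w = b w - c w := this
    rw [← h13]; abel
  have hpos : ∀ {S : H →L[ℂ] H}, 0 ≤ S → ∀ w : H, 0 ≤ (⟪w, S w⟫_ℂ).re := by
    intro S hS w
    have h8 := (ContinuousLinearMap.nonneg_iff_isPositive S).1 hS
    exact h8.re_inner_nonneg_right w
  have hlam : ∀ w : H, (⟪w, (lam : ℂ) • w⟫_ℂ).re = lam * ‖w‖ ^ 2 := by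
    intro w
    have h14 : ⟪w, w⟫_ℂ = ((‖w‖ ^ 2 : ℝ) : ℂ) := by
      rw [inner_self_eq_norm_sq_to_K]; norm_cast
    rw [inner_smul_right, h14, ← Complex.ofReal_mul, Complex.ofReal_re]
  refine ⟨e, ⟨heP, hestar⟩, (hcomm a rfl).symm, hcomm, ?_, ?_⟩
  · intro v
    have h9 : a (e v) = (lam : ℂ) • (e v) + b (e v) := by
      rw [hav, hce _ (heK v), sub_zero]
    rw [h9, inner_add_right, Complex.add_re, hlam]
    have := hpos hb0 (e v)
    linarith
  · intro v
    have h10 : b ((1 - e) v) = 0 := by
      have h11 : b * (1 - e) = 0 := by rw [mul_sub, mul_one, hbe, sub_self]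
      exact congrArg (fun S : H →L[ℂ] H => S v) h11
    have h12 : a ((1 - e) v) = (lam : ℂ) • ((1 - e) v) - c ((1 - e) v) := by
      rw [hav, h10, zero_sub, ← sub_eq_add_neg]
    rw [h12, inner_sub_right, Complex.sub_re, hlam]
    have := hpos hc0 ((1 - e) v)
    linarith

end Crest.Agent.R95
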