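import Crest.Agent.R95.VDefs

/-! Row 95, V_PI: in a factor, between two nonzero projections there is a nonzero partial isometry.

`factor_conn`: if `q * x * p = 0` for all `x ∈ N`, then `q = 0` or `p = 0`: let `K` be the closed span of
`{x (p v) : x ∈ N, v}`.  `K` is invariant under `N` and under `N'` (as `y x p v = x p y v`), so its projection `z`
is in `N` (`starProjection_mem`) and commutes with `N` (`starProjection_mem` for `N.commutant`, using
`N.commutant_commutant`).  So `z = c • 1`; `z * p = p` (as `1 ∈ N`), `q * z = 0`.  If `p ≠ 0` then `c = 1`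
(`z` is a projection: `c² = c`), so `q = 0`.

`pi_of_ne_zero`: for `y ∈ N`, `y ≠ 0` there is a nonzero partial isometry `w = y g(h) e ∈ N` with
`h = star y * y`, `ε = ‖h‖ / 2 > 0`, `g t = 1 / sqrt (max t ε)`, `e = rp (k(h))`, `k t = max (t - ε) 0`
(all cfc over ℝ; `h ≥ 0`).  `e` commutes with `h` (`rp_comm` and `Commute.cfc_real`) and
`star w * w = e g(h) h g(h) e = m(h) e` with `m t = t / max t ε`; `m(h) k(h) = k(h)` as
`m t * k t = k t` for `t ≥ 0` on the spectrum, so `m(h) e = e` (`mul_rp_eq_of`).  So `star w * w = e` projection.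
`e ≠ 0` since `k(h) ≠ 0` (its norm is `‖h‖ - ε`: `‖h‖` is in the spectrum; or: `k(h) = 0` gives
`h = min(h, ε)` so `‖h‖ ≤ ε`).  `star w * w = e`, and any projection `p` with `y * p = y` satisfies `w * p = w`:
`h * p = h`, `k(h) = h * k'(h)` with `k' t = max (t - ε) 0 / max t ε`, so `p * k(h) = k(h)`, `p * e = e`, `e * p = e`. -/

set_option autoImplicit false
set_option linter.unusedSectionVars false

open Crest.OpAlg Filter Topology
open scoped InnerProductSpace

namespace Crest.Agent.R95.VN

variable {H : Type*} [NormedAddCommGroup H] [InnerProductSpace ℂ H] [CompleteSpace H]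
variable {ξ : ℕ → H} {N : VonNeumannAlgebra H}

theorem pi_of_ne_zero {y : H →L[ℂ] H} (hy : y ∈ N) (hy0 : y ≠ 0) :
    ∃ w ∈ N, w ≠ 0 ∧ w * star w * w = w ∧
      (∀ q : H →L[ℂ] H, q * y = y → q * w = w) ∧
      (∀ p : H →L[ℂ] H, IsStarProjection p → y * p = y → w * p = w) := by
  set h : H →L[ℂ] H := star y * y with hh
  have hN : h ∈ N := mul_mem (star_mem hy) hy
  have hsa : IsSelfAdjoint h := IsSelfAdjoint.star_mul_self y
  have hpos : 0 < ‖h‖ := by
    rw [hh, CStarRing.norm_star_mul_self]
    exact mul_pos (norm_pos_iff.2 hy0) (norm_pos_iff.2 hy0)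
  set ε : ℝ := ‖h‖ / 2 with hε
  have hε0 : 0 < ε := by positivity
  have hmax : ∀ t : ℝ, 0 < max t ε := fun t => lt_max_of_lt_right hε0
  set g : ℝ → ℝ := fun t => 1 / Real.sqrt (max t ε) with hg
  set k : ℝ → ℝ := fun t => max (t - ε) 0 with hk
  set m : ℝ → ℝ := fun t => t / max t ε with hm
  set k' : ℝ → ℝ := fun t => max (t - ε) 0 / max t ε with hk'
  have hgc : Continuous g := by
    refine continuous_const.div (Real.continuous_sqrt.comp (continuous_id.max continuous_const)) ?_
    intro t
    exact (Real.sqrt_pos.2 (hmax t)).ne'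
  have hkc : Continuous k := (continuous_id.sub continuous_const).max continuous_const
  have hmc : Continuous m :=
    continuous_id.div (continuous_id.max continuous_const) fun t => (hmax t).ne'
  have hk'c : Continuous k' :=
    hkc.div (continuous_id.max continuous_const) fun t => (hmax t).ne'
  set G : H →L[ℂ] H := cfc g h with hG
  set Kk : H →L[ℂ] H := cfc k h with hKk
  set M : H →L[ℂ] H := cfc m h with hM
  have hGs : star G = G := (cfc_predicate g h : IsSelfAdjoint (cfc g h))
  have hKs : star Kk = Kk := (cfc_predicate k h : IsSelfAdjoint (cfc k h))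
  -- `G h G = M`
  have hGhG : G * h * G = M := by
    have h1 : h = cfc (fun t : ℝ => t) h := (cfc_id' ℝ h).symm
    have h2 : G * h = cfc (fun t => g t * t) h := by
      rw [cfc_mul g (fun t : ℝ => t) h hgc.continuousOn continuous_id.continuousOn, ← h1]
    rw [h2, hG, ← cfc_mul (fun t => g t * t) g h (hgc.mul continuous_id).continuousOn
      hgc.continuousOn, hM]
    congr 1
    funext t
    have h3 : Real.sqrt (max t ε) * Real.sqrt (max t ε) = max t ε :=
      Real.mul_self_sqrt (hmax t).le
    have h4 : Real.sqrt (max t ε) ≠ 0 := (Real.sqrt_pos.2 (hmax t)).ne'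
    simp only [hg, hm]
    rw [div_mul_eq_mul_div, div_mul_div_comm, h3]
    ring
  have hMK : M * Kk = Kk := by
    rw [hM, hKk, ← cfc_mul m k h hmc.continuousOn hkc.continuousOn]
    congr 1
    funext t
    simp only [hm, hk]
    rcases le_total t ε with ht | ht
    · rw [max_eq_right (by linarith : t - ε ≤ 0)]; simp
    · rw [max_eq_left ht, div_self (by linarith : t ≠ 0), one_mul]
  have hKh : Kk = h * cfc k' h := by
    have h1 : h = cfc (fun t : ℝ => t) h := (cfc_id' ℝ h).symm
    have h2 : h * cfc k' h = cfc (fun t => t * k' t) h := by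
      rw [cfc_mul (fun t : ℝ => t) k' h continuous_id.continuousOn hk'c.continuousOn, ← h1]
    rw [h2, hKk]
    congr 1
    funext t
    simp only [hk, hk']
    rcases le_total t ε with ht | ht
    · rw [max_eq_right (by linarith : t - ε ≤ 0)]; simp
    · rw [max_eq_left ht]
      have : t ≠ 0 := by linarith
      field_simp
  set e : H →L[ℂ] H := rp Kk with he
  have hep : IsStarProjection e := rp_proj Kk
  have hMe : M * e = e := by
    have := mul_rp_eq_of (x := Kk) (y := M) (z := 1) (by rw [hMK, one_mul])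
    rwa [one_mul] at this
  have hww : star (y * G * e) * (y * G * e) = e := by
    have h1 : star (y * G * e) * (y * G * e) = e * ((G * h * G) * e) := by
      simp only [star_mul, hGs, proj_star hep, hh, mul_assoc]
    rw [h1, hGhG, hMe, proj_mul hep]
  have hKne : Kk ≠ 0 := by
    intro h0
    have hnt : Nontrivial (H →L[ℂ] H) := ⟨⟨y, 0, hy0⟩⟩
    have hnn : (0 : H →L[ℂ] H) ≤ h := star_mul_self_nonneg y
    have hspec : ‖h‖ ∈ spectrum ℝ h := CStarAlgebra.norm_mem_spectrum_of_nonneg hnn
    have h1 : k ‖h‖ ∈ spectrum ℝ (cfc k h) := by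
      rw [cfc_map_spectrum k h hsa hkc.continuousOn]
      exact ⟨_, hspec, rfl⟩
    rw [← hKk, h0, spectrum.zero_eq] at h1
    have h2 : k ‖h‖ = 0 := h1
    have h3 : k ‖h‖ = ‖h‖ / 2 := by
      simp only [hk, hε]
      rw [max_eq_left (by linarith)]
      ring
    linarith
  refine ⟨y * G * e, mul_mem (mul_mem hy (cfc_mem hN g)) (rp_mem (cfc_mem hN k)), ?_, ?_, ?_, ?_⟩
  · intro h0
    rw [h0, mul_zero] at hww
    exact hKne (rp_eq_zero hww.symm)
  · apply pi_of_left
    rw [hww, proj_mul hep]
  · intro q hq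
    rw [← mul_assoc, ← mul_assoc, hq]
  · intro p hp hyp
    have h1 : h * p = h := by rw [hh, mul_assoc, hyp]
    have h2 : p * h = h := by
      have := congrArg star h1
      rwa [star_mul, proj_star hp, hsa.star_eq] at this
    have h3 : p * Kk = Kk := by rw [hKh, ← mul_assoc, h2]
    have h4 : p * e = e := rp_le h3
    have h5 : e * p = e := proj_flip hep hp h4
    rw [mul_assoc, h5]

end Crest.Agent.R95.VN
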