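import Crest.Agent.R95.TrA

/-!
# Row 95, piece TRB: trace API on `M` (`h : Trc M ξ`) and projections

All from TRA and traciality `vectorState ξ (x * y) = vectorState ξ (y * x)` on `M`
(`‖x*‖₂² = τ(x x*) = τ(x* x) = ‖x‖₂²`, `‖x a‖₂ = ‖a* x*‖₂ ≤ ‖a‖ ‖x*‖₂`, separating).
-/

set_option autoImplicit false

namespace Crest.Agent.R95

open Crest.OpAlg
open scoped InnerProductSpace ComplexConjugate

variable {H : Type*} [NormedAddCommGroup H] [InnerProductSpace ℂ H] [CompleteSpace H]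
variable {ξ : ℕ → H} {P M : VonNeumannAlgebra H}

theorem TrB.sq_inj {a b : ℝ} (ha : 0 ≤ a) (hb : 0 ≤ b) (h : a ^ 2 = b ^ 2) : a = b := by
  nlinarith [sq_nonneg (a - b), sq_nonneg (a + b), mul_nonneg ha hb]

theorem Trc.nr (h : Trc M ξ) : Nr ξ := h.1

theorem Trc.mono (h : Trc M ξ) (hP : P ≤ M) : Trc P ξ :=
  ⟨h.1, fun x hx y hy => h.2.1 x (hP hx) y (hP hy), fun x hx => h.2.2 x (hP hx)⟩

theorem tau_comm (h : Trc M ξ) {x y : H →L[ℂ] H} (hx : x ∈ M) (hy : y ∈ M) :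
    tau ξ (x * y) = tau ξ (y * x) := h.2.1 x hx y hy

theorem n2_star (h : Trc M ξ) {x : H →L[ℂ] H} (hx : x ∈ M) : n2 ξ (star x) = n2 ξ x := by
  have h1 := tau_star_mul_self h.nr (star x)
  rw [star_star, tau_comm h hx (star_mem hx), tau_star_mul_self h.nr x] at h1
  have h2 : n2 ξ x ^ 2 = n2 ξ (star x) ^ 2 := by exact_mod_cast h1
  exact (TrB.sq_inj (n2_nonneg _) (n2_nonneg _) h2).symm

theorem n2_mul_le' (h : Trc M ξ) {x a : H →L[ℂ] H} (hx : x ∈ M) (ha : a ∈ M) :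
    n2 ξ (x * a) ≤ n2 ξ x * ‖a‖ := by
  rw [← n2_star h (mul_mem hx ha), star_mul, ← n2_star h hx, mul_comm (n2 ξ (star x)),
    ← norm_star a]
  exact n2_mul_le h.nr _ _

theorem n2_eq_zero (h : Trc M ξ) {x : H →L[ℂ] H} (hx : x ∈ M) (h0 : n2 ξ x = 0) : x = 0 := by
  refine h.2.2 x hx fun n => ?_
  have h1 : ∑' n, ‖x (ξ n)‖ ^ 2 = 0 := by rw [← n2_sq', h0]; norm_num
  have h2 := (summable_n2 h.nr x).hasSum
  rw [h1] at h2
  have h3 := (hasSum_zero_iff_of_nonneg fun n => sq_nonneg ‖x (ξ n)‖).mp h2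
  have h4 := congrFun h3 n
  simpa using h4

theorem n2_mul_unitary (h : Trc M ξ) {x u : H →L[ℂ] H} (hx : x ∈ M) (hu : u ∈ M)
    (hu' : u * star u = 1) : n2 ξ (x * u) = n2 ξ x := by
  rw [← n2_star h (mul_mem hx hu), star_mul, n2_unitary_mul _ _ (by rw [star_star, hu']),
    n2_star h hx]

/-- `|τ(xy)| ≤ ‖x‖₂ ‖y‖₂` -/
theorem norm_tau_mul_le (h : Trc M ξ) {x y : H →L[ℂ] H} (hx : x ∈ M) (hy : y ∈ M) :
    ‖tau ξ (x * y)‖ ≤ n2 ξ x * n2 ξ y := by
  have h1 := tau_cs h.nr y (star x)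
  rwa [star_star, n2_star h hx] at h1

theorem tau_conj (h : Trc M ξ) {x u : H →L[ℂ] H} (hx : x ∈ M) (hu : u ∈ M)
    (hu' : star u * u = 1) : tau ξ (u * x * star u) = tau ξ x := by
  rw [tau_comm h (mul_mem hu hx) (star_mem hu), ← mul_assoc, hu', one_mul]

/-! projections -/

theorem TrB.sub_pj {p e : H →L[ℂ] H} (hp : IsStarProjection p) (he : IsStarProjection e)
    (hpe : p * e = p) : IsStarProjection (e - p) := by
  have hep : e * p = p := by
    have h1 := congrArg star hpe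
    rwa [star_mul, hp.isSelfAdjoint.star_eq, he.isSelfAdjoint.star_eq] at h1
  refine ⟨?_, he.isSelfAdjoint.sub hp.isSelfAdjoint⟩
  show (e - p) * (e - p) = e - p
  rw [mul_sub, sub_mul, sub_mul, he.isIdempotentElem.eq, hp.isIdempotentElem.eq, hep, hpe]
  abel

theorem tau_pj {p : H →L[ℂ] H} (hp : IsStarProjection p) : tau ξ p = ((tr ξ p : ℝ) : ℂ) := by
  have h1 := tau_star (ξ := ξ) p
  rw [hp.isSelfAdjoint.star_eq] at h1
  exact (Complex.conj_eq_iff_real.mp h1.symm).elim fun r hr => by rw [tr, hr, Complex.ofReal_re]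

theorem n2_pj_sq (h : Nr ξ) {p : H →L[ℂ] H} (hp : IsStarProjection p) :
    n2 ξ p ^ 2 = tr ξ p := by
  have h1 := tau_star_mul_self h p
  rw [hp.isSelfAdjoint.star_eq, hp.isIdempotentElem.eq, tau_pj hp] at h1
  exact_mod_cast h1.symm

theorem TrB.n2_pj (h : Nr ξ) {p : H →L[ℂ] H} (hp : IsStarProjection p) :
    n2 ξ p = Real.sqrt (tr ξ p) := by
  rw [← n2_pj_sq h hp, Real.sqrt_sq (n2_nonneg _)]

theorem tr_nonneg (h : Nr ξ) {p : H →L[ℂ] H} (hp : IsStarProjection p) : 0 ≤ tr ξ p := by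
  rw [← n2_pj_sq h hp]
  exact sq_nonneg _

theorem tr_one (h : Nr ξ) : tr ξ (1 : H →L[ℂ] H) = 1 := by
  rw [tr, tau_one h, Complex.one_re]

theorem tr_add (h : Nr ξ) (x y : H →L[ℂ] H) : tr ξ (x + y) = tr ξ x + tr ξ y := by
  rw [tr, tau_add h, Complex.add_re]
  rfl

theorem tr_sub (h : Nr ξ) (x y : H →L[ℂ] H) : tr ξ (x - y) = tr ξ x - tr ξ y := by
  rw [tr, tau_sub h, Complex.sub_re]
  rfl

theorem tr_sum (h : Nr ξ) {ι : Type*} (s : Finset ι) (f : ι → (H →L[ℂ] H)) :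
    tr ξ (∑ i ∈ s, f i) = ∑ i ∈ s, tr ξ (f i) := by
  rw [tr, tau_sum h, Complex.re_sum]
  rfl

theorem tr_le_one (h : Nr ξ) {p : H →L[ℂ] H} (hp : IsStarProjection p) : tr ξ p ≤ 1 := by
  have h1 := tr_nonneg h hp.one_sub
  rw [tr_sub h, tr_one h] at h1
  linarith

theorem tr_mono (h : Nr ξ) {p e : H →L[ℂ] H} (hp : IsStarProjection p) (he : IsStarProjection e)
    (hpe : p * e = p) : tr ξ p ≤ tr ξ e := by
  have h1 := tr_nonneg h (TrB.sub_pj hp he hpe)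
  rw [tr_sub h] at h1
  linarith

theorem tr_pos (h : Trc M ξ) {p : H →L[ℂ] H} (hp : Pj M p) (h0 : p ≠ 0) : 0 < tr ξ p := by
  have h1 := tr_nonneg h.nr hp.2
  refine lt_of_le_of_ne h1 fun h2 => h0 (n2_eq_zero h hp.1 ?_)
  have h3 := n2_pj_sq h.nr hp.2
  rw [← h2] at h3
  exact pow_eq_zero_iff (two_ne_zero) |>.mp h3

/-- equality of traces forces equality of nested projections -/
theorem eq_of_tr_le (h : Trc M ξ) {p e : H →L[ℂ] H} (hp : Pj M p) (he : Pj M e)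
    (hpe : p * e = p) (ht : tr ξ e ≤ tr ξ p) : p = e := by
  by_contra hne
  have h1 := tr_pos h (p := e - p) ⟨sub_mem he.1 hp.1, TrB.sub_pj hp.2 he.2 hpe⟩
    (sub_ne_zero.mpr (Ne.symm hne))
  rw [tr_sub h.nr] at h1
  linarith

theorem pj_norm_le {p : H →L[ℂ] H} (hp : IsStarProjection p) : ‖p‖ ≤ 1 := by
  exact hp.norm_le

/-- for a projection `p` of `M` and `x = p x` or `x = x p` (or general): `|τ(p x)| ≤ √τ(p) ‖x‖₂` -/
theorem norm_tau_pj_mul (h : Nr ξ) {p : H →L[ℂ] H} (hp : IsStarProjection p) (x : H →L[ℂ] H) :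
    ‖tau ξ (p * x)‖ ≤ Real.sqrt (tr ξ p) * n2 ξ x := by
  have h1 := tau_cs h x p
  rwa [hp.isSelfAdjoint.star_eq, TrB.n2_pj h hp] at h1

/-- `‖x p‖₂ ≤ ‖x‖ √τ(p)` -/
theorem n2_mul_pj_le (h : Nr ξ) {p : H →L[ℂ] H} (hp : IsStarProjection p) (x : H →L[ℂ] H) :
    n2 ξ (x * p) ≤ ‖x‖ * Real.sqrt (tr ξ p) := by
  rw [← TrB.n2_pj h hp]
  exact n2_mul_le h _ _

/-- `|τ(p x p)| ≤ ‖x‖ τ(p)` -/
theorem norm_tau_pj_le (h : Nr ξ) {p : H →L[ℂ] H} (hp : IsStarProjection p) (x : H →L[ℂ] H) :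
    ‖tau ξ (p * x * p)‖ ≤ ‖x‖ * tr ξ p := by
  have h1 := norm_tau_pj_mul h hp (x * p)
  rw [← mul_assoc] at h1
  refine h1.trans ?_
  have h2 := n2_mul_pj_le h hp x
  have h3 := mul_le_mul_of_nonneg_left h2 (Real.sqrt_nonneg (tr ξ p))
  refine h3.trans (le_of_eq ?_)
  rw [mul_comm, mul_assoc, Real.mul_self_sqrt (tr_nonneg h hp)]

/-- norm Pythagoras for the block diagonal part: for pairwise orthogonal projections `q i` of `M`,
`‖∑ q_i x q_i‖₂² = ∑ ‖q_i x q_i‖₂²` -/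
theorem n2_blocks_sq (h : Trc M ξ) {ι : Type*} [Fintype ι] {q : ι → (H →L[ℂ] H)}
    (hq : ∀ i, Pj M (q i)) (ho : ∀ i j, i ≠ j → q i * q j = 0) {x : ι → (H →L[ℂ] H)}
    (hx : ∀ i, x i ∈ M) :
    n2 ξ (∑ i, q i * x i * q i) ^ 2 = ∑ i, n2 ξ (q i * x i * q i) ^ 2 := by
  refine n2_sum_sq h.nr _ _ fun i _ j _ hij => ?_
  have h1 : star (q i * x i * q i) * (q j * x j * q j) = 0 := by
    rw [star_mul, star_mul, (hq i).2.isSelfAdjoint.star_eq]
    calc q i * (star (x i) * q i) * (q j * x j * q j)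
        = q i * star (x i) * (q i * q j) * x j * q j := by noncomm_ring
      _ = 0 := by rw [ho i j hij]; simp
  rw [h1, tau_zero]

/-- all matrix entries: `∑_{i,j} ‖q_i x q_j‖₂² = ‖e x e‖₂²` for `e = ∑ q_i` -/
theorem n2_entries_sq (h : Trc M ξ) {ι : Type*} [Fintype ι] {q : ι → (H →L[ℂ] H)}
    (hq : ∀ i, Pj M (q i)) (ho : ∀ i j, i ≠ j → q i * q j = 0) {x : H →L[ℂ] H} (hx : x ∈ M) :
    ∑ i, ∑ j, n2 ξ (q i * x * q j) ^ 2 = n2 ξ ((∑ i, q i) * x * (∑ i, q i)) ^ 2 := by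
  have h1 : (∑ i, q i) * x * (∑ i, q i) = ∑ a : ι × ι, q a.1 * x * q a.2 := by
    rw [Finset.sum_mul, Finset.sum_mul, Fintype.sum_prod_type]
    refine Finset.sum_congr rfl fun i _ => ?_
    rw [Finset.mul_sum]
  rw [h1, n2_sum_sq h.nr, Fintype.sum_prod_type]
  rintro ⟨i, j⟩ - ⟨k, l⟩ - hne
  have hs : star (q i * x * q j) * (q k * x * q l) = q j * (star x * (q i * q k) * x * q l) := by
    rw [star_mul, star_mul, (hq i).2.isSelfAdjoint.star_eq, (hq j).2.isSelfAdjoint.star_eq]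
    noncomm_ring
  simp only
  rw [hs]
  by_cases hik : i = k
  · subst hik
    have hjl : l ≠ j := by
      rintro rfl
      exact hne rfl
    have hm : star x * (q i * q i) * x * q l ∈ M :=
      mul_mem (mul_mem (mul_mem (star_mem hx) (mul_mem (hq i).1 (hq i).1)) hx) (hq l).1
    rw [tau_comm h (hq j).1 hm, mul_assoc _ (q l), ho l j hjl, mul_zero, tau_zero]
  · rw [ho i k hik]
    simp [tau_zero]

/-- best scalar approximation: `λ = τ(q x)/τ(q)` minimizes `‖q x q - λ q‖₂` -/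
theorem n2_opt (h : Trc M ξ) {q x : H →L[ℂ] H} (hq : Pj M q) (hx : x ∈ M) (c : ℂ) :
    n2 ξ (q * x * q - (tau ξ (q * x) / tau ξ q) • q) ≤ n2 ξ (q * x * q - c • q) := by
  by_cases h0 : tau ξ q = 0
  · have h1 : q = 0 := by
      by_contra hne
      have h2 := tr_pos h hq hne
      rw [tr, h0] at h2
      simp at h2
    subst h1
    simp
  set lam : ℂ := tau ξ (q * x) / tau ξ q with hlam
  have hqq := hq.2.isIdempotentElem.eq
  have hqs := hq.2.isSelfAdjoint.star_eq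
  have e1 : q * x * q - c • q = (q * x * q - lam • q) + (lam - c) • q := by
    rw [sub_smul]; abel
  have e2 : tau ξ (star (q * x * q - lam • q) * ((lam - c) • q)) = 0 := by
    have e3 : tau ξ (star ((lam - c) • q) * (q * x * q - lam • q)) = 0 := by
      have e4 : star ((lam - c) • q) * (q * x * q - lam • q)
          = (star (lam - c)) • (q * x * q - lam • q) := by
        rw [star_smul, hqs, smul_mul_assoc, mul_sub, mul_smul_comm, hqq, ← mul_assoc, ← mul_assoc,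
          hqq]
      rw [e4, tau_smul, tau_sub h.nr, tau_smul, tau_comm h (mul_mem hq.1 hx) hq.1, ← mul_assoc,
        hqq, hlam, div_mul_cancel₀ _ h0, sub_self, mul_zero]
    have e5 := tau_star (ξ := ξ) (star ((lam - c) • q) * (q * x * q - lam • q))
    rw [star_mul, star_star, e3, map_zero] at e5
    exact e5
  have e6 := n2_add_sq h.nr (q * x * q - lam • q) ((lam - c) • q)
  rw [← e1, e2, Complex.zero_re, mul_zero, add_zero] at e6
  have e7 : n2 ξ (q * x * q - lam • q) ^ 2 ≤ n2 ξ (q * x * q - c • q) ^ 2 := by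
    rw [e6]
    nlinarith [sq_nonneg (n2 ξ ((lam - c) • q))]
  exact (abs_le_of_sq_le_sq' e7 (n2_nonneg _)).2

end Crest.Agent.R95
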