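import Crest.Agent.R95.VDefs

/-! Row 95, V_CUT: spectral projections of `h` in the corner `q` (`q` a projection commuting with the selfadjoint `h`):
`cut h q c := rp (((h - c) * q)⁺)`.  Loewner order on `H →L[ℂ] H`.

Let `x = (h - c) q`, selfadjoint, `q x = x = x q`; `x = x⁺ - x⁻`, `x⁺ * x⁻ = 0` (`CFC.posPart_sub_negPart`,
`CFC.posPart_mul_negPart`); `e = rp x⁺` satisfies `e x⁺ = x⁺ = x⁺ e`, `x⁻ e = 0` (`mul_rp_eq_zero`), `q e = e`
(`q x⁺ = x⁺`: x⁺ is a limit of polynomials without constant term in x; or: (1-q) commutes with x⁺ and x⁻, and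
`(1-q) x⁺ - (1-q) x⁻ = 0` and multiplying by `x⁺`: `(1-q) x⁺ x⁺ = 0` so `(1-q) x⁺ = 0` by the C*-identity),
`x e = x⁺`.  So `h e - c e = (h - c) q e = x e = x⁺ ≥ 0`,
`h (q - e) - c (q - e) = x (1 - e) = - x⁻ ≤ 0`.
`e` commutes with everything commuting with `x` (`rp_posPart_comm`), in particular with `h` and `q`.

`cut_anti`: for `c ≤ c'`, `e' := cut h q c' ≤ e := cut h q c`.  `e'` commutes with `e` (`e` commutes with `h, q`, so with
`(h - c') q`).  `g := e' * (1 - e)` is a projection below `e'` and below `q - e`;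
`g (h - c') g = e'-part ≥ 0` and `g (h - c') g ≤ g (h - c) g ≤ 0`, so `g x'⁺ g = 0` with `x' = (h - c') q`
(`x' e' = x'⁺`), i.e. `sqrt(x'⁺) g = 0`, `x'⁺ g = 0`, `g x'⁺ = 0`, `g e' = 0` (`mul_rp_eq_zero`), `g = 0`. -/

set_option autoImplicit false
set_option linter.unusedSectionVars false

open Crest.OpAlg Filter Topology
open scoped InnerProductSpace

namespace Crest.Agent.R95.VN

variable {H : Type*} [NormedAddCommGroup H] [InnerProductSpace ℂ H] [CompleteSpace H]
variable {ξ : ℕ → H} {N : VonNeumannAlgebra H}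

/-- spectral projection of `h` for `(c, ∞)` in the corner `q`. -/
noncomputable def cut (h q : H →L[ℂ] H) (c : ℝ) : H →L[ℂ] H := rp (((h - c • 1) * q)⁺)

theorem cut_proj (h q : H →L[ℂ] H) (c : ℝ) : IsStarProjection (cut h q c) := rp_proj _

theorem cut_mem {h q : H →L[ℂ] H} (hh : h ∈ N) (hq : q ∈ N) (c : ℝ) : cut h q c ∈ N :=
  rp_mem (posPart_mem (mul_mem (sub_mem hh (rsmul_mem c (one_mem N))) hq))

private theorem cx_star {h q : H →L[ℂ] H} (hsa : star h = h) (hq : IsStarProjection q)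
    (hc : h * q = q * h) (c : ℝ) : star ((h - c • 1) * q) = (h - c • 1) * q := by
  rw [star_mul, star_sub, star_smul, star_one, hsa, proj_star hq, mul_sub, sub_mul,
    hc, mul_smul_comm, mul_one, smul_mul_assoc, one_mul]
  rfl

private theorem cx_comm {h q : H →L[ℂ] H} (c : ℝ) {y : H →L[ℂ] H} (h1 : y * h = h * y)
    (h2 : y * q = q * y) : y * ((h - c • 1) * q) = (h - c • 1) * q * y := by
  have h3 : y * (h - c • 1) = (h - c • 1) * y := by
    rw [mul_sub, sub_mul, h1, mul_smul_comm, mul_one, smul_mul_assoc, one_mul]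
  rw [← mul_assoc, mul_assoc _ q y, ← h2, ← mul_assoc, h3]

private theorem cx_right {h q : H →L[ℂ] H} (hq : IsStarProjection q) (c : ℝ) :
    (h - c • 1) * q * q = (h - c • 1) * q := by
  rw [mul_assoc, proj_mul hq]

private theorem cx_left {h q : H →L[ℂ] H} (hq : IsStarProjection q)
    (hc : h * q = q * h) (c : ℝ) : q * ((h - c • 1) * q) = (h - c • 1) * q := by
  rw [cx_comm c hc.symm rfl, cx_right hq]

/-- a projection fixing the selfadjoint `x` fixes its positive part -/
private theorem fix_posPart {x q : H →L[ℂ] H} (hx : star x = x) (hq : IsStarProjection q)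
    (h1 : q * x = x) : q * x⁺ = x⁺ := by
  have h2 : x * q = x := by
    have := congrArg star h1
    rwa [star_mul, hx, proj_star hq] at this
  have hcm : Commute x (1 - q) := by
    show x * (1 - q) = (1 - q) * x
    rw [mul_sub, sub_mul, mul_one, one_mul, h1, h2]
  have hcp : Commute x⁺ (1 - q) := by
    rw [CFC.posPart_def]; exact hcm.cfcₙ_real _
  have hzero : (1 - q) * x = 0 := by rw [sub_mul, one_mul, h1, sub_self]
  have hpm : x⁺ - x⁻ = x := CFC.posPart_sub_negPart x hx
  have h3 : (1 - q) * x⁺ * x⁺ = 0 := by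
    have h4 : (1 - q) * (x⁺ - x⁻) * x⁺ = 0 := by rw [hpm, hzero, zero_mul]
    rw [mul_sub, sub_mul, mul_assoc (1 - q) x⁻ x⁺, CFC.negPart_mul_posPart, mul_zero,
      sub_zero] at h4
    exact h4
  have hps : star (x⁺) = x⁺ := (CFC.posPart_nonneg x).isSelfAdjoint
  have h1q : star (1 - q) = 1 - q := by rw [star_sub, star_one, proj_star hq]
  have h5 : (1 - q) * x⁺ * star ((1 - q) * x⁺) = 0 := by
    rw [star_mul, hps, h1q, ← mul_assoc, h3, zero_mul]
  have h6 : (1 - q) * x⁺ = 0 := (CStarRing.mul_star_self_eq_zero_iff _).1 h5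
  rw [sub_mul, one_mul, sub_eq_zero] at h6
  exact h6.symm

/-- `x e = x⁺` for `e = rp x⁺` -/
private theorem mul_rp_posPart {x : H →L[ℂ] H} (hx : star x = x) : x * rp x⁺ = x⁺ := by
  have hpm : x⁺ - x⁻ = x := CFC.posPart_sub_negPart x hx
  have hps : star (x⁺) = x⁺ := (CFC.posPart_nonneg x).isSelfAdjoint
  have h1 : x⁺ * rp x⁺ = x⁺ := mul_rp hps
  have h2 : x⁻ * rp x⁺ = 0 := mul_rp_eq_zero (CFC.negPart_mul_posPart x)
  calc x * rp x⁺ = (x⁺ - x⁻) * rp x⁺ := by rw [hpm]
    _ = x⁺ := by rw [sub_mul, h1, h2, sub_zero]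

private theorem cut_shift {h q : H →L[ℂ] H} (hsa : star h = h) (hq : IsStarProjection q)
    (hc : h * q = q * h) (c : ℝ) :
    h * cut h q c - c • cut h q c = ((h - c • 1) * q)⁺ := by
  have hx := cx_star hsa hq hc c
  have h1 : q * cut h q c = cut h q c := rp_le (fix_posPart hx hq (cx_left hq hc c))
  have h2 : (h - c • 1) * q * cut h q c = ((h - c • 1) * q)⁺ := mul_rp_posPart hx
  rw [mul_assoc, h1, sub_mul, smul_mul_assoc, one_mul] at h2
  exact h2

theorem cut_comm {h q : H →L[ℂ] H} (hsa : star h = h) (hq : IsStarProjection q)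
    (hc : h * q = q * h) (c : ℝ) {y : H →L[ℂ] H} (h1 : y * h = h * y) (h2 : y * q = q * y) :
    y * cut h q c = cut h q c * y := by
  exact rp_posPart_comm (cx_star hsa hq hc c) (cx_comm c h1 h2)

theorem cut_le {h q : H →L[ℂ] H} (hsa : star h = h) (hq : IsStarProjection q)
    (hc : h * q = q * h) (c : ℝ) : q * cut h q c = cut h q c := by
  exact rp_le (fix_posPart (cx_star hsa hq hc c) hq (cx_left hq hc c))

theorem cut_ge {h q : H →L[ℂ] H} (hsa : star h = h) (hq : IsStarProjection q)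
    (hc : h * q = q * h) (c : ℝ) : c • cut h q c ≤ h * cut h q c := by
  rw [← sub_nonneg, cut_shift hsa hq hc c]
  exact CFC.posPart_nonneg _

theorem cut_rest {h q : H →L[ℂ] H} (hsa : star h = h) (hq : IsStarProjection q)
    (hc : h * q = q * h) (c : ℝ) : h * (q - cut h q c) ≤ c • (q - cut h q c) := by
  rw [← sub_nonneg]
  have h1 := cut_shift hsa hq hc c
  have hx := cx_star hsa hq hc c
  have hpm : ((h - c • 1) * q)⁺ - ((h - c • 1) * q)⁻ = (h - c • 1) * q :=
    CFC.posPart_sub_negPart _ hx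
  have h2 : c • (q - cut h q c) - h * (q - cut h q c) = ((h - c • 1) * q)⁻ := by
    have h3 : c • (q - cut h q c) - h * (q - cut h q c)
        = (h * cut h q c - c • cut h q c) - (h - c • 1) * q := by
      rw [mul_sub, sub_mul, smul_sub, smul_mul_assoc, one_mul]
      abel
    rw [h3, h1]
    nth_rewrite 2 [← hpm]
    abel
  rw [h2]
  exact CFC.negPart_nonneg _

end Crest.Agent.R95.VN
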