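import Crest.Agent.R95.VNb

/-!
# Row 95, piece LIMITS: `n2`-limits in `M` (uniqueness, products, stars, trace, increasing projections)

`proj_lim`: `‖p_{k}‖ ≤ 1`, for `k ≤ l`: `n2 (p_l - p_k)² = tr p_l - tr p_k` and `tr p_k` is monotone
bounded, so `vn_complete` applies; the limit `q` satisfies `q² = q`, `q* = q`, `p_k q = p_k` by
`n2_lim_mul`, `n2_lim_star`, `n2_lim_unique`.
Products: `n2 (x_k z_k - y w) ≤ ‖x_k‖ n2 (z_k - w) + n2 (x_k - y) ‖w‖`.
-/

set_option autoImplicit false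

namespace Crest.Agent.R95

open Crest.OpAlg
open scoped InnerProductSpace ComplexConjugate Topology

variable {H : Type*} [NormedAddCommGroup H] [InnerProductSpace ℂ H] [CompleteSpace H]
variable {ξ : ℕ → H} {P M : VonNeumannAlgebra H}

/-- `n2`-limits are unique in `M` and compatible with products, stars -/
theorem n2_lim_unique (h : Trc M ξ) {x : ℕ → (H →L[ℂ] H)} (hx : ∀ k, x k ∈ M) {y z : H →L[ℂ] H}
    (hy : y ∈ M) (hz : z ∈ M)
    (h1 : Filter.Tendsto (fun k => n2 ξ (x k - y)) Filter.atTop (𝓝 0))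
    (h2 : Filter.Tendsto (fun k => n2 ξ (x k - z)) Filter.atTop (𝓝 0)) : y = z := by
  have h3 : Filter.Tendsto (fun k => n2 ξ (x k - y) + n2 ξ (x k - z)) Filter.atTop (𝓝 (0 + 0)) :=
    h1.add h2
  rw [add_zero] at h3
  have h4 : n2 ξ (y - z) ≤ 0 := by
    refine ge_of_tendsto' h3 fun k => ?_
    have := n2_tri h.nr y (x k) z
    rwa [n2_sub_comm y (x k)] at this
  have h5 : n2 ξ (y - z) = 0 := le_antisymm h4 (n2_nonneg _)
  exact sub_eq_zero.1 (n2_eq_zero h (sub_mem hy hz) h5)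

theorem n2_lim_mul (h : Trc M ξ) {x z : ℕ → (H →L[ℂ] H)} (hx : ∀ k, x k ∈ M)
    (hz : ∀ k, z k ∈ M) {C : ℝ} (hC : ∀ k, ‖x k‖ ≤ C) {y w : H →L[ℂ] H}
    (hy : y ∈ M) (hw : w ∈ M)
    (h1 : Filter.Tendsto (fun k => n2 ξ (x k - y)) Filter.atTop (𝓝 0))
    (h2 : Filter.Tendsto (fun k => n2 ξ (z k - w)) Filter.atTop (𝓝 0)) :
    Filter.Tendsto (fun k => n2 ξ (x k * z k - y * w)) Filter.atTop (𝓝 0) := by
  have h3 : Filter.Tendsto (fun k => C * n2 ξ (z k - w) + n2 ξ (x k - y) * ‖w‖) Filter.atTop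
      (𝓝 (C * 0 + 0 * ‖w‖)) := (h2.const_mul C).add (h1.mul_const ‖w‖)
  rw [mul_zero, zero_mul, add_zero] at h3
  refine squeeze_zero (fun k => n2_nonneg _) (fun k => ?_) h3
  have h4 : x k * z k - y * w = x k * (z k - w) + (x k - y) * w := by
    rw [mul_sub, sub_mul]; abel
  rw [h4]
  refine (n2_add_le h.nr _ _).trans (add_le_add ?_ ?_)
  · exact (n2_mul_le h.nr _ _).trans (mul_le_mul_of_nonneg_right (hC k) (n2_nonneg _))
  · exact n2_mul_le' h (sub_mem (hx k) hy) hw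

theorem n2_lim_star (h : Trc M ξ) {x : ℕ → (H →L[ℂ] H)} (hx : ∀ k, x k ∈ M) {y : H →L[ℂ] H}
    (hy : y ∈ M) (h1 : Filter.Tendsto (fun k => n2 ξ (x k - y)) Filter.atTop (𝓝 0)) :
    Filter.Tendsto (fun k => n2 ξ (star (x k) - star y)) Filter.atTop (𝓝 0) := by
  refine h1.congr fun k => ?_
  rw [← star_sub, n2_star h (sub_mem (hx k) hy)]

theorem tau_lim (h : Nr ξ) {x : ℕ → (H →L[ℂ] H)} {y : H →L[ℂ] H}
    (h1 : Filter.Tendsto (fun k => n2 ξ (x k - y)) Filter.atTop (𝓝 0)) :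
    Filter.Tendsto (fun k => tau ξ (x k)) Filter.atTop (𝓝 (tau ξ y)) := by
  rw [tendsto_iff_norm_sub_tendsto_zero]
  refine squeeze_zero (fun k => norm_nonneg _) (fun k => ?_) h1
  rw [← tau_sub h]
  exact norm_tau_le_n2 h _

/-- increasing sequence of projections of `M` has a limit projection of `M` -/
theorem proj_lim (h : Trc M ξ) (p : ℕ → (H →L[ℂ] H)) (hp : ∀ k, Pj M (p k))
    (hmono : ∀ k, p k * p (k + 1) = p k) :
    ∃ q, Pj M q ∧ (∀ k, p k * q = p k) ∧
      Filter.Tendsto (fun k => n2 ξ (p k - q)) Filter.atTop (𝓝 0) := by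
  have hid : ∀ k, p k * p k = p k := fun k => (hp k).2.isIdempotentElem
  have hsa : ∀ k, star (p k) = p k := fun k => (hp k).2.isSelfAdjoint
  have hle : ∀ k l, k ≤ l → p k * p l = p k := by
    intro k l hkl
    induction l, hkl using Nat.le_induction with
    | base => exact hid k
    | succ l hkl ih =>
      calc p k * p (l + 1) = p k * p l * p (l + 1) := by rw [ih]
        _ = p k * (p l * p (l + 1)) := by rw [mul_assoc]
        _ = p k := by rw [hmono, ih]
  have hge : ∀ k l, k ≤ l → p l * p k = p k := by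
    intro k l hkl
    have := congrArg star (hle k l hkl)
    rwa [star_mul, hsa, hsa] at this
  have hdiff : ∀ k l, k ≤ l → IsStarProjection (p l - p k) := by
    intro k l hkl
    refine ⟨?_, ?_⟩
    · change (p l - p k) * (p l - p k) = p l - p k
      rw [sub_mul, mul_sub, mul_sub, hid, hle k l hkl, hge k l hkl, hid, sub_self, sub_zero]
    · change star (p l - p k) = p l - p k
      rw [star_sub, hsa, hsa]
  have hn2 : ∀ k l, k ≤ l → n2 ξ (p l - p k) ^ 2 = tr ξ (p l) - tr ξ (p k) := by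
    intro k l hkl
    rw [n2_pj_sq h.nr (hdiff k l hkl), tr_sub h.nr]
  have hmon : Monotone (fun k => tr ξ (p k)) := by
    intro k l hkl
    have := hn2 k l hkl
    have h0 := sq_nonneg (n2 ξ (p l - p k))
    change tr ξ (p k) ≤ tr ξ (p l)
    linarith
  have hbdd : BddAbove (Set.range (fun k => tr ξ (p k))) := by
    refine ⟨1, ?_⟩
    rintro _ ⟨k, rfl⟩
    exact tr_le_one h.nr (hp k).2
  have hcs : CauchySeq (fun k => tr ξ (p k)) :=
    (tendsto_atTop_ciSup hmon hbdd).cauchySeq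
  have hcau : ∀ ε : ℝ, 0 < ε → ∃ N, ∀ k l, N ≤ k → N ≤ l → n2 ξ (p k - p l) ≤ ε := by
    intro ε hε
    obtain ⟨N, hN⟩ := Metric.cauchySeq_iff.1 hcs (ε ^ 2) (by positivity)
    have key : ∀ k l, N ≤ k → N ≤ l → k ≤ l → n2 ξ (p l - p k) ≤ ε := by
      intro k l hk hl hkl
      have h1 := hN l hl k hk
      rw [Real.dist_eq] at h1
      have h2 := (le_abs_self _).trans h1.le
      rw [← hn2 k l hkl] at h2
      exact (pow_le_pow_iff_left₀ (n2_nonneg _) hε.le two_ne_zero).1 h2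
    refine ⟨N, fun k l hk hl => ?_⟩
    rcases le_total k l with hkl | hkl
    · rw [n2_sub_comm]; exact key k l hk hl hkl
    · exact key l k hl hk hkl
  obtain ⟨q, hqM, -, hq⟩ := vn_complete h p (fun k => (hp k).1) 1
    (fun k => pj_norm_le (hp k).2) hcau
  have hqq : q * q = q := by
    have h1 := n2_lim_mul h (fun k => (hp k).1) (fun k => (hp k).1)
      (fun k => pj_norm_le (hp k).2) hqM hqM hq hq
    simp only [hid] at h1
    exact n2_lim_unique h (fun k => (hp k).1) (mul_mem hqM hqM) hqM h1 hq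
  have hqs : star q = q := by
    have h1 := n2_lim_star h (fun k => (hp k).1) hqM hq
    simp only [hsa] at h1
    exact n2_lim_unique h (fun k => (hp k).1) (star_mem hqM) hqM h1 hq
  refine ⟨q, ⟨hqM, ⟨hqq, hqs⟩⟩, fun k => ?_, hq⟩
  have hshift : Filter.Tendsto (fun l => n2 ξ (p (l + k) - q)) Filter.atTop (𝓝 0) :=
    hq.comp (Filter.tendsto_add_atTop_nat k)
  have hconst : Filter.Tendsto (fun _ : ℕ => n2 ξ (p k - p k)) Filter.atTop (𝓝 0) := by
    simp only [sub_self, n2_zero]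
    exact tendsto_const_nhds
  have h1 := n2_lim_mul (x := fun _ => p k) (z := fun l => p (l + k)) h (fun _ => (hp k).1)
    (fun l => (hp (l + k)).1) (fun _ => pj_norm_le (hp k).2) (hp k).1 hqM hconst hshift
  have h2 : ∀ l : ℕ, p k * p (l + k) = p k := fun l => hle k (l + k) (Nat.le_add_left _ _)
  simp only [h2] at h1
  have h3 : n2 ξ (p k - p k * q) = 0 := tendsto_nhds_unique tendsto_const_nhds h1
  exact (sub_eq_zero.1 (n2_eq_zero h (sub_mem (hp k).1 (mul_mem (hp k).1 hqM)) h3)).symm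

end Crest.Agent.R95
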