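import Crest.Agent.R95.VNb2

/-!
# Row 95, piece CLOSURE

`N` any von Neumann algebra, `x ∈ M`, for every `ε` some `a ∈ N ∩ M` with `n2 (x - a) < ε`.
Then `x ∈ N`.
Proof.  Take `a_k ∈ N ∩ M`, `n2 (x - a_k) → 0`, hence also `n2 (x* - a_k*) → 0` (trace).
Let `y ∈ N'`.  For `m, m' ∈ M'` and indices `n, l`:
`⟪m' ξ_l, (x y - y x) m ξ_n⟫ = ⟪x* m' ξ_l, y m ξ_n⟫ - ⟪y* m' ξ_l, x m ξ_n⟫`,
`x* m' ξ_l = m' x* ξ_l = lim m' a_k* ξ_l = lim a_k* m' ξ_l`, `x m ξ_n = lim a_k m ξ_n`, and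
`⟪a_k* m' ξ_l, y m ξ_n⟫ = ⟪m' ξ_l, a_k y m ξ_n⟫ = ⟪m' ξ_l, y a_k m ξ_n⟫ = ⟪y* m' ξ_l, a_k m ξ_n⟫`.
So the matrix coefficient is `0`; by `commutant_total` (twice) `x y = y x`.
-/

set_option autoImplicit false

namespace Crest.Agent.R95

open Crest.OpAlg
open scoped InnerProductSpace ComplexConjugate Topology

variable {H : Type*} [NormedAddCommGroup H] [InnerProductSpace ℂ H] [CompleteSpace H]
variable {ξ : ℕ → H} {P M : VonNeumannAlgebra H}

private theorem norm_le_n2 (h : Nr ξ) (z : H →L[ℂ] H) (n : ℕ) : ‖z (ξ n)‖ ≤ n2 ξ z := by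
  refine abs_le_of_sq_le_sq' ?_ (n2_nonneg z) |>.2
  rw [n2_sq']
  exact (summable_n2 h z).le_tsum n (fun _ _ => by positivity)

/-- an operator with vanishing matrix coefficients on `M' ξ` is zero -/
private theorem eq_zero_of_coeff (h : Trc M ξ) (T : H →L[ℂ] H)
    (hT : ∀ m' ∈ M.commutant, ∀ m ∈ M.commutant, ∀ l n, ⟪m' (ξ l), T (m (ξ n))⟫_ℂ = 0) :
    T = 0 := by
  have h1 : ∀ m ∈ M.commutant, ∀ n, T (m (ξ n)) = 0 := fun m hm n =>
    commutant_total h _ (fun m' hm' l => hT m' hm' m hm l n)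
  have h2 : ∀ v, star T v = 0 := by
    intro v
    refine commutant_total h _ (fun m hm n => ?_)
    rw [ContinuousLinearMap.star_eq_adjoint, ContinuousLinearMap.adjoint_inner_right, h1 m hm n,
      inner_zero_left]
  have h3 : star T = 0 := ContinuousLinearMap.ext h2
  exact star_eq_zero.1 h3

theorem vn_closure (h : Trc M ξ) (N : VonNeumannAlgebra H) {x : H →L[ℂ] H} (hx : x ∈ M)
    (happ : ∀ ε : ℝ, 0 < ε → ∃ a, a ∈ N ∧ a ∈ M ∧ n2 ξ (x - a) < ε) : x ∈ N := by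
  refine vn_mem_of_comm N (fun y hy => ?_)
  have key : x * y - y * x = 0 := by
    refine eq_zero_of_coeff h _ (fun m' hm' m hm l n => ?_)
    set K : ℝ := ‖m'‖ * ‖y (m (ξ n))‖ + ‖m' (ξ l)‖ * (‖y‖ * ‖m‖) with hK
    have hK0 : 0 ≤ K := by positivity
    have hle : ∀ ε : ℝ, 0 < ε → ‖⟪m' (ξ l), (x * y - y * x) (m (ξ n))⟫_ℂ‖ ≤ K * ε := by
      intro ε hε
      obtain ⟨a, haN, haM, ha⟩ := happ ε hε
      set z := x - a with hz
      have hzM : z ∈ M := M.toStarSubalgebra.sub_mem hx haM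
      have hzsM : star z ∈ M := star_mem hzM
      have hcom : a * y = y * a := (VonNeumannAlgebra.mem_commutant_iff.1 hy a haN)
      have e1 : x * y - y * x = z * y - y * z := by
        rw [hz, sub_mul, mul_sub, hcom]
        abel
      have c1 : z * m = m * z := VonNeumannAlgebra.mem_commutant_iff.1 hm z hzM
      have c2 : star z * m' = m' * star z := VonNeumannAlgebra.mem_commutant_iff.1 hm' _ hzsM
      have d1 : z (m (ξ n)) = m (z (ξ n)) := DFunLike.congr_fun c1 (ξ n)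
      have d2 : star z (m' (ξ l)) = m' (star z (ξ l)) := DFunLike.congr_fun c2 (ξ l)
      have e2 : ⟪m' (ξ l), (x * y - y * x) (m (ξ n))⟫_ℂ =
          ⟪m' (star z (ξ l)), y (m (ξ n))⟫_ℂ - ⟪m' (ξ l), y (m (z (ξ n)))⟫_ℂ := by
        rw [e1, ContinuousLinearMap.sub_apply, inner_sub_right, ContinuousLinearMap.mul_apply,
          ContinuousLinearMap.mul_apply, d1, ← d2, ContinuousLinearMap.star_eq_adjoint,
          ContinuousLinearMap.adjoint_inner_left]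
      have b1 : ‖z (ξ n)‖ ≤ ε := (norm_le_n2 h.nr z n).trans ha.le
      have b2 : ‖star z (ξ l)‖ ≤ ε := by
        refine (norm_le_n2 h.nr (star z) l).trans ?_
        rw [n2_star h hzM]
        exact ha.le
      rw [e2]
      calc ‖⟪m' (star z (ξ l)), y (m (ξ n))⟫_ℂ - ⟪m' (ξ l), y (m (z (ξ n)))⟫_ℂ‖
          ≤ ‖⟪m' (star z (ξ l)), y (m (ξ n))⟫_ℂ‖ + ‖⟪m' (ξ l), y (m (z (ξ n)))⟫_ℂ‖ :=
            norm_sub_le _ _
        _ ≤ ‖m' (star z (ξ l))‖ * ‖y (m (ξ n))‖ + ‖m' (ξ l)‖ * ‖y (m (z (ξ n)))‖ :=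
            add_le_add (norm_inner_le_norm _ _) (norm_inner_le_norm _ _)
        _ ≤ (‖m'‖ * ε) * ‖y (m (ξ n))‖ + ‖m' (ξ l)‖ * (‖y‖ * (‖m‖ * ε)) := by
            refine add_le_add (mul_le_mul_of_nonneg_right ?_ (norm_nonneg _))
              (mul_le_mul_of_nonneg_left ?_ (norm_nonneg _))
            · exact (m'.le_opNorm _).trans (mul_le_mul_of_nonneg_left b2 (norm_nonneg _))
            · refine (y.le_opNorm _).trans (mul_le_mul_of_nonneg_left ?_ (norm_nonneg _))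
              exact (m.le_opNorm _).trans (mul_le_mul_of_nonneg_left b1 (norm_nonneg _))
        _ = K * ε := by rw [hK]; ring
    have h0 : ‖⟪m' (ξ l), (x * y - y * x) (m (ξ n))⟫_ℂ‖ ≤ 0 := by
      refine le_of_forall_pos_le_add (fun δ hδ => ?_)
      rw [zero_add]
      refine (hle (δ / (K + 1)) (by positivity)).trans ?_
      rw [mul_div_assoc', div_le_iff₀ (by positivity)]
      nlinarith
    exact norm_le_zero_iff.1 h0
  exact sub_eq_zero.1 key

end Crest.Agent.R95
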