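import Crest.Agent.R95.C6

/-!
# Row 95, piece L1: corner irreducibility

`Sit P M ξ`, `e ∈ P` a nonzero projection, `x ∈ M`, `e x = x = x e`, `x` commutes with every
`y ∈ P` with `e y = y = y e`.  Then `x = c e`.
Proof.  `cover`: `w_i e = w_i`, `∑ w_i w_i* = 1`.  `X = ∑ w_i x w_i*`.  For `y ∈ P`
`y X = ∑_{i,j} w_j (w_j* y w_i) x w_i* = ∑_{i,j} w_j x (w_j* y w_i) w_i* = X y`
(`w_j* y w_i ∈ e P e`).  So `X = c`; and `e X e = ∑ (e w_i) x (w_i* e) = x ∑ e w_i w_i* e = x`
because `e w_i = e w_i e ∈ e P e`.
-/

set_option autoImplicit false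

namespace Crest.Agent.R95

open Crest.OpAlg
open scoped InnerProductSpace ComplexConjugate

variable {H : Type*} [NormedAddCommGroup H] [InnerProductSpace ℂ H] [CompleteSpace H]
variable {ξ : ℕ → H} {P M : VonNeumannAlgebra H}

theorem l1 (h : Sit P M ξ) {e : H →L[ℂ] H} (he : Pj P e) (he0 : e ≠ 0) {x : H →L[ℂ] H}
    (hx : x ∈ M) (hex : e * x = x) (hxe : x * e = x)
    (hc : ∀ y ∈ P, e * y = y → y * e = y → x * y = y * x) : ∃ c : ℂ, x = c • e := by
  obtain ⟨k, w, hw, hwe, hsum⟩ := cover h.fac he he0
  have hee : e * e = e := he.2.isIdempotentElem.eq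
  have hes : star e = e := he.2.isSelfAdjoint.star_eq
  have hew : ∀ i, e * star (w i) = star (w i) := by
    intro i
    have h1 := congrArg star (hwe i)
    rwa [star_mul, hes] at h1
  set X : H →L[ℂ] H := ∑ i, w i * x * star (w i) with hX
  have hXM : X ∈ M := sum_mem fun i _ =>
    mul_mem (mul_mem (h.le (hw i)) hx) (star_mem (h.le (hw i)))
  -- `X` commutes with `P`
  have hXc : ∀ y ∈ P, X * y = y * X := by
    intro y hy
    have hz : ∀ i j, x * (star (w j) * y * w i) = (star (w j) * y * w i) * x := by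
      intro i j
      refine hc _ (mul_mem (mul_mem (star_mem (hw j)) hy) (hw i)) ?_ ?_
      · rw [← mul_assoc, ← mul_assoc, hew]
      · rw [mul_assoc, hwe]
    have e1 : y * X = ∑ i, ∑ j, w j * ((star (w j) * y * w i) * x) * star (w i) := by
      calc y * X = ∑ i, (1 : H →L[ℂ] H) * y * (w i * x * star (w i)) := by
            rw [hX, Finset.mul_sum]; simp
        _ = ∑ i, ∑ j, w j * ((star (w j) * y * w i) * x) * star (w i) := by
            refine Finset.sum_congr rfl fun i _ => ?_
            rw [← hsum, Finset.sum_mul, Finset.sum_mul]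
            refine Finset.sum_congr rfl fun j _ => ?_
            simp only [mul_assoc]
    have e2 : X * y = ∑ j, ∑ i, w j * (x * (star (w j) * y * w i)) * star (w i) := by
      calc X * y = ∑ j, (w j * x * star (w j)) * y * 1 := by
            rw [hX, Finset.sum_mul]; simp
        _ = ∑ j, ∑ i, w j * (x * (star (w j) * y * w i)) * star (w i) := by
            refine Finset.sum_congr rfl fun j _ => ?_
            rw [← hsum, Finset.mul_sum]
            refine Finset.sum_congr rfl fun i _ => ?_
            simp only [mul_assoc]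
    rw [e1, e2, Finset.sum_comm]
    refine Finset.sum_congr rfl fun i _ => Finset.sum_congr rfl fun j _ => ?_
    rw [hz]
  obtain ⟨c, hcX⟩ := h.irr X hXM hXc
  refine ⟨c, ?_⟩
  have h1 : ∀ i, x * (e * w i) = (e * w i) * x := by
    intro i
    refine hc _ (mul_mem he.1 (hw i)) ?_ ?_
    · rw [← mul_assoc, hee]
    · rw [mul_assoc, hwe]
  have h2 : e * X * e = x := by
    calc e * X * e = ∑ i, ((e * w i) * x) * (star (w i) * e) := by
          rw [hX, Finset.mul_sum, Finset.sum_mul]
          exact Finset.sum_congr rfl fun i _ => by simp only [mul_assoc]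
      _ = ∑ i, (x * e) * (w i * star (w i)) * e := by
          refine Finset.sum_congr rfl fun i _ => ?_
          rw [← h1]; simp only [mul_assoc]
      _ = (x * e) * (∑ i, w i * star (w i)) * e := by
          rw [Finset.mul_sum, Finset.sum_mul]
      _ = x := by rw [hsum, mul_one, hxe, hxe]
  rw [← h2, hcX, mul_smul_comm, mul_one, smul_mul_assoc, hee]

end Crest.Agent.R95
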