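import Crest.Agent.R95.VNa

/-!
# Row 95, piece L2S: corner elements are combinations of corner unitaries

For a self-adjoint contraction `y = e y = y e`: `y ± i √(e - y²)` (`√(e - y²) = e √(1 - y²) e`,
`cfc` of `y`, in `P` by `vn_cfc_mem`).  General `y`: real and imaginary parts, scaled.
-/

set_option autoImplicit false

namespace Crest.Agent.R95

open Crest.OpAlg
open scoped InnerProductSpace ComplexConjugate Topology

variable {H : Type*} [NormedAddCommGroup H] [InnerProductSpace ℂ H] [CompleteSpace H]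
variable {ξ : ℕ → H} {P M : VonNeumannAlgebra H}

/-- a self-adjoint contraction of the corner is the average of a corner unitary and its adjoint -/
theorem corner_sa_unitary {e : H →L[ℂ] H} (he : Pj P e) {y : H →L[ℂ] H} (hy : y ∈ P)
    (hs : IsSelfAdjoint y) (hn : ‖y‖ ≤ 1) (hey : e * y = y) (hye : y * e = y) :
    ∃ u : H →L[ℂ] H, (u ∈ P ∧ star u * u = e ∧ u * star u = e) ∧
      y = (1 / 2 : ℂ) • u + (1 / 2 : ℂ) • star u := by
  have hf : Continuous (fun t : ℝ => Real.sqrt (1 - t ^ 2)) := by fun_prop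
  set s : H →L[ℂ] H := cfc (fun t : ℝ => Real.sqrt (1 - t ^ 2)) y with hsdef
  have hsP : s ∈ P := vn_cfc_mem P hy hs _ hf
  have hss : star s = s := (cfc_predicate (fun t : ℝ => Real.sqrt (1 - t ^ 2)) y).star_eq
  have hee : e * e = e := he.2.isIdempotentElem.eq
  have hes : star e = e := he.2.isSelfAdjoint.star_eq
  have hcey : Commute y e := by show y * e = e * y; rw [hye, hey]
  have hse : s * e = e * s := (Commute.cfc_real hcey.symm.symm (fun t : ℝ => Real.sqrt (1 - t ^ 2))).eq
  have hsy : s * y = y * s := (Commute.cfc_real (Commute.refl y) (fun t : ℝ => Real.sqrt (1 - t ^ 2))).eq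
  have hsq : s * s = 1 - y * y := by
    have h1 : s * s = cfc (fun t : ℝ => Real.sqrt (1 - t ^ 2) * Real.sqrt (1 - t ^ 2)) y := by
      rw [hsdef, ← cfc_mul _ _ y]
    have h2 : cfc (fun t : ℝ => Real.sqrt (1 - t ^ 2) * Real.sqrt (1 - t ^ 2)) y
        = cfc (fun t : ℝ => 1 - t ^ 2) y := by
      refine cfc_congr fun t ht => ?_
      have ht' : |t| ≤ 1 := by
        have h1 := spectrum.norm_le_norm_mul_of_mem ht
        rw [Real.norm_eq_abs] at h1
        have h2 : ‖(1 : H →L[ℂ] H)‖ ≤ 1 := ContinuousLinearMap.norm_id_le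
        have h3 := norm_nonneg (1 : H →L[ℂ] H)
        have h4 := norm_nonneg y
        nlinarith
      have : 0 ≤ 1 - t ^ 2 := by
        have := (sq_le_one_iff_abs_le_one t).mpr ht'
        linarith
      exact Real.mul_self_sqrt this
    have h3 : cfc (fun t : ℝ => 1 - t ^ 2) y = 1 - y * y := by
      rw [cfc_sub (fun _ => 1) (fun t : ℝ => t ^ 2) y, cfc_const_one ℝ y, cfc_pow_id y 2, sq]
    rw [h1, h2, h3]
  have hI : Complex.I * Complex.I = -1 := Complex.I_mul_I
  have hstar : star (y + Complex.I • (s * e)) = y - Complex.I • (s * e) := by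
    rw [star_add, star_smul, star_mul, hss, hes, hs.star_eq, RCLike.star_def, Complex.conj_I, ← hse]
    module
  -- products
  have p1 : y * (s * e) = s * y := by rw [← mul_assoc, ← hsy, mul_assoc, hye]
  have p2 : (s * e) * y = s * y := by rw [mul_assoc, hey]
  have p3 : (s * e) * (s * e) = e - y * y := by
    calc (s * e) * (s * e) = s * (e * s) * e := by simp only [mul_assoc]
      _ = s * (s * e) * e := by rw [← hse]
      _ = (s * s) * (e * e) := by simp only [mul_assoc]
      _ = (1 - y * y) * e := by rw [hsq, hee]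
      _ = e - y * y := by rw [sub_mul, one_mul, mul_assoc, hye]
  refine ⟨y + Complex.I • (s * e), ⟨?_, ?_, ?_⟩, ?_⟩
  · exact add_mem hy (vn_smul_mem P _ (mul_mem hsP he.1))
  · rw [hstar, sub_mul, mul_add, mul_add, mul_smul_comm, smul_mul_assoc, smul_mul_assoc,
      mul_smul_comm, smul_smul, hI, p1, p2, p3]
    module
  · rw [hstar, add_mul, mul_sub, mul_sub, mul_smul_comm, smul_mul_assoc, smul_mul_assoc,
      mul_smul_comm, smul_smul, hI, p1, p2, p3]
    module
  · rw [hstar]; module

/-- every element of the corner is a linear combination of four corner unitaries -/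
theorem corner_span {e : H →L[ℂ] H} (he : Pj P e) {y : H →L[ℂ] H} (hy : y ∈ P)
    (hey : e * y = y) (hye : y * e = y) :
    ∃ (u : Fin 4 → (H →L[ℂ] H)) (c : Fin 4 → ℂ),
      (∀ i, u i ∈ P ∧ star (u i) * u i = e ∧ u i * star (u i) = e) ∧ y = ∑ i, c i • u i := by
  have hes : star e = e := he.2.isSelfAdjoint.star_eq
  have hsy : star y ∈ P := star_mem hy
  have hesy : e * star y = star y := by
    have := congrArg star hye; rwa [star_mul, hes] at this
  have hsye : star y * e = star y := by
    have := congrArg star hey; rwa [star_mul, hes] at this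
  obtain ⟨R, hR⟩ : ∃ R : ℝ, R = ‖y‖ + 1 := ⟨_, rfl⟩
  have hR0 : 0 < R := by rw [hR]; positivity
  have hRc : (R : ℂ) ≠ 0 := by exact_mod_cast hR0.ne'
  -- real part
  set a : H →L[ℂ] H := ((1 / (2 * R) : ℝ) : ℂ) • (y + star y) with ha
  set b : H →L[ℂ] H := ((1 / (2 * R) : ℝ) : ℂ) • (Complex.I • (star y - y)) with hb
  have hns : ‖star y‖ = ‖y‖ := norm_star y
  have haP : a ∈ P := vn_smul_mem P _ (add_mem hy hsy)
  have hbP : b ∈ P := vn_smul_mem P _ (vn_smul_mem P _ (sub_mem hsy hy))
  have hasa : IsSelfAdjoint a := by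
    show star a = a
    rw [ha, star_smul, star_add, star_star, RCLike.star_def, Complex.conj_ofReal, add_comm]
  have hbsa : IsSelfAdjoint b := by
    show star b = b
    simp only [hb, star_smul, star_sub, star_star, RCLike.star_def, Complex.conj_ofReal,
      Complex.conj_I]
    module
  have hc : ‖((1 / (2 * R) : ℝ) : ℂ)‖ = 1 / (2 * R) := by
    rw [Complex.norm_real, Real.norm_of_nonneg (by positivity)]
  have hbound : 1 / (2 * R) * (‖y‖ + ‖y‖) ≤ 1 := by
    rw [div_mul_eq_mul_div, one_mul, div_le_one (by positivity)]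
    have := norm_nonneg y
    rw [hR]; linarith
  have hna : ‖a‖ ≤ 1 := by
    rw [ha, norm_smul, hc]
    refine le_trans (mul_le_mul_of_nonneg_left ?_ (by positivity)) hbound
    exact (norm_add_le _ _).trans (by rw [hns])
  have hnb : ‖b‖ ≤ 1 := by
    rw [hb, norm_smul, hc, norm_smul, Complex.norm_I, one_mul]
    refine le_trans (mul_le_mul_of_nonneg_left ?_ (by positivity)) hbound
    exact (norm_sub_le _ _).trans (by rw [hns])
  have hea : e * a = a := by rw [ha, mul_smul_comm, mul_add, hey, hesy]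
  have hae : a * e = a := by rw [ha, smul_mul_assoc, add_mul, hye, hsye]
  have heb : e * b = b := by rw [hb, mul_smul_comm, mul_smul_comm, mul_sub, hey, hesy]
  have hbe : b * e = b := by rw [hb, smul_mul_assoc, smul_mul_assoc, sub_mul, hye, hsye]
  obtain ⟨u, ⟨huP, hu1, hu2⟩, hu⟩ := corner_sa_unitary he haP hasa hna hea hae
  obtain ⟨v, ⟨hvP, hv1, hv2⟩, hv⟩ := corner_sa_unitary he hbP hbsa hnb heb hbe
  have key : y = (R : ℂ) • a + ((R : ℂ) * Complex.I) • b := by
    have e1 : (R : ℂ) • a = (1 / 2 : ℂ) • (y + star y) := by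
      rw [ha, smul_smul]
      congr 1
      push_cast
      field_simp
    have e2 : ((R : ℂ) * Complex.I) • b = (1 / 2 : ℂ) • (y - star y) := by
      rw [hb, smul_smul, smul_smul]
      have : (R : ℂ) * Complex.I * ((1 / (2 * R) : ℝ) : ℂ) * Complex.I = -(1 / 2 : ℂ) := by
        push_cast
        field_simp
        rw [Complex.I_sq]
      rw [this]
      module
    rw [e1, e2]
    module
  refine ⟨![u, star u, v, star v],
    ![(R : ℂ) * (1 / 2), (R : ℂ) * (1 / 2), (R : ℂ) * Complex.I * (1 / 2),
      (R : ℂ) * Complex.I * (1 / 2)], ?_, ?_⟩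
  · intro i
    fin_cases i
    · exact ⟨huP, hu1, hu2⟩
    · exact ⟨star_mem huP, by simpa using hu2, by simpa using hu1⟩
    · exact ⟨hvP, hv1, hv2⟩
    · exact ⟨star_mem hvP, by simpa using hv2, by simpa using hv1⟩
  · rw [key, hu, hv, Fin.sum_univ_four]
    simp only [Matrix.cons_val_zero, Matrix.cons_val_one, Matrix.cons_val]
    module

end Crest.Agent.R95
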