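import Crest.Agent.R95.ADefs
import Crest.Agent.R95.TrB

/-!
# Row 95, piece ACONT: 2-norm continuity of star polynomials over `P` on the unitaries

PROOF of `AL_cont`.  `StarAlgebra.adjoin_induction` on `y ∈ AL P V` for the property
"∃ C, ∀ η > 0, ∃ δ > 0, ∀ V' unitary of M with n2 (V'-V) ≤ δ, ∃ y' ∈ AL P V', ‖y'‖ ≤ C ∧
n2 (y'-y) ≤ η" together with `y ∈ M` (`AL P V ≤ M`).
Generators: `y ∈ P`: `y' = y`; `y = V`: `y' = V'`, `C = 1`.  Scalars; sums; products: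
`y'z' - yz = (y'-y) z' + y (z'-z)`, `n2 ≤ n2 (y'-y) ‖z'‖ + ‖y‖ n2 (z'-z)` (`n2_mul_le'`,
`n2_mul_le`, everything is in `M`); stars: `n2_star`.
-/

set_option autoImplicit false

namespace Crest.Agent.R95

variable {H : Type*} [NormedAddCommGroup H] [InnerProductSpace ℂ H] [CompleteSpace H]

theorem AL_le_M {P M : VonNeumannAlgebra H} (hPM : P ≤ M) {V y : H →L[ℂ] H} (hV : V ∈ M)
    (hy : y ∈ AL P V) : y ∈ M := by
  have h1 : AL P V ≤ M.toStarSubalgebra := by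
    refine StarAlgebra.adjoin_le ?_
    rintro z (hz | hz)
    · exact hPM hz
    · rw [Set.mem_singleton_iff] at hz
      subst hz
      exact hV
  exact h1 hy

theorem wordf_mem_AL {P : VonNeumannAlgebra H} {n : ℕ} (c : Fin (n + 1) → (H →L[ℂ] H))
    (hc : ∀ i, c i ∈ P) (V : H →L[ℂ] H) : wordf c V ∈ AL P V := by
  have hP : ∀ i, c i ∈ AL P V := fun i => StarAlgebra.subset_adjoin ℂ _ (Or.inl (hc i))
  have hV : V ∈ AL P V := StarAlgebra.subset_adjoin ℂ _ (Or.inr rfl)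
  refine mul_mem (list_prod_mem ?_) (hP _)
  intro x hx
  rw [List.mem_ofFn'] at hx
  obtain ⟨i, rfl⟩ := hx
  exact mul_mem (hP _) hV

theorem wordf_mem_unitary {B : Type*} [CStarAlgebra B] {n : ℕ} (c : Fin (n + 1) → B)
    (hc : ∀ i, c i ∈ unitary B) {V : B} (hV : V ∈ unitary B) : wordf c V ∈ unitary B := by
  refine mul_mem (list_prod_mem ?_) (hc _)
  intro x hx
  rw [List.mem_ofFn'] at hx
  obtain ⟨i, rfl⟩ := hx
  exact mul_mem (hc _) hV

private theorem aux_norm_unitary {u : H →L[ℂ] H} (hu : u ∈ unitary (H →L[ℂ] H)) : ‖u‖ ≤ 1 := by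
  have h1 : ‖star u * u‖ = ‖u‖ * ‖u‖ := CStarRing.norm_star_mul_self
  rw [Unitary.star_mul_self_of_mem hu] at h1
  have h2 : ‖(1 : H →L[ℂ] H)‖ ≤ 1 := ContinuousLinearMap.norm_id_le
  nlinarith [norm_nonneg u]

theorem AL_cont {P M : VonNeumannAlgebra H} {ξ : ℕ → H} (h : Sit P M ξ) {V y : H →L[ℂ] H}
    (hV : Un M V) (hy : y ∈ AL P V) :
    ∃ C : ℝ, ∀ η : ℝ, 0 < η → ∃ δ : ℝ, 0 < δ ∧ ∀ V' : H →L[ℂ] H, Un M V' →
      n2 ξ (V' - V) ≤ δ → ∃ y' ∈ AL P V', ‖y'‖ ≤ C ∧ n2 ξ (y' - y) ≤ η := by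
  have hnr : Nr ξ := h.trc.nr
  have key : ∀ y (hy : y ∈ StarAlgebra.adjoin ℂ ((P : Set (H →L[ℂ] H)) ∪ {V})),
      ∃ C : ℝ, ∀ η : ℝ, 0 < η → ∃ δ : ℝ, 0 < δ ∧ ∀ V' : H →L[ℂ] H, Un M V' →
      n2 ξ (V' - V) ≤ δ → ∃ y' ∈ AL P V', ‖y'‖ ≤ C ∧ n2 ξ (y' - y) ≤ η := by
    intro y hy
    induction hy using StarAlgebra.adjoin_induction with
    | mem x hx =>
      rcases hx with hx | hx
      · refine ⟨‖x‖, fun η hη => ⟨1, one_pos, fun V' _ _ => ⟨x, ?_, le_rfl, ?_⟩⟩⟩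
        · exact StarAlgebra.subset_adjoin ℂ _ (Or.inl hx)
        · rw [sub_self, n2_zero]; exact hη.le
      · rw [Set.mem_singleton_iff] at hx
        subst hx
        refine ⟨1, fun η hη => ⟨η, hη, fun V' hV' hd => ⟨V', ?_, ?_, hd⟩⟩⟩
        · exact StarAlgebra.subset_adjoin ℂ _ (Or.inr rfl)
        · exact aux_norm_unitary hV'.2
    | algebraMap r =>
      refine ⟨‖algebraMap ℂ (H →L[ℂ] H) r‖, fun η hη => ⟨1, one_pos, fun V' _ _ =>
        ⟨algebraMap ℂ _ r, (AL P V').algebraMap_mem r, le_rfl, ?_⟩⟩⟩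
      rw [sub_self, n2_zero]; exact hη.le
    | add x z hx hz ihx ihz =>
      obtain ⟨C1, h1⟩ := ihx
      obtain ⟨C2, h2⟩ := ihz
      refine ⟨C1 + C2, fun η hη => ?_⟩
      obtain ⟨δ1, hδ1, h1⟩ := h1 (η / 2) (by positivity)
      obtain ⟨δ2, hδ2, h2⟩ := h2 (η / 2) (by positivity)
      refine ⟨min δ1 δ2, lt_min hδ1 hδ2, fun V' hV' hd => ?_⟩
      obtain ⟨x', hx', hxn, hxd⟩ := h1 V' hV' (hd.trans (min_le_left _ _))
      obtain ⟨z', hz', hzn, hzd⟩ := h2 V' hV' (hd.trans (min_le_right _ _))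
      refine ⟨x' + z', add_mem hx' hz', (norm_add_le _ _).trans (add_le_add hxn hzn), ?_⟩
      have e : x' + z' - (x + z) = (x' - x) + (z' - z) := by abel
      rw [e]
      refine (n2_add_le hnr _ _).trans ?_
      linarith
    | mul x z hx hz ihx ihz =>
      obtain ⟨C1, h1⟩ := ihx
      obtain ⟨C2, h2⟩ := ihz
      have hC : ∀ {C : ℝ} {x y : H →L[ℂ] H}, ‖x‖ ≤ C → ‖x‖ ≤ max C 0 :=
        fun h => h.trans (le_max_left _ _)
      refine ⟨max C1 0 * max C2 0, fun η hη => ?_⟩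
      have hp : 0 < max C2 0 + ‖x‖ + 1 := by positivity
      obtain ⟨δ1, hδ1, h1⟩ := h1 (η / (max C2 0 + ‖x‖ + 1)) (by positivity)
      obtain ⟨δ2, hδ2, h2⟩ := h2 (η / (max C2 0 + ‖x‖ + 1)) (by positivity)
      refine ⟨min δ1 δ2, lt_min hδ1 hδ2, fun V' hV' hd => ?_⟩
      obtain ⟨x', hx', hxn, hxd⟩ := h1 V' hV' (hd.trans (min_le_left _ _))
      obtain ⟨z', hz', hzn, hzd⟩ := h2 V' hV' (hd.trans (min_le_right _ _))
      have hxn' : ‖x'‖ ≤ max C1 0 := hxn.trans (le_max_left _ _)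
      have hzn' : ‖z'‖ ≤ max C2 0 := hzn.trans (le_max_left _ _)
      refine ⟨x' * z', mul_mem hx' hz', (norm_mul_le _ _).trans
        (mul_le_mul hxn' hzn' (norm_nonneg _) (le_max_right _ _)), ?_⟩
      have e : x' * z' - x * z = (x' - x) * z' + x * (z' - z) := by
        rw [sub_mul, mul_sub]; abel
      have hxM : x ∈ M := AL_le_M h.le hV.1 hx
      have hx'M : x' ∈ M := AL_le_M h.le hV'.1 hx'
      have hz'M : z' ∈ M := AL_le_M h.le hV'.1 hz'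
      rw [e]
      refine (n2_add_le hnr _ _).trans ?_
      have b1 : n2 ξ ((x' - x) * z') ≤ η / (max C2 0 + ‖x‖ + 1) * max C2 0 :=
        (n2_mul_le' h.trc (sub_mem hx'M hxM) hz'M).trans
          (mul_le_mul hxd hzn' (norm_nonneg _) (by positivity))
      have b2 : n2 ξ (x * (z' - z)) ≤ ‖x‖ * (η / (max C2 0 + ‖x‖ + 1)) :=
        (n2_mul_le hnr _ _).trans (mul_le_mul_of_nonneg_left hzd (norm_nonneg _))
      have b3 : η / (max C2 0 + ‖x‖ + 1) * max C2 0 + ‖x‖ * (η / (max C2 0 + ‖x‖ + 1)) ≤ η := by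
        have : η / (max C2 0 + ‖x‖ + 1) * max C2 0 + ‖x‖ * (η / (max C2 0 + ‖x‖ + 1)) =
            η * ((max C2 0 + ‖x‖) / (max C2 0 + ‖x‖ + 1)) := by ring
        rw [this]
        refine mul_le_of_le_one_right hη.le ?_
        rw [div_le_one hp]
        linarith
      linarith
    | star x hx ihx =>
      obtain ⟨C1, h1⟩ := ihx
      refine ⟨C1, fun η hη => ?_⟩
      obtain ⟨δ1, hδ1, h1⟩ := h1 η hη
      refine ⟨δ1, hδ1, fun V' hV' hd => ?_⟩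
      obtain ⟨x', hx', hxn, hxd⟩ := h1 V' hV' hd
      refine ⟨star x', star_mem hx', by rwa [norm_star], ?_⟩
      have hxM : x ∈ M := AL_le_M h.le hV.1 hx
      have hx'M : x' ∈ M := AL_le_M h.le hV'.1 hx'
      rw [← star_sub, n2_star h.trc (sub_mem hx'M hxM)]
      exact hxd
  exact key y hy

end Crest.Agent.R95
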