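import Crest.Agent.R95.AStep
import Crest.Agent.R95.ACont

/-!
# Row 95, piece AAPPROX: density theorem (from weak to 2-norm, helper7's infimum trick)

PROOF.  `D = sInf {n2 (p - x) : V ∈ U(M), n2 (V - v) < δ, p ∈ AL P V}` (nonempty: `V = v`, `p = 0`).
Claim `D = 0` (then done).  Suppose `D > 0`; note `D ≤ n2 x ≤ 1`.  Write `⟪a,b⟫ = τ(a* b)`, norms are
2-norms.  Take a small `η ∈ (0,1)` (depending on `D`), `V1` in the ball and `y1 ∈ AL P V1` with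
`‖x - y1‖² ≤ D² + η`; then `‖y1‖ ≤ 3`.
(1) For real `t`, `(1+t) y1 ∈ AL P V1`, so `D² ≤ ‖x - (1+t) y1‖² = ‖x-y1‖² - 2t Re⟪y1,x-y1⟫ +
t²‖y1‖²`; `t = -√η` gives `Re⟪y1, x-y1⟫ ≥ -√η (1+9)/2 = -5√η`, so
`Re⟪x, x-y1⟫ = ‖x-y1‖² + Re⟪y1,x-y1⟫ ≥ D² - 5√η`.
(2) `step_weak` at `V1, x` with `Z = {x - y1}*...`: test element `y = star`-adjusted so that
`|⟪w - βx, x-y1⟫| ≤ η`; e.g. `⟪w-βx, x-y1⟫ = τ((w-βx)* (x-y1)) = conj τ((x-y1)* (w-βx))
= conj τ((w-βx) (x-y1)*)` (traciality), so `Z = {star (x - y1)}`; the new unitary `V2` so close to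
`V1` that it stays in the open ball and (`AL_cont`) some `y2 ∈ AL P V2` has `‖y2-y1‖ ≤ η`.
`w = wordf c V2 ∈ AL P V2` is unitary, `‖w‖₂ = 1`.
(3) With `s = β D² ≤ 1`: `‖x - y1 - s w‖² = ‖x-y1‖² - 2s Re⟪w,x-y1⟫ + s²
≤ D² + η - 2s(β(D² - 5√η) - η) + s² ≤ D² - β²D⁴ + η + 10√η + 2η`, and
`‖x - (y2 + s w)‖ ≤ ‖x-y1-sw‖ + η`, while `y2 + s w ∈ AL P V2`, so `D ≤ ‖x-(y2+sw)‖`.  For small `η`
this contradicts `β²D⁴ ≥ (9/100)² D⁴ > 0`.
-/

set_option autoImplicit false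

namespace Crest.Agent.R95

variable {H : Type*} [NormedAddCommGroup H] [InnerProductSpace ℂ H] [CompleteSpace H]

theorem approx {P M : VonNeumannAlgebra H} {ξ : ℕ → H} (h : Sit P M ξ) {v x : H →L[ℂ] H}
    (hv : Un M v) (hx : Un M x) {δ ε : ℝ} (hδ : 0 < δ) (hε : 0 < ε) :
    ∃ V : H →L[ℂ] H, Un M V ∧ n2 ξ (V - v) ≤ δ ∧ ∃ p ∈ AL P V, n2 ξ (p - x) ≤ ε := by
  have hn := h.trc.nr
  have hone : n2 ξ (1 : H →L[ℂ] H) = 1 := TrA.n2_one hn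
  have hun : ∀ w : H →L[ℂ] H, w ∈ unitary (H →L[ℂ] H) → n2 ξ w = 1 := fun w hw => by
    have := n2_unitary_mul (ξ := ξ) w 1 (Unitary.star_mul_self_of_mem hw)
    rwa [mul_one, hone] at this
  by_contra hcon
  push Not at hcon
  set S : Set ℝ := {r | ∃ V p, Un M V ∧ n2 ξ (V - v) < δ ∧ p ∈ AL P V ∧ n2 ξ (x - p) = r} with hS
  have hvv : n2 ξ (v - v) < δ := by rw [sub_self, n2_zero]; exact hδ
  have hS0 : S.Nonempty := ⟨n2 ξ (x - 0), v, 0, hv, hvv, zero_mem _, rfl⟩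
  have hSb : BddBelow S := ⟨0, by rintro r ⟨V, p, -, -, -, rfl⟩; exact n2_nonneg _⟩
  obtain ⟨D, hD⟩ : ∃ D, D = sInf S := ⟨_, rfl⟩
  have hDε : ε ≤ D := by
    rw [hD]
    refine le_csInf hS0 ?_
    rintro r ⟨V, p, hV, hVd, hp, rfl⟩
    rw [n2_sub_comm]; exact (hcon V hV hVd.le p hp).le
  have hD0 : 0 < D := hε.trans_le hDε
  have hDle : ∀ V p, Un M V → n2 ξ (V - v) < δ → p ∈ AL P V → D ≤ n2 ξ (x - p) :=
    fun V p hV hVd hp => by rw [hD]; exact csInf_le hSb ⟨V, p, hV, hVd, hp, rfl⟩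
  have hx1 : n2 ξ x = 1 := hun x hx.2
  have hD1 : D ≤ 1 := by
    have := hDle v 0 hv hvv (zero_mem _)
    rwa [sub_zero, hx1] at this
  -- the small parameter
  obtain ⟨s, hs⟩ : ∃ s : ℝ, s = 81 / 150000 * D ^ 4 := ⟨_, rfl⟩
  have hD4 : 0 < D ^ 4 := by positivity
  have hD41 : D ^ 4 ≤ D := by
    have : D ^ 4 ≤ D ^ 1 := pow_le_pow_of_le_one hD0.le hD1 (by norm_num)
    simpa using this
  have hs0 : 0 < s := by rw [hs]; positivity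
  have hsD : s ≤ D := by rw [hs]; linarith
  have hs1 : s ≤ 1 := hsD.trans hD1
  have hss : 0 ≤ s ^ 2 := by positivity
  have hss1 : s ^ 2 ≤ 1 := pow_le_one₀ hs0.le hs1
  have hlt0 : sInf S < D + s ^ 2 / 3 := by rw [← hD]; have : 0 < s ^ 2 := by positivity
                                           linarith
  obtain ⟨_, ⟨V1, y1, hV1, hV1d, hy1, rfl⟩, hlt⟩ := exists_lt_of_csInf_lt hS0 hlt0
  have hy1M : y1 ∈ M := AL_le_M h.le hV1.1 hy1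
  obtain ⟨r, hr⟩ : ∃ r, r = x - y1 := ⟨_, rfl⟩
  have hrM : r ∈ M := by rw [hr]; exact sub_mem hx.1 hy1M
  rw [← hr] at hlt
  have hRD : D ≤ n2 ξ r := by rw [hr]; exact hDle V1 y1 hV1 hV1d hy1
  obtain ⟨R, hR⟩ : ∃ R, R = n2 ξ r := ⟨_, rfl⟩
  rw [← hR] at hlt hRD
  have hR0 : 0 ≤ R := by rw [hR]; exact n2_nonneg _
  have hR2 : R ^ 2 ≤ D ^ 2 + s ^ 2 := by
    have e1 : R ^ 2 ≤ (D + s ^ 2 / 3) ^ 2 := pow_le_pow_left₀ hR0 hlt.le 2
    have e2 : D * s ^ 2 ≤ 1 * s ^ 2 := mul_le_mul_of_nonneg_right hD1 hss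
    have e3 : s ^ 2 * s ^ 2 ≤ 1 * s ^ 2 := mul_le_mul_of_nonneg_right hss1 hss
    have e4 : (D + s ^ 2 / 3) ^ 2 = D ^ 2 + 2 / 3 * (D * s ^ 2) + (s ^ 2 * s ^ 2) / 9 := by ring
    linarith
  have hxr : x = r + y1 := by rw [hr]; abel
  have hY : n2 ξ y1 ≤ 3 := by
    have h1 : y1 = x - r := by rw [hr]; abel
    have h2 := n2_sub_le hn x r
    rw [← h1, hx1, ← hR] at h2
    linarith
  have hY0 : 0 ≤ n2 ξ y1 := n2_nonneg _
  obtain ⟨u, hu⟩ : ∃ u, u = (tau ξ (star r * y1)).re := ⟨_, rfl⟩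
  -- (1)
  have hu5 : -(5 * s) ≤ u := by
    have h1 : ((1 - s : ℝ) : ℂ) • y1 ∈ AL P V1 := (AL P V1).smul_mem hy1 _
    have h2 := hDle V1 _ hV1 hV1d h1
    have h3 : x - ((1 - s : ℝ) : ℂ) • y1 = r + ((s : ℝ) : ℂ) • y1 := by
      rw [hxr]; push_cast; rw [sub_smul, one_smul]; abel
    rw [h3] at h2
    have h4 := n2_add_sq hn r (((s : ℝ) : ℂ) • y1)
    rw [mul_smul_comm, tau_smul, Complex.re_ofReal_mul, ← hu, n2_smul, ← hR, Complex.norm_real,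
      Real.norm_of_nonneg hs0.le] at h4
    have h5 : D ^ 2 ≤ n2 ξ (r + ((s : ℝ) : ℂ) • y1) ^ 2 := pow_le_pow_left₀ hD0.le h2 2
    rw [h4] at h5
    have h6 : (s * n2 ξ y1) ^ 2 ≤ 9 * s ^ 2 := by
      have e1 : (s * n2 ξ y1) ^ 2 ≤ (s * 3) ^ 2 :=
        pow_le_pow_left₀ (mul_nonneg hs0.le hY0) (mul_le_mul_of_nonneg_left hY hs0.le) 2
      have e2 : (s * 3) ^ 2 = 9 * s ^ 2 := by ring
      linarith
    have h7 : 0 ≤ s * (10 * s + 2 * u) := by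
      have e1 : s * (10 * s + 2 * u) = 10 * s ^ 2 + 2 * (s * u) := by ring
      linarith
    have h8 : 0 ≤ 10 * s + 2 * u := nonneg_of_mul_nonneg_right h7 hs0
    linarith
  -- (2)
  have hrx : (tau ξ (star r * x)).re = R ^ 2 + u := by
    rw [hxr, mul_add, tau_add hn, tau_star_mul_self hn, Complex.add_re, Complex.ofReal_re, ← hR,
      ← hu]
  -- (3)
  obtain ⟨C, hC⟩ := AL_cont h hV1 hy1
  obtain ⟨δ₁, hδ₁, hcont⟩ := hC s hs0
  have hδ₂ : 0 < min δ₁ ((δ - n2 ξ (V1 - v)) / 2) := lt_min hδ₁ (by linarith)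
  obtain ⟨n, c, V2, β, hc, hV2, hβ, hβ1, hV2d, htest⟩ := step_weak h hV1 hx {star r}
    (fun y hy => by rw [Finset.mem_singleton.1 hy]; exact star_mem hrM) hδ₂ hs0
  have htest := htest (star r) (Finset.mem_singleton_self _)
  obtain ⟨y2, hy2, -, hy21⟩ := hcont V2 hV2 (hV2d.trans (min_le_left _ _))
  have hV2v : n2 ξ (V2 - v) < δ := by
    have h1 := n2_tri hn V2 V1 v
    have h2 := hV2d.trans (min_le_right _ _)
    linarith
  obtain ⟨w, hw⟩ : ∃ w, w = wordf c V2 := ⟨_, rfl⟩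
  rw [← hw] at htest
  have hwAL : w ∈ AL P V2 := by rw [hw]; exact wordf_mem_AL c (fun i => (hc i).1) V2
  have hwM : w ∈ M := AL_le_M h.le hV2.1 hwAL
  have hwU : w ∈ unitary (H →L[ℂ] H) := by
    rw [hw]; exact wordf_mem_unitary c (fun i => (hc i).2) hV2.2
  have hw1 : n2 ξ w = 1 := hun w hwU
  have hrw : β * (R ^ 2 + u) - s ≤ (tau ξ (star r * w)).re := by
    have h1 : star r * w = star r * (w - (β : ℂ) • x) + (β : ℂ) • (star r * x) := by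
      rw [mul_sub, mul_smul_comm]; abel
    have h2 : tau ξ (star r * (w - (β : ℂ) • x)) = tau ξ ((w - (β : ℂ) • x) * star r) :=
      tau_comm h.trc (star_mem hrM)
        (sub_mem hwM (M.toStarSubalgebra.smul_mem hx.1 _))
    rw [h1, tau_add hn, h2, tau_smul, Complex.add_re, Complex.re_ofReal_mul, hrx]
    have h3 := (abs_le.1 ((Complex.abs_re_le_norm _).trans htest)).1
    linarith
  -- (4)
  obtain ⟨σ, hσ⟩ : ∃ σ, σ = β * D ^ 2 := ⟨_, rfl⟩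
  have hβ0 : 0 < β := by linarith
  have hσ0 : 0 ≤ σ := by rw [hσ]; positivity
  have hD2 : D ^ 2 ≤ 1 := pow_le_one₀ hD0.le hD1
  have hσ1 : σ ≤ 1 := by
    rw [hσ]
    calc β * D ^ 2 ≤ 1 * 1 := mul_le_mul hβ1 hD2 (by positivity) zero_le_one
      _ = 1 := one_mul 1
  have hz : n2 ξ (r - ((σ : ℝ) : ℂ) • w) ^ 2 ≤ D ^ 2 + s ^ 2 - σ ^ 2 + 12 * s := by
    have h1 : r - ((σ : ℝ) : ℂ) • w = r + ((-σ : ℝ) : ℂ) • w := by
      push_cast; rw [neg_smul]; abel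
    have h2 := n2_add_sq hn r (((-σ : ℝ) : ℂ) • w)
    rw [mul_smul_comm, tau_smul, Complex.re_ofReal_mul, n2_smul, ← hR, Complex.norm_real,
      norm_neg, Real.norm_of_nonneg hσ0, hw1, mul_one] at h2
    rw [h1, h2]
    have h3 : β * (D ^ 2 - 5 * s) ≤ β * (R ^ 2 + u) := by
      refine mul_le_mul_of_nonneg_left ?_ hβ0.le
      have : D ^ 2 ≤ R ^ 2 := pow_le_pow_left₀ hD0.le hRD 2
      linarith
    have h4 : σ - 6 * s ≤ (tau ξ (star r * w)).re := by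
      have e1 : β * s ≤ 1 * s := mul_le_mul_of_nonneg_right hβ1 hs0.le
      have e2 : β * (D ^ 2 - 5 * s) = β * D ^ 2 - 5 * (β * s) := by ring
      rw [hσ]; linarith
    have h5 : σ * (σ - 6 * s) ≤ σ * (tau ξ (star r * w)).re := mul_le_mul_of_nonneg_left h4 hσ0
    have h6 : σ * s ≤ 1 * s := mul_le_mul_of_nonneg_right hσ1 hs0.le
    have e1 : σ * (σ - 6 * s) = σ ^ 2 - 6 * (σ * s) := by ring
    have e2 : -σ * (tau ξ (star r * w)).re = -(σ * (tau ξ (star r * w)).re) := by ring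
    rw [e2]
    linarith
  -- (5)
  have hfin : D ≤ n2 ξ (r - ((σ : ℝ) : ℂ) • w) + s := by
    have h1 : y2 + ((σ : ℝ) : ℂ) • w ∈ AL P V2 := add_mem hy2 ((AL P V2).smul_mem hwAL _)
    refine (hDle V2 _ hV2 hV2v h1).trans ?_
    have h2 : x - (y2 + ((σ : ℝ) : ℂ) • w) = (r - ((σ : ℝ) : ℂ) • w) - (y2 - y1) := by
      rw [hxr]; abel
    rw [h2]
    exact (n2_sub_le hn _ _).trans (by linarith)
  have h1 : (D - s) ^ 2 ≤ n2 ξ (r - ((σ : ℝ) : ℂ) • w) ^ 2 :=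
    pow_le_pow_left₀ (by linarith) (by linarith) 2
  have h2 : σ ^ 2 ≤ 14 * s := by
    have e1 : (D - s) ^ 2 = D ^ 2 - 2 * (D * s) + s ^ 2 := by ring
    have e2 : D * s ≤ 1 * s := mul_le_mul_of_nonneg_right hD1 hs0.le
    linarith
  have h3 : (9 / 100 * D ^ 2) ^ 2 ≤ σ ^ 2 := by
    refine pow_le_pow_left₀ (by positivity) ?_ 2
    rw [hσ]
    exact mul_le_mul_of_nonneg_right hβ (by positivity)
  have h4 : (9 / 100 * D ^ 2) ^ 2 = 15 * s := by rw [hs]; ring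
  linarith

end Crest.Agent.R95
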