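import Crest.Agent.R95.ADefs

/-!
# Row 95, piece ABETA: `9/100 ≤ betaf n N (1/(10 n)) ≤ 1`

PROOF.  `a = 1/(10n)`, `ρ_0 = 1 - a²`, `∑_{k ∈ expo N} |rho a k| ≤ 1 + 2a` (prove it here or import
`AMob.rho_sum_le`).  A good `κ` vanishes off the diagonal, so
`betaf = ρ_0^(n²-n) * ∑_{κ ∈ (expo N)^n, ∑ κ = 1} ∏ rho a (κ m)` (reindex by the diagonal entries,
`i = (m,m)`).  Since `κ_m ≤ 1` and `∑ κ = 1`: either exactly one `κ_m = 1` and the others are `0`
(if exactly one is `1` the others are `≤ 0` with sum `0`), or at least two are equal to `1`.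
First kind: total `n a ρ_0^(n-1)`, so the contribution to `betaf` is
`(1/10)(1-a²)^(n²-1) ≥ (1/10)(1 - (n²-1) a²) ≥ 99/1000` (Bernoulli).
Second kind: in absolute value `≤ ∑_{m<m'} a² (1+2a)^(n-2) ≤ (n²/2) (1/(100 n²)) (1+1/(5n))^n
≤ (1/200) exp(1/5) ≤ 1/150`.
-/

set_option autoImplicit false

namespace Crest.Agent.R95

namespace ABetaAux

theorem rho_zero (a : ℝ) : rho a 0 = 1 - a ^ 2 := by
  simp [rho]

theorem rho_one (a : ℝ) : rho a 1 = a := by
  simp [rho]

theorem rho_neg (a : ℝ) (j : ℕ) : rho a (-(j : ℤ)) = (1 - a ^ 2) * (-a) ^ j := by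
  unfold rho
  rw [if_neg (by omega), if_pos (by omega)]
  simp

theorem rho_sum_eq {a : ℝ} (h0 : 0 ≤ a) (h1 : a ≤ 1) (N : ℕ) :
    ∑ k ∈ expo N, |rho a k| = a + (1 + a) * (1 - a ^ (N + 1)) := by
  have hn : 0 ≤ 1 - a ^ 2 := by nlinarith
  induction N with
  | zero =>
    have : expo 0 = {0, 1} := by
      ext x; simp [expo]; omega
    rw [this, Finset.sum_pair (by norm_num), rho_zero, rho_one, abs_of_nonneg hn, abs_of_nonneg h0]
    ring
  | succ N ih =>
    have : expo (N + 1) = insert (-((N + 1 : ℕ) : ℤ)) (expo N) := by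
      ext x; simp [expo]; omega
    rw [this, Finset.sum_insert (by simp [expo]), ih, rho_neg, abs_mul, abs_of_nonneg hn, abs_pow,
      abs_neg, abs_of_nonneg h0]
    ring

theorem rho_sum_le' {a : ℝ} (h0 : 0 ≤ a) (h1 : a ≤ 1) (N : ℕ) :
    ∑ k ∈ expo N, |rho a k| ≤ 1 + 2 * a := by
  rw [rho_sum_eq h0 h1]
  have : 0 ≤ a ^ (N + 1) := by positivity
  nlinarith

/-- the diagonal -/
def diag (n : ℕ) : Finset (Fin (n * n)) :=
  Finset.univ.filter (fun i : Fin (n * n) => i.divNat = i.modNat)

theorem mem_diag {n : ℕ} {i : Fin (n * n)} : i ∈ diag n ↔ i.divNat = i.modNat := by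
  simp [diag]

theorem card_diag (n : ℕ) : (diag n).card = n := by
  have : diag n = Finset.univ.map
      (⟨fun m : Fin n => finProdFinEquiv (m, m), fun x y h => by
        have := finProdFinEquiv.injective h
        simpa using this⟩ : Fin n ↪ Fin (n * n)) := by
    ext i
    rw [mem_diag]
    simp only [Finset.mem_map, Finset.mem_univ, true_and]
    constructor
    · intro h
      refine ⟨i.divNat, ?_⟩
      have h2 : finProdFinEquiv (finProdFinEquiv.symm i) = i := finProdFinEquiv.apply_symm_apply i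
      have h3 : finProdFinEquiv.symm i = (i.divNat, i.modNat) := rfl
      rw [h3, ← h] at h2
      exact h2
    · rintro ⟨m, rfl⟩
      have h2 : finProdFinEquiv.symm (finProdFinEquiv (m, m)) = (m, m) :=
        finProdFinEquiv.symm_apply_apply (m, m)
      have h3 : finProdFinEquiv.symm (finProdFinEquiv (m, m)) =
        ((finProdFinEquiv (m, m)).divNat, (finProdFinEquiv (m, m)).modNat) := rfl
      rw [h3] at h2
      exact (congrArg Prod.fst h2).trans (congrArg Prod.snd h2).symm
  rw [this, Finset.card_map, Finset.card_univ, Fintype.card_fin]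

open Classical in
/-- box of the second kind -/
noncomputable def box (n N : ℕ) (s : Finset (Fin (n * n))) (i : Fin (n * n)) : Finset ℤ :=
  if i ∈ s then {1} else if i ∈ diag n then expo N else {0}

open Classical in
/-- the good set -/
noncomputable def gset (n N : ℕ) : Finset (Fin (n * n) → ℤ) :=
  (Fintype.piFinset (fun _ : Fin (n * n) => expo N)).filter (fun κ => GoodExp κ)

open Classical in
/-- first kind -/
noncomputable def first (n : ℕ) : Finset (Fin (n * n) → ℤ) :=
  (diag n).image (fun i => Pi.single i 1)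

theorem first_sub (n N : ℕ) : first n ⊆ gset n N := by
  classical
  intro κ hκ
  simp only [first, Finset.mem_image] at hκ
  obtain ⟨i, hi, rfl⟩ := hκ
  simp only [gset, Finset.mem_filter, Fintype.mem_piFinset]
  refine ⟨fun j => ?_, fun j hj => ?_, ?_⟩
  · by_cases h : j = i
    · subst h; simp [expo]
    · rw [Pi.single_eq_of_ne h]; simp [expo]
  · have : j ≠ i := by
      rintro rfl
      exact hj (mem_diag.1 hi)
    rw [Pi.single_eq_of_ne this]
  · have h2 := Finset.sum_pi_single i (fun _ => (1 : ℤ)) (diag n)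
    have h3 : ∑ j ∈ diag n, (Pi.single i 1 : Fin (n * n) → ℤ) j = 1 := by
      rw [Finset.sum_eq_single i]
      · simp
      · intro j _ hj; exact Pi.single_eq_of_ne hj _
      · intro h; exact absurd hi h
    exact h3

theorem sum_first {n : ℕ} (a : ℝ) :
    ∑ κ ∈ first n, ∏ i, rho a (κ i) = n * (a * (1 - a ^ 2) ^ (n * n - 1)) := by
  classical
  unfold first
  rw [Finset.sum_image]
  · rw [Finset.sum_congr rfl (g := fun _ => a * (1 - a ^ 2) ^ (n * n - 1))]
    · rw [Finset.sum_const, card_diag, nsmul_eq_mul]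
    · intro i _
      rw [← Finset.mul_prod_erase Finset.univ _ (Finset.mem_univ i)]
      rw [Pi.single_eq_same, rho_one]
      congr 1
      rw [Finset.prod_congr rfl (g := fun _ => 1 - a ^ 2)]
      · rw [Finset.prod_const, Finset.card_erase_of_mem (Finset.mem_univ i), Finset.card_univ,
          Fintype.card_fin]
      · intro j hj
        rw [Pi.single_eq_of_ne (Finset.ne_of_mem_erase hj), rho_zero]
  · intro i _ j _ h
    by_contra hij
    have := congrFun h i
    simp only [Pi.single_eq_same] at this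
    rw [Pi.single_eq_of_ne hij] at this
    exact one_ne_zero this

/-- a good `κ` which is not of the first kind lies in a box -/
theorem second_mem {n N : ℕ} {κ : Fin (n * n) → ℤ} (hκ : κ ∈ gset n N) (h1 : κ ∉ first n) :
    ∃ s ∈ (diag n).powersetCard 2, κ ∈ Fintype.piFinset (box n N s) := by
  classical
  simp only [gset, Finset.mem_filter, Fintype.mem_piFinset] at hκ
  obtain ⟨hb, hoff, hsum⟩ := hκ
  have hle : ∀ i, κ i ≤ 1 := fun i => by
    have := hb i
    simp only [expo, Finset.mem_Icc] at this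
    exact this.2
  have hsum' : ∑ i ∈ diag n, κ i = 1 := hsum
  -- some diagonal entry is one
  obtain ⟨i, hi, hi1⟩ : ∃ i ∈ diag n, κ i = 1 := by
    by_contra hcon
    push Not at hcon
    have : ∑ i ∈ diag n, κ i ≤ 0 := Finset.sum_nonpos fun i hi => by
      have h2 := hle i
      have h3 := hcon i hi
      omega
    omega
  -- another one
  obtain ⟨j, hj, hji, hj1⟩ : ∃ j ∈ diag n, j ≠ i ∧ κ j = 1 := by
    by_contra hcon
    push Not at hcon
    apply h1
    simp only [first, Finset.mem_image]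
    refine ⟨i, hi, ?_⟩
    have hr : ∑ j ∈ (diag n).erase i, κ j = 0 := by
      have := Finset.add_sum_erase (diag n) κ hi
      omega
    have hnp : ∀ j ∈ (diag n).erase i, κ j ≤ 0 := by
      intro j hj
      have h2 := hle j
      have h3 := hcon j (Finset.mem_of_mem_erase hj) (Finset.ne_of_mem_erase hj)
      omega
    have hz := (Finset.sum_eq_zero_iff_of_nonpos hnp).1 hr
    funext j
    by_cases hji : j = i
    · subst hji; rw [Pi.single_eq_same, hi1]
    · rw [Pi.single_eq_of_ne hji]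
      by_cases hjd : j ∈ diag n
      · exact (hz j (Finset.mem_erase.2 ⟨hji, hjd⟩)).symm
      · exact (hoff j (fun h => hjd (mem_diag.2 h))).symm
  refine ⟨{j, i}, ?_, ?_⟩
  · rw [Finset.mem_powersetCard]
    refine ⟨?_, Finset.card_pair hji⟩
    intro x hx
    simp only [Finset.mem_insert, Finset.mem_singleton] at hx
    rcases hx with rfl | rfl
    · exact hj
    · exact hi
  · rw [Fintype.mem_piFinset]
    intro x
    unfold box
    split_ifs with h2 h3
    · simp only [Finset.mem_insert, Finset.mem_singleton] at h2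
      rw [Finset.mem_singleton]
      rcases h2 with rfl | rfl
      · exact hj1
      · exact hi1
    · exact hb x
    · rw [Finset.mem_singleton]
      exact hoff x (fun h => h3 (mem_diag.2 h))

theorem box_sum {n : ℕ} {a : ℝ} (h0 : 0 ≤ a) (h1 : a ≤ 1) (N : ℕ) {s : Finset (Fin (n * n))}
    (hs : s ∈ (diag n).powersetCard 2) :
    ∑ κ ∈ Fintype.piFinset (box n N s), |∏ i, rho a (κ i)| ≤ a ^ 2 * (1 + 2 * a) ^ n := by
  classical
  rw [Finset.mem_powersetCard] at hs
  have e1 : ∀ κ : Fin (n * n) → ℤ, |∏ i, rho a (κ i)| = ∏ i, |rho a (κ i)| := fun κ =>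
    Finset.abs_prod _ _
  simp only [e1]
  rw [← Finset.prod_univ_sum (box n N s) (fun _ k => |rho a k|)]
  have hle : ∀ i : Fin (n * n), ∑ k ∈ box n N s i, |rho a k| ≤
      (if i ∈ s then a else 1) * (if i ∈ diag n then (1 + 2 * a) else 1) := by
    intro i
    unfold box
    by_cases h2 : i ∈ s
    · rw [if_pos h2, if_pos h2, if_pos (hs.1 h2), Finset.sum_singleton, rho_one, abs_of_nonneg h0]
      nlinarith
    · rw [if_neg h2, if_neg h2, one_mul]
      by_cases h3 : i ∈ diag n
      · rw [if_pos h3, if_pos h3]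
        exact rho_sum_le' h0 h1 N
      · rw [if_neg h3, if_neg h3, Finset.sum_singleton, rho_zero, abs_of_nonneg (by nlinarith)]
        nlinarith
  refine (Finset.prod_le_prod (fun i _ => Finset.sum_nonneg fun _ _ => abs_nonneg _)
    (fun i _ => hle i)).trans (le_of_eq ?_)
  rw [Finset.prod_mul_distrib, Finset.prod_ite_mem, Finset.prod_ite_mem, Finset.univ_inter,
    Finset.univ_inter, Finset.prod_const, Finset.prod_const, hs.2, card_diag]

theorem second_le {n : ℕ} {a : ℝ} (h0 : 0 ≤ a) (h1 : a ≤ 1) (N : ℕ) :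
    |betaf n N a - n * (a * (1 - a ^ 2) ^ (n * n - 1))| ≤
      (n.choose 2 : ℝ) * (a ^ 2 * (1 + 2 * a) ^ n) := by
  classical
  have e0 : betaf n N a = ∑ κ ∈ gset n N, ∏ i, rho a (κ i) := rfl
  have e1 : betaf n N a - n * (a * (1 - a ^ 2) ^ (n * n - 1)) =
      ∑ κ ∈ gset n N \ first n, ∏ i, rho a (κ i) := by
    rw [e0, ← sum_first, ← Finset.sum_sdiff (first_sub n N)]
    ring
  rw [e1]
  refine (Finset.abs_sum_le_sum_abs _ _).trans ?_
  have h2 : ∀ κ ∈ gset n N \ first n, |∏ i, rho a (κ i)| ≤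
      ∑ s ∈ (diag n).powersetCard 2,
        (if κ ∈ Fintype.piFinset (box n N s) then |∏ i, rho a (κ i)| else 0) := by
    intro κ hκ
    rw [Finset.mem_sdiff] at hκ
    obtain ⟨s, hs, hm⟩ := second_mem hκ.1 hκ.2
    refine le_trans (le_of_eq ?_) (Finset.single_le_sum (f := fun s =>
      (if κ ∈ Fintype.piFinset (box n N s) then |∏ i, rho a (κ i)| else 0)) (fun s _ => ?_) hs)
    · simp only [if_pos hm]
    · split_ifs
      · exact abs_nonneg _
      · exact le_rfl
  refine (Finset.sum_le_sum h2).trans ?_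
  rw [Finset.sum_comm]
  have h3 : ∀ s ∈ (diag n).powersetCard 2, ∑ κ ∈ gset n N \ first n,
      (if κ ∈ Fintype.piFinset (box n N s) then |∏ i, rho a (κ i)| else 0) ≤
      a ^ 2 * (1 + 2 * a) ^ n := by
    intro s hs
    refine le_trans ?_ (box_sum h0 h1 N hs)
    rw [← Finset.sum_filter]
    refine Finset.sum_le_sum_of_subset_of_nonneg ?_ (fun _ _ _ => abs_nonneg _)
    intro κ hκ
    exact (Finset.mem_filter.1 hκ).2
  refine (Finset.sum_le_sum h3).trans (le_of_eq ?_)
  rw [Finset.sum_const, Finset.card_powersetCard, card_diag, nsmul_eq_mul]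

theorem main {n : ℕ} (hn : 1 ≤ n) (N : ℕ) :
    99 / 1000 - 1 / 150 ≤ betaf n N (1 / (10 * n)) ∧
      betaf n N (1 / (10 * n)) ≤ 1 / 10 + 1 / 150 := by
  set a : ℝ := 1 / (10 * n) with ha
  have hn' : (1 : ℝ) ≤ n := by exact_mod_cast hn
  have hn0 : (0 : ℝ) < n := by linarith
  have hna : (n : ℝ) * a = 1 / 10 := by rw [ha]; field_simp
  have h0 : 0 ≤ a := by rw [ha]; positivity
  have h1 : a ≤ 1 := by
    rw [ha, div_le_one (by positivity)]; linarith
  have h := second_le h0 h1 N (n := n)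
  -- error
  have he : (n.choose 2 : ℝ) * (a ^ 2 * (1 + 2 * a) ^ n) ≤ 1 / 150 := by
    have c1 : (n.choose 2 : ℝ) ≤ n ^ 2 / 2 := by
      rw [Nat.cast_choose_two]
      nlinarith
    have c2 : (1 + 2 * a) ^ n ≤ 5 / 4 := by
      have c3 : (1 + 2 * a) ^ n ≤ (Real.exp (2 * a)) ^ n :=
        pow_le_pow_left₀ (by linarith) (by linarith [Real.add_one_le_exp (2 * a)]) n
      rw [← Real.exp_nat_mul] at c3
      have c4 : (n : ℝ) * (2 * a) = 1 / 5 := by
        rw [show (n : ℝ) * (2 * a) = 2 * (n * a) by ring, hna]; norm_num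
      rw [c4] at c3
      have c5 : (1 : ℝ) - 1 / 5 ≤ Real.exp (-(1 / 5)) := by
        have := Real.add_one_le_exp (-(1 / 5) : ℝ)
        linarith
      have c6 : Real.exp (1 / 5) * Real.exp (-(1 / 5)) = 1 := by
        rw [← Real.exp_add]; simp
      have c7 : 0 < Real.exp (1 / 5) := Real.exp_pos _
      have c8 : Real.exp (1 / 5) ≤ 5 / 4 := by nlinarith
      linarith
    have c9 : (n : ℝ) ^ 2 * a ^ 2 = 1 / 100 := by
      rw [← mul_pow, hna]; norm_num
    calc (n.choose 2 : ℝ) * (a ^ 2 * (1 + 2 * a) ^ n)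
        ≤ (n ^ 2 / 2) * (a ^ 2 * (5 / 4)) := by
          apply mul_le_mul c1 _ (by positivity) (by positivity)
          exact mul_le_mul_of_nonneg_left c2 (by positivity)
      _ = (n ^ 2 * a ^ 2) * (5 / 8) := by ring
      _ ≤ 1 / 150 := by rw [c9]; norm_num
  have hmain : (n : ℝ) * (a * (1 - a ^ 2) ^ (n * n - 1)) = 1 / 10 * (1 - a ^ 2) ^ (n * n - 1) := by
    rw [← mul_assoc, hna]
  rw [hmain] at h
  have hup : (1 - a ^ 2) ^ (n * n - 1) ≤ 1 := pow_le_one₀ (by nlinarith) (by nlinarith)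
  have hlo : 99 / 100 ≤ (1 - a ^ 2) ^ (n * n - 1) := by
    have hb := one_add_mul_le_pow (a := -a ^ 2) (by nlinarith) (n * n - 1)
    have hc : ((n * n - 1 : ℕ) : ℝ) ≤ n ^ 2 := by
      have : n * n - 1 ≤ n ^ 2 := by rw [pow_two]; omega
      exact_mod_cast this
    have c9 : (n : ℝ) ^ 2 * a ^ 2 = 1 / 100 := by
      rw [← mul_pow, hna]; norm_num
    have hd : ((n * n - 1 : ℕ) : ℝ) * a ^ 2 ≤ 1 / 100 := by
      rw [← c9]; exact mul_le_mul_of_nonneg_right hc (by positivity)
    have e : (1 : ℝ) + -a ^ 2 = 1 - a ^ 2 := by ring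
    rw [e] at hb
    nlinarith
  have h' := abs_le.1 (h.trans he)
  constructor <;> nlinarith [h'.1, h'.2]

end ABetaAux

theorem betaf_ge {n : ℕ} (hn : 1 ≤ n) (N : ℕ) : 9 / 100 ≤ betaf n N (1 / (10 * n)) := by
  have := (ABetaAux.main hn N).1
  linarith

theorem betaf_le {n : ℕ} (hn : 1 ≤ n) (N : ℕ) : betaf n N (1 / (10 * n)) ≤ 1 := by
  have := (ABetaAux.main hn N).2
  linarith

end Crest.Agent.R95
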