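import Mathlib
import Crest.Prelude.Def_VNFactor

/-!
# Row 95 (S0125, S0126): definitions

`tau ξ x = ∑ ⟪ξ n, x ξ n⟫` (the trace on `M`), `n2 ξ x = √(∑ ‖x ξ n‖²)` (the trace 2-norm).
`Sit P M ξ`: `P ≤ M` irreducible, `P` infinite dimensional, `ξ` faithful tracial for `M`
(then `P` and `M` are factors of type II₁).
`Fac P ξ`: `P` is a II₁ factor with trace vector sequence `ξ`.
`Pj P p`: `p` is a projection of `P`.  `p ≤ e` for projections is written `p * e = p`.
`AL P V`: the (algebraic) star algebra generated by `P` and `V`.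
-/

set_option autoImplicit false

namespace Crest.Agent.R95

open Crest.OpAlg

variable {H : Type*} [NormedAddCommGroup H] [InnerProductSpace ℂ H] [CompleteSpace H]

/-- the trace -/
noncomputable def tau (ξ : ℕ → H) (x : H →L[ℂ] H) : ℂ := vectorState ξ x

/-- the trace 2-norm -/
noncomputable def n2 (ξ : ℕ → H) (x : H →L[ℂ] H) : ℝ := Real.sqrt (traceNormSq ξ x)

/-- real part of the trace -/
noncomputable def tr (ξ : ℕ → H) (x : H →L[ℂ] H) : ℝ := (tau ξ x).re

/-- `ξ` is a faithful tracial vector state -/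
abbrev Trc (M : VonNeumannAlgebra H) (ξ : ℕ → H) : Prop := IsFaithfulTracialVectorState M ξ

/-- `p` is a projection of `P` -/
def Pj (P : VonNeumannAlgebra H) (p : H →L[ℂ] H) : Prop := p ∈ P ∧ IsStarProjection p

/-- `P` is a II₁ factor with trace vectors `ξ` -/
structure Fac (P : VonNeumannAlgebra H) (ξ : ℕ → H) : Prop where
  fac : IsFactor P
  inf : ¬ FiniteDimensional ℂ P.toStarSubalgebra
  trc : Trc P ξ

/-- irreducible inclusion of II₁ factors -/
structure Sit (P M : VonNeumannAlgebra H) (ξ : ℕ → H) : Prop where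
  le : P ≤ M
  trc : Trc M ξ
  irr : ∀ x ∈ M, (∀ y ∈ P, x * y = y * x) → ∃ c : ℂ, x = c • (1 : H →L[ℂ] H)
  inf : ¬ FiniteDimensional ℂ P.toStarSubalgebra

theorem Sit.fac {P M : VonNeumannAlgebra H} {ξ : ℕ → H} (h : Sit P M ξ) : Fac P ξ where
  fac := fun x hx hc => h.irr x (h.le hx) hc
  inf := h.inf
  trc := ⟨h.trc.1, fun x hx y hy => h.trc.2.1 x (h.le hx) y (h.le hy),
    fun x hx => h.trc.2.2 x (h.le hx)⟩

theorem Fac.sit {P : VonNeumannAlgebra H} {ξ : ℕ → H} (h : Fac P ξ) : Sit P P ξ where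
  le := le_rfl
  trc := h.trc
  irr := fun x hx hc => h.fac x hx hc
  inf := h.inf

/-- star algebra generated by `P` and `V` -/
noncomputable def AL (P : VonNeumannAlgebra H) (V : H →L[ℂ] H) : StarSubalgebra ℂ (H →L[ℂ] H) :=
  StarAlgebra.adjoin ℂ ((P : Set (H →L[ℂ] H)) ∪ {V})

/-- unitaries of `M` -/
def Un (M : VonNeumannAlgebra H) (u : H →L[ℂ] H) : Prop := u ∈ M ∧ u ∈ unitary (H →L[ℂ] H)

/-- matrix units of size `N` in `P` with unit `e` -/
structure MU (P : VonNeumannAlgebra H) (e : H →L[ℂ] H) (N : ℕ)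
    (E : Fin N → Fin N → (H →L[ℂ] H)) : Prop where
  mem : ∀ i j, E i j ∈ P
  mul : ∀ i j k l, E i j * E k l = if j = k then E i l else 0
  star : ∀ i j, star (E i j) = E j i
  sum : ∑ i, E i i = e

end Crest.Agent.R95
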