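import Mathlib
import Crest.Agent.R95.Defs

/-!
# Row 95, algebraic half (files `A*.lean`, architect helper77): common definitions

From (STAR) (asymptotic freeness of `c_i v_i`, `c_i ∈ U(P)`) to the density theorem `approx`.

NOTATION of the proof.  `n ≥ 1`, `a = 1/(10 n)`, `c₀ = 9/100`.
* words: `g : Fin (n+1) → G` elements of a group, `tw g l = g 0 * ... * g (l-1)` for `l = 0..n+1`,
  `tt g m = tw g (m+1)` (`m : Fin n`), `zz g = (tw g (n+1))⁻¹`,
  `zlm g l m = tt g l * (tt g m)⁻¹ * zz g * tt g m * (tt g l)⁻¹`.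
* Moebius unitary: `mob a z = (1 + a z) (1 + a z*)⁻¹ = ∑_{k ≤ 1} rho a k z^k`,
  `rho a 1 = a`, `rho a (-j) = (1-a²)(-a)^j` for `j ≥ 0`.
* `Kf a g = ∏_{m<n} mob a ((tt g m)⁻¹ * zz g * tt g m)`.

Main idea: given unitaries `v, x ∈ M`, take `c_i ∈ U(P)` such that `g_i = c_i v` (`i < n`),
`g_n = c_n x*` are almost free from a finite subset of `M`; `K = Kf a g` is a unitary of `M` close
to `1` in 2-norm (`‖K-1‖₂² ≲ 2 n a² = 1/(50 n)`), and for `v' = v K`
`c_0 v' c_1 v' ⋯ c_{n-1} v' c_n = ∏_{l,m} mob a (z_{lm}) z⁻¹ x`, which is weakly close to `β x`,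
`β = betaf n N a ∈ [9/100, 1]`.
-/

set_option autoImplicit false

namespace Crest.Agent.R95

/-! ### group words -/

section words
variable {G : Type*} [Group G] {n : ℕ}

/-- `tw g l = g 0 * g 1 * ⋯ * g (l-1)` (constant for `l ≥ n+1`) -/
def tw (g : Fin (n + 1) → G) : ℕ → G
  | 0 => 1
  | (l + 1) => tw g l * (if h : l < n + 1 then g ⟨l, h⟩ else 1)

/-- generate the unfolding lemmas of `tw` here, once (several files use them) -/
theorem tw_unfold_all (g : Fin (n + 1) → G) (l : ℕ) :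
    tw g l = match l with
      | 0 => 1
      | (l + 1) => tw g l * (if h : l < n + 1 then g ⟨l, h⟩ else 1) := tw.eq_def g l

theorem tw_unfold_zero (g : Fin (n + 1) → G) : tw g 0 = 1 := tw.eq_1 g

theorem tw_unfold_succ (g : Fin (n + 1) → G) (l : ℕ) :
    tw g (l + 1) = tw g l * (if h : l < n + 1 then g ⟨l, h⟩ else 1) := tw.eq_2 g l

/-- `zz g = (g 0 * ⋯ * g n)⁻¹` -/
def zz (g : Fin (n + 1) → G) : G := (tw g (n + 1))⁻¹

/-- `tt g m = g 0 * ⋯ * g m`, `m < n` -/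
def tt (g : Fin (n + 1) → G) (m : Fin n) : G := tw g (m.val + 1)

/-- `zlm g l m = t_l t_m⁻¹ z t_m t_l⁻¹` -/
def zlm (g : Fin (n + 1) → G) (l m : Fin n) : G :=
  tt g l * (tt g m)⁻¹ * zz g * tt g m * (tt g l)⁻¹

/-- the word `∏_{l,m} (z_{lm})^{κ_{lm}} * z⁻¹` (ordered: `l` outer, `m` inner) -/
def bigWord (g : Fin (n + 1) → G) (κ : Fin (n * n) → ℤ) : G :=
  (List.ofFn fun i : Fin (n * n) => (zlm g i.divNat i.modNat) ^ (κ i)).prod * (zz g)⁻¹

/-- the word `∏_m (t_m⁻¹ z t_m)^{κ_m}` -/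
def smallWord (g : Fin (n + 1) → G) (κ : Fin n → ℤ) : G :=
  (List.ofFn fun m : Fin n => ((tt g m)⁻¹ * zz g * tt g m) ^ (κ m)).prod

/-- good exponents: off-diagonal zero, diagonal sum one -/
def GoodExp (κ : Fin (n * n) → ℤ) : Prop :=
  (∀ i, i.divNat ≠ i.modNat → κ i = 0) ∧
    ∑ i ∈ Finset.univ.filter (fun i : Fin (n * n) => i.divNat = i.modNat), κ i = 1

end words

/-! ### Moebius unitaries -/

section mob
variable {B : Type*} [CStarAlgebra B]

/-- `mob a z = (1 + a z)(1 + a z*)⁻¹` -/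
noncomputable def mob (a : ℝ) (z : unitary B) : B :=
  (1 + (a : ℂ) • (z : B)) * Ring.inverse (1 + (a : ℂ) • star (z : B))

/-- Laurent coefficients of `mob a` : `rho a 1 = a`, `rho a (-j) = (1-a²)(-a)^j` (`j ≥ 0`),
`rho a k = 0` for `k ≥ 2` -/
noncomputable def rho (a : ℝ) (k : ℤ) : ℝ :=
  if k = 1 then a else if k ≤ 0 then (1 - a ^ 2) * (-a) ^ (-k).toNat else 0

/-- the index set `{-N, ..., 1}` -/
noncomputable def expo (N : ℕ) : Finset ℤ := Finset.Icc (-(N : ℤ)) 1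

/-- `Kf a g = ∏_{m<n} mob a (t_m⁻¹ z t_m)` -/
noncomputable def Kf {n : ℕ} (a : ℝ) (g : Fin (n + 1) → unitary B) : B :=
  (List.ofFn fun m : Fin n => mob a ((tt g m)⁻¹ * zz g * tt g m)).prod

open Classical in
/-- `β(n,N,a) = ∑_{κ good} ∏ rho a (κ i)` -/
noncomputable def betaf (n N : ℕ) (a : ℝ) : ℝ :=
  ∑ κ ∈ (Fintype.piFinset (fun _ : Fin (n * n) => expo N)).filter (fun κ => GoodExp κ),
    ∏ i, rho a (κ i)

/-- generalized word `c_0 X c_1 X ⋯ c_{n-1} X c_n` -/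
def wordf {n : ℕ} (c : Fin (n + 1) → B) (X : B) : B :=
  (List.ofFn fun i : Fin n => c i.castSucc * X).prod * c (Fin.last n)

end mob

end Crest.Agent.R95
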