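import Crest.Agent.R95.Defs

/-!
# Row 95, piece TRA: trace and 2-norm API, no algebra

`Nr ξ` is the normalization `∑ ‖ξ n‖² = 1`.  Everything here is elementary
(`|⟪x ξ n, y ξ n⟫| ≤ (‖x ξ n‖² + ‖y ξ n‖²)/2`, summability from `‖x ξ n‖ ≤ ‖x‖ ‖ξ n‖`).
The map `x ↦ (x ξ n)_n ∈ ℓ²(ℕ, H)` is linear with norm `n2`; one way is to build it with `lp` and
read off the triangle inequality and Cauchy–Schwarz from there.
-/

set_option autoImplicit false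

namespace Crest.Agent.R95

open Crest.OpAlg
open scoped InnerProductSpace ComplexConjugate

variable {H : Type*} [NormedAddCommGroup H] [InnerProductSpace ℂ H] [CompleteSpace H]

/-- normalization of the vector sequence -/
abbrev Nr (ξ : ℕ → H) : Prop := HasSum (fun n => ‖ξ n‖ ^ 2) 1

variable {ξ : ℕ → H}

theorem summable_n2 (h : Nr ξ) (x : H →L[ℂ] H) : Summable (fun n => ‖x (ξ n)‖ ^ 2) := by
  refine Summable.of_nonneg_of_le (fun n => sq_nonneg _) (fun n => ?_)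
    (h.summable.mul_left (‖x‖ ^ 2))
  rw [← mul_pow]
  exact pow_le_pow_left₀ (norm_nonneg _) (x.le_opNorm _) 2

/-- the element `(x ξ n)_n` of `ℓ²(ℕ, H)` -/
noncomputable def TrA.J (h : Nr ξ) (x : H →L[ℂ] H) : lp (fun _ : ℕ => H) 2 :=
  ⟨fun n => x (ξ n), memℓp_gen (by simpa using summable_n2 h x)⟩

theorem TrA.J_apply (h : Nr ξ) (x : H →L[ℂ] H) (n : ℕ) : TrA.J h x n = x (ξ n) := rfl

theorem TrA.J_add (h : Nr ξ) (x y : H →L[ℂ] H) : TrA.J h (x + y) = TrA.J h x + TrA.J h y := by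
  ext n; rfl

theorem TrA.J_smul (h : Nr ξ) (c : ℂ) (x : H →L[ℂ] H) : TrA.J h (c • x) = c • TrA.J h x := by
  ext n; rfl

theorem TrA.J_sub (h : Nr ξ) (x y : H →L[ℂ] H) : TrA.J h (x - y) = TrA.J h x - TrA.J h y := by
  ext n; rfl

theorem TrA.norm_sq (h : Nr ξ) (x : H →L[ℂ] H) : ‖TrA.J h x‖ ^ 2 = ∑' n, ‖x (ξ n)‖ ^ 2 := by
  have h1 := lp.norm_rpow_eq_tsum (p := 2) (by norm_num) (TrA.J h x)
  simpa [TrA.J_apply] using h1

theorem TrA.norm_eq (h : Nr ξ) (x : H →L[ℂ] H) : n2 ξ x = ‖TrA.J h x‖ := by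
  rw [n2, traceNormSq, ← TrA.norm_sq h x, Real.sqrt_sq (norm_nonneg _)]

theorem TrA.hasSum_inner (h : Nr ξ) (x y : H →L[ℂ] H) :
    HasSum (fun n => ⟪x (ξ n), y (ξ n)⟫_ℂ) ⟪TrA.J h x, TrA.J h y⟫_ℂ :=
  lp.hasSum_inner (TrA.J h x) (TrA.J h y)

theorem summable_inner (h : Nr ξ) (x y : H →L[ℂ] H) :
    Summable (fun n => ⟪x (ξ n), y (ξ n)⟫_ℂ) :=
  (TrA.hasSum_inner h x y).summable

theorem TrA.tau_star_mul (h : Nr ξ) (x y : H →L[ℂ] H) :
    tau ξ (star x * y) = ⟪TrA.J h x, TrA.J h y⟫_ℂ := by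
  rw [← (TrA.hasSum_inner h x y).tsum_eq, tau, vectorState]
  refine tsum_congr fun n => ?_
  rw [ContinuousLinearMap.star_eq_adjoint, ContinuousLinearMap.mul_apply,
    ContinuousLinearMap.adjoint_inner_right]

theorem TrA.tau_eq (h : Nr ξ) (x : H →L[ℂ] H) :
    tau ξ x = ⟪TrA.J h 1, TrA.J h x⟫_ℂ := by
  rw [← TrA.tau_star_mul h, star_one, one_mul]

theorem tau_zero : tau ξ (0 : H →L[ℂ] H) = 0 := by
  simp [tau, vectorState]

theorem tau_add (h : Nr ξ) (x y : H →L[ℂ] H) : tau ξ (x + y) = tau ξ x + tau ξ y := by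
  rw [TrA.tau_eq h, TrA.tau_eq h, TrA.tau_eq h, TrA.J_add, inner_add_right]

theorem tau_smul (c : ℂ) (x : H →L[ℂ] H) : tau ξ (c • x) = c * tau ξ x := by
  simp only [tau, vectorState, ContinuousLinearMap.smul_apply, inner_smul_right]
  exact tsum_mul_left

theorem tau_neg (x : H →L[ℂ] H) : tau ξ (-x) = - tau ξ x := by
  have h := tau_smul (ξ := ξ) (-1) x
  rwa [neg_one_smul, neg_one_mul] at h

theorem tau_sub (h : Nr ξ) (x y : H →L[ℂ] H) : tau ξ (x - y) = tau ξ x - tau ξ y := by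
  rw [sub_eq_add_neg, tau_add h, tau_neg, ← sub_eq_add_neg]

theorem tau_sum (h : Nr ξ) {ι : Type*} (s : Finset ι) (f : ι → (H →L[ℂ] H)) :
    tau ξ (∑ i ∈ s, f i) = ∑ i ∈ s, tau ξ (f i) := by
  classical
  induction s using Finset.induction_on with
  | empty => simp [tau_zero]
  | insert a s ha ih => rw [Finset.sum_insert ha, Finset.sum_insert ha, tau_add h, ih]

theorem tau_one (h : Nr ξ) : tau ξ (1 : H →L[ℂ] H) = 1 := by
  simp only [tau, vectorState, ContinuousLinearMap.one_apply, inner_self_eq_norm_sq_to_K]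
  have h1 := (Complex.hasSum_ofReal.mpr h).tsum_eq
  simpa using h1

theorem tau_star (x : H →L[ℂ] H) : tau ξ (star x) = conj (tau ξ x) := by
  simp only [tau, vectorState]
  rw [Complex.conj_tsum]
  refine tsum_congr fun n => ?_
  rw [ContinuousLinearMap.star_eq_adjoint, ContinuousLinearMap.adjoint_inner_right,
    inner_conj_symm]

theorem n2_nonneg (x : H →L[ℂ] H) : 0 ≤ n2 ξ x := Real.sqrt_nonneg _

theorem n2_sq (x : H →L[ℂ] H) : n2 ξ x ^ 2 = traceNormSq ξ x :=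
  Real.sq_sqrt (tsum_nonneg fun _ => sq_nonneg _)

theorem n2_sq' (x : H →L[ℂ] H) : n2 ξ x ^ 2 = ∑' n, ‖x (ξ n)‖ ^ 2 := n2_sq x

theorem tau_star_mul_self (h : Nr ξ) (x : H →L[ℂ] H) :
    tau ξ (star x * x) = ((n2 ξ x ^ 2 : ℝ) : ℂ) := by
  rw [TrA.tau_star_mul h, TrA.norm_eq h, inner_self_eq_norm_sq_to_K]
  push_cast
  rfl

/-- Cauchy–Schwarz -/
theorem tau_cs (h : Nr ξ) (x y : H →L[ℂ] H) :
    ‖tau ξ (star y * x)‖ ≤ n2 ξ y * n2 ξ x := by
  rw [TrA.tau_star_mul h, TrA.norm_eq h, TrA.norm_eq h]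
  exact norm_inner_le_norm _ _

theorem TrA.n2_one (h : Nr ξ) : n2 ξ (1 : H →L[ℂ] H) = 1 := by
  have h1 : n2 ξ (1 : H →L[ℂ] H) ^ 2 = 1 := by
    rw [n2_sq']
    simpa using h.tsum_eq
  nlinarith [n2_nonneg (ξ := ξ) (1 : H →L[ℂ] H)]

theorem norm_tau_le_n2 (h : Nr ξ) (x : H →L[ℂ] H) : ‖tau ξ x‖ ≤ n2 ξ x := by
  have h1 := tau_cs h x 1
  rwa [star_one, one_mul, TrA.n2_one h, one_mul] at h1

theorem n2_le_norm (h : Nr ξ) (x : H →L[ℂ] H) : n2 ξ x ≤ ‖x‖ := by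
  have h1 : n2 ξ x ^ 2 ≤ ‖x‖ ^ 2 := by
    rw [n2_sq']
    have h2 := (h.mul_left (‖x‖ ^ 2))
    rw [mul_one] at h2
    rw [← h2.tsum_eq]
    refine (summable_n2 h x).tsum_le_tsum (fun n => ?_) h2.summable
    rw [← mul_pow]
    exact pow_le_pow_left₀ (norm_nonneg _) (x.le_opNorm _) 2
  exact (abs_le_of_sq_le_sq' h1 (norm_nonneg _)).2

theorem norm_tau_le (h : Nr ξ) (x : H →L[ℂ] H) : ‖tau ξ x‖ ≤ ‖x‖ :=
  (norm_tau_le_n2 h x).trans (n2_le_norm h x)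

theorem n2_zero : n2 ξ (0 : H →L[ℂ] H) = 0 := by
  simp [n2, traceNormSq]

theorem n2_neg (x : H →L[ℂ] H) : n2 ξ (-x) = n2 ξ x := by
  simp [n2, traceNormSq]

theorem n2_smul (c : ℂ) (x : H →L[ℂ] H) : n2 ξ (c • x) = ‖c‖ * n2 ξ x := by
  simp only [n2, traceNormSq, ContinuousLinearMap.smul_apply, norm_smul, mul_pow]
  rw [tsum_mul_left, Real.sqrt_mul (sq_nonneg _), Real.sqrt_sq (norm_nonneg _)]

theorem n2_add_le (h : Nr ξ) (x y : H →L[ℂ] H) : n2 ξ (x + y) ≤ n2 ξ x + n2 ξ y := by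
  rw [TrA.norm_eq h, TrA.norm_eq h, TrA.norm_eq h, TrA.J_add]
  exact norm_add_le _ _

theorem n2_sub_le (h : Nr ξ) (x y : H →L[ℂ] H) : n2 ξ (x - y) ≤ n2 ξ x + n2 ξ y := by
  rw [TrA.norm_eq h, TrA.norm_eq h, TrA.norm_eq h, TrA.J_sub]
  exact norm_sub_le _ _

theorem n2_sub_comm (x y : H →L[ℂ] H) : n2 ξ (x - y) = n2 ξ (y - x) := by
  rw [← n2_neg, neg_sub]

theorem n2_tri (h : Nr ξ) (x y z : H →L[ℂ] H) : n2 ξ (x - z) ≤ n2 ξ (x - y) + n2 ξ (y - z) := by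
  have h1 := n2_add_le h (x - y) (y - z)
  rwa [sub_add_sub_cancel] at h1

theorem n2_sum_le (h : Nr ξ) {ι : Type*} (s : Finset ι) (f : ι → (H →L[ℂ] H)) :
    n2 ξ (∑ i ∈ s, f i) ≤ ∑ i ∈ s, n2 ξ (f i) := by
  classical
  induction s using Finset.induction_on with
  | empty => simp [n2_zero]
  | insert a s ha ih =>
    rw [Finset.sum_insert ha, Finset.sum_insert ha]
    exact (n2_add_le h _ _).trans (by linarith)

theorem n2_mul_le (h : Nr ξ) (a x : H →L[ℂ] H) : n2 ξ (a * x) ≤ ‖a‖ * n2 ξ x := by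
  have h1 : n2 ξ (a * x) ^ 2 ≤ (‖a‖ * n2 ξ x) ^ 2 := by
    rw [mul_pow, n2_sq', n2_sq', ← tsum_mul_left]
    refine (summable_n2 h (a * x)).tsum_le_tsum (fun n => ?_) ((summable_n2 h x).mul_left _)
    rw [← mul_pow]
    exact pow_le_pow_left₀ (norm_nonneg _) (a.le_opNorm _) 2
  exact abs_le_of_sq_le_sq' h1 (mul_nonneg (norm_nonneg _) (n2_nonneg _)) |>.2

theorem n2_add_sq (h : Nr ξ) (x y : H →L[ℂ] H) :
    n2 ξ (x + y) ^ 2 = n2 ξ x ^ 2 + 2 * (tau ξ (star x * y)).re + n2 ξ y ^ 2 := by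
  rw [TrA.norm_eq h, TrA.norm_eq h, TrA.norm_eq h, TrA.J_add, TrA.tau_star_mul h]
  exact norm_add_sq (𝕜 := ℂ) _ _

/-- Pythagoras for a finite family that is orthogonal for the trace form -/
theorem n2_sum_sq (h : Nr ξ) {ι : Type*} (s : Finset ι) (f : ι → (H →L[ℂ] H))
    (ho : ∀ i ∈ s, ∀ j ∈ s, i ≠ j → tau ξ (star (f i) * f j) = 0) :
    n2 ξ (∑ i ∈ s, f i) ^ 2 = ∑ i ∈ s, n2 ξ (f i) ^ 2 := by
  classical
  induction s using Finset.induction_on with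
  | empty => simp [n2_zero]
  | insert a s ha ih =>
    rw [Finset.sum_insert ha, Finset.sum_insert ha, n2_add_sq h, ih
      (fun i hi j hj => ho i (Finset.mem_insert_of_mem hi) j (Finset.mem_insert_of_mem hj)),
      Finset.mul_sum, tau_sum h, Finset.sum_eq_zero]
    · simp
    · intro i hi
      refine ho a (Finset.mem_insert_self _ _) i (Finset.mem_insert_of_mem hi) ?_
      rintro rfl
      exact ha hi

theorem n2_unitary_mul (u x : H →L[ℂ] H) (hu : star u * u = 1) : n2 ξ (u * x) = n2 ξ x := by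
  simp only [n2, traceNormSq]
  congr 1
  refine tsum_congr fun n => ?_
  have h1 : ∀ v : H, ‖u v‖ ^ 2 = ‖v‖ ^ 2 := by
    intro v
    have h2 : ⟪u v, u v⟫_ℂ = ⟪v, v⟫_ℂ := by
      rw [← ContinuousLinearMap.adjoint_inner_right, ← ContinuousLinearMap.star_eq_adjoint,
        ← ContinuousLinearMap.mul_apply, hu, ContinuousLinearMap.one_apply]
    rw [inner_self_eq_norm_sq_to_K, inner_self_eq_norm_sq_to_K] at h2
    exact_mod_cast h2
  rw [ContinuousLinearMap.mul_apply, h1]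

end Crest.Agent.R95
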