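import Crest.Agent.R95.AMob
import Crest.Agent.R95.TrA

/-!
# Row 95, piece AEXP: noncommutative expansion of a product of Moebius unitaries
-/

set_option autoImplicit false

namespace Crest.Agent.R95

open Crest.OpAlg

theorem ofFn_prod_sum {R : Type*} [Ring R] [Algebra ℂ R] {p : ℕ} (s : Finset ℤ) (r : ℤ → ℂ)
    (F : Fin p → ℤ → R) :
    (List.ofFn fun i : Fin p => ∑ k ∈ s, r k • F i k).prod =
      ∑ κ ∈ Fintype.piFinset (fun _ : Fin p => s),
        (∏ i, r (κ i)) • (List.ofFn fun i => F i (κ i)).prod := by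
  induction p with
  | zero => simp
  | succ p ih =>
    rw [List.ofFn_succ, List.prod_cons, ih (fun i => F i.succ), Finset.sum_mul_sum,
      ← Finset.sum_product']
    refine Finset.sum_nbij' (fun x => Fin.cons x.1 x.2) (fun κ => (κ 0, Fin.tail κ)) ?_ ?_ ?_ ?_ ?_
    · intro x hx
      rw [Finset.mem_product] at hx
      rw [Fintype.mem_piFinset] at hx ⊢
      intro i
      refine Fin.cases ?_ (fun j => ?_) i
      · simpa using hx.1
      · simpa using hx.2 j
    · intro κ hκ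
      rw [Fintype.mem_piFinset] at hκ
      rw [Finset.mem_product, Fintype.mem_piFinset]
      exact ⟨hκ 0, fun j => hκ j.succ⟩
    · intro x _
      simp
    · intro κ _
      simp
    · intro x _
      rw [Fin.prod_univ_succ, List.ofFn_succ, List.prod_cons]
      simp only [Fin.cons_zero, Fin.cons_succ]
      rw [smul_mul_smul_comm]

theorem prod_norm_le {R : Type*} [NormedRing R] (hone : ‖(1 : R)‖ ≤ 1) {p : ℕ}
    (A : Fin p → R) {C : ℝ} (hC : 0 ≤ C) (hA : ∀ i, ‖A i‖ ≤ C) :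
    ‖(List.ofFn A).prod‖ ≤ C ^ p := by
  induction p with
  | zero => simpa using hone
  | succ p ih =>
    rw [List.ofFn_succ, List.prod_cons, pow_succ, mul_comm (C ^ p)]
    exact (norm_mul_le _ _).trans (mul_le_mul (hA 0) (ih _ (fun i => hA i.succ)) (norm_nonneg _) hC)

theorem ofFn_prod_sub_le {R : Type*} [NormedRing R] (hone : ‖(1 : R)‖ ≤ 1) {p : ℕ}
    (A A' : Fin p → R) {η : ℝ} (hA : ∀ i, ‖A i‖ ≤ 1) (hA' : ∀ i, ‖A' i‖ ≤ 2)
    (hη : ∀ i, ‖A i - A' i‖ ≤ η) (h0 : 0 ≤ η) :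
    ‖(List.ofFn A).prod - (List.ofFn A').prod‖ ≤ p * 2 ^ p * η := by
  induction p with
  | zero => simp
  | succ p ih =>
    rw [List.ofFn_succ, List.prod_cons, List.ofFn_succ, List.prod_cons]
    have h1 := ih (fun i => A i.succ) (fun i => A' i.succ) (fun i => hA i.succ)
      (fun i => hA' i.succ) (fun i => hη i.succ)
    have h2 := prod_norm_le hone (fun i : Fin p => A' i.succ) (C := 2) (by norm_num)
      (fun i => hA' i.succ)
    have e : A 0 * (List.ofFn fun i : Fin p => A i.succ).prod -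
        A' 0 * (List.ofFn fun i : Fin p => A' i.succ).prod =
        A 0 * ((List.ofFn fun i : Fin p => A i.succ).prod -
          (List.ofFn fun i : Fin p => A' i.succ).prod) +
        (A 0 - A' 0) * (List.ofFn fun i : Fin p => A' i.succ).prod := by
      noncomm_ring
    rw [e]
    have h3 : ‖A 0 * ((List.ofFn fun i : Fin p => A i.succ).prod -
          (List.ofFn fun i : Fin p => A' i.succ).prod)‖ ≤ 1 * (p * 2 ^ p * η) :=
      (norm_mul_le _ _).trans (mul_le_mul (hA 0) h1 (norm_nonneg _) zero_le_one)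
    have h4 : ‖(A 0 - A' 0) * (List.ofFn fun i : Fin p => A' i.succ).prod‖ ≤ η * 2 ^ p :=
      (norm_mul_le _ _).trans (mul_le_mul (hη 0) h2 (norm_nonneg _) h0)
    have h5 : (0 : ℝ) ≤ p * 2 ^ p * η := by positivity
    have h6 : (0 : ℝ) ≤ 2 ^ p * η := by positivity
    calc _ ≤ 1 * (p * 2 ^ p * η) + η * 2 ^ p := (norm_add_le _ _).trans (add_le_add h3 h4)
      _ ≤ ((p + 1 : ℕ) : ℝ) * 2 ^ (p + 1) * η := by
        push_cast
        rw [pow_succ]
        nlinarith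

theorem coef_sum_le {a : ℝ} (h0 : 0 ≤ a) (h1 : a ≤ 1 / 10) (p N : ℕ) :
    ∑ κ ∈ Fintype.piFinset (fun _ : Fin p => expo N), |∏ i, rho a (κ i)| ≤ 2 ^ p := by
  have h : ∑ κ ∈ Fintype.piFinset (fun _ : Fin p => expo N), |∏ i, rho a (κ i)| =
      ∏ _i : Fin p, ∑ k ∈ expo N, |rho a k| := by
    rw [Finset.prod_univ_sum]
    exact Finset.sum_congr rfl fun κ _ => Finset.abs_prod _ _
  rw [h, Finset.prod_const, Finset.card_univ, Fintype.card_fin]
  have h2 := rho_sum_le h0 h1 N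
  have h3 : 0 ≤ ∑ k ∈ expo N, |rho a k| := Finset.sum_nonneg fun _ _ => abs_nonneg _
  exact pow_le_pow_left₀ h3 (by linarith) p

variable {H : Type*} [NormedAddCommGroup H] [InnerProductSpace ℂ H] [CompleteSpace H]
variable {ξ : ℕ → H}

theorem coe_ofFn_prod {B : Type*} [CStarAlgebra B] {p : ℕ} (u : Fin p → unitary B) :
    (((List.ofFn u).prod : unitary B) : B) = (List.ofFn fun i => (u i : B)).prod := by
  have := map_list_prod (unitary B).subtype (List.ofFn u)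
  rw [Submonoid.coe_subtype] at this
  rw [this, List.map_ofFn]
  rfl

theorem tau_expand (h : Nr ξ) {p : ℕ} (z : Fin p → unitary (H →L[ℂ] H)) {a : ℝ} (h0 : 0 ≤ a)
    (h1 : a ≤ 1 / 10) (N : ℕ) (y : H →L[ℂ] H) :
    ‖tau ξ ((List.ofFn fun i : Fin p => mob a (z i)).prod * y) -
      ∑ κ ∈ Fintype.piFinset (fun _ : Fin p => expo N),
        ((∏ i, rho a (κ i) : ℝ) : ℂ) *
          tau ξ ((((List.ofFn fun i => z i ^ κ i).prod : unitary (H →L[ℂ] H)) : H →L[ℂ] H) * y)‖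
      ≤ p * 2 ^ p * (2 * a ^ (N + 1)) * ‖y‖ := by
  have hone : ‖(1 : H →L[ℂ] H)‖ ≤ 1 := by
    simpa using coe_unitary_norm_le (1 : unitary (H →L[ℂ] H))
  have hA : ∀ i, ‖mob a (z i)‖ ≤ 1 := fun i =>
    coe_unitary_norm_le ⟨mob a (z i), mob_mem_unitary h0 (by linarith) (z i)⟩
  have hη : ∀ i, ‖mob a (z i) - ∑ k ∈ expo N, (rho a k : ℂ) •
      ((z i ^ k : unitary (H →L[ℂ] H)) : H →L[ℂ] H)‖ ≤ 2 * a ^ (N + 1) :=
    fun i => mob_expand h0 h1 (z i) N
  have hA' : ∀ i, ‖∑ k ∈ expo N, (rho a k : ℂ) •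
      ((z i ^ k : unitary (H →L[ℂ] H)) : H →L[ℂ] H)‖ ≤ 2 := by
    intro i
    calc _ ≤ ∑ k ∈ expo N, ‖(rho a k : ℂ) •
          ((z i ^ k : unitary (H →L[ℂ] H)) : H →L[ℂ] H)‖ := norm_sum_le _ _
      _ ≤ ∑ k ∈ expo N, |rho a k| := by
        refine Finset.sum_le_sum fun k _ => ?_
        rw [norm_smul, Complex.norm_real, Real.norm_eq_abs]
        calc _ ≤ |rho a k| * 1 :=
            mul_le_mul_of_nonneg_left (coe_unitary_norm_le _) (abs_nonneg _)
          _ = _ := mul_one _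
      _ ≤ 1 + 2 * a := rho_sum_le h0 h1 N
      _ ≤ 2 := by linarith
  have key := ofFn_prod_sub_le hone (fun i => mob a (z i)) (fun i => ∑ k ∈ expo N, (rho a k : ℂ) •
      ((z i ^ k : unitary (H →L[ℂ] H)) : H →L[ℂ] H)) hA hA' hη (by positivity)
  have hexp := ofFn_prod_sum (expo N) (fun k => (rho a k : ℂ))
    (fun i k => ((z i ^ k : unitary (H →L[ℂ] H)) : H →L[ℂ] H))
  have e : ∑ κ ∈ Fintype.piFinset (fun _ : Fin p => expo N),
        ((∏ i, rho a (κ i) : ℝ) : ℂ) *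
          tau ξ ((((List.ofFn fun i => z i ^ κ i).prod : unitary (H →L[ℂ] H)) : H →L[ℂ] H) * y) =
      tau ξ ((List.ofFn fun i => ∑ k ∈ expo N, (rho a k : ℂ) •
      ((z i ^ k : unitary (H →L[ℂ] H)) : H →L[ℂ] H)).prod * y) := by
    rw [hexp, Finset.sum_mul, tau_sum h]
    refine Finset.sum_congr rfl fun κ _ => ?_
    rw [smul_mul_assoc, tau_smul, coe_ofFn_prod]
    push_cast
    rfl
  rw [e, ← tau_sub h, ← sub_mul]
  calc _ ≤ ‖_‖ := norm_tau_le h _
    _ ≤ _ := norm_mul_le _ _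
    _ ≤ _ := mul_le_mul_of_nonneg_right key (norm_nonneg _)

end Crest.Agent.R95
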