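import Crest.Agent.R95.ADefs

/-!
# Row 95, piece AFREE: the free group facts

PROOF.  Let `X = (Fin n → ℤ) × ((Fin n → ℤ) → ℤ)` and in `Equiv.Perm X` put
`Sh e : (p, f) ↦ (p + e, f)` and `Z : (p, f) ↦ (p, f + δ_p)` (`δ_p = Pi.single p 1`).
Let `T : ℕ → Perm X`, `T 0 = 1`, `T (m+1) = Sh (e_m)` for `m < n` (`e_m = Pi.single m 1`),
`T (n+1) = Z⁻¹`, and `φ = FreeGroup.lift (fun i => (T i)⁻¹ * T (i+1))`.  By induction
`tw (φ ∘ of) l = T l` for `l ≤ n+1`, so `tt ↦ Sh e_m`, `zz ↦ Z`, and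
`zlm (φ ∘ of) l m : (p, f) ↦ (p, f + δ_{p - e_l + e_m})`.
Hence `φ (bigWord of κ)` maps `(0, 0)` to `(0, ∑_i κ_i δ_{e_m - e_l} - δ_0)` (`i = (l,m)`), and
`e_m - e_l` (`l ≠ m`) are pairwise distinct and nonzero: so `bigWord of κ = 1` forces `κ` good.
Similarly `φ (smallWord of κ)` maps `(0,0)` to `(0, ∑ κ_m δ_{e_m})` (or `δ_{-...}`; compute).
Conversely, if `κ` is good, in any group `bigWord g κ = z^{∑ diag κ} z⁻¹ = 1` since
`zlm g l l = zz g`.
-/

set_option autoImplicit false

namespace Crest.Agent.R95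

theorem map_tw {G G' : Type*} [Group G] [Group G'] (φ : G →* G') {n : ℕ} (g : Fin (n + 1) → G)
    (l : ℕ) : φ (tw g l) = tw (fun i => φ (g i)) l := by
  induction l with
  | zero => simp [tw]
  | succ l ih =>
    simp only [tw, map_mul, ih]
    split_ifs <;> simp

theorem map_zz {G G' : Type*} [Group G] [Group G'] (φ : G →* G') {n : ℕ}
    (g : Fin (n + 1) → G) : φ (zz g) = zz (fun i => φ (g i)) := by
  rw [zz, map_inv, map_tw]; rfl

theorem map_tt {G G' : Type*} [Group G] [Group G'] (φ : G →* G') {n : ℕ}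
    (g : Fin (n + 1) → G) (m : Fin n) : φ (tt g m) = tt (fun i => φ (g i)) m :=
  map_tw φ g _

theorem map_zlm {G G' : Type*} [Group G] [Group G'] (φ : G →* G') {n : ℕ}
    (g : Fin (n + 1) → G) (l m : Fin n) : φ (zlm g l m) = zlm (fun i => φ (g i)) l m := by
  simp only [zlm, map_mul, map_inv, map_tt, map_zz]

theorem map_bigWord {G G' : Type*} [Group G] [Group G'] (φ : G →* G') {n : ℕ}
    (g : Fin (n + 1) → G) (κ : Fin (n * n) → ℤ) :
    φ (bigWord g κ) = bigWord (fun i => φ (g i)) κ := by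
  rw [bigWord, bigWord, map_mul, map_inv, map_zz, map_list_prod, List.map_ofFn]
  congr 3
  funext i
  simp only [Function.comp_apply, map_zpow, map_zlm]

theorem map_smallWord {G G' : Type*} [Group G] [Group G'] (φ : G →* G') {n : ℕ}
    (g : Fin (n + 1) → G) (κ : Fin n → ℤ) :
    φ (smallWord g κ) = smallWord (fun i => φ (g i)) κ := by
  rw [smallWord, smallWord, map_list_prod, List.map_ofFn]
  congr 2
  funext i
  simp only [Function.comp_apply, map_zpow, map_mul, map_inv, map_tt, map_zz]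

/-- product of powers of one element along a homomorphism from an additive commutative group -/
private theorem hom_prod_ofFn {G A : Type*} [Group G] [AddCommGroup A] (φ : Multiplicative A →* G)
    {n : ℕ} (c : Fin n → A) :
    (List.ofFn fun i => φ (Multiplicative.ofAdd (c i))).prod =
      φ (Multiplicative.ofAdd (∑ i, c i)) := by
  have h : (List.ofFn fun i => φ (Multiplicative.ofAdd (c i))) =
      (List.ofFn fun i => Multiplicative.ofAdd (c i)).map φ := by
    rw [List.map_ofFn]; rfl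
  rw [h, ← map_list_prod, List.prod_ofFn]
  exact congrArg φ (ofAdd_sum _ _).symm

theorem bigWord_of_good {G : Type*} [Group G] {n : ℕ} (g : Fin (n + 1) → G)
    (κ : Fin (n * n) → ℤ) (h : GoodExp κ) : bigWord g κ = 1 := by
  classical
  have h1 : ∀ i : Fin (n * n), (zlm g i.divNat i.modNat) ^ (κ i) =
      zpowersHom G (zz g)
        (Multiplicative.ofAdd (if i.divNat = i.modNat then κ i else 0)) := by
    intro i
    by_cases hi : i.divNat = i.modNat
    · rw [if_pos hi, ← hi]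
      have h2 : zlm g i.divNat i.divNat = zz g := by
        rw [zlm]; group
      rw [h2]; rfl
    · rw [if_neg hi, h.1 i hi]
      simp
  rw [bigWord]
  simp only [h1]
  rw [hom_prod_ofFn, ← Finset.sum_filter, h.2]
  simp

/-! ### the wreath product -/

namespace FreeAux

abbrev Lp (n : ℕ) : Type := Fin n → ℤ

abbrev Xs (n : ℕ) : Type := Lp n × (Lp n → ℤ)

def Sh {n : ℕ} (e : Lp n) : Equiv.Perm (Xs n) where
  toFun x := (x.1 + e, x.2)
  invFun x := (x.1 - e, x.2)
  left_inv x := by simp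
  right_inv x := by simp

def Ad {n : ℕ} (c : Lp n → Lp n → ℤ) : Equiv.Perm (Xs n) where
  toFun x := (x.1, x.2 + c x.1)
  invFun x := (x.1, x.2 - c x.1)
  left_inv x := by simp
  right_inv x := by simp

theorem Sh_apply {n : ℕ} (e : Lp n) (x : Xs n) : Sh e x = (x.1 + e, x.2) := rfl

theorem Sh_inv_apply {n : ℕ} (e : Lp n) (x : Xs n) : (Sh e)⁻¹ x = (x.1 - e, x.2) := rfl

theorem Ad_apply {n : ℕ} (c : Lp n → Lp n → ℤ) (x : Xs n) : Ad c x = (x.1, x.2 + c x.1) := rfl

def AdHom (n : ℕ) : Multiplicative (Lp n → Lp n → ℤ) →* Equiv.Perm (Xs n) where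
  toFun c := Ad (Multiplicative.toAdd c)
  map_one' := by
    ext x : 1
    exact Prod.ext rfl (add_zero _)
  map_mul' c c' := by
    ext x : 1
    refine Prod.ext rfl ?_
    show x.2 + (Multiplicative.toAdd c x.1 + Multiplicative.toAdd c' x.1) =
      (x.2 + Multiplicative.toAdd c' x.1) + Multiplicative.toAdd c x.1
    abel

theorem AdHom_apply {n : ℕ} (c : Lp n → Lp n → ℤ) :
    AdHom n (Multiplicative.ofAdd c) = Ad c := rfl

theorem Ad_zpow {n : ℕ} (c : Lp n → Lp n → ℤ) (k : ℤ) : Ad c ^ k = Ad (k • c) := by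
  rw [← AdHom_apply, ← AdHom_apply, ← map_zpow]
  rfl

theorem Ad_inv {n : ℕ} (c : Lp n → Lp n → ℤ) : (Ad c)⁻¹ = Ad (-c) := by
  rw [← AdHom_apply, ← AdHom_apply, ← map_inv]
  rfl

theorem Ad_mul {n : ℕ} (c c' : Lp n → Lp n → ℤ) : Ad c * Ad c' = Ad (c + c') := by
  rw [← AdHom_apply, ← AdHom_apply, ← AdHom_apply, ← map_mul]
  rfl

theorem Ad_prod {n N : ℕ} (c : Fin N → Lp n → Lp n → ℤ) :
    (List.ofFn fun i => Ad (c i)).prod = Ad (∑ i, c i) :=
  hom_prod_ofFn (AdHom n) c

/-- basis vector -/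
def bv {n : ℕ} (m : Fin n) : Lp n := Pi.single m 1

/-- the basic cocycle -/
def dl {n : ℕ} (p : Lp n) : Lp n → ℤ := fun q => if q = p then 1 else 0

def T (n : ℕ) : ℕ → Equiv.Perm (Xs n)
  | 0 => 1
  | (m + 1) => if h : m < n then Sh (bv ⟨m, h⟩) else (Ad dl)⁻¹

def gT (n : ℕ) (i : Fin (n + 1)) : Equiv.Perm (Xs n) := (T n i.val)⁻¹ * T n (i.val + 1)

theorem tw_gT (n : ℕ) : ∀ l : ℕ, l ≤ n + 1 → tw (gT n) l = T n l
  | 0, _ => rfl
  | (l + 1), h => by
    rw [tw, dif_pos (Nat.lt_of_succ_le h), tw_gT n l (by omega), gT, mul_inv_cancel_left]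

theorem tt_gT {n : ℕ} (m : Fin n) : tt (gT n) m = Sh (bv m) := by
  rw [tt, tw_gT n _ (by omega), T, dif_pos m.2]

theorem zz_gT (n : ℕ) : zz (gT n) = Ad dl := by
  rw [zz, tw_gT n _ le_rfl, T, dif_neg (lt_irrefl n), inv_inv]

theorem zlm_gT {n : ℕ} (l m : Fin n) :
    zlm (gT n) l m = Ad (fun p => dl (p - bv l + bv m)) := by
  rw [zlm, tt_gT, tt_gT, zz_gT]
  ext x : 1
  simp only [Equiv.Perm.mul_apply, Sh_apply, Sh_inv_apply, Ad_apply]
  refine Prod.ext ?_ rfl
  show x.1 - bv l + bv m - bv m + bv l = x.1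
  abel

theorem small_gT {n : ℕ} (m : Fin n) :
    (tt (gT n) m)⁻¹ * zz (gT n) * tt (gT n) m = Ad (fun p => dl (p + bv m)) := by
  rw [tt_gT, zz_gT]
  ext x : 1
  simp only [Equiv.Perm.mul_apply, Sh_apply, Sh_inv_apply, Ad_apply]
  refine Prod.ext ?_ rfl
  show x.1 + bv m - bv m = x.1
  abel

theorem Ad_eq_one {n : ℕ} {c : Lp n → Lp n → ℤ} (h : Ad c = 1) : c 0 = 0 := by
  have h1 := congrArg (fun σ : Equiv.Perm (Xs n) => (σ (0, 0)).2) h
  have h2 : (0 : Lp n → ℤ) + c 0 = 0 := h1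
  rwa [zero_add] at h2

theorem bigWord_gT {n : ℕ} (κ : Fin (n * n) → ℤ) :
    bigWord (gT n) κ = Ad ((∑ i : Fin (n * n), κ i •
      (fun p : Lp n => dl (p - bv i.divNat + bv i.modNat))) + -dl) := by
  rw [bigWord, zz_gT, Ad_inv, ← Ad_mul, ← Ad_prod]
  congr 3
  funext i
  rw [zlm_gT, Ad_zpow]

theorem smallWord_gT {n : ℕ} (κ : Fin n → ℤ) :
    smallWord (gT n) κ = Ad (∑ m : Fin n, κ m • (fun p : Lp n => dl (p + bv m))) := by
  rw [smallWord, ← Ad_prod]
  congr 2
  funext i
  rw [small_gT, Ad_zpow]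

theorem bv_inj {n : ℕ} {l m : Fin n} (h : (bv l : Lp n) = bv m) : l = m := by
  by_contra hne
  have h1 := congrFun h l
  simp [bv, Pi.single_apply, hne] at h1

theorem bv_diff {n : ℕ} {l m l' m' : Fin n} (hne : l' ≠ m')
    (h : (bv m : Lp n) - bv l = bv m' - bv l') : l = l' ∧ m = m' := by
  have h1 := congrFun h l'
  have h2 := congrFun h m'
  simp only [Pi.sub_apply, bv, Pi.single_apply] at h1 h2
  simp only [if_neg hne, if_true] at h1
  simp only [if_neg hne.symm, if_true] at h2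
  constructor
  · by_contra hl
    have h3 : ¬ l' = l := fun h => hl h.symm
    simp only [h3, if_false] at h1
    split_ifs at h1 <;> omega
  · by_contra hm
    have h3 : ¬ m' = m := fun h => hm h.symm
    simp only [h3, if_false] at h2
    split_ifs at h2 <;> omega

end FreeAux

open FreeAux in
theorem good_of_bigWord {n : ℕ} (κ : Fin (n * n) → ℤ)
    (h : bigWord (FreeGroup.of : Fin (n + 1) → FreeGroup (Fin (n + 1))) κ = 1) : GoodExp κ := by
  classical
  have h1 : bigWord (gT n) κ = 1 := by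
    have h2 := congrArg (FreeGroup.lift (gT n)) h
    rw [map_bigWord, map_one] at h2
    simpa using h2
  rw [bigWord_gT] at h1
  have h3 := Ad_eq_one h1
  have h4 : ∀ q : Lp n, (∑ i : Fin (n * n), κ i *
      (if q = bv i.modNat - bv i.divNat then (1 : ℤ) else 0)) = if q = 0 then 1 else 0 := by
    intro q
    have h5 := congrFun h3 q
    simp only [Pi.add_apply, Pi.neg_apply, Finset.sum_apply, Pi.smul_apply, Pi.zero_apply, dl,
      smul_eq_mul] at h5
    have h6 : ∀ i : Fin (n * n), (0 : Lp n) - bv i.divNat + bv i.modNat =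
        bv i.modNat - bv i.divNat := fun i => by abel
    simp only [h6] at h5
    linarith
  constructor
  · intro i hi
    have h5 := h4 (bv i.modNat - bv i.divNat)
    rw [if_neg (fun h0 => hi (bv_inj (sub_eq_zero.1 h0)).symm)] at h5
    rw [Finset.sum_eq_single i] at h5
    · simpa using h5
    · intro j _ hj
      rw [if_neg, mul_zero]
      intro h6
      obtain ⟨h7, h8⟩ := bv_diff hi h6.symm
      apply hj
      exact finProdFinEquiv.symm.injective (Prod.ext h7 h8)
    · intro h; exact absurd (Finset.mem_univ _) h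
  · have h5 := h4 0
    rw [if_pos rfl] at h5
    rw [← h5, Finset.sum_filter]
    refine Finset.sum_congr rfl fun i _ => ?_
    by_cases hi : i.divNat = i.modNat
    · rw [if_pos hi, if_pos, mul_one]
      rw [hi, sub_self]
    · rw [if_neg hi, if_neg, mul_zero]
      intro h6
      exact hi (bv_inj (sub_eq_zero.1 h6.symm)).symm

open FreeAux in
theorem zero_of_smallWord {n : ℕ} (κ : Fin n → ℤ)
    (h : smallWord (FreeGroup.of : Fin (n + 1) → FreeGroup (Fin (n + 1))) κ = 1) : κ = 0 := by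
  classical
  have h1 : smallWord (gT n) κ = 1 := by
    have h2 := congrArg (FreeGroup.lift (gT n)) h
    rw [map_smallWord, map_one] at h2
    simpa using h2
  rw [smallWord_gT] at h1
  have h3 := Ad_eq_one h1
  funext m
  have h5 := congrFun h3 (bv m)
  simp only [Finset.sum_apply, Pi.smul_apply, Pi.zero_apply, dl, smul_eq_mul, zero_add] at h5
  rw [Finset.sum_eq_single m] at h5
  · simpa using h5
  · intro j _ hj
    rw [if_neg, mul_zero]
    intro h6
    exact hj (bv_inj h6).symm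
  · intro h; exact absurd (Finset.mem_univ _) h

end Crest.Agent.R95
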