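import Crest.Agent.R95.AExp
import Crest.Agent.R95.AFree

/-!
# Row 95, piece AK: the unitary `Kf` is 2-norm close to `1`, and the weak estimate of the big word

PROOF of `Kf_close`.  `K = Kf a g` unitary: `n2 (K-1)² = τ((K-1)*(K-1)) = 2 - 2 Re τ(K)`.
`tau_expand` with `p = n`, `z m = (tt g m)⁻¹ * zz g * tt g m`, `y = 1` (`‖1‖ ≤ 1`):
`τ(K) ≈ ∑_κ (∏ rho) τ(smallWord g κ)`; the term `κ = 0` is `(1-a²)^n ≥ 1 - n a² = 1 - 1/(100 n)`
(`smallWord g 0 = 1`, `τ(1) = 1`, `0 ∈ expo N`), the others sum to at most `2^n ε₁`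
(`coef_sum_le`).
PROOF of `big_weak`.  `tau_expand` with `p = n*n` and `y := (zz g)⁻¹ * y`, `‖(zz g)⁻¹ y‖ ≤ ‖y‖`;
for good `κ` the word `bigWord g κ` is `1` (`bigWord_of_good`), for the others use `hs`;
`betaf` is the sum of the coefficients of the good `κ`.
-/

set_option autoImplicit false

namespace Crest.Agent.R95

open Crest.OpAlg

variable {H : Type*} [NormedAddCommGroup H] [InnerProductSpace ℂ H] [CompleteSpace H]
variable {ξ : ℕ → H}

namespace AKaux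

theorem a_nonneg (n : ℕ) : (0 : ℝ) ≤ 1 / (10 * n) := by positivity

theorem a_le {n : ℕ} (hn : 1 ≤ n) : (1 : ℝ) / (10 * n) ≤ 1 / 10 := by
  have h1 : (1 : ℝ) ≤ n := by exact_mod_cast hn
  exact one_div_le_one_div_of_le (by norm_num) (by linarith)

theorem zero_mem_expo (N : ℕ) : (0 : ℤ) ∈ expo N := by
  rw [expo, Finset.mem_Icc]
  exact ⟨by omega, by norm_num⟩

theorem rho_zero (a : ℝ) : rho a 0 = 1 - a ^ 2 := by
  simp [rho]

end AKaux

theorem Kf_close (h : Nr ξ) {n : ℕ} (hn : 1 ≤ n) (N : ℕ) {ε₁ : ℝ} (hε : 0 ≤ ε₁)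
    (g : Fin (n + 1) → unitary (H →L[ℂ] H))
    (hs : ∀ κ ∈ Fintype.piFinset (fun _ : Fin n => expo N), κ ≠ 0 →
      ‖tau ξ ((smallWord g κ : unitary (H →L[ℂ] H)) : H →L[ℂ] H)‖ ≤ ε₁) :
    n2 ξ (Kf (1 / (10 * n)) g - 1) ^ 2 ≤
      1 / (50 * n) + 4 * n * 2 ^ n * (1 / (10 * n) : ℝ) ^ (N + 1) + 2 * 2 ^ n * ε₁ := by
  classical
  have hn0 : (0 : ℝ) < n := by exact_mod_cast (by omega : 0 < n)
  set a : ℝ := 1 / (10 * n) with ha
  have ha0 : 0 ≤ a := AKaux.a_nonneg n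
  have ha1 : a ≤ 1 / 10 := AKaux.a_le hn
  set K := Kf a g with hK
  have hKu : K ∈ unitary (H →L[ℂ] H) := Kf_mem_unitary ha0 (by linarith) g
  -- the 2-norm
  have e1 : star (K - 1) * (K - 1) = (1 + 1) - (star K + K) := by
    have := (Unitary.mem_iff.mp hKu).1
    rw [star_sub, star_one, sub_mul, mul_sub, mul_sub, this, one_mul, mul_one, one_mul]
    abel
  have e2 : n2 ξ (K - 1) ^ 2 = 2 - 2 * (tau ξ K).re := by
    have h1 := congrArg Complex.re (tau_star_mul_self h (K - 1))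
    rw [Complex.ofReal_re, e1, tau_sub h, tau_add h, tau_add h, tau_one h, tau_star] at h1
    rw [← h1]
    simp only [Complex.sub_re, Complex.add_re, Complex.one_re, Complex.conj_re]
    ring
  -- expansion
  have e3 := tau_expand h (fun m : Fin n => (tt g m)⁻¹ * zz g * tt g m) ha0 ha1 N 1
  have e4 : ∑ κ ∈ Fintype.piFinset (fun _ : Fin n => expo N),
        ((∏ i, rho a (κ i) : ℝ) : ℂ) *
          tau ξ ((((List.ofFn fun i => ((tt g i)⁻¹ * zz g * tt g i) ^ κ i).prod :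
            unitary (H →L[ℂ] H)) : H →L[ℂ] H) * 1) =
      ((1 - a ^ 2 : ℝ) : ℂ) ^ n + ∑ κ ∈ (Fintype.piFinset (fun _ : Fin n => expo N)).erase 0,
        ((∏ i, rho a (κ i) : ℝ) : ℂ) *
          tau ξ ((smallWord g κ : unitary (H →L[ℂ] H)) : H →L[ℂ] H) := by
    rw [← Finset.add_sum_erase _ _ (Fintype.mem_piFinset.mpr fun _ => AKaux.zero_mem_expo N :
      (0 : Fin n → ℤ) ∈ Fintype.piFinset (fun _ : Fin n => expo N))]
    congr 1
    · have h1 : (List.ofFn fun i : Fin n => ((tt g i)⁻¹ * zz g * tt g i) ^ (0 : Fin n → ℤ) i) =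
          List.replicate n 1 := by
        rw [← List.ofFn_const]
        congr 1
      rw [h1, List.prod_replicate, one_pow, mul_one]
      simp only [Pi.zero_apply, AKaux.rho_zero, Finset.prod_const, Finset.card_univ, Fintype.card_fin]
      have h2 : tau ξ (((1 : unitary (H →L[ℂ] H)) : H →L[ℂ] H)) = 1 := tau_one h
      rw [h2, mul_one]
      push_cast
      ring
  rw [e4, mul_one] at e3
  have e5 : ‖∑ κ ∈ (Fintype.piFinset (fun _ : Fin n => expo N)).erase 0,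
        ((∏ i, rho a (κ i) : ℝ) : ℂ) *
          tau ξ ((smallWord g κ : unitary (H →L[ℂ] H)) : H →L[ℂ] H)‖ ≤ 2 ^ n * ε₁ := by
    calc _ ≤ ∑ κ ∈ (Fintype.piFinset (fun _ : Fin n => expo N)).erase 0,
          |∏ i, rho a (κ i)| * ε₁ := by
          refine (norm_sum_le _ _).trans (Finset.sum_le_sum fun κ hκ => ?_)
          rw [norm_mul, Complex.norm_real, Real.norm_eq_abs]
          exact mul_le_mul_of_nonneg_left (hs κ (Finset.mem_of_mem_erase hκ) (Finset.ne_of_mem_erase hκ))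
            (abs_nonneg _)
      _ ≤ ∑ κ ∈ Fintype.piFinset (fun _ : Fin n => expo N), |∏ i, rho a (κ i)| * ε₁ :=
          Finset.sum_le_sum_of_subset_of_nonneg (Finset.erase_subset _ _)
            (fun _ _ _ => mul_nonneg (abs_nonneg _) hε)
      _ = (∑ κ ∈ Fintype.piFinset (fun _ : Fin n => expo N), |∏ i, rho a (κ i)|) * ε₁ := by
          rw [Finset.sum_mul]
      _ ≤ 2 ^ n * ε₁ := mul_le_mul_of_nonneg_right (coef_sum_le ha0 ha1 n N) hε
  have e6 : ‖(1 : H →L[ℂ] H)‖ ≤ 1 := ContinuousLinearMap.norm_id_le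
  have e7 : ‖tau ξ K - (((1 - a ^ 2 : ℝ) : ℂ) ^ n + ∑ κ ∈ (Fintype.piFinset (fun _ : Fin n => expo N)).erase 0,
        ((∏ i, rho a (κ i) : ℝ) : ℂ) *
          tau ξ ((smallWord g κ : unitary (H →L[ℂ] H)) : H →L[ℂ] H))‖ ≤ n * 2 ^ n * (2 * a ^ (N + 1)) := by
    refine e3.trans ?_
    have : (0 : ℝ) ≤ n * 2 ^ n * (2 * a ^ (N + 1)) := by positivity
    calc _ ≤ n * 2 ^ n * (2 * a ^ (N + 1)) * 1 := mul_le_mul_of_nonneg_left e6 this
      _ = _ := mul_one _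
  have e8 := (Complex.abs_re_le_norm _).trans e7
  have e9 := (Complex.abs_re_le_norm _).trans e5
  rw [Complex.sub_re, Complex.add_re] at e8
  have e10 : (((1 - a ^ 2 : ℝ) : ℂ) ^ n).re = (1 - a ^ 2) ^ n := by
    rw [← Complex.ofReal_pow, Complex.ofReal_re]
  rw [e10] at e8
  have e11 : 1 - 1 / (100 * n) ≤ (1 - a ^ 2) ^ n := by
    have h1 := one_add_mul_le_pow (a := -(a ^ 2)) (by nlinarith) n
    have h2 : (n : ℝ) * a ^ 2 = 1 / (100 * n) := by
      rw [ha]; field_simp; norm_num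
    have h3 : (1 - a ^ 2) ^ n = (1 + -(a ^ 2)) ^ n := by ring
    rw [h3]
    linarith
  have e12 := (abs_le.mp e8).1
  have e13 := (abs_le.mp e9).1
  rw [e2]
  have e14 : (1 : ℝ) / (50 * n) = 2 * (1 / (100 * n)) := by
    field_simp; norm_num
  rw [e14]
  linarith

theorem big_weak (h : Nr ξ) {n : ℕ} (hn : 1 ≤ n) (N : ℕ) {ε₁ : ℝ} (hε : 0 ≤ ε₁)
    (g : Fin (n + 1) → unitary (H →L[ℂ] H)) (y : H →L[ℂ] H)
    (hs : ∀ κ ∈ Fintype.piFinset (fun _ : Fin (n * n) => expo N), ¬ GoodExp κ →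
      ‖tau ξ (((bigWord g κ : unitary (H →L[ℂ] H)) : H →L[ℂ] H) * y)‖ ≤ ε₁) :
    ‖tau ξ ((List.ofFn fun i : Fin (n * n) =>
          mob (1 / (10 * n)) (zlm g i.divNat i.modNat)).prod *
        ((((zz g)⁻¹ : unitary (H →L[ℂ] H)) : H →L[ℂ] H) * y)) -
      (betaf n N (1 / (10 * n)) : ℂ) * tau ξ y‖ ≤
      (n * n : ℕ) * 2 ^ (n * n) * (2 * (1 / (10 * n) : ℝ) ^ (N + 1)) * ‖y‖ + 2 ^ (n * n) * ε₁ := by
  classical
  set a : ℝ := 1 / (10 * n) with ha
  have ha0 : 0 ≤ a := AKaux.a_nonneg n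
  have ha1 : a ≤ 1 / 10 := AKaux.a_le hn
  have e3 := tau_expand h (fun i : Fin (n * n) => zlm g i.divNat i.modNat) ha0 ha1 N
    ((((zz g)⁻¹ : unitary (H →L[ℂ] H)) : H →L[ℂ] H) * y)
  have hy : ‖(((zz g)⁻¹ : unitary (H →L[ℂ] H)) : H →L[ℂ] H) * y‖ ≤ ‖y‖ := by
    calc _ ≤ ‖(((zz g)⁻¹ : unitary (H →L[ℂ] H)) : H →L[ℂ] H)‖ * ‖y‖ := norm_mul_le _ _
      _ ≤ 1 * ‖y‖ := mul_le_mul_of_nonneg_right (coe_unitary_norm_le _) (norm_nonneg _)
      _ = ‖y‖ := one_mul _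
  have e4 : ∀ κ : Fin (n * n) → ℤ,
      (((List.ofFn fun i : Fin (n * n) => (zlm g i.divNat i.modNat) ^ κ i).prod :
        unitary (H →L[ℂ] H)) : H →L[ℂ] H) * ((((zz g)⁻¹ : unitary (H →L[ℂ] H)) : H →L[ℂ] H) * y) =
      ((bigWord g κ : unitary (H →L[ℂ] H)) : H →L[ℂ] H) * y := by
    intro κ
    rw [← mul_assoc]
    rfl
  have e5 : ∑ κ ∈ Fintype.piFinset (fun _ : Fin (n * n) => expo N),
        ((∏ i, rho a (κ i) : ℝ) : ℂ) *
          tau ξ ((((List.ofFn fun i : Fin (n * n) => (zlm g i.divNat i.modNat) ^ κ i).prod :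
            unitary (H →L[ℂ] H)) : H →L[ℂ] H) * ((((zz g)⁻¹ : unitary (H →L[ℂ] H)) : H →L[ℂ] H) * y)) =
      (betaf n N a : ℂ) * tau ξ y +
        ∑ κ ∈ (Fintype.piFinset (fun _ : Fin (n * n) => expo N)).filter (fun κ => ¬ GoodExp κ),
        ((∏ i, rho a (κ i) : ℝ) : ℂ) *
          tau ξ (((bigWord g κ : unitary (H →L[ℂ] H)) : H →L[ℂ] H) * y) := by
    simp only [e4]
    rw [← Finset.sum_filter_add_sum_filter_not (Fintype.piFinset (fun _ : Fin (n * n) => expo N))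
      (fun κ => GoodExp κ)]
    congr 1
    rw [betaf, Complex.ofReal_sum, Finset.sum_mul]
    refine Finset.sum_congr ?_ fun κ hκ => ?_
    · congr
    · rw [bigWord_of_good g κ (Finset.mem_filter.mp hκ).2]
      have : (((1 : unitary (H →L[ℂ] H)) : H →L[ℂ] H)) * y = y := one_mul y
      rw [this]
  rw [e5] at e3
  have e6 : ‖∑ κ ∈ (Fintype.piFinset (fun _ : Fin (n * n) => expo N)).filter (fun κ => ¬ GoodExp κ),
        ((∏ i, rho a (κ i) : ℝ) : ℂ) *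
          tau ξ (((bigWord g κ : unitary (H →L[ℂ] H)) : H →L[ℂ] H) * y)‖ ≤ 2 ^ (n * n) * ε₁ := by
    calc _ ≤ ∑ κ ∈ (Fintype.piFinset (fun _ : Fin (n * n) => expo N)).filter (fun κ => ¬ GoodExp κ),
          |∏ i, rho a (κ i)| * ε₁ := by
          refine (norm_sum_le _ _).trans (Finset.sum_le_sum fun κ hκ => ?_)
          rw [norm_mul, Complex.norm_real, Real.norm_eq_abs]
          rw [Finset.mem_filter] at hκ
          exact mul_le_mul_of_nonneg_left (hs κ hκ.1 hκ.2) (abs_nonneg _)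
      _ ≤ ∑ κ ∈ Fintype.piFinset (fun _ : Fin (n * n) => expo N), |∏ i, rho a (κ i)| * ε₁ :=
          Finset.sum_le_sum_of_subset_of_nonneg (Finset.filter_subset _ _)
            (fun _ _ _ => mul_nonneg (abs_nonneg _) hε)
      _ = (∑ κ ∈ Fintype.piFinset (fun _ : Fin (n * n) => expo N), |∏ i, rho a (κ i)|) * ε₁ := by
          rw [Finset.sum_mul]
      _ ≤ 2 ^ (n * n) * ε₁ := mul_le_mul_of_nonneg_right (coef_sum_le ha0 ha1 (n * n) N) hε
  have e7 : (0 : ℝ) ≤ (n * n : ℕ) * 2 ^ (n * n) * (2 * a ^ (N + 1)) := by positivity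
  have e8 := mul_le_mul_of_nonneg_left hy e7
  refine (le_of_eq ?_).trans ((norm_add_le _ _).trans (add_le_add (e3.trans e8) e6))
  congr 1
  ring

end Crest.Agent.R95
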