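import Crest.Agent.R95.ADefs

/-!
# Row 95, piece AMOB: the Moebius unitary

PROOF.  `z` unitary, so `z`, `z*` commute and have norm `≤ 1` (trivial algebra: everything is `0`);
for `0 ≤ a < 1` the element `1 + a z*` is invertible (Neumann series), commutes with `1 + a z`, and
`star (1 + a z*) = 1 + a z`.  `R = (1+az)(1+az*)⁻¹`, `R* = (1+az)⁻¹(1+az*)`, all factors commute, so
`R* R = R R* = 1`.  Membership in a norm closed star subalgebra: `(1+az*)⁻¹ = ∑ (-a)^j (z*)^j`
(limit of partial sums).  Conjugation: `Ring.inverse (u w u⁻¹) = u (Ring.inverse w) u⁻¹` for all `w`.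
Expansion: `(1+az)(1+az*)⁻¹ = ∑_j (-a)^j z^{-j} + ∑_j a (-a)^j z^{1-j}`, coefficients `rho a k`;
the tail beyond `-N` has norm `≤ ∑_{j>N} (1-a²) a^j = (1+a) a^(N+1) ≤ 2 a^(N+1)`.
One convenient way for the expansion: with `S_N = ∑_{k ∈ expo N} rho a k z^k` compute
`S_N (1 + a z*) = (1 + a z) + (±)(1-a²) a^(N+1) z^{-N-1}` (telescoping), and
`‖(1+az*)⁻¹‖ ≤ 1/(1-a)`.
`∑_{k ∈ expo N} |rho a k| ≤ a + (1-a²)/(1-a) = 1 + 2a`.
-/

set_option autoImplicit false

namespace Crest.Agent.R95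

variable {B : Type*} [CStarAlgebra B]

theorem coe_unitary_norm_le (z : unitary B) : ‖(z : B)‖ ≤ 1 := by
  rcases subsingleton_or_nontrivial B with hB | hB
  · rw [Subsingleton.elim (z : B) 0, norm_zero]; exact zero_le_one
  · exact (CStarRing.norm_coe_unitary z).le

private theorem norm_one_le' : ‖(1 : B)‖ ≤ 1 := by
  have := coe_unitary_norm_le (1 : unitary B)
  simpa using this

private theorem norm_star_le' (z : unitary B) : ‖star (z : B)‖ ≤ 1 := by
  rw [norm_star]; exact coe_unitary_norm_le z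

/-- `1 + a w` is a unit for `‖w‖ ≤ 1`, `0 ≤ a < 1` -/
private theorem isUnit_den {a : ℝ} (h0 : 0 ≤ a) (h1 : a < 1) {w : B} (hw : ‖w‖ ≤ 1) :
    IsUnit (1 + (a : ℂ) • w) := by
  have h : IsUnit (1 - (-((a : ℂ) • w))) := by
    refine isUnit_one_sub_of_norm_lt_one ?_
    rw [norm_neg, norm_smul, Complex.norm_real, Real.norm_of_nonneg h0]
    calc a * ‖w‖ ≤ a * 1 := mul_le_mul_of_nonneg_left hw h0
      _ < 1 := by linarith
  simpa using h

private theorem inv_den_norm {a : ℝ} (h0 : 0 ≤ a) (h1 : a < 1) {w : B} (hw : ‖w‖ ≤ 1) :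
    ‖Ring.inverse (1 + (a : ℂ) • w)‖ ≤ 1 / (1 - a) := by
  have hu := isUnit_den h0 h1 hw
  set r := Ring.inverse (1 + (a : ℂ) • w) with hr
  have h2 : (1 + (a : ℂ) • w) * r = 1 := Ring.mul_inverse_cancel _ hu
  have h3 : r = 1 - (a : ℂ) • (w * r) := by
    rw [← h2, add_mul, one_mul, smul_mul_assoc]
    abel
  have h4 : ‖r‖ ≤ 1 + a * ‖r‖ := by
    calc ‖r‖ = ‖1 - (a : ℂ) • (w * r)‖ := by rw [← h3]
      _ ≤ ‖(1 : B)‖ + ‖(a : ℂ) • (w * r)‖ := norm_sub_le _ _
      _ ≤ 1 + a * ‖r‖ := by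
          refine add_le_add norm_one_le' ?_
          rw [norm_smul, Complex.norm_real, Real.norm_of_nonneg h0]
          refine mul_le_mul_of_nonneg_left ?_ h0
          calc ‖w * r‖ ≤ ‖w‖ * ‖r‖ := norm_mul_le _ _
            _ ≤ 1 * ‖r‖ := mul_le_mul_of_nonneg_right hw (norm_nonneg _)
            _ = ‖r‖ := one_mul _
  rw [le_div_iff₀ (by linarith)]
  linarith

private theorem inv_den_mem {a : ℝ} (h0 : 0 ≤ a) (h1 : a < 1) {w : B} (hw : ‖w‖ ≤ 1)
    (A : StarSubalgebra ℂ B) (hA : IsClosed (A : Set B)) (hwA : w ∈ A) :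
    Ring.inverse (1 + (a : ℂ) • w) ∈ A := by
  have : IsClosed (A : Set B) := hA
  have hu := isUnit_den h0 h1 hw
  have hm : 1 + (a : ℂ) • w ∈ A := A.add_mem A.one_mem (A.smul_mem hwA _)
  have hu' : IsUnit (⟨1 + (a : ℂ) • w, hm⟩ : A) := (StarSubalgebra.coe_isUnit A).1 hu
  obtain ⟨y, hy⟩ := hu'.exists_right_inv
  have hy' : (1 + (a : ℂ) • w) * (y : B) = 1 := by
    have := congrArg (fun b : A => (b : B)) hy
    simpa using this
  have : Ring.inverse (1 + (a : ℂ) • w) = (y : B) := by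
    have h5 := Ring.inverse_mul_cancel_left _ (y : B) hu
    rw [hy', mul_one] at h5
    exact h5
  rw [this]
  exact y.2

private theorem comm_num_den (a : ℝ) (z : unitary B) :
    Commute (1 + (a : ℂ) • (z : B)) (1 + (a : ℂ) • star (z : B)) := by
  have hz : Commute (z : B) (star (z : B)) := by
    rw [commute_iff_eq, Unitary.mul_star_self_of_mem z.2, Unitary.star_mul_self_of_mem z.2]
  refine (Commute.one_left _).add_left ?_
  refine (Commute.one_right _).add_right ?_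
  exact (hz.smul_right _).smul_left _

private theorem star_num (a : ℝ) (z : unitary B) :
    star (1 + (a : ℂ) • (z : B)) = 1 + (a : ℂ) • star (z : B) := by
  simp

private theorem star_den (a : ℝ) (z : unitary B) :
    star (1 + (a : ℂ) • star (z : B)) = 1 + (a : ℂ) • (z : B) := by
  simp

theorem mob_mem_unitary {a : ℝ} (h0 : 0 ≤ a) (h1 : a < 1) (z : unitary B) :
    mob a z ∈ unitary B := by
  have hu : IsUnit (1 + (a : ℂ) • (z : B)) := isUnit_den h0 h1 (coe_unitary_norm_le z)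
  have hv : IsUnit (1 + (a : ℂ) • star (z : B)) := isUnit_den h0 h1 (norm_star_le' z)
  have hc := comm_num_den a z
  have hs : star (mob a z) = Ring.inverse (1 + (a : ℂ) • (z : B))
      * (1 + (a : ℂ) • star (z : B)) := by
    rw [mob, star_mul, star_num, ← Ring.inverse_star, star_den]
  rw [Unitary.mem_iff, hs, mob]
  constructor
  · calc Ring.inverse (1 + (a : ℂ) • (z : B)) * (1 + (a : ℂ) • star (z : B))
          * ((1 + (a : ℂ) • (z : B)) * Ring.inverse (1 + (a : ℂ) • star (z : B)))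
        = Ring.inverse (1 + (a : ℂ) • (z : B)) * ((1 + (a : ℂ) • star (z : B))
          * (1 + (a : ℂ) • (z : B))) * Ring.inverse (1 + (a : ℂ) • star (z : B)) := by
          simp only [mul_assoc]
      _ = 1 := by
          rw [← hc.eq, ← mul_assoc, Ring.inverse_mul_cancel _ hu, one_mul,
            Ring.mul_inverse_cancel _ hv]
  · have hc' := hc.ringInverse_ringInverse
    calc (1 + (a : ℂ) • (z : B)) * Ring.inverse (1 + (a : ℂ) • star (z : B))
          * (Ring.inverse (1 + (a : ℂ) • (z : B)) * (1 + (a : ℂ) • star (z : B)))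
        = (1 + (a : ℂ) • (z : B)) * (Ring.inverse (1 + (a : ℂ) • star (z : B))
          * Ring.inverse (1 + (a : ℂ) • (z : B))) * (1 + (a : ℂ) • star (z : B)) := by
          simp only [mul_assoc]
      _ = 1 := by
          rw [← hc'.eq, ← mul_assoc, Ring.mul_inverse_cancel _ hu, one_mul,
            Ring.inverse_mul_cancel _ hv]

theorem mob_mem {a : ℝ} (h0 : 0 ≤ a) (h1 : a < 1) (z : unitary B) (A : StarSubalgebra ℂ B)
    (hA : IsClosed (A : Set B)) (hz : (z : B) ∈ A) : mob a z ∈ A := by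
  refine A.mul_mem (A.add_mem A.one_mem (A.smul_mem hz _)) ?_
  exact inv_den_mem h0 h1 (norm_star_le' z) A hA (star_mem hz)

theorem mob_conj (a : ℝ) (u z : unitary B) :
    mob a (u * z * u⁻¹) = (u : B) * mob a z * ((u⁻¹ : unitary B) : B) := by
  have hu1 : (u : B) * ((u⁻¹ : unitary B) : B) = 1 := by
    rw [← Submonoid.coe_mul, mul_inv_cancel]; rfl
  have hu2 : ((u⁻¹ : unitary B) : B) * (u : B) = 1 := by
    rw [← Submonoid.coe_mul, inv_mul_cancel]; rfl
  have hiu : IsUnit (u : B) := ⟨⟨u, _, hu1, hu2⟩, rfl⟩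
  have hiu' : IsUnit ((u⁻¹ : unitary B) : B) := ⟨⟨_, u, hu2, hu1⟩, rfl⟩
  have hinvu : Ring.inverse (u : B) = ((u⁻¹ : unitary B) : B) := by
    have := Ring.inverse_mul_cancel_left _ ((u⁻¹ : unitary B) : B) hiu
    rw [hu1, mul_one] at this
    exact this
  have hinvu' : Ring.inverse ((u⁻¹ : unitary B) : B) = (u : B) := by
    have := Ring.inverse_mul_cancel_left _ (u : B) hiu'
    rw [hu2, mul_one] at this
    exact this
  have hsu : star (u : B) = ((u⁻¹ : unitary B) : B) := rfl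
  have hsu' : star ((u⁻¹ : unitary B) : B) = (u : B) := by
    rw [← hsu, star_star]
  have h1 : (1 : B) + (a : ℂ) • ((u * z * u⁻¹ : unitary B) : B)
      = (u : B) * (1 + (a : ℂ) • (z : B)) * ((u⁻¹ : unitary B) : B) := by
    rw [mul_add, mul_one, add_mul, hu1, mul_smul_comm, smul_mul_assoc]
    rfl
  have h2 : (1 : B) + (a : ℂ) • star ((u * z * u⁻¹ : unitary B) : B)
      = (u : B) * (1 + (a : ℂ) • star (z : B)) * ((u⁻¹ : unitary B) : B) := by
    rw [mul_add, mul_one, add_mul, hu1, mul_smul_comm, smul_mul_assoc]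
    congr 2
    rw [Submonoid.coe_mul, Submonoid.coe_mul, star_mul, star_mul, hsu, hsu', mul_assoc]
  have h3 : Ring.inverse ((u : B) * (1 + (a : ℂ) • star (z : B)) * ((u⁻¹ : unitary B) : B))
      = (u : B) * Ring.inverse (1 + (a : ℂ) • star (z : B)) * ((u⁻¹ : unitary B) : B) := by
    rw [Ring.inverse_mul (Or.inr hiu'), Ring.inverse_mul (Or.inl hiu), hinvu, hinvu', mul_assoc]
  rw [mob, h1, h2, h3, mob]
  calc (u : B) * (1 + (a : ℂ) • (z : B)) * ((u⁻¹ : unitary B) : B)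
        * ((u : B) * Ring.inverse (1 + (a : ℂ) • star (z : B)) * ((u⁻¹ : unitary B) : B))
      = (u : B) * (1 + (a : ℂ) • (z : B)) * (((u⁻¹ : unitary B) : B)
        * (u : B)) * Ring.inverse (1 + (a : ℂ) • star (z : B)) * ((u⁻¹ : unitary B) : B) := by
        simp only [mul_assoc]
    _ = _ := by rw [hu2, mul_one]; simp only [mul_assoc]

private theorem rho_one (a : ℝ) : rho a 1 = a := by simp [rho]

private theorem rho_neg (a : ℝ) (N : ℕ) : rho a (-(N : ℤ)) = (1 - a ^ 2) * (-a) ^ N := by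
  unfold rho
  rw [if_neg (by omega), if_pos (by omega)]
  congr 2
  omega

private theorem expo_zero : expo 0 = {0, 1} := by
  ext k
  simp only [expo, Finset.mem_Icc, Finset.mem_insert, Finset.mem_singleton]
  push_cast
  omega

private theorem expo_succ (N : ℕ) : expo (N + 1) = insert (-((N + 1 : ℕ) : ℤ)) (expo N) := by
  ext k
  simp only [expo, Finset.mem_Icc, Finset.mem_insert]
  push_cast
  omega

private theorem expo_not_mem (N : ℕ) : (-((N + 1 : ℕ) : ℤ)) ∉ expo N := by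
  simp only [expo, Finset.mem_Icc]
  push_cast
  omega

private theorem zpow_mul_star (z : unitary B) (k : ℤ) :
    ((z ^ k : unitary B) : B) * star (z : B) = ((z ^ (k - 1) : unitary B) : B) := by
  have h : ((z ^ (k - 1) : unitary B)) = z ^ k * z⁻¹ := zpow_sub_one z k
  rw [h]
  rfl

private theorem tele (a : ℝ) (z : unitary B) (N : ℕ) :
    (∑ k ∈ expo N, (rho a k : ℂ) • ((z ^ k : unitary B) : B)) * (1 + (a : ℂ) • star (z : B))
      = 1 + (a : ℂ) • (z : B) + ((a * ((1 - a ^ 2) * (-a) ^ N) : ℝ) : ℂ) •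
        ((z ^ (-((N + 1 : ℕ) : ℤ)) : unitary B) : B) := by
  induction N with
  | zero =>
    rw [expo_zero, Finset.sum_pair (by norm_num)]
    have h0 : rho a 0 = 1 - a ^ 2 := by
      have := rho_neg a 0
      simpa using this
    rw [h0, rho_one, add_mul, smul_mul_assoc, smul_mul_assoc, mul_add, mul_add, mul_one, mul_one,
      mul_smul_comm, mul_smul_comm, zpow_mul_star, zpow_mul_star]
    have e1 : ((z ^ (0 : ℤ) : unitary B) : B) = 1 := by simp
    have e2 : ((z ^ (1 : ℤ) : unitary B) : B) = (z : B) := by simp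
    have e3 : ((z ^ ((1 : ℤ) - 1) : unitary B) : B) = 1 := by simp
    have e4 : ((z ^ (-((0 + 1 : ℕ) : ℤ)) : unitary B) : B)
        = ((z ^ ((0 : ℤ) - 1) : unitary B) : B) := by norm_num
    rw [e1, e2, e3, e4]
    push_cast
    module
  | succ N ih =>
    rw [expo_succ, Finset.sum_insert (expo_not_mem N), add_mul, ih, rho_neg, smul_mul_assoc,
      mul_add, mul_one, mul_smul_comm, zpow_mul_star]
    have e1 : (-((N + 1 : ℕ) : ℤ)) - 1 = -((N + 1 + 1 : ℕ) : ℤ) := by push_cast; ring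
    rw [e1]
    push_cast
    rw [pow_succ]
    module

theorem mob_expand {a : ℝ} (h0 : 0 ≤ a) (h1 : a ≤ 1 / 10) (z : unitary B) (N : ℕ) :
    ‖mob a z - ∑ k ∈ expo N, (rho a k : ℂ) • ((z ^ k : unitary B) : B)‖ ≤ 2 * a ^ (N + 1) := by
  have h1' : a < 1 := by linarith
  have hw : ‖star (z : B)‖ ≤ 1 := norm_star_le' z
  have hv : IsUnit (1 + (a : ℂ) • star (z : B)) := isUnit_den h0 h1' hw
  have hS := tele a z N
  set S := ∑ k ∈ expo N, (rho a k : ℂ) • ((z ^ k : unitary B) : B) with hSdef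
  set v := (1 : B) + (a : ℂ) • star (z : B) with hvdef
  have hS2 : S = (1 + (a : ℂ) • (z : B)) * Ring.inverse v
      + (((a * ((1 - a ^ 2) * (-a) ^ N) : ℝ) : ℂ) •
        ((z ^ (-((N + 1 : ℕ) : ℤ)) : unitary B) : B)) * Ring.inverse v := by
    rw [← add_mul, ← hS, Ring.mul_inverse_cancel_right _ _ hv]
  have hdiff : mob a z - S = - ((((a * ((1 - a ^ 2) * (-a) ^ N) : ℝ) : ℂ) •
        ((z ^ (-((N + 1 : ℕ) : ℤ)) : unitary B) : B)) * Ring.inverse v) := by
    rw [hS2, mob]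
    abel
  rw [hdiff, norm_neg]
  have hsq : 0 ≤ 1 - a ^ 2 := by nlinarith
  have h3 : ‖(((a * ((1 - a ^ 2) * (-a) ^ N) : ℝ) : ℂ) •
        ((z ^ (-((N + 1 : ℕ) : ℤ)) : unitary B) : B))‖ ≤ (1 - a ^ 2) * a ^ (N + 1) := by
    rw [norm_smul, Complex.norm_real, Real.norm_eq_abs, abs_mul, abs_mul, abs_pow, abs_neg,
      abs_of_nonneg h0, abs_of_nonneg hsq]
    calc a * ((1 - a ^ 2) * a ^ N) * ‖((z ^ (-((N + 1 : ℕ) : ℤ)) : unitary B) : B)‖
        ≤ a * ((1 - a ^ 2) * a ^ N) * 1 :=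
          mul_le_mul_of_nonneg_left (coe_unitary_norm_le _) (by positivity)
      _ = (1 - a ^ 2) * a ^ (N + 1) := by ring
  calc ‖(((a * ((1 - a ^ 2) * (-a) ^ N) : ℝ) : ℂ) •
        ((z ^ (-((N + 1 : ℕ) : ℤ)) : unitary B) : B)) * Ring.inverse v‖
      ≤ ‖(((a * ((1 - a ^ 2) * (-a) ^ N) : ℝ) : ℂ) •
        ((z ^ (-((N + 1 : ℕ) : ℤ)) : unitary B) : B))‖ * ‖Ring.inverse v‖ := norm_mul_le _ _
    _ ≤ (1 - a ^ 2) * a ^ (N + 1) * (1 / (1 - a)) :=
        mul_le_mul h3 (inv_den_norm h0 h1' hw) (norm_nonneg _) (by positivity)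
    _ = (1 + a) * a ^ (N + 1) := by
        have : (1 : ℝ) - a ≠ 0 := by linarith
        field_simp
        ring
    _ ≤ 2 * a ^ (N + 1) := by
        refine mul_le_mul_of_nonneg_right (by linarith) (by positivity)

private theorem rho_sum_eq {a : ℝ} (h0 : 0 ≤ a) (h1 : a ≤ 1 / 10) (N : ℕ) :
    ∑ k ∈ expo N, |rho a k| = 1 + 2 * a - (1 + a) * a ^ (N + 1) := by
  have hsq : 0 ≤ 1 - a ^ 2 := by nlinarith
  induction N with
  | zero =>
    rw [expo_zero, Finset.sum_pair (by norm_num)]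
    have h0' : rho a 0 = 1 - a ^ 2 := by
      have := rho_neg a 0
      simpa using this
    rw [h0', rho_one, abs_of_nonneg hsq, abs_of_nonneg h0]
    ring
  | succ N ih =>
    rw [expo_succ, Finset.sum_insert (expo_not_mem N), ih, rho_neg, abs_mul, abs_pow, abs_neg,
      abs_of_nonneg h0, abs_of_nonneg hsq]
    ring

theorem rho_sum_le {a : ℝ} (h0 : 0 ≤ a) (h1 : a ≤ 1 / 10) (N : ℕ) :
    ∑ k ∈ expo N, |rho a k| ≤ 1 + 2 * a := by
  rw [rho_sum_eq h0 h1 N]
  have : 0 ≤ (1 + a) * a ^ (N + 1) := by positivity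
  linarith

theorem Kf_mem_unitary {n : ℕ} {a : ℝ} (h0 : 0 ≤ a) (h1 : a < 1) (g : Fin (n + 1) → unitary B) :
    Kf a g ∈ unitary B := by
  refine list_prod_mem fun x hx => ?_
  rw [List.mem_ofFn] at hx
  obtain ⟨m, rfl⟩ := hx
  exact mob_mem_unitary h0 h1 _

private theorem tw_mem {n : ℕ} (g : Fin (n + 1) → unitary B) (A : StarSubalgebra ℂ B)
    (hg : ∀ i, (g i : B) ∈ A) (l : ℕ) : ((tw g l : unitary B) : B) ∈ A := by
  induction l with
  | zero => exact A.one_mem
  | succ l ih =>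
    show ((tw g l * _ : unitary B) : B) ∈ A
    refine A.mul_mem ih ?_
    split_ifs with h
    · exact hg _
    · exact A.one_mem

private theorem coe_inv_mem (g : unitary B) (A : StarSubalgebra ℂ B) (hg : (g : B) ∈ A) :
    ((g⁻¹ : unitary B) : B) ∈ A := star_mem hg

theorem Kf_mem {n : ℕ} {a : ℝ} (h0 : 0 ≤ a) (h1 : a < 1) (g : Fin (n + 1) → unitary B)
    (A : StarSubalgebra ℂ B) (hA : IsClosed (A : Set B)) (hg : ∀ i, (g i : B) ∈ A) :
    Kf a g ∈ A := by
  refine list_prod_mem fun x hx => ?_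
  rw [List.mem_ofFn] at hx
  obtain ⟨m, rfl⟩ := hx
  refine mob_mem h0 h1 _ A hA ?_
  refine A.mul_mem (A.mul_mem ?_ ?_) ?_
  · exact coe_inv_mem _ A (tw_mem g A hg _)
  · exact coe_inv_mem _ A (tw_mem g A hg _)
  · exact tw_mem g A hg _

end Crest.Agent.R95
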