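import Crest.Agent.R95.F4b

/-!
# Row 95, part F: piece F4C (proof in the header of `F4.lean`)
-/

set_option autoImplicit false

namespace Crest.Agent.R95

open Crest.OpAlg
open scoped InnerProductSpace ComplexConjugate Topology

variable {H : Type*} [NormedAddCommGroup H] [InnerProductSpace ℂ H] [CompleteSpace H]
variable {ξ : ℕ → H} {P M : VonNeumannAlgebra H} {k : ℕ}

theorem wv_prod (f : Fin k → unitary (H →L[ℂ] H)) (w : Wd k) :
    ((List.prod (w.map fun x => cond x.2 (f x.1) (f x.1)⁻¹) : unitary (H →L[ℂ] H)) :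
      H →L[ℂ] H) = Wv (fun i => (f i : H →L[ℂ] H)) w := by
  induction w with
  | nil => simp
  | cons a w ih =>
    rw [List.map_cons, List.prod_cons, Wv_cons, ← ih]
    obtain ⟨i, b⟩ := a
    cases b
    · show ((((f i)⁻¹ * _ : unitary (H →L[ℂ] H))) : H →L[ℂ] H) = star (f i : H →L[ℂ] H) * _
      rw [← Unitary.star_eq_inv]
      rfl
    · rfl

theorem lift_eq_wv (f : Fin k → unitary (H →L[ℂ] H)) (g : FreeGroup (Fin k)) :
    ((FreeGroup.lift f g : unitary (H →L[ℂ] H)) : H →L[ℂ] H) =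
      Wv (fun i => (f i : H →L[ℂ] H)) g.toWord := by
  rw [← wv_prod, ← FreeGroup.lift_mk, FreeGroup.mk_toWord]

theorem star_free' (h : Sit P M ξ) {k : ℕ}
    (v : Fin k → unitary (H →L[ℂ] H)) (hv : ∀ i, (v i : H →L[ℂ] H) ∈ M)
    (S : Finset (FreeGroup (Fin k))) (Z : Finset (H →L[ℂ] H)) (hZ : ∀ y ∈ Z, y ∈ M) {ε : ℝ}
    (hε : 0 < ε) :
    ∃ c : Fin k → unitary (H →L[ℂ] H), (∀ i, (c i : H →L[ℂ] H) ∈ P) ∧
      ∀ g ∈ S, g ≠ 1 → ∀ y ∈ Z,
        ‖tau ξ (((FreeGroup.lift (fun i => c i * v i) g : unitary (H →L[ℂ] H)) : H →L[ℂ] H) * y)‖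
          ≤ ε := by
  classical
  rcases Nat.eq_zero_or_pos k with rfl | hk
  · exact ⟨fun i => i.elim0, fun i => i.elim0, fun g _ hg => absurd (Subsingleton.elim g 1) hg⟩
  set L : ℕ := S.sup (fun g => g.toWord.length) with hL
  set K : ℝ := 1 + ∑ y ∈ Z, ‖y‖ with hK
  have hK1 : 1 ≤ K := by
    have : 0 ≤ ∑ y ∈ Z, ‖y‖ := Finset.sum_nonneg fun _ _ => norm_nonneg _
    linarith
  have hK0 : 0 < K := by linarith
  have hZK : ∀ y ∈ Z, ‖y‖ ≤ K := by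
    intro y hy
    have := Finset.single_le_sum (f := fun y : H →L[ℂ] H => ‖y‖) (fun _ _ => norm_nonneg _) hy
    have h2 : ‖y‖ ≤ ∑ y ∈ Z, ‖y‖ := this
    linarith
  set B : Finset (H →L[ℂ] H) := insert 1 (Z.image fun y => ((K⁻¹ : ℝ) : ℂ) • y) with hB
  have hKn : ‖((K⁻¹ : ℝ) : ℂ)‖ = K⁻¹ := by
    rw [Complex.norm_real, Real.norm_of_nonneg (inv_nonneg.2 hK0.le)]
  have hBM : ∀ b ∈ B, b ∈ M ∧ ‖b‖ ≤ 1 := by
    intro b hb
    rw [hB, Finset.mem_insert, Finset.mem_image] at hb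
    rcases hb with rfl | ⟨y, hy, rfl⟩
    · exact ⟨one_mem M, (Un.one M).norm_le⟩
    · refine ⟨vn_smul_mem M _ (hZ y hy), ?_⟩
      rw [norm_smul, hKn, inv_mul_le_iff₀ hK0, mul_one]
      exact hZK y hy
  have hk0 : (0 : ℝ) < k := by exact_mod_cast hk
  set A : ℝ := (RW k L).card * B.card * (4 * (L : ℝ) ^ 2) with hA
  have hA0 : 0 ≤ A := by positivity
  set ω : ℝ := min 1 (1 / (2 * k * (A + 1))) with hω
  have hω0 : 0 < ω := lt_min one_pos (by positivity)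
  have hω1 : ω ≤ 1 := min_le_left _ _
  have hωk : (RW k L).card * B.card * (4 * (L : ℝ) ^ 2 * ω) ≤ 1 / (2 * k : ℝ) := by
    have h1 : ω ≤ 1 / (2 * k * (A + 1)) := min_le_right _ _
    calc (RW k L).card * B.card * (4 * (L : ℝ) ^ 2 * ω) = A * ω := by rw [hA]; ring
      _ ≤ A * (1 / (2 * k * (A + 1))) := mul_le_mul_of_nonneg_left h1 hA0
      _ = (1 / (2 * k)) * (A / (A + 1)) := by field_simp
      _ ≤ (1 / (2 * k)) * 1 := by
          refine mul_le_mul_of_nonneg_left ?_ (by positivity)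
          rw [div_le_one (by linarith)]
          linarith
      _ = _ := mul_one _
  obtain ⟨c, hc, hΦ⟩ := phi_inf h (v := fun i => (v i : H →L[ℂ] H))
    (fun i => ⟨hv i, (v i).2⟩) hω0 hω1 (L := L) (B := B) (Finset.mem_insert_self _ _) hBM hk hωk
    (Φ₀ := ω ^ L * ε / K) (by positivity)
  refine ⟨fun i => ⟨c i, (hc i).2⟩, fun i => (hc i).1, ?_⟩
  intro g hg hg1 y hy
  rw [lift_eq_wv]
  set w := g.toWord with hw
  have hwR : w ∈ RW k L := by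
    rw [mem_RW]
    refine ⟨?_, ?_, FreeGroup.isReduced_toWord⟩
    · exact Finset.le_sup (f := fun g : FreeGroup (Fin k) => g.toWord.length) hg
    · rw [hw, Ne, FreeGroup.toWord_eq_nil_iff]
      exact hg1
  have hyB : ((K⁻¹ : ℝ) : ℂ) • y ∈ B :=
    Finset.mem_insert_of_mem (Finset.mem_image_of_mem _ hy)
  set G : Fin k → (H →L[ℂ] H) := fun i => c i * (v i : H →L[ℂ] H) with hG
  show ‖tau ξ (Wv G w * y)‖ ≤ ε
  have h1 : ω ^ w.length * ∑ b ∈ B, ‖tau ξ (Wv G w * b)‖ ≤ Phi ξ ω L B G :=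
    Finset.single_le_sum (f := fun w => ω ^ w.length * ∑ b ∈ B, ‖tau ξ (Wv G w * b)‖)
      (fun w _ => mul_nonneg (by positivity) (Finset.sum_nonneg fun _ _ => norm_nonneg _)) hwR
  have h2 : ‖tau ξ (Wv G w * (((K⁻¹ : ℝ) : ℂ) • y))‖ ≤ ∑ b ∈ B, ‖tau ξ (Wv G w * b)‖ :=
    Finset.single_le_sum (f := fun b => ‖tau ξ (Wv G w * b)‖) (fun _ _ => norm_nonneg _) hyB
  have h3 : ‖tau ξ (Wv G w * (((K⁻¹ : ℝ) : ℂ) • y))‖ = K⁻¹ * ‖tau ξ (Wv G w * y)‖ := by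
    rw [mul_smul_comm, tau_smul, norm_mul, hKn]
  have h4 : ω ^ L ≤ ω ^ w.length :=
    pow_le_pow_of_le_one hω0.le hω1 (mem_RW.1 hwR).1
  have h5 : ω ^ L * (K⁻¹ * ‖tau ξ (Wv G w * y)‖) < ω ^ L * ε / K := by
    refine lt_of_le_of_lt ?_ hΦ
    refine le_trans ?_ h1
    rw [← h3]
    exact mul_le_mul h4 h2 (norm_nonneg _) (by positivity)
  have h6 : ω ^ L * (K⁻¹ * ‖tau ξ (Wv G w * y)‖) = (ω ^ L / K) * ‖tau ξ (Wv G w * y)‖ := by
    rw [div_eq_mul_inv]; ring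
  have h7 : ω ^ L * ε / K = (ω ^ L / K) * ε := by ring
  rw [h6, h7] at h5
  exact (lt_of_mul_lt_mul_left h5 (by positivity)).le

end Crest.Agent.R95
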