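import Crest.Agent.R95.ADefs
import Crest.Agent.R95.F4c

/-!
# Row 95: the input (STAR) of the algebraic half.  NOT a piece of the algebraic half: it is proved
by the freeness half (helper7 / helper25); this file only fixes the statement.
-/

set_option autoImplicit false

namespace Crest.Agent.R95

variable {H : Type*} [NormedAddCommGroup H] [InnerProductSpace ℂ H] [CompleteSpace H]

theorem star_free {P M : VonNeumannAlgebra H} {ξ : ℕ → H} (h : Sit P M ξ) {k : ℕ}
    (v : Fin k → unitary (H →L[ℂ] H)) (hv : ∀ i, (v i : H →L[ℂ] H) ∈ M)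
    (S : Finset (FreeGroup (Fin k))) (Z : Finset (H →L[ℂ] H)) (hZ : ∀ y ∈ Z, y ∈ M) {ε : ℝ}
    (hε : 0 < ε) :
    ∃ c : Fin k → unitary (H →L[ℂ] H), (∀ i, (c i : H →L[ℂ] H) ∈ P) ∧
      ∀ g ∈ S, g ≠ 1 → ∀ y ∈ Z,
        ‖tau ξ (((FreeGroup.lift (fun i => c i * v i) g : unitary (H →L[ℂ] H)) : H →L[ℂ] H) * y)‖
          ≤ ε :=
  star_free' h v hv S Z hZ hε

end Crest.Agent.R95
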