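import Crest.Agent.R95.AMob

/-!
# Row 95, piece ATEL: the exact telescoping identity

PROOF.  Put `K = Kf a g`, `t_l = tw g l`.  (i) For any ring elements: by induction on `j ≤ n`,
`∏_{i<j} (g_i K) = (∏_{i<j} t_{i+1} K t_{i+1}⁻¹) t_j` (ordered products, `t_{i+1} = t_i g_i`).
(ii) `t_{l+1} K t_{l+1}⁻¹ = ∏_m mob a (t_{l+1} t_{m+1}⁻¹ z t_{m+1} t_{l+1}⁻¹)`
(conjugation distributes over the ordered product, then `mob_conj`), which is
`∏_m mob a (zlm g l m)`.  (iii) combine the double product into one over `Fin (n * n)`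
(`List.ofFn_mul`, `List.prod_flatten`, `Fin.divNat`, `Fin.modNat`).
(iv) `c_i (v K) = g_i K` for `i < n`, `c_n = g_n x`, and `t_n g_n = (zz g)⁻¹`.
-/

set_option autoImplicit false

namespace Crest.Agent.R95

variable {B : Type*} [CStarAlgebra B]

theorem ATel.conj_list {R : Type*} [Monoid R] (u u' : R) (h : u' * u = 1) (h' : u * u' = 1)
    (L : List R) : u * L.prod * u' = (L.map (fun b => u * b * u')).prod := by
  induction L with
  | nil => simp [h']
  | cons b L ih =>
    rw [List.prod_cons, List.map_cons, List.prod_cons, ← ih]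
    have : u * b * u' * (u * L.prod * u') = u * b * (u' * u) * L.prod * u' := by
      simp only [mul_assoc]
    rw [this, h, mul_one]
    simp only [mul_assoc]

theorem ATel.double {R : Type*} [Monoid R] {n : ℕ} (F : Fin n → Fin n → R) :
    (List.ofFn fun l : Fin n => (List.ofFn fun m : Fin n => F l m).prod).prod =
      (List.ofFn fun i : Fin (n * n) => F i.divNat i.modNat).prod := by
  rw [List.ofFn_mul, List.prod_flatten]
  congr 1
  rw [List.map_ofFn]
  congr 1
  funext l
  simp only [Function.comp]
  congr 2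
  funext m
  have hn : 0 < n := l.pos
  congr 1
  · apply Fin.ext
    simp only [Fin.divNat]
    rw [mul_comm, Nat.mul_add_div hn, Nat.div_eq_of_lt m.2, add_zero]
  · apply Fin.ext
    simp only [Fin.modNat]
    rw [mul_comm, Nat.mul_add_mod, Nat.mod_eq_of_lt m.2]

theorem ATel.tele {R : Type*} [Monoid R] (G T T' : ℕ → R) (K : R) (h0 : T 0 = 1)
    (hT : ∀ j, T (j + 1) = T j * G j) (hT' : ∀ j, T' j * T j = 1) (j : ℕ) :
    (List.ofFn fun i : Fin j => G i * K).prod =
      (List.ofFn fun i : Fin j => T (i + 1) * K * T' (i + 1)).prod * T j := by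
  induction j with
  | zero => simp [h0]
  | succ j ih =>
    rw [List.ofFn_succ', List.prod_concat, List.ofFn_succ', List.prod_concat]
    simp only [Fin.val_castSucc, Fin.val_last]
    rw [ih, mul_assoc, ← mul_assoc (T j), ← hT]
    simp only [mul_assoc]
    rw [hT', mul_one]

theorem wordf_telescope {n : ℕ} (a : ℝ) (c : Fin (n + 1) → unitary B) (v x : unitary B)
    (g : Fin (n + 1) → unitary B) (hg : ∀ i : Fin n, g i.castSucc = c i.castSucc * v)
    (hgn : g (Fin.last n) = c (Fin.last n) * x⁻¹) :
    wordf (fun i => (c i : B)) ((v : B) * Kf a g) =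
      (List.ofFn fun i : Fin (n * n) => mob a (zlm g i.divNat i.modNat)).prod *
        ((((zz g)⁻¹ : unitary B) : B) * (x : B)) := by
  set K : B := Kf a g with hK
  set G : ℕ → B := fun l => if h : l < n + 1 then (g ⟨l, h⟩ : B) else 1 with hG
  set T : ℕ → B := fun l => ((tw g l : unitary B) : B) with hT
  set T' : ℕ → B := fun l => (((tw g l)⁻¹ : unitary B) : B) with hT'
  have hstep : ∀ j, T (j + 1) = T j * G j := by
    intro j
    simp only [hT, hG, tw]
    split_ifs with h <;> simp
  have hinv : ∀ j, T' j * T j = 1 := by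
    intro j
    simp only [hT, hT']
    rw [← Submonoid.coe_mul, inv_mul_cancel]; rfl
  have hinv' : ∀ j, T j * T' j = 1 := by
    intro j
    simp only [hT, hT']
    rw [← Submonoid.coe_mul, mul_inv_cancel]; rfl
  have h0 : T 0 = 1 := rfl
  have h1 : ∀ i : Fin n, (c i.castSucc : B) * ((v : B) * K) = G i * K := by
    intro i
    have : G i = (g i.castSucc : B) := by
      simp only [hG]
      rw [dif_pos (show (i : ℕ) < n + 1 by omega)]
      rfl
    rw [this, hg i, Submonoid.coe_mul, mul_assoc]
  have h2 : (c (Fin.last n) : B) = G n * (x : B) := by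
    have : G n = (g (Fin.last n) : B) := by
      simp only [hG]
      rw [dif_pos (show n < n + 1 by omega)]
      rfl
    rw [this, hgn, ← Submonoid.coe_mul, inv_mul_cancel_right]
  have h3 : ∀ l : Fin n, T (l + 1) * K * T' (l + 1) =
      (List.ofFn fun m : Fin n => mob a (zlm g l m)).prod := by
    intro l
    rw [hK, Kf, ATel.conj_list _ _ (hinv _) (hinv' _), List.map_ofFn]
    congr 2
    funext m
    simp only [Function.comp, hT, hT']
    rw [← mob_conj]
    congr 1
    simp only [zlm, tt, mul_assoc]
  unfold wordf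
  have h4 : (List.ofFn fun i : Fin n => (c i.castSucc : B) * ((v : B) * K)) =
      List.ofFn fun i : Fin n => G i * K := by
    congr 1; funext i; exact h1 i
  change (List.ofFn fun i : Fin n => (c i.castSucc : B) * ((v : B) * K)).prod *
    (c (Fin.last n) : B) = _
  rw [h4, ATel.tele G T T' K h0 hstep hinv n, h2]
  have h5 : (List.ofFn fun i : Fin n => T (i + 1) * K * T' (i + 1)) =
      List.ofFn fun l : Fin n => (List.ofFn fun m : Fin n => mob a (zlm g l m)).prod := by
    congr 1; funext l; exact h3 l
  rw [h5, ATel.double (fun l m => mob a (zlm g l m)), mul_assoc]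
  congr 1
  rw [← mul_assoc, ← hstep]
  simp only [hT, zz, inv_inv]

end Crest.Agent.R95
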