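import Crest.Agent.R95.AStar
import Crest.Agent.R95.ATel
import Crest.Agent.R95.AK
import Crest.Agent.R95.ABeta
import Crest.Agent.R95.VNa

/-!
# Row 95, piece ASTEP: one step (weak approximation)

PROOF.  Choose `n ≥ 1` with `1/(50 n) ≤ δ²/3`; put `a = 1/(10 n) ≤ 1/10`; choose `N` with
`4 n 2^n a^(N+1) ≤ δ²/3` and `(n*n) 2^(n*n) (2 a^(N+1)) ‖x y‖ ≤ ε/2` for `y ∈ Z`; choose `ε₁ > 0`
with `2 * 2^n ε₁ ≤ δ²/3`, `2^(n*n) ε₁ ≤ ε/2`.  Apply `star_free` with `k = n+1`, `v i = v` for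
`i < n`, `v n = x⁻¹` (use `Fin.lastCases` or `Fin.snoc`), `S = ` images of `κ ↦ bigWord of κ`,
`κ ↦ smallWord of κ` over the piFinsets, test set `{1} ∪ {x y : y ∈ Z}`, `ε₁`.  With
`g i = c i * v i`, `FreeGroup.lift g (bigWord of κ) = bigWord g κ` (`map_bigWord`), and for
`κ` not good the word is `≠ 1` (`good_of_bigWord`); same for the small words.  `v' = v * Kf a g`:
`n2 (v' - v) = n2 (Kf - 1)` (`n2_unitary_mul`) and `Kf_close`; `v' ∈ M` by `Kf_mem` (`M` is norm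
closed; prove it here or use VNa).  `wordf c v' = ∏ mob * ((zz g)⁻¹ * x)` (`wordf_telescope`), so
`tau ((wordf c v' - β x) y) = tau (∏ mob * ((zz g)⁻¹ * (x y))) - β tau (x y)`: `big_weak`.
`β = betaf n N a ∈ [9/100, 1]`.
-/

set_option autoImplicit false

namespace Crest.Agent.R95

variable {H : Type*} [NormedAddCommGroup H] [InnerProductSpace ℂ H] [CompleteSpace H]

theorem step_weak {P M : VonNeumannAlgebra H} {ξ : ℕ → H} (h : Sit P M ξ) {v x : H →L[ℂ] H}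
    (hv : Un M v) (hx : Un M x) (Z : Finset (H →L[ℂ] H)) (hZ : ∀ y ∈ Z, y ∈ M) {δ ε : ℝ}
    (hδ : 0 < δ) (hε : 0 < ε) :
    ∃ (n : ℕ) (c : Fin (n + 1) → (H →L[ℂ] H)) (v' : H →L[ℂ] H) (β : ℝ),
      (∀ i, Un P (c i)) ∧ Un M v' ∧ 9 / 100 ≤ β ∧ β ≤ 1 ∧ n2 ξ (v' - v) ≤ δ ∧
      ∀ y ∈ Z, ‖tau ξ ((wordf c v' - (β : ℂ) • x) * y)‖ ≤ ε := by
  classical
  have hnr : Nr ξ := h.trc.nr
  -- the choice of `n`
  obtain ⟨n, hn⟩ := exists_nat_gt (max 1 (3 / (50 * δ ^ 2)))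
  have hn1' : (1 : ℝ) < n := lt_of_le_of_lt (le_max_left _ _) hn
  have hn1 : 1 ≤ n := by exact_mod_cast hn1'.le
  have hn0 : (0 : ℝ) < n := by linarith
  have hδ2 : 0 < δ ^ 2 := by positivity
  have hnδ : 1 / (50 * (n : ℝ)) ≤ δ ^ 2 / 3 := by
    have h1 : 3 / (50 * δ ^ 2) < n := lt_of_le_of_lt (le_max_right _ _) hn
    rw [div_lt_iff₀ (by positivity)] at h1
    rw [div_le_iff₀ (by positivity)]
    nlinarith
  set a : ℝ := 1 / (10 * (n : ℝ)) with ha
  have ha0 : 0 ≤ a := by positivity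
  have ha10 : a ≤ 1 / 10 := by
    rw [ha, div_le_div_iff₀ (by positivity) (by norm_num)]
    nlinarith
  have ha1 : a < 1 := by linarith
  -- the choice of `N`
  set B : ℝ := ∑ y ∈ Z, ‖x * y‖ with hB
  have hB0 : 0 ≤ B := Finset.sum_nonneg fun y _ => norm_nonneg _
  have htend : Filter.Tendsto (fun N : ℕ => a ^ (N + 1)) Filter.atTop (nhds 0) :=
    (tendsto_pow_atTop_nhds_zero_of_lt_one ha0 ha1).comp (Filter.tendsto_add_atTop_nat 1)
  set K₁ : ℝ := 4 * n * 2 ^ n with hK1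
  set K₂ : ℝ := (n * n : ℕ) * 2 ^ (n * n) * 2 * B with hK2
  have hK10 : 0 ≤ K₁ := by positivity
  have hK20 : 0 ≤ K₂ := by positivity
  have ht1 : Filter.Tendsto (fun N : ℕ => K₁ * a ^ (N + 1)) Filter.atTop (nhds 0) := by
    simpa using htend.const_mul K₁
  have ht2 : Filter.Tendsto (fun N : ℕ => K₂ * a ^ (N + 1)) Filter.atTop (nhds 0) := by
    simpa using htend.const_mul K₂
  obtain ⟨N, hN1, hN2⟩ := ((ht1.eventually (gt_mem_nhds (show (0 : ℝ) < δ ^ 2 / 3 by positivity))).and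
    (ht2.eventually (gt_mem_nhds (show (0 : ℝ) < ε / 2 by positivity)))).exists
  -- the choice of `ε₁`
  set ε₁ : ℝ := min (δ ^ 2 / 3 / (2 * 2 ^ n)) (ε / 2 / 2 ^ (n * n)) with hε₁
  have hε₁0 : 0 < ε₁ := lt_min (by positivity) (by positivity)
  have hε₁1 : 2 * 2 ^ n * ε₁ ≤ δ ^ 2 / 3 := by
    have h1 : ε₁ ≤ δ ^ 2 / 3 / (2 * 2 ^ n) := min_le_left _ _
    rw [le_div_iff₀ (by positivity)] at h1
    linarith
  have hε₁2 : 2 ^ (n * n) * ε₁ ≤ ε / 2 := by
    have h1 : ε₁ ≤ ε / 2 / 2 ^ (n * n) := min_le_right _ _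
    rw [le_div_iff₀ (by positivity)] at h1
    linarith
  -- the unitaries
  let vU : unitary (H →L[ℂ] H) := ⟨v, hv.2⟩
  let xU : unitary (H →L[ℂ] H) := ⟨x, hx.2⟩
  let vv : Fin (n + 1) → unitary (H →L[ℂ] H) :=
    Fin.snoc (α := fun _ => unitary (H →L[ℂ] H)) (fun _ : Fin n => vU) xU⁻¹
  have hvv1 : ∀ i : Fin n, vv i.castSucc = vU := fun i => by
    simp only [vv, Fin.snoc_castSucc]
  have hvv2 : vv (Fin.last n) = xU⁻¹ := by
    simp only [vv, Fin.snoc_last]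
  have hxinv : ((xU⁻¹ : unitary (H →L[ℂ] H)) : H →L[ℂ] H) = star x := rfl
  have hvvM : ∀ i, (vv i : H →L[ℂ] H) ∈ M := by
    intro i
    refine Fin.lastCases ?_ (fun j => ?_) i
    · rw [hvv2, hxinv]
      exact star_mem hx.1
    · rw [hvv1]
      exact hv.1
  let S : Finset (FreeGroup (Fin (n + 1))) :=
    ((Fintype.piFinset (fun _ : Fin (n * n) => expo N)).image
      (fun κ => bigWord (FreeGroup.of : Fin (n + 1) → FreeGroup (Fin (n + 1))) κ)) ∪
    ((Fintype.piFinset (fun _ : Fin n => expo N)).image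
      (fun κ => smallWord (FreeGroup.of : Fin (n + 1) → FreeGroup (Fin (n + 1))) κ))
  let Z' : Finset (H →L[ℂ] H) := insert 1 (Z.image (fun y => x * y))
  have hZ' : ∀ y ∈ Z', y ∈ M := by
    intro y hy
    rcases Finset.mem_insert.1 hy with hy | hy
    · rw [hy]; exact one_mem M
    · obtain ⟨y', hy', rfl⟩ := Finset.mem_image.1 hy
      exact mul_mem hx.1 (hZ y' hy')
  obtain ⟨c, hcP, hc⟩ := star_free h vv hvvM S Z' hZ' hε₁0
  set g : Fin (n + 1) → unitary (H →L[ℂ] H) := fun i => c i * vv i with hg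
  have hbig : ∀ κ : Fin (n * n) → ℤ, FreeGroup.lift g
      (bigWord (FreeGroup.of : Fin (n + 1) → FreeGroup (Fin (n + 1))) κ) = bigWord g κ := by
    intro κ
    rw [map_bigWord]
    simp only [FreeGroup.lift_apply_of]
  have hsmall : ∀ κ : Fin n → ℤ, FreeGroup.lift g
      (smallWord (FreeGroup.of : Fin (n + 1) → FreeGroup (Fin (n + 1))) κ) = smallWord g κ := by
    intro κ
    rw [map_smallWord]
    simp only [FreeGroup.lift_apply_of]
  have hs1 : ∀ κ ∈ Fintype.piFinset (fun _ : Fin n => expo N), κ ≠ 0 →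
      ‖tau ξ ((smallWord g κ : unitary (H →L[ℂ] H)) : H →L[ℂ] H)‖ ≤ ε₁ := by
    intro κ hκ hκ0
    have hmem : smallWord (FreeGroup.of : Fin (n + 1) → FreeGroup (Fin (n + 1))) κ ∈ S :=
      Finset.mem_union_right _ (Finset.mem_image_of_mem _ hκ)
    have hne : smallWord (FreeGroup.of : Fin (n + 1) → FreeGroup (Fin (n + 1))) κ ≠ 1 :=
      fun hcon => hκ0 (zero_of_smallWord κ hcon)
    have := hc _ hmem hne 1 (Finset.mem_insert_self _ _)
    rw [hsmall, mul_one] at this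
    exact this
  have hs2 : ∀ y ∈ Z, ∀ κ ∈ Fintype.piFinset (fun _ : Fin (n * n) => expo N), ¬ GoodExp κ →
      ‖tau ξ (((bigWord g κ : unitary (H →L[ℂ] H)) : H →L[ℂ] H) * (x * y))‖ ≤ ε₁ := by
    intro y hy κ hκ hκ0
    have hmem : bigWord (FreeGroup.of : Fin (n + 1) → FreeGroup (Fin (n + 1))) κ ∈ S :=
      Finset.mem_union_left _ (Finset.mem_image_of_mem _ hκ)
    have hne : bigWord (FreeGroup.of : Fin (n + 1) → FreeGroup (Fin (n + 1))) κ ≠ 1 :=
      fun hcon => hκ0 (good_of_bigWord κ hcon)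
    have := hc _ hmem hne (x * y)
      (Finset.mem_insert_of_mem (Finset.mem_image_of_mem (fun y => x * y) hy))
    rw [hbig] at this
    exact this
  have hgM : ∀ i, (g i : H →L[ℂ] H) ∈ M := by
    intro i
    have : ((g i : unitary (H →L[ℂ] H)) : H →L[ℂ] H) = (c i : H →L[ℂ] H) * (vv i : H →L[ℂ] H) := rfl
    rw [this]
    exact mul_mem (h.le (hcP i)) (hvvM i)
  have hKM : Kf a g ∈ M := Kf_mem ha0 ha1 g M.toStarSubalgebra (vn_isClosed M) hgM
  have hKU : Kf a g ∈ unitary (H →L[ℂ] H) := Kf_mem_unitary ha0 ha1 g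
  have hKc := Kf_close hnr hn1 N hε₁0.le g hs1
  refine ⟨n, fun i => (c i : H →L[ℂ] H), v * Kf a g, betaf n N a, fun i => ⟨hcP i, (c i).2⟩,
    ⟨mul_mem hv.1 hKM, mul_mem hv.2 hKU⟩, betaf_ge hn1 N, betaf_le hn1 N, ?_, ?_⟩
  · have h1 : v * Kf a g - v = v * (Kf a g - 1) := by rw [mul_sub, mul_one]
    rw [h1, n2_unitary_mul _ _ (Unitary.star_mul_self_of_mem hv.2)]
    refine le_of_sq_le_sq ?_ hδ.le
    refine hKc.trans ?_
    have h2 : 4 * (n : ℝ) * 2 ^ n * (1 / (10 * n) : ℝ) ^ (N + 1) ≤ δ ^ 2 / 3 := hN1.le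
    linarith
  · intro y hy
    have htel : wordf (fun i => (c i : H →L[ℂ] H)) (v * Kf a g) =
        (List.ofFn fun i : Fin (n * n) => mob a (zlm g i.divNat i.modNat)).prod *
          ((((zz g)⁻¹ : unitary (H →L[ℂ] H)) : H →L[ℂ] H) * x) :=
      wordf_telescope a c vU xU g (fun i => by rw [hg]; simp only [hvv1])
        (by rw [hg]; simp only [hvv2])
    have hbw := big_weak hnr hn1 N hε₁0.le g (x * y) (hs2 y hy)
    have h3 : (wordf (fun i => (c i : H →L[ℂ] H)) (v * Kf a g) - (betaf n N a : ℂ) • x) * y =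
        (List.ofFn fun i : Fin (n * n) => mob a (zlm g i.divNat i.modNat)).prod *
          ((((zz g)⁻¹ : unitary (H →L[ℂ] H)) : H →L[ℂ] H) * (x * y)) -
            (betaf n N a : ℂ) • (x * y) := by
      rw [htel, sub_mul, smul_mul_assoc]
      simp only [mul_assoc]
    rw [h3, tau_sub hnr, tau_smul]
    refine hbw.trans ?_
    have h4 : ‖x * y‖ ≤ B := Finset.single_le_sum (f := fun y => ‖x * y‖)
      (fun y _ => norm_nonneg _) hy
    have h5 : ((n * n : ℕ) : ℝ) * 2 ^ (n * n) * (2 * a ^ (N + 1)) * ‖x * y‖ ≤ ε / 2 := by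
      calc ((n * n : ℕ) : ℝ) * 2 ^ (n * n) * (2 * a ^ (N + 1)) * ‖x * y‖
          ≤ ((n * n : ℕ) : ℝ) * 2 ^ (n * n) * (2 * a ^ (N + 1)) * B := by gcongr
        _ = K₂ * a ^ (N + 1) := by rw [hK2]; ring
        _ ≤ ε / 2 := hN2.le
    have h6 := hε₁2
    linarith

end Crest.Agent.R95
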