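import Crest.Agent.R95.VNe

/-!
# Row 95, piece B1: perturbation of algebra elements

For `a ∈ AL P u` there is `C` such that for unitaries `v` of `M` near `u` (in `n2`) there is
`a' ∈ AL P v` with `‖a'‖ ≤ C` near `a` in `n2`.
Proof: `StarAlgebra.adjoin_induction` (over `P ∪ {u}`): generators `x ∈ P` (`a' = x`), `u`
(`a' = v`, `‖v‖ ≤ 1`), scalars (`algebraMap`), sums, products
(`a' b' - a b = a' (b' - b) + (a' - a) b`, `n2_mul_le`, `n2_mul_le'`; `a, b ∈ M` by `al_le`), stars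
(`n2_star`).
-/

set_option autoImplicit false

namespace Crest.Agent.R95

open Crest.OpAlg
open scoped InnerProductSpace ComplexConjugate Topology

variable {H : Type*} [NormedAddCommGroup H] [InnerProductSpace ℂ H] [CompleteSpace H]
variable {ξ : ℕ → H} {P M : VonNeumannAlgebra H}

theorem al_perturb (h : Trc M ξ) (hPM : P ≤ M) {u : H →L[ℂ] H} (hu : Un M u) {a : H →L[ℂ] H}
    (ha : a ∈ AL P u) :
    ∃ C : ℝ, ∀ ε : ℝ, 0 < ε → ∃ δ : ℝ, 0 < δ ∧ ∀ v, Un M v → n2 ξ (v - u) < δ →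
      ∃ a' ∈ AL P v, ‖a'‖ ≤ C ∧ n2 ξ (a' - a) < ε := by
  have hnr : Nr ξ := h.1
  unfold AL at ha
  induction ha using StarAlgebra.adjoin_induction with
  | mem x hx =>
    rcases hx with hx | hx
    · refine ⟨‖x‖, fun ε hε => ⟨1, one_pos, fun v hv _ => ⟨x, mem_al_of_mem hx, le_rfl, ?_⟩⟩⟩
      rw [sub_self, n2_zero]; exact hε
    · have hxu : x = u := hx
      subst hxu
      refine ⟨1, fun ε hε => ⟨ε, hε, fun v hv hvu => ⟨v, self_mem_al P v, ?_, hvu⟩⟩⟩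
      have h1 : star v * v = 1 := (Unitary.mem_iff.1 hv.2).1
      have h2 : ‖v‖ * ‖v‖ ≤ 1 := by
        rw [← CStarRing.norm_star_mul_self, h1]
        exact ContinuousLinearMap.norm_id_le
      nlinarith [norm_nonneg v]
  | algebraMap r =>
    refine ⟨‖algebraMap ℂ (H →L[ℂ] H) r‖, fun ε hε => ⟨1, one_pos, fun v hv _ =>
      ⟨algebraMap ℂ (H →L[ℂ] H) r, (AL P v).algebraMap_mem r, le_rfl, ?_⟩⟩⟩
    rw [sub_self, n2_zero]; exact hε
  | add x y hx hy ihx ihy =>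
    obtain ⟨C1, h1⟩ := ihx
    obtain ⟨C2, h2⟩ := ihy
    refine ⟨C1 + C2, fun ε hε => ?_⟩
    obtain ⟨d1, hd1, h1⟩ := h1 (ε / 2) (by positivity)
    obtain ⟨d2, hd2, h2⟩ := h2 (ε / 2) (by positivity)
    refine ⟨min d1 d2, lt_min hd1 hd2, fun v hv hvu => ?_⟩
    obtain ⟨a, ha, hac, hae⟩ := h1 v hv (hvu.trans_le (min_le_left _ _))
    obtain ⟨b, hb, hbc, hbe⟩ := h2 v hv (hvu.trans_le (min_le_right _ _))
    refine ⟨a + b, add_mem ha hb, (norm_add_le _ _).trans (add_le_add hac hbc), ?_⟩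
    have h3 : a + b - (x + y) = (a - x) + (b - y) := by abel
    rw [h3]
    refine (n2_add_le hnr _ _).trans_lt ?_
    linarith
  | mul x y hx hy ihx ihy =>
    obtain ⟨C1, h1⟩ := ihx
    obtain ⟨C2, h2⟩ := ihy
    refine ⟨|C1| * |C2|, fun ε hε => ?_⟩
    have hyM : y ∈ M := al_le hPM hu.1 hy
    have hxM : x ∈ M := al_le hPM hu.1 hx
    obtain ⟨d1, hd1, h1⟩ := h1 (ε / (2 * (‖y‖ + 1))) (by positivity)
    obtain ⟨d2, hd2, h2⟩ := h2 (ε / (2 * (|C1| + 1))) (by positivity)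
    refine ⟨min d1 d2, lt_min hd1 hd2, fun v hv hvu => ?_⟩
    obtain ⟨a, ha, hac, hae⟩ := h1 v hv (hvu.trans_le (min_le_left _ _))
    obtain ⟨b, hb, hbc, hbe⟩ := h2 v hv (hvu.trans_le (min_le_right _ _))
    refine ⟨a * b, mul_mem ha hb, (norm_mul_le _ _).trans ?_, ?_⟩
    · exact mul_le_mul (hac.trans (le_abs_self _)) (hbc.trans (le_abs_self _)) (norm_nonneg _)
        (abs_nonneg _)
    have h3 : a * b - x * y = a * (b - y) + (a - x) * y := by noncomm_ring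
    rw [h3]
    refine (n2_add_le hnr _ _).trans_lt ?_
    have h4 : n2 ξ (a * (b - y)) ≤ |C1| * (ε / (2 * (|C1| + 1))) :=
      (n2_mul_le hnr _ _).trans (mul_le_mul (hac.trans (le_abs_self _)) hbe.le (n2_nonneg _)
        (abs_nonneg _))
    have haM : a ∈ M := al_le hPM hv.1 ha
    have h5 : n2 ξ ((a - x) * y) ≤ (ε / (2 * (‖y‖ + 1))) * ‖y‖ :=
      (n2_mul_le' h (sub_mem haM hxM) hyM).trans
        (mul_le_mul_of_nonneg_right hae.le (norm_nonneg _))
    have h6 : |C1| * (ε / (2 * (|C1| + 1))) < ε / 2 := by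
      have : (0 : ℝ) < |C1| + 1 := by positivity
      rw [mul_div_assoc', div_lt_div_iff₀ (by positivity) (by positivity)]
      nlinarith [abs_nonneg C1]
    have h7 : (ε / (2 * (‖y‖ + 1))) * ‖y‖ < ε / 2 := by
      have : (0 : ℝ) < ‖y‖ + 1 := by positivity
      rw [div_mul_eq_mul_div, div_lt_div_iff₀ (by positivity) (by positivity)]
      nlinarith [norm_nonneg y]
    linarith
  | star x hx ihx =>
    obtain ⟨C1, h1⟩ := ihx
    refine ⟨C1, fun ε hε => ?_⟩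
    obtain ⟨d1, hd1, h1⟩ := h1 ε hε
    refine ⟨d1, hd1, fun v hv hvu => ?_⟩
    obtain ⟨a, ha, hac, hae⟩ := h1 v hv hvu
    refine ⟨star a, star_mem ha, by rwa [norm_star], ?_⟩
    rw [← star_sub, n2_star h (sub_mem (al_le hPM hv.1 ha) (al_le hPM hu.1 hx))]
    exact hae

end Crest.Agent.R95
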