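import Crest.Agent.R95.VNb2

/-!
# Row 95, piece B2: Baire category in the unitary group of `M` with the trace 2-norm

Proof: `{u // Un M u}` with `dist u v = n2 ξ (u - v)` is a metric space (`n2_eq_zero`, `n2_tri`,
`n2_sub_comm`), complete by `vn_complete` (limits of unitaries are unitary: `n2_lim_mul`,
`n2_lim_star`, `n2_lim_unique`).  Then `dense_iInter_of_isOpen_nat`.
-/

set_option autoImplicit false

namespace Crest.Agent.R95

open Crest.OpAlg
open scoped InnerProductSpace ComplexConjugate Topology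

variable {H : Type*} [NormedAddCommGroup H] [InnerProductSpace ℂ H] [CompleteSpace H]
variable {ξ : ℕ → H} {P M : VonNeumannAlgebra H}

theorem B2.norm_le {u : H →L[ℂ] H} (hu : Un M u) : ‖u‖ ≤ 1 := by
  rcases subsingleton_or_nontrivial H with hH | hH
  · have : u = 0 := by ext v; exact Subsingleton.elim _ _
    simp [this]
  · exact (CStarRing.norm_of_mem_unitary hu.2).le

/-- an `n2`-limit of unitaries of `M` is a unitary of `M` -/
theorem un_lim (h : Trc M ξ) {x : ℕ → (H →L[ℂ] H)} (hx : ∀ k, Un M (x k)) {y : H →L[ℂ] H}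
    (hy : y ∈ M) (h1 : Filter.Tendsto (fun k => n2 ξ (x k - y)) Filter.atTop (𝓝 0)) :
    Un M y := by
  have hs := n2_lim_star h (fun k => (hx k).1) hy h1
  have hone : (1 : H →L[ℂ] H) ∈ M := one_mem M
  have hc : Filter.Tendsto (fun _ : ℕ => n2 ξ ((1 : H →L[ℂ] H) - 1)) Filter.atTop (𝓝 0) := by
    simp [n2_zero]
  have ha := n2_lim_mul h (x := fun k => star (x k)) (z := x)
    (fun k => star_mem (hx k).1) (fun k => (hx k).1) (C := 1)
    (fun k => by rw [norm_star]; exact B2.norm_le (hx k)) (star_mem hy) hy hs h1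
  have hb := n2_lim_mul h (x := x) (z := fun k => star (x k))
    (fun k => (hx k).1) (fun k => star_mem (hx k).1) (C := 1)
    (fun k => B2.norm_le (hx k)) hy (star_mem hy) h1 hs
  refine ⟨hy, ?_⟩
  rw [Unitary.mem_iff]
  constructor
  · refine n2_lim_unique h (x := fun _ => 1) (fun _ => hone) (mul_mem (star_mem hy) hy) hone ?_ hc
    refine ha.congr fun k => ?_
    rw [(Unitary.mem_iff.1 (hx k).2).1]
  · refine n2_lim_unique h (x := fun _ => 1) (fun _ => hone) (mul_mem hy (star_mem hy)) hone ?_ hc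
    refine hb.congr fun k => ?_
    rw [(Unitary.mem_iff.1 (hx k).2).2]

/-- the unitaries of `M` -/
structure B2.U (M : VonNeumannAlgebra H) where
  /-- underlying operator -/
  val : H →L[ℂ] H
  /-- unitary -/
  property : Un M val

/-- the unitaries of `M` with the trace 2-norm metric -/
@[reducible] noncomputable def B2.met (h : Trc M ξ) : MetricSpace (B2.U M) where
  dist u v := n2 ξ (u.1 - v.1)
  dist_self u := by simp [n2_zero]
  dist_comm u v := n2_sub_comm _ _
  dist_triangle u v w := n2_tri h.nr _ _ _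
  eq_of_dist_eq_zero := by
    intro u v huv
    have h1 := n2_eq_zero h (sub_mem u.property.1 v.property.1) huv
    obtain ⟨u, hu⟩ := u
    obtain ⟨v, hv⟩ := v
    have h2 : u = v := sub_eq_zero.1 h1
    subst h2
    rfl

theorem baire_un (h : Trc M ξ) (O : ℕ → Set (H →L[ℂ] H))
    (hO : ∀ k u, Un M u → u ∈ O k → ∃ δ : ℝ, 0 < δ ∧ ∀ v, Un M v → n2 ξ (v - u) < δ → v ∈ O k)
    (hd : ∀ k u, Un M u → ∀ ε : ℝ, 0 < ε → ∃ v, Un M v ∧ n2 ξ (v - u) < ε ∧ v ∈ O k)
    {u : H →L[ℂ] H} (hu : Un M u) {ε : ℝ} (hε : 0 < ε) :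
    ∃ v, Un M v ∧ n2 ξ (v - u) < ε ∧ ∀ k, v ∈ O k := by
  letI : MetricSpace (B2.U M) := B2.met h
  have hball : ∀ (a b : (B2.U M)) (δ : ℝ),
      a ∈ Metric.ball b δ ↔ n2 ξ (a.1 - b.1) < δ := fun a b δ => Metric.mem_ball
  have : CompleteSpace (B2.U M) := by
    refine Metric.complete_of_cauchySeq_tendsto fun x hx => ?_
    obtain ⟨y, hy, -, hlim⟩ := vn_complete h (fun k => (x k).1) (fun k => (x k).2.1) 1
      (fun k => B2.norm_le (x k).2) (by
        intro δ hδ
        obtain ⟨N, hN⟩ := Metric.cauchySeq_iff.1 hx δ hδ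
        exact ⟨N, fun k l hk hl => (hN k hk l hl).le⟩)
    refine ⟨⟨y, un_lim h (fun k => (x k).2) hy hlim⟩, ?_⟩
    rw [tendsto_iff_dist_tendsto_zero]
    exact hlim
  have hbaire := dense_iInter_of_isOpen_nat
    (f := fun k => {v : (B2.U M) | v.1 ∈ O k})
    (by
      intro k
      rw [Metric.isOpen_iff]
      intro v hv
      obtain ⟨δ, hδ, hδ'⟩ := hO k v.1 v.2 hv
      exact ⟨δ, hδ, fun w hw => hδ' w.1 w.2 ((hball w v δ).1 hw)⟩)
    (by
      intro k
      rw [Metric.dense_iff]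
      intro v δ hδ
      obtain ⟨w, hw, hw1, hw2⟩ := hd k v.1 v.2 δ hδ
      exact ⟨⟨w, hw⟩, (hball ⟨w, hw⟩ v δ).2 hw1, hw2⟩)
  obtain ⟨w, hw1, hw2⟩ := (Metric.dense_iff.1 hbaire) ⟨u, hu⟩ ε hε
  exact ⟨w.1, w.2, (hball w ⟨u, hu⟩ ε).1 hw1, fun k => Set.mem_iInter.1 hw2 k⟩

end Crest.Agent.R95
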