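import Crest.Agent.R95.TrB

/-!
# Row 95, piece B3: the unitaries of `M` have a countable `n2`-dense subset

Proof: `Φ u = (u ξ_n)_n ∈ ℕ → H` (product topology, second countable as `H` is separable
metrizable).  The range of `Φ` on the unitaries is a separable subspace: there are unitaries `x j`
with `Φ (x j)` dense in it.  Given a unitary `u` and `ε`, choose `N` with
`4 ∑_{n ≥ N} ‖ξ_n‖² < ε²/2` and `j` with `∑_{n < N} ‖(x_j - u) ξ_n‖² < ε²/2` (an open condition on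
`Φ (x j)`); then `n2 (x_j - u)² = ∑ ‖(x_j - u) ξ_n‖² < ε²` as `‖x_j - u‖ ≤ 2`.
-/

set_option autoImplicit false

namespace Crest.Agent.R95

open Crest.OpAlg
open scoped InnerProductSpace ComplexConjugate Topology

variable {H : Type*} [NormedAddCommGroup H] [InnerProductSpace ℂ H] [CompleteSpace H]
variable {ξ : ℕ → H} {P M : VonNeumannAlgebra H}

theorem B3.un_apply_le {u : H →L[ℂ] H} (hu : Un M u) (v : H) : ‖u v‖ ≤ ‖v‖ := by
  have h1 : ‖u‖ ≤ 1 := by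
    have h2 : star u * u = 1 := (Unitary.mem_iff.mp hu.2).1
    have h3 : ‖u‖ * ‖u‖ = ‖star u * u‖ := CStarRing.norm_star_mul_self.symm
    rw [h2] at h3
    have h4 : ‖(1 : H →L[ℂ] H)‖ ≤ 1 := ContinuousLinearMap.norm_id_le
    nlinarith [norm_nonneg u]
  calc ‖u v‖ ≤ ‖u‖ * ‖v‖ := u.le_opNorm v
    _ ≤ 1 * ‖v‖ := mul_le_mul_of_nonneg_right h1 (norm_nonneg _)
    _ = ‖v‖ := one_mul _

theorem sep_un [TopologicalSpace.SeparableSpace H] (h : Trc M ξ) :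
    ∃ x : ℕ → (H →L[ℂ] H), (∀ j, Un M (x j)) ∧
      ∀ u, Un M u → ∀ ε : ℝ, 0 < ε → ∃ j, n2 ξ (x j - u) < ε := by
  classical
  haveI : SecondCountableTopology H := UniformSpace.secondCountable_of_separable H
  let Φ : {u : H →L[ℂ] H // Un M u} → (ℕ → H) := fun u n => u.1 (ξ n)
  have hone : Un M (1 : H →L[ℂ] H) := ⟨one_mem M, one_mem _⟩
  haveI : Nonempty (Set.range Φ) := ⟨⟨Φ ⟨1, hone⟩, ⟨_, rfl⟩⟩⟩
  obtain ⟨w, hw⟩ := TopologicalSpace.exists_dense_seq (Set.range Φ)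
  have hx : ∀ j, ∃ y : {u : H →L[ℂ] H // Un M u}, Φ y = (w j : ℕ → H) := fun j => (w j).2
  choose y hy using hx
  refine ⟨fun j => (y j).1, fun j => (y j).2, fun u hu ε hε => ?_⟩
  -- tail
  have hs : Summable (fun n => ‖ξ n‖ ^ 2) := h.nr.summable
  have htail : ∃ N : ℕ, ∑' n, ‖ξ (n + N)‖ ^ 2 < ε ^ 2 / 16 := by
    have h1 := tendsto_sum_nat_add (fun n => ‖ξ n‖ ^ 2)
    have h2 := (h1.eventually (gt_mem_nhds (show (0 : ℝ) < ε ^ 2 / 16 by positivity))).exists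
    exact h2
  obtain ⟨N, hN⟩ := htail
  set δ : ℝ := ε / (2 * (N + 1)) with hδ
  have hδ0 : 0 < δ := by positivity
  -- open set
  let O : Set (ℕ → H) := Set.pi (Set.Iio N) fun n => Metric.ball (u (ξ n)) δ
  have hO : IsOpen O := isOpen_set_pi (Set.finite_Iio N) fun n _ => Metric.isOpen_ball
  have hO' : IsOpen ((fun z : Set.range Φ => (z : ℕ → H)) ⁻¹' O) :=
    hO.preimage continuous_subtype_val
  obtain ⟨j, hj⟩ := hw.exists_mem_open hO'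
    ⟨⟨Φ ⟨u, hu⟩, ⟨_, rfl⟩⟩, fun n _ => by simp [Φ, hδ0]⟩
  refine ⟨j, ?_⟩
  have hclose : ∀ n, n < N → ‖((y j).1 - u) (ξ n)‖ < δ := by
    intro n hn
    have h1 : (w j : ℕ → H) n ∈ Metric.ball (u (ξ n)) δ := hj n hn
    rw [← hy j] at h1
    rw [ContinuousLinearMap.sub_apply, ← dist_eq_norm]
    exact Metric.mem_ball.mp h1
  have hfar : ∀ n, ‖((y j).1 - u) (ξ n)‖ ^ 2 ≤ 4 * ‖ξ n‖ ^ 2 := by
    intro n
    have h1 : ‖((y j).1 - u) (ξ n)‖ ≤ 2 * ‖ξ n‖ := by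
      rw [ContinuousLinearMap.sub_apply]
      calc ‖(y j).1 (ξ n) - u (ξ n)‖ ≤ ‖(y j).1 (ξ n)‖ + ‖u (ξ n)‖ := norm_sub_le _ _
        _ ≤ ‖ξ n‖ + ‖ξ n‖ := add_le_add (B3.un_apply_le (y j).2 _) (B3.un_apply_le hu _)
        _ = 2 * ‖ξ n‖ := by ring
    calc ‖((y j).1 - u) (ξ n)‖ ^ 2 ≤ (2 * ‖ξ n‖) ^ 2 := pow_le_pow_left₀ (norm_nonneg _) h1 2
      _ = 4 * ‖ξ n‖ ^ 2 := by ring
  have hsum := summable_n2 h.nr ((y j).1 - u)
  have hsq : n2 ξ ((y j).1 - u) ^ 2 < ε ^ 2 := by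
    rw [n2_sq', ← hsum.sum_add_tsum_nat_add N]
    have h1 : ∑ n ∈ Finset.range N, ‖((y j).1 - u) (ξ n)‖ ^ 2 ≤ ε ^ 2 / 4 := by
      calc ∑ n ∈ Finset.range N, ‖((y j).1 - u) (ξ n)‖ ^ 2 ≤ ∑ n ∈ Finset.range N, δ ^ 2 := by
            refine Finset.sum_le_sum fun n hn => ?_
            exact pow_le_pow_left₀ (norm_nonneg _) (hclose n (Finset.mem_range.mp hn)).le 2
        _ = N * δ ^ 2 := by simp
        _ ≤ ε ^ 2 / 4 := by
            rw [hδ, div_pow, mul_pow]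
            rw [← mul_div_assoc, div_le_div_iff₀ (by positivity) (by norm_num)]
            have hN0 : (0 : ℝ) ≤ N := Nat.cast_nonneg N
            nlinarith [mul_nonneg hN0 (sq_nonneg ε), mul_nonneg (mul_nonneg hN0 hN0) (sq_nonneg ε), sq_nonneg ε]
    have h2 : ∑' n, ‖((y j).1 - u) (ξ (n + N))‖ ^ 2 ≤ 4 * (ε ^ 2 / 16) := by
      have hs2 : Summable fun n => ‖ξ (n + N)‖ ^ 2 := (summable_nat_add_iff N).mpr hs
      have hs3 : Summable fun n => ‖((y j).1 - u) (ξ (n + N))‖ ^ 2 :=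
        (summable_nat_add_iff N).mpr hsum
      calc ∑' n, ‖((y j).1 - u) (ξ (n + N))‖ ^ 2 ≤ ∑' n, 4 * ‖ξ (n + N)‖ ^ 2 :=
            hs3.tsum_le_tsum (fun n => hfar _) (hs2.mul_left 4)
        _ = 4 * ∑' n, ‖ξ (n + N)‖ ^ 2 := tsum_mul_left
        _ ≤ 4 * (ε ^ 2 / 16) := by linarith
    have h3 : 0 < ε ^ 2 := by positivity
    linarith
  exact lt_of_pow_lt_pow_left₀ 2 hε.le hsq

end Crest.Agent.R95
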