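import Crest.Agent.R95.VNe

/-!
# Row 95, piece B4: unitaries span `M`

Proof: `M.toStarSubalgebra` is norm closed (`vn_isClosed`), hence a C⋆-algebra
(`StarSubalgebra.cstarAlgebra`); `CStarAlgebra.span_unitary` (or `exists_sum_four_unitary`).
Second theorem: approximability passes to linear combinations (`Submodule.span_induction`).
-/

set_option autoImplicit false

namespace Crest.Agent.R95

open Crest.OpAlg
open scoped InnerProductSpace ComplexConjugate Topology

variable {H : Type*} [NormedAddCommGroup H] [InnerProductSpace ℂ H] [CompleteSpace H]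
variable {ξ : ℕ → H} {P M : VonNeumannAlgebra H}

theorem span_un (M : VonNeumannAlgebra H) {x : H →L[ℂ] H} (hx : x ∈ M) :
    x ∈ Submodule.span ℂ {u : H →L[ℂ] H | Un M u} := by
  have : IsClosed (M.toStarSubalgebra : Set (H →L[ℂ] H)) := vn_isClosed M
  obtain ⟨u, c, hu, -⟩ := CStarAlgebra.exists_sum_four_unitary (A := M.toStarSubalgebra) ⟨x, hx⟩
  have h3 : x = ∑ i, c i • ((u i : M.toStarSubalgebra) : H →L[ℂ] H) := by
    have := congrArg (Subtype.val) hu
    rw [← M.toStarSubalgebra.coe_subtype, map_sum] at this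
    exact this
  rw [h3]
  refine sum_mem fun i _ => Submodule.smul_mem _ _ (Submodule.subset_span ?_)
  refine ⟨(u i : M.toStarSubalgebra).2, ?_⟩
  have := Unitary.mem_iff.1 (u i).2
  refine Unitary.mem_iff.2 ⟨?_, ?_⟩
  · exact congrArg Subtype.val this.1
  · exact congrArg Subtype.val this.2

theorem approx_of_un (h : Trc M ξ) (A : StarSubalgebra ℂ (H →L[ℂ] H))
    (hA : ∀ x, Un M x → ∀ ε : ℝ, 0 < ε → ∃ a ∈ A, n2 ξ (x - a) < ε) :
    ∀ x ∈ M, ∀ ε : ℝ, 0 < ε → ∃ a ∈ A, n2 ξ (x - a) < ε := by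
  intro x hx
  have hx' := span_un M hx
  clear hx
  induction hx' using Submodule.span_induction with
  | mem y hy => exact hA y hy
  | zero => exact fun ε hε => ⟨0, zero_mem A, by simpa [n2_zero] using hε⟩
  | add y z _ _ ihy ihz =>
    intro ε hε
    obtain ⟨a, ha, h1⟩ := ihy (ε / 2) (by positivity)
    obtain ⟨b, hb, h2⟩ := ihz (ε / 2) (by positivity)
    refine ⟨a + b, add_mem ha hb, ?_⟩
    have e : y + z - (a + b) = (y - a) + (z - b) := by abel
    rw [e]
    have := n2_add_le h.nr (y - a) (z - b)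
    linarith
  | smul c y _ ih =>
    intro ε hε
    obtain ⟨a, ha, h1⟩ := ih (ε / (‖c‖ + 1)) (by positivity)
    refine ⟨c • a, SMulMemClass.smul_mem c ha, ?_⟩
    rw [← smul_sub, n2_smul]
    rw [lt_div_iff₀ (by positivity)] at h1
    have := n2_nonneg (ξ := ξ) (y - a)
    nlinarith [norm_nonneg c]

end Crest.Agent.R95
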