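import Crest.Agent.R95.B1
import Crest.Agent.R95.B2
import Crest.Agent.R95.B3
import Crest.Agent.R95.B4

/-!
# Row 95, S0126 from `approx`
-/

set_option autoImplicit false

namespace Crest.Agent.R95

open Crest.OpAlg
open scoped InnerProductSpace ComplexConjugate Topology

variable {H : Type*} [NormedAddCommGroup H] [InnerProductSpace ℂ H] [CompleteSpace H]
variable {ξ : ℕ → H} {P M : VonNeumannAlgebra H}

theorem gdelta_core [TopologicalSpace.SeparableSpace H] (h : Sit P M ξ)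
    (happ : ∀ v x : H →L[ℂ] H, Un M v → Un M x → ∀ δ ε : ℝ, 0 < δ → 0 < ε →
      ∃ V, Un M V ∧ n2 ξ (V - v) ≤ δ ∧ ∃ p ∈ AL P V, n2 ξ (p - x) ≤ ε) :
    (∃ O : ℕ → Set (H →L[ℂ] H),
      (∀ k u, Un M u → u ∈ O k → ∃ δ : ℝ, 0 < δ ∧ ∀ v, Un M v → n2 ξ (v - u) < δ → v ∈ O k) ∧
      (∀ u, Un M u →
        ((∀ N : VonNeumannAlgebra H, P ≤ N → u ∈ N → M ≤ N) ↔ ∀ k : ℕ, u ∈ O k))) ∧
    (∀ u, Un M u → ∀ ε : ℝ, 0 < ε → ∃ v, Un M v ∧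
      (∀ N : VonNeumannAlgebra H, P ≤ N → v ∈ N → M ≤ N) ∧ n2 ξ (v - u) < ε) := by
  obtain ⟨x, hx, hxd⟩ := sep_un h.trc
  let O : ℕ → Set (H →L[ℂ] H) := fun k =>
    {u | ∃ a ∈ AL P u, n2 ξ (a - x (Nat.unpair k).1) < 1 / ((Nat.unpair k).2 + 1 : ℝ)}
  have hopen : ∀ k u, Un M u → u ∈ O k →
      ∃ δ : ℝ, 0 < δ ∧ ∀ v, Un M v → n2 ξ (v - u) < δ → v ∈ O k := by
    intro k u hu ⟨a, ha, hlt⟩
    obtain ⟨C, hC⟩ := al_perturb h.trc h.le hu ha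
    obtain ⟨δ, hδ, hδ'⟩ := hC (1 / ((Nat.unpair k).2 + 1 : ℝ) - n2 ξ (a - x (Nat.unpair k).1))
      (by linarith)
    refine ⟨δ, hδ, fun v hv hvu => ?_⟩
    obtain ⟨a', ha', -, hn⟩ := hδ' v hv hvu
    refine ⟨a', ha', ?_⟩
    have := n2_tri h.trc.nr a' a (x (Nat.unpair k).1)
    linarith
  have hiff : ∀ u, Un M u →
      ((∀ N : VonNeumannAlgebra H, P ≤ N → u ∈ N → M ≤ N) ↔ ∀ k : ℕ, u ∈ O k) := by
    intro u hu
    rw [generates_iff h.trc h.le hu.1]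
    constructor
    · intro hg k
      obtain ⟨a, ha, hlt⟩ := hg (x (Nat.unpair k).1) (hx _).1
        (1 / ((Nat.unpair k).2 + 1 : ℝ)) (by positivity)
      exact ⟨a, ha, by rwa [n2_sub_comm]⟩
    · intro hk
      refine approx_of_un h.trc (AL P u) ?_
      intro y hy ε hε
      obtain ⟨j, hj⟩ := hxd y hy (ε / 2) (by positivity)
      obtain ⟨n, hn⟩ := exists_nat_one_div_lt (show (0 : ℝ) < ε / 2 by positivity)
      obtain ⟨a, ha, hlt⟩ := hk (Nat.pair j n)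
      simp only [Nat.unpair_pair] at hlt
      refine ⟨a, ha, ?_⟩
      have h1 := n2_tri h.trc.nr y (x j) a
      rw [n2_sub_comm y (x j), n2_sub_comm (x j) a] at h1
      linarith
  refine ⟨⟨O, hopen, hiff⟩, ?_⟩
  intro u hu ε hε
  obtain ⟨v, hv, hvu, hall⟩ := baire_un h.trc O hopen (by
    intro k w hw ε' hε'
    obtain ⟨V, hV, hVw, p, hp, hpx⟩ := happ w (x (Nat.unpair k).1) hw (hx _) (ε' / 2)
      (1 / ((Nat.unpair k).2 + 1 : ℝ) / 2) (by positivity) (by positivity)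
    refine ⟨V, hV, by linarith, p, hp, ?_⟩
    have : (0 : ℝ) < 1 / ((Nat.unpair k).2 + 1 : ℝ) := by positivity
    linarith) hu hε
  exact ⟨v, hv, (hiff v hv).2 hall, hvu⟩

/-- translation to `traceNormSq` -/
theorem gdelta_final [TopologicalSpace.SeparableSpace H] (h : Sit P M ξ)
    (happ : ∀ v x : H →L[ℂ] H, Un M v → Un M x → ∀ δ ε : ℝ, 0 < δ → 0 < ε →
      ∃ V, Un M V ∧ n2 ξ (V - v) ≤ δ ∧ ∃ p ∈ AL P V, n2 ξ (p - x) ≤ ε) :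
    (∃ O : ℕ → Set (H →L[ℂ] H),
      (∀ k : ℕ, ∀ u ∈ M, u ∈ unitary (H →L[ℂ] H) → u ∈ O k → ∃ δ : ℝ, 0 < δ ∧
        ∀ v ∈ M, v ∈ unitary (H →L[ℂ] H) → Crest.OpAlg.traceNormSq ξ (v - u) < δ → v ∈ O k) ∧
      (∀ u ∈ M, u ∈ unitary (H →L[ℂ] H) →
        ((∀ N : VonNeumannAlgebra H, P ≤ N → u ∈ N → M ≤ N) ↔ ∀ k : ℕ, u ∈ O k))) ∧
    (∀ u ∈ M, u ∈ unitary (H →L[ℂ] H) → ∀ ε : ℝ, 0 < ε →
      ∃ v ∈ M, v ∈ unitary (H →L[ℂ] H) ∧ (∀ N : VonNeumannAlgebra H, P ≤ N → v ∈ N → M ≤ N) ∧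
        Crest.OpAlg.traceNormSq ξ (v - u) < ε) := by
  obtain ⟨⟨O, hO1, hO2⟩, hd⟩ := gdelta_core h happ
  refine ⟨⟨O, ?_, fun u hu hu' => hO2 u ⟨hu, hu'⟩⟩, ?_⟩
  · intro k u hu hu' huk
    obtain ⟨δ, hδ, hδ'⟩ := hO1 k u ⟨hu, hu'⟩ huk
    refine ⟨δ ^ 2, by positivity, fun v hv hv' hlt => hδ' v ⟨hv, hv'⟩ ?_⟩
    rw [← n2_sq] at hlt
    exact lt_of_pow_lt_pow_left₀ 2 hδ.le hlt
  · intro u hu hu' ε hε
    obtain ⟨v, hv, hgen, hlt⟩ := hd u ⟨hu, hu'⟩ (Real.sqrt ε) (Real.sqrt_pos.2 hε)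
    refine ⟨v, hv.1, hv.2, hgen, ?_⟩
    rw [← n2_sq]
    calc n2 ξ (v - u) ^ 2 < Real.sqrt ε ^ 2 :=
          pow_lt_pow_left₀ hlt (n2_nonneg _) (by norm_num)
      _ = ε := Real.sq_sqrt hε.le

end Crest.Agent.R95
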