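import Crest.Agent.R95.VNb2

/-!
# Row 95, piece C1: central support argument

`P` a factor, `f, e ∈ P` nonzero projections: some `x ∈ P` has `f x e ≠ 0`.
-/

set_option autoImplicit false

namespace Crest.Agent.R95

open Crest.OpAlg
open scoped InnerProductSpace ComplexConjugate

variable {H : Type*} [NormedAddCommGroup H] [InnerProductSpace ℂ H] [CompleteSpace H]
variable {ξ : ℕ → H} {P M : VonNeumannAlgebra H}

theorem c1_inv {S : Set H} (y : H →L[ℂ] H) (hy : ∀ v ∈ S, y v ∈ S) :
    ∀ v ∈ (Submodule.span ℂ S).topologicalClosure, y v ∈ (Submodule.span ℂ S).topologicalClosure := by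
  intro v hv
  have h1 : Submodule.span ℂ S ≤ (Submodule.span ℂ S).comap (y : H →ₗ[ℂ] H) := by
    rw [Submodule.span_le]
    intro w hw
    exact Submodule.subset_span (hy w hw)
  have hcl : IsClosed {w : H | y w ∈ (Submodule.span ℂ S).topologicalClosure} :=
    (Submodule.isClosed_topologicalClosure _).preimage y.continuous
  have h2 : closure ((Submodule.span ℂ S : Submodule ℂ H) : Set H) ⊆
      {w : H | y w ∈ (Submodule.span ℂ S).topologicalClosure} := by
    refine closure_minimal ?_ hcl
    intro w hw
    exact Submodule.le_topologicalClosure _ (h1 hw)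
  exact h2 hv

theorem c1 (hP : IsFactor P) {f e : H →L[ℂ] H} (hf : Pj P f) (he : Pj P e) (hf0 : f ≠ 0)
    (he0 : e ≠ 0) : ∃ x ∈ P, f * x * e ≠ 0 := by
  by_contra hcon
  push Not at hcon
  set S : Set H := {w | ∃ x ∈ P, ∃ v : H, w = x (e v)} with hS
  set K : Submodule ℂ H := (Submodule.span ℂ S).topologicalClosure with hK
  haveI : CompleteSpace K := (Submodule.isClosed_topologicalClosure _).completeSpace_coe
  have hinv1 : ∀ y ∈ P.commutant, ∀ v ∈ K, y v ∈ K := by
    intro y hy
    refine c1_inv y ?_
    rintro w ⟨x, hx, v, rfl⟩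
    rw [VonNeumannAlgebra.mem_commutant_iff] at hy
    refine ⟨x, hx, y v, ?_⟩
    have h1 := congrArg (fun T : H →L[ℂ] H => T (e v)) (hy x hx)
    have h2 := congrArg (fun T : H →L[ℂ] H => x (T v)) (hy e he.1)
    simp only [mul_apply_eq_comp] at h1 h2
    rw [← h1, ← h2]
  have hinv2 : ∀ y ∈ P.commutant.commutant, ∀ v ∈ K, y v ∈ K := by
    intro y hy
    rw [VonNeumannAlgebra.commutant_commutant] at hy
    refine c1_inv y ?_
    rintro w ⟨x, hx, v, rfl⟩
    exact ⟨y * x, mul_mem hy hx, v, rfl⟩
  have hz1 : K.starProjection ∈ P := vn_proj_mem P K hinv1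
  have hz2 : K.starProjection ∈ P.commutant := vn_proj_mem P.commutant K hinv2
  obtain ⟨c, hc⟩ := hP _ hz1 (by
    rw [VonNeumannAlgebra.mem_commutant_iff] at hz2
    intro y hy
    exact (hz2 y hy).symm)
  have hze : ∀ v, K.starProjection (e v) = e v := by
    intro v
    rw [Submodule.starProjection_eq_self_iff]
    exact Submodule.le_topologicalClosure _ (Submodule.subset_span ⟨1, one_mem _, v, rfl⟩)
  have hc1 : c = 1 := by
    obtain ⟨v, hv⟩ : ∃ v, e v ≠ 0 := by
      by_contra h
      push Not at h
      exact he0 (by ext v; simpa using h v)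
    have := hze v
    rw [hc] at this
    simp only [smul_apply, one_apply_eq_self] at this
    have h3 : (c - 1) • e v = 0 := by rw [sub_smul, one_smul, this, sub_self]
    rcases smul_eq_zero.mp h3 with h4 | h4
    · exact sub_eq_zero.mp h4
    · exact absurd h4 hv
  have hfK : ∀ v ∈ K, f v = 0 := by
    intro v hv
    have hcl : IsClosed {w : H | f w = 0} := isClosed_eq f.continuous continuous_const
    have h2 : closure ((Submodule.span ℂ S : Submodule ℂ H) : Set H) ⊆ {w : H | f w = 0} := by
      refine closure_minimal ?_ hcl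
      have h3 : Submodule.span ℂ S ≤ LinearMap.ker (f : H →ₗ[ℂ] H) := by
        rw [Submodule.span_le]
        rintro w ⟨x, hx, v, rfl⟩
        have h4 := congrArg (fun T : H →L[ℂ] H => T v) (hcon x hx)
        simpa using h4
      intro w hw
      exact h3 hw
    exact h2 hv
  apply hf0
  ext v
  have h5 : K.starProjection v = v := by rw [hc, hc1]; simp
  rw [← h5]
  simpa using hfK _ (Submodule.starProjection_apply_mem K v)

end Crest.Agent.R95
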