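import Crest.Agent.R95.SpecA

/-!
# Row 95, piece C2: a nonzero partial isometry from a nonzero element

`t ∈ P`, `t ≠ 0`: there is `w ∈ P`, `w ≠ 0`, with `w* w`, `w w*` projections, and for all
`f`: `f t = t → f w = w`, and `t e = t → w e = w`.
-/

set_option autoImplicit false

namespace Crest.Agent.R95

open Crest.OpAlg
open scoped InnerProductSpace ComplexConjugate

variable {H : Type*} [NormedAddCommGroup H] [InnerProductSpace ℂ H] [CompleteSpace H]
variable {ξ : ℕ → H} {P M : VonNeumannAlgebra H}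

theorem c2_sym {T : H →L[ℂ] H} (hT : IsSelfAdjoint T) (x y : H) :
    ⟪T x, y⟫_ℂ = ⟪x, T y⟫_ℂ := by
  have h := ContinuousLinearMap.adjoint_inner_left T y x
  rw [← ContinuousLinearMap.star_eq_adjoint, hT.star_eq] at h
  exact h

theorem c2_cut {a e : H →L[ℂ] H} (hsa : IsSelfAdjoint a) {lam : ℝ}
    (hes : IsSelfAdjoint e)
    (hcomm : ∀ T : H →L[ℂ] H, T * a = a * T → T * e = e * T)
    (h1 : ∀ v : H, lam * ‖e v‖ ^ 2 ≤ (⟪e v, a (e v)⟫_ℂ).re) :
    cfc (fun x : ℝ => max (lam - x) 0) a * e = 0 := by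
  set c : H →L[ℂ] H := cfc (fun x : ℝ => max (lam - x) 0) a with hc
  set s : H →L[ℂ] H := cfc (fun x : ℝ => √(max (lam - x) 0)) a with hs
  have hfc : Continuous (fun x : ℝ => max (lam - x) 0) := by fun_prop
  have hfs : Continuous (fun x : ℝ => √(max (lam - x) 0)) := by fun_prop
  have hcs : IsSelfAdjoint c := cfc_predicate _ _
  have hss : IsSelfAdjoint s := cfc_predicate _ _
  have hsacomm : s * a = a * s := by
    have h := (cfc_commute_cfc (fun x : ℝ => √(max (lam - x) 0)) id a).eq
    rw [cfc_id ℝ a hsa] at h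
    exact h
  have hse : s * e = e * s := hcomm s hsacomm
  have hlin : cfc (fun x : ℝ => lam - x) a = (algebraMap ℝ (H →L[ℂ] H) lam) - a := by
    rw [cfc_sub (fun _ : ℝ => lam) (fun x : ℝ => x) a (by fun_prop) (by fun_prop), cfc_const lam a hsa,
      cfc_id' ℝ a hsa]
  have hcc : c * c = s * ((algebraMap ℝ (H →L[ℂ] H) lam) - a) * s := by
    rw [← hlin, hc, hs, ← cfc_mul _ _ a hfc.continuousOn hfc.continuousOn,
      ← cfc_mul _ _ a hfs.continuousOn (by fun_prop),
      ← cfc_mul _ _ a (by fun_prop) hfs.continuousOn]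
    congr 1
    funext x
    rcases le_total (lam - x) 0 with h | h
    · rw [max_eq_right h]; simp
    · rw [max_eq_left h]
      have := Real.mul_self_sqrt h
      calc (lam - x) * (lam - x) = (√(lam - x) * √(lam - x)) * (lam - x) := by rw [this]
        _ = _ := by ring
  ext v
  have key : ‖c (e v)‖ ^ 2 ≤ 0 := by
    have e1 : ((‖c (e v)‖ ^ 2 : ℝ)) = (⟪c (e v), c (e v)⟫_ℂ).re := by
      rw [inner_self_eq_norm_sq_to_K]; norm_cast
    have e2 : ⟪c (e v), c (e v)⟫_ℂ = ⟪e v, (c * c) (e v)⟫_ℂ := by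
      rw [c2_sym hcs]; rfl
    have e3 : ⟪e v, (c * c) (e v)⟫_ℂ = ⟪e (s v), ((algebraMap ℝ (H →L[ℂ] H) lam) - a) (e (s v))⟫_ℂ := by
      rw [hcc]
      have h4 : s (e v) = e (s v) := by
        have := congrArg (fun T : H →L[ℂ] H => T v) hse
        simpa using this
      show ⟪e v, s (((algebraMap ℝ (H →L[ℂ] H) lam) - a) (s (e v)))⟫_ℂ = _
      rw [← c2_sym hss, h4]
    have e4 : (⟪e (s v), ((algebraMap ℝ (H →L[ℂ] H) lam) - a) (e (s v))⟫_ℂ).re
        = lam * ‖e (s v)‖ ^ 2 - (⟪e (s v), a (e (s v))⟫_ℂ).re := by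
      have h5 : (algebraMap ℝ (H →L[ℂ] H) lam) (e (s v)) = (lam : ℂ) • (e (s v)) := by
        rw [Algebra.algebraMap_eq_smul_one]
        simp
      rw [sub_apply, inner_sub_right, h5, inner_smul_right,
        inner_self_eq_norm_sq_to_K, Complex.sub_re]
      congr 1
      have h6 : ((lam : ℂ) * ((‖e (s v)‖ : ℝ) : ℂ) ^ 2) = ((lam * ‖e (s v)‖ ^ 2 : ℝ) : ℂ) := by
        push_cast; ring
      exact (congrArg Complex.re h6).trans (Complex.ofReal_re _)
    rw [e1, e2, e3, e4]
    have := h1 (s v)
    linarith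
  have h0 : ‖c (e v)‖ = 0 := by
    have := norm_nonneg (c (e v))
    nlinarith
  simpa using norm_eq_zero.mp h0

theorem c2 {t : H →L[ℂ] H} (ht : t ∈ P) (ht0 : t ≠ 0) :
    ∃ w ∈ P, w ≠ 0 ∧ IsStarProjection (star w * w) ∧ IsStarProjection (w * star w) ∧
      (∀ f : H →L[ℂ] H, IsStarProjection f → f * t = t → f * w = w) ∧
      (∀ e : H →L[ℂ] H, IsStarProjection e → t * e = t → w * e = w) := by
  set a : H →L[ℂ] H := star t * t with ha
  have hsa : IsSelfAdjoint a := IsSelfAdjoint.star_mul_self t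
  have haP : a ∈ P := mul_mem (star_mem ht) ht
  have hnt : 0 < ‖t‖ := norm_pos_iff.mpr ht0
  set lam : ℝ := ‖t‖ ^ 2 / 2 with hlam
  have hlam0 : 0 < lam := by positivity
  obtain ⟨e, ⟨heP, hep⟩, hea, hcomm, h1, h2⟩ := spec_cut P haP hsa lam
  have hes : IsSelfAdjoint e := hep.isSelfAdjoint
  have hee : e * e = e := hep.isIdempotentElem
  have hcut := c2_cut hsa hes hcomm h1
  have hfg : Continuous (fun x : ℝ => 1 / √(max x lam)) := by
    refine Continuous.div continuous_const (by fun_prop) ?_
    intro x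
    have : 0 < max x lam := lt_max_of_lt_right hlam0
    positivity
  set g : H →L[ℂ] H := cfc (fun x : ℝ => 1 / √(max x lam)) a with hg
  have hgP : g ∈ P := vn_cfc_mem P haP hsa _ hfg
  have hgs : IsSelfAdjoint g := cfc_predicate _ _
  have hgag : g * a * g = 1 - (lam⁻¹ : ℝ) • cfc (fun x : ℝ => max (lam - x) 0) a := by
    have hfc : Continuous (fun x : ℝ => max (lam - x) 0) := by fun_prop
    have h3 : (1 : H →L[ℂ] H) = cfc (fun _ : ℝ => (1 : ℝ)) a := by
      rw [cfc_const (1 : ℝ) a hsa]; simp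
    have h4 : a = cfc (fun x : ℝ => x) a := (cfc_id' ℝ a hsa).symm
    rw [h3, ← cfc_smul (lam⁻¹ : ℝ) _ a hfc.continuousOn, ← cfc_sub _ _ a (by fun_prop) (by fun_prop)]
    conv_lhs => rw [hg]; arg 1; arg 2; rw [h4]
    rw [← cfc_mul _ _ a hfg.continuousOn (by fun_prop),
      ← cfc_mul (fun x : ℝ => 1 / √(max x lam) * x) _ a (hfg.mul continuous_id).continuousOn
        hfg.continuousOn]
    congr 1
    funext x
    have hm : 0 < max x lam := lt_max_of_lt_right hlam0
    have hsq := Real.mul_self_sqrt hm.le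
    have hsp : 0 < √(max x lam) := by positivity
    have h5 : 1 / √(max x lam) * x * (1 / √(max x lam)) = x / max x lam := by
      rw [show 1 / √(max x lam) * x * (1 / √(max x lam)) = x / (√(max x lam) * √(max x lam)) by
        field_simp, hsq]
    simp only [smul_eq_mul]
    rw [h5]
    rcases le_total x lam with h | h
    · rw [max_eq_right h, max_eq_left (by linarith : (0:ℝ) ≤ lam - x)]
      field_simp
      ring
    · rw [max_eq_left h, max_eq_right (by linarith : lam - x ≤ (0:ℝ))]
      have : x ≠ 0 := by linarith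
      field_simp
      ring
  have hce : cfc (fun x : ℝ => max (lam - x) 0) a * e = 0 := hcut
  have hww : star (t * g * e) * (t * g * e) = e := by
    have h6 : star (t * g * e) * (t * g * e) = e * (g * a * g) * e := by
      rw [star_mul, star_mul, hes.star_eq, hgs.star_eq, ha]
      noncomm_ring
    rw [h6, hgag, mul_assoc, sub_mul, smul_mul_assoc, hce, smul_zero, sub_zero, one_mul, hee]
  have hwe : (t * g * e) * e = t * g * e := by rw [mul_assoc, hee]
  refine ⟨t * g * e, mul_mem (mul_mem ht hgP) heP, ?_, ?_, ?_, ?_, ?_⟩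
  · intro h0
    have he0 : e = 0 := by rw [← hww, h0]; simp
    have hb : ‖t‖ ≤ √lam := by
      refine ContinuousLinearMap.opNorm_le_bound _ (Real.sqrt_nonneg _) ?_
      intro v
      have h7 := h2 v
      rw [he0] at h7
      simp only [sub_zero, one_apply_eq_self] at h7
      have h8 : (⟪v, a v⟫_ℂ).re = ‖t v‖ ^ 2 := by
        rw [ha, mul_apply_eq_comp, ContinuousLinearMap.star_eq_adjoint,
          ContinuousLinearMap.adjoint_inner_right, inner_self_eq_norm_sq_to_K]
        norm_cast
      rw [h8] at h7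
      have h9 : ‖t v‖ = √(‖t v‖ ^ 2) := (Real.sqrt_sq (norm_nonneg _)).symm
      rw [h9, show √lam * ‖v‖ = √(lam * ‖v‖ ^ 2) by
        rw [Real.sqrt_mul hlam0.le, Real.sqrt_sq (norm_nonneg _)]]
      exact Real.sqrt_le_sqrt h7
    have h10 : ‖t‖ ^ 2 ≤ lam := by
      calc ‖t‖ ^ 2 ≤ (√lam) ^ 2 := by gcongr
        _ = lam := Real.sq_sqrt hlam0.le
    have : 0 < ‖t‖ ^ 2 := by positivity
    linarith
  · rw [hww]; exact hep
  · refine ⟨?_, ?_⟩
    · have h11 : (t * g * e) * star (t * g * e) * ((t * g * e) * star (t * g * e))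
          = (t * g * e) * (star (t * g * e) * (t * g * e)) * star (t * g * e) := by noncomm_ring
      show (t * g * e) * star (t * g * e) * ((t * g * e) * star (t * g * e)) = _
      rw [h11, hww, hwe]
    · exact IsSelfAdjoint.mul_star_self _
  · intro f _ hf
    rw [← mul_assoc, ← mul_assoc, hf]
  · intro e' he' hte
    have hes' : star e' = e' := he'.isSelfAdjoint.star_eq
    have hae : a * e' = a := by rw [ha, mul_assoc, hte]
    have hea' : e' * a = a := by
      have := congrArg star hae
      rw [star_mul, hes', hsa.star_eq] at this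
      exact this
    have hc' : e' * e = e * e' := hcomm e' (by rw [hae, hea'])
    have h12 : e * (1 - e') = 0 := by
      ext v
      have h13 := h1 ((1 - e') v)
      have h14 : a (e ((1 - e') v)) = 0 := by
        have h15 : a * (e * (1 - e')) = 0 := by
          have : e * (1 - e') = (1 - e') * e := by
            rw [mul_sub, sub_mul, mul_one, one_mul, hc']
          rw [this, ← mul_assoc, mul_sub, mul_one, hae, sub_self, zero_mul]
        have := congrArg (fun T : H →L[ℂ] H => T v) h15
        simpa using this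
      rw [h14, inner_zero_right, Complex.zero_re] at h13
      have h16 : ‖e ((1 - e') v)‖ = 0 := by
        have := norm_nonneg (e ((1 - e') v))
        by_contra hne
        have hpos : 0 < ‖e ((1 - e') v)‖ := lt_of_le_of_ne this (Ne.symm hne)
        have : 0 < lam * ‖e ((1 - e') v)‖ ^ 2 := by positivity
        linarith
      simpa using norm_eq_zero.mp h16
    have h17 : e * e' = e := by
      have := h12
      rw [mul_sub, mul_one, sub_eq_zero] at this
      exact this.symm
    rw [mul_assoc, h17]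

end Crest.Agent.R95
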