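import Mathlib

/-!
# Row 95, piece EXH: abstract exhaustion

`R` reflexive transitive on `X`, `m : X → ℝ` bounded by `1`, monotone along `R`, and every
`R`-increasing sequence has an upper bound.  Then above every `x₀` there is an `x` such that
`m y ≤ m x` for all `y` with `R x y`.
Proof: `s x = sSup {m y | R x y}`.  Choose recursively `x_{k+1}` with `R x_k x_{k+1}` and
`m x_{k+1} ≥ s x_k - 1/(k+1)`.  Let `x` be an upper bound.  For `R x y`: `R x_k y`, so
`m y ≤ s x_k ≤ m x_{k+1} + 1/(k+1) ≤ m x + 1/(k+1)`.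
-/

set_option autoImplicit false

namespace Crest.Agent.R95

theorem exhaustion {X : Type*} (R : X → X → Prop) (hrefl : ∀ x, R x x)
    (htrans : ∀ x y z, R x y → R y z → R x z) (m : X → ℝ) (hm1 : ∀ x, m x ≤ 1)
    (hmono : ∀ x y, R x y → m x ≤ m y)
    (hub : ∀ x : ℕ → X, (∀ k, R (x k) (x (k + 1))) → ∃ y, ∀ k, R (x k) y) (x₀ : X) :
    ∃ x, R x₀ x ∧ ∀ y, R x y → m y ≤ m x := by
  classical
  -- one step
  have step : ∀ (k : ℕ) (x : X), ∃ x', R x x' ∧ ∀ y, R x y → m y ≤ m x' + 1 / ((k : ℝ) + 1) := by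
    intro k x
    have hne : (m '' {y | R x y}).Nonempty := ⟨m x, x, hrefl x, rfl⟩
    have hbd : BddAbove (m '' {y | R x y}) := by
      refine ⟨1, ?_⟩
      rintro _ ⟨y, -, rfl⟩
      exact hm1 y
    have hpos : (0 : ℝ) < 1 / ((k : ℝ) + 1) := by positivity
    obtain ⟨_, ⟨x', hx', rfl⟩, hlt⟩ := exists_lt_of_lt_csSup hne
      (sub_lt_self (sSup (m '' {y | R x y})) hpos)
    refine ⟨x', hx', fun y hy => ?_⟩
    have := le_csSup hbd (Set.mem_image_of_mem m hy)
    linarith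
  choose f hf1 hf2 using step
  let x : ℕ → X := fun k => Nat.rec x₀ (fun k z => f k z) k
  have hx0 : x 0 = x₀ := rfl
  have hxs : ∀ k, x (k + 1) = f k (x k) := fun k => rfl
  have hR : ∀ k, R (x k) (x (k + 1)) := fun k => by rw [hxs]; exact hf1 k (x k)
  obtain ⟨z, hz⟩ := hub x hR
  refine ⟨z, by rw [← hx0]; exact hz 0, fun y hy => ?_⟩
  refine le_of_forall_pos_le_add fun ε hε => ?_
  obtain ⟨k, hk⟩ := exists_nat_one_div_lt hε
  have h1 : m y ≤ m (x (k + 1)) + 1 / ((k : ℝ) + 1) := by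
    rw [hxs]
    exact hf2 k (x k) y (htrans _ _ _ (hz k) hy)
  have h2 : m (x (k + 1)) ≤ m z := hmono _ _ (hz (k + 1))
  linarith

end Crest.Agent.R95
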