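import Crest.Agent.R95.C1
import Crest.Agent.R95.C2
import Crest.Agent.R95.VNb2
import Crest.Agent.R95.Exh

/-!
# Row 95, piece C3: comparison by the trace

`P` a factor with trace vectors `ξ`, `e, f ∈ P` projections with `tr e ≤ tr f`.  Then there is
`w ∈ P` with `w* w = e`, `f w = w` (so `w w*` is a projection `≤ f`).
Proof.  `X = {w ∈ P : w* w and w w* projections, w e = w, f w = w}`,
`R w w' : w' (w* w) = w` (extension; then `w w*`, `w* w` increase, `w' - w` is a partial isometry
with orthogonal supports and `n2 (w' - w)² = tr(w'* w') - tr(w* w)`), `m w = tr (w* w)`.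
Increasing sequences converge (`vn_complete`, norm `≤ 1`, `n2`-Cauchy because `m` is bounded
monotone); the limit `w` satisfies `w* w = lim`, `w (w_k* w_k) = w_k`.  Take `w` maximal
(`exhaustion`).  If `w* w ≠ e` then `tr (f - w w*) ≥ tr (e - w* w) > 0`, both projections are
nonzero, `c1` gives `t = (f - w w*) x (e - w* w) ≠ 0`, `c2` gives a partial isometry `v ≠ 0` under
it, and `w + v` extends `w` with larger `m`.
-/

set_option autoImplicit false

namespace Crest.Agent.R95

open Crest.OpAlg
open scoped InnerProductSpace ComplexConjugate Topology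

variable {H : Type*} [NormedAddCommGroup H] [InnerProductSpace ℂ H] [CompleteSpace H]
variable {ξ : ℕ → H} {P M : VonNeumannAlgebra H}

namespace C3aux

theorem pr_eq {e : H →L[ℂ] H} (he : IsStarProjection e) : e * e = e := he.isIdempotentElem

theorem pr_star {e : H →L[ℂ] H} (he : IsStarProjection e) : star e = e := he.isSelfAdjoint

/-- `v (v⋆ v) = v` when `v⋆ v` is a projection -/
theorem pi_mul {v : H →L[ℂ] H} (hp : IsStarProjection (star v * v)) : v * (star v * v) = v := by
  have h1 : star (v - v * (star v * v)) * (v - v * (star v * v)) = 0 := by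
    have h2 := pr_eq hp
    have h3 : star (v - v * (star v * v)) = star v - star v * v * star v := by
      rw [star_sub, star_mul, star_mul, star_star]
    rw [h3, sub_mul, mul_sub, mul_sub]
    have e1 : star v * (v * (star v * v)) = star v * v := by rw [← mul_assoc]; exact h2
    have e2 : star v * v * star v * v = star v * v := by
      rw [mul_assoc (star v * v)]; exact h2
    have e3 : star v * v * star v * (v * (star v * v)) = star v * v := by
      rw [mul_assoc (star v * v), e1, h2]
    rw [e1, e2, e3, sub_self]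
  have h2 : v - v * (star v * v) = 0 := by
    rw [← CStarRing.star_mul_self_eq_zero_iff]
    exact h1
  exact (sub_eq_zero.1 h2).symm

theorem pi_mul' {v : H →L[ℂ] H} (hp : IsStarProjection (star v * v)) :
    star v * (v * star v) = star v := by
  have := congrArg star (pi_mul hp)
  rw [star_mul, star_mul, star_star] at this
  rw [← mul_assoc]
  exact this

theorem proj_of_proj {v : H →L[ℂ] H} (hp : IsStarProjection (star v * v)) :
    IsStarProjection (v * star v) where
  isIdempotentElem := by
    show v * star v * (v * star v) = v * star v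
    rw [mul_assoc, pi_mul' hp]
  isSelfAdjoint := by
    show star (v * star v) = v * star v
    rw [star_mul, star_star]

/-- `p ≤ p'` from `p p' p = p` -/
theorem le_of_conj {p q : H →L[ℂ] H} (hp : IsStarProjection p) (hq : IsStarProjection q)
    (h : p * q * p = p) : q * p = p := by
  have h1 : star (p - q * p) * (p - q * p) = 0 := by
    rw [star_sub, star_mul, pr_star hp, pr_star hq, sub_mul, mul_sub, mul_sub, pr_eq hp]
    have e1 : p * (q * p) = p := by rw [← mul_assoc]; exact h
    have e2 : p * q * (q * p) = p := by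
      rw [mul_assoc, ← mul_assoc q q p, pr_eq hq, ← mul_assoc]
      exact h
    rw [e1, e2, h, sub_self]
  have h2 : p - q * p = 0 := by
    rw [← CStarRing.star_mul_self_eq_zero_iff]
    exact h1
  exact (sub_eq_zero.1 h2).symm

/-- extension of partial isometries -/
theorem ext_le {w w' : H →L[ℂ] H} (hp : IsStarProjection (star w * w))
    (hp' : IsStarProjection (star w' * w')) (h : w' * (star w * w) = w) :
    star w' * w' * (star w * w) = star w * w := by
  refine le_of_conj hp hp' ?_
  have h1 : star w = star w * w * star w' := by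
    have := congrArg star h
    rw [star_mul, pr_star hp] at this
    exact this.symm
  calc star w * w * (star w' * w') * (star w * w)
      = (star w * w * star w') * (w' * (star w * w)) := by
        rw [mul_assoc, mul_assoc, mul_assoc]
        rw [mul_assoc, mul_assoc]
    _ = star w * w := by rw [← h1, h]

theorem ext_le' {w w' : H →L[ℂ] H} (hp : IsStarProjection (star w * w))
    (hp' : IsStarProjection (star w' * w')) (h : w' * (star w * w) = w) :
    star w * w * (star w' * w') = star w * w := by
  have := congrArg star (ext_le hp hp' h)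
  rwa [star_mul, pr_star hp, pr_star hp'] at this

theorem diff_sq {w w' : H →L[ℂ] H} (hp : IsStarProjection (star w * w))
    (hp' : IsStarProjection (star w' * w')) (h : w' * (star w * w) = w) :
    star (w' - w) * (w' - w) = star w' * w' - star w * w := by
  have h1 : star w' * w = star w * w := by
    conv_lhs => rw [← h, ← mul_assoc]
    exact ext_le hp hp' h
  have h2 : star w * w' = star w * w := by
    have := congrArg star h1
    rwa [star_mul, star_star, star_mul, star_star] at this
  rw [star_sub, sub_mul, mul_sub, mul_sub, h1, h2, sub_self, sub_zero]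

end C3aux

open C3aux in
theorem c3 (hP : IsFactor P) (h : Trc P ξ) {e f : H →L[ℂ] H} (he : Pj P e) (hf : Pj P f)
    (hle : tr ξ e ≤ tr ξ f) :
    ∃ w ∈ P, star w * w = e ∧ f * w = w ∧ IsStarProjection (w * star w) := by
  have hnr : Nr ξ := h.nr
  let X : Type _ := {w : H →L[ℂ] H // w ∈ P ∧ IsStarProjection (star w * w) ∧ w * e = w ∧
    f * w = w}
  let R : X → X → Prop := fun w w' => w'.1 * (star w.1 * w.1) = w.1
  let m : X → ℝ := fun w => tr ξ (star w.1 * w.1)
  have hmem : ∀ w : X, star w.1 * w.1 ∈ P := fun w => mul_mem (star_mem w.2.1) w.2.1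
  have hrefl : ∀ w, R w w := fun w => pi_mul w.2.2.1
  have htrans : ∀ w w' w'' : X, R w w' → R w' w'' → R w w'' := by
    intro w w' w'' h1 h2
    show w''.1 * (star w.1 * w.1) = w.1
    have h3 := ext_le w.2.2.1 w'.2.2.1 h1
    rw [← h3, ← mul_assoc, show w''.1 * (star w'.1 * w'.1) = w'.1 from h2]
    exact h1
  have hmono : ∀ w w' : X, R w w' → m w ≤ m w' := fun w w' h1 =>
    tr_mono hnr w.2.2.1 w'.2.2.1 (ext_le' w.2.2.1 w'.2.2.1 h1)
  have hm1 : ∀ w : X, m w ≤ 1 := fun w => tr_le_one hnr w.2.2.1
  have hub : ∀ x : ℕ → X, (∀ k, R (x k) (x (k + 1))) → ∃ y, ∀ k, R (x k) y := by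
    intro x hx
    have hR : ∀ k l, k ≤ l → R (x k) (x l) := by
      intro k l hkl
      induction l, hkl using Nat.le_induction with
      | base => exact hrefl _
      | succ l _ ih => exact htrans _ _ _ ih (hx l)
    have hxP : ∀ k, (x k).1 ∈ P := fun k => (x k).2.1
    have hn1 : ∀ k, ‖(x k).1‖ ≤ 1 := by
      intro k
      have h1 : ‖star (x k).1 * (x k).1‖ ≤ 1 := pj_norm_le (x k).2.2.1
      rw [CStarRing.norm_star_mul_self] at h1
      nlinarith [norm_nonneg (x k).1]
    have hmonoN : Monotone fun k => m (x k) := monotone_nat_of_le_succ fun k => hmono _ _ (hx k)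
    have hsq : ∀ k l, k ≤ l → n2 ξ ((x l).1 - (x k).1) ^ 2 = m (x l) - m (x k) := by
      intro k l hkl
      have h1 := tau_star_mul_self hnr ((x l).1 - (x k).1)
      rw [diff_sq (x k).2.2.1 (x l).2.2.1 (hR k l hkl)] at h1
      have h2 := congrArg Complex.re h1
      rw [Complex.ofReal_re] at h2
      rw [← h2]
      exact tr_sub hnr _ _
    have hcau : ∀ ε : ℝ, 0 < ε → ∃ N, ∀ k l, N ≤ k → N ≤ l → n2 ξ ((x k).1 - (x l).1) ≤ ε := by
      intro ε hε
      have hconv : ∃ L, Filter.Tendsto (fun k => m (x k)) Filter.atTop (𝓝 L) :=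
        ⟨_, tendsto_atTop_ciSup hmonoN ⟨1, by rintro _ ⟨k, rfl⟩; exact hm1 _⟩⟩
      obtain ⟨L, hL⟩ := hconv
      have hLle : ∀ k, m (x k) ≤ L := fun k => hmonoN.ge_of_tendsto hL k
      obtain ⟨N, hN⟩ := (Metric.tendsto_atTop.1 hL) (ε ^ 2) (by positivity)
      have key : ∀ k l, N ≤ k → k ≤ l → n2 ξ ((x l).1 - (x k).1) ≤ ε := by
        intro k l hk hkl
        have h1 := hsq k l hkl
        have h2 := hN k hk
        rw [Real.dist_eq] at h2
        have h3 := (abs_lt.1 h2).1
        have h4 := hLle l
        refine le_of_sq_le_sq ?_ hε.le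
        rw [h1]
        linarith
      refine ⟨N, fun k l hk hl => ?_⟩
      rcases le_total k l with hkl | hkl
      · rw [n2_sub_comm]
        exact key k l hk hkl
      · exact key l k hl hkl
    obtain ⟨y, hyP, hy1, hlim⟩ := vn_complete h (fun k => (x k).1) hxP 1 hn1 hcau
    -- limit of the initial projections
    have hlims := n2_lim_star h hxP hyP hlim
    have hlimp : Filter.Tendsto (fun k => n2 ξ (star (x k).1 * (x k).1 - star y * y))
        Filter.atTop (𝓝 0) :=
      n2_lim_mul h (x := fun k => star (x k).1) (z := fun k => (x k).1)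
        (fun k => star_mem (hxP k)) hxP (C := 1) (fun k => by rw [norm_star]; exact hn1 k)
        (star_mem hyP) hyP hlims hlim
    have hpn : ∀ k, ‖star (x k).1 * (x k).1‖ ≤ 1 := fun k => pj_norm_le (x k).2.2.1
    have hyy : star y * y ∈ P := mul_mem (star_mem hyP) hyP
    have hidem : star y * y * (star y * y) = star y * y := by
      have h1 := n2_lim_mul h (x := fun k => star (x k).1 * (x k).1)
        (z := fun k => star (x k).1 * (x k).1) (fun k => hmem (x k)) (fun k => hmem (x k)) hpn
        hyy hyy hlimp hlimp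
      have h2 : (fun k => n2 ξ (star (x k).1 * (x k).1 * (star (x k).1 * (x k).1) -
          star y * y * (star y * y))) =
          fun k => n2 ξ (star (x k).1 * (x k).1 - star y * y * (star y * y)) := by
        funext k
        rw [pr_eq (x k).2.2.1]
      rw [h2] at h1
      exact n2_lim_unique h (fun k => hmem (x k)) (mul_mem hyy hyy) hyy h1 hlimp
    have hyproj : IsStarProjection (star y * y) := by
      refine ⟨hidem, ?_⟩
      show star (star y * y) = star y * y
      rw [star_mul, star_star]
    have hconst : ∀ z : H →L[ℂ] H, Filter.Tendsto (fun _ : ℕ => n2 ξ (z - z))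
        Filter.atTop (𝓝 0) := by
      intro z
      rw [sub_self, n2_zero]
      exact tendsto_const_nhds
    have hye : y * e = y := by
      have h1 := n2_lim_mul h (x := fun k => (x k).1) (z := fun _ => e) hxP (fun _ => he.1) hn1
        hyP he.1 hlim (hconst e)
      have h2 : (fun k => n2 ξ ((x k).1 * e - y * e)) = fun k => n2 ξ ((x k).1 - y * e) := by
        funext k
        rw [(x k).2.2.2.1]
      rw [h2] at h1
      exact n2_lim_unique h hxP (mul_mem hyP he.1) hyP h1 hlim
    have hfy : f * y = y := by
      have h1 := n2_lim_mul h (x := fun _ => f) (z := fun k => (x k).1) (fun _ => hf.1) hxP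
        (C := 1) (fun _ => pj_norm_le hf.2) hf.1 hyP (hconst f) hlim
      have h2 : (fun k => n2 ξ (f * (x k).1 - f * y)) = fun k => n2 ξ ((x k).1 - f * y) := by
        funext k
        rw [(x k).2.2.2.2]
      rw [h2] at h1
      exact n2_lim_unique h hxP (mul_mem hf.1 hyP) hyP h1 hlim
    refine ⟨⟨y, hyP, hyproj, hye, hfy⟩, fun k => ?_⟩
    show y * (star (x k).1 * (x k).1) = (x k).1
    have hshift : Filter.Tendsto (fun l => n2 ξ ((x (l + k)).1 - y)) Filter.atTop (𝓝 0) :=
      hlim.comp (Filter.tendsto_add_atTop_nat k)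
    have h1 := n2_lim_mul h (x := fun l => (x (l + k)).1)
      (z := fun _ => star (x k).1 * (x k).1) (fun l => hxP _) (fun _ => hmem (x k))
      (fun l => hn1 _) hyP (hmem (x k)) hshift (hconst _)
    have h2 : (fun l => n2 ξ ((x (l + k)).1 * (star (x k).1 * (x k).1) -
        y * (star (x k).1 * (x k).1))) =
        fun _ => n2 ξ ((x k).1 - y * (star (x k).1 * (x k).1)) := by
      funext l
      rw [show (x (l + k)).1 * (star (x k).1 * (x k).1) = (x k).1 from
        hR k (l + k) (Nat.le_add_left k l)]
    rw [h2] at h1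
    exact n2_lim_unique h (x := fun _ => (x k).1) (fun _ => hxP k)
      (mul_mem hyP (hmem (x k))) (hxP k) h1 (hconst _)
  have h00 : (0 : H →L[ℂ] H) ∈ P ∧ IsStarProjection (star (0 : H →L[ℂ] H) * 0) ∧
      (0 : H →L[ℂ] H) * e = 0 ∧ f * (0 : H →L[ℂ] H) = 0 := by
    refine ⟨zero_mem _, ?_, zero_mul _, mul_zero _⟩
    rw [mul_zero]
    exact IsStarProjection.zero _
  obtain ⟨⟨w, hwP, hwp, hwe, hfw⟩, -, hmax⟩ := exhaustion R hrefl htrans m hm1 hmono hub
    ⟨0, h00⟩
  have hwq : IsStarProjection (w * star w) := proj_of_proj hwp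
  refine ⟨w, hwP, ?_, hfw, hwq⟩
  by_contra hne
  have hpP : star w * w ∈ P := mul_mem (star_mem hwP) hwP
  have hqP : w * star w ∈ P := mul_mem hwP (star_mem hwP)
  have hpe : star w * w * e = star w * w := by rw [mul_assoc, hwe]
  have hep : e * (star w * w) = star w * w := by
    have := congrArg star hpe
    rwa [star_mul, pr_star hwp, pr_star he.2] at this
  have hfq : f * (w * star w) = w * star w := by rw [← mul_assoc, hfw]
  have hqf : w * star w * f = w * star w := by
    have := congrArg star hfq
    rwa [star_mul, pr_star hwq, pr_star hf.2] at this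
  have he' : Pj P (e - star w * w) :=
    ⟨sub_mem he.1 hpP, hwp.sub_of_mul_eq_left he.2 hpe⟩
  have hf' : Pj P (f - w * star w) :=
    ⟨sub_mem hf.1 hqP, hwq.sub_of_mul_eq_left hf.2 hqf⟩
  have he0 : e - star w * w ≠ 0 := fun h0 => hne (sub_eq_zero.1 h0).symm
  have htre : 0 < tr ξ (e - star w * w) := tr_pos h he' he0
  have htrq : tr ξ (w * star w) = tr ξ (star w * w) := by
    unfold tr
    rw [tau_comm h hwP (star_mem hwP)]
  have htrf : 0 < tr ξ (f - w * star w) := by
    rw [tr_sub hnr, htrq]
    rw [tr_sub hnr] at htre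
    linarith
  have hf0 : f - w * star w ≠ 0 := by
    intro h0
    rw [h0] at htrf
    have : tr ξ (0 : H →L[ℂ] H) = 0 := by
      unfold tr
      rw [tau_zero]
      rfl
    linarith
  obtain ⟨x, hxP, hx0⟩ := c1 hP hf' he' hf0 he0
  have htP : (f - w * star w) * x * (e - star w * w) ∈ P :=
    mul_mem (mul_mem hf'.1 hxP) he'.1
  obtain ⟨v, hvP, hv0, hvp, hvq, hvf, hve⟩ := c2 htP hx0
  have h1 : (f - w * star w) * v = v :=
    hvf _ hf'.2 (by rw [← mul_assoc, ← mul_assoc, pr_eq hf'.2])
  have h2 : v * (e - star w * w) = v := hve _ he'.2 (by rw [mul_assoc, pr_eq he'.2])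
  -- orthogonality
  have hswf : star w * f = star w := by
    have := congrArg star hfw
    rwa [star_mul, pr_star hf.2] at this
  have hswf' : star w * (f - w * star w) = 0 := by
    rw [mul_sub, hswf, pi_mul' hwp, sub_self]
  have hwe' : w * (e - star w * w) = 0 := by
    rw [mul_sub, hwe, pi_mul hwp, sub_self]
  have hswv : star w * v = 0 := by rw [← h1, ← mul_assoc, hswf', zero_mul]
  have hsvw : star v * w = 0 := by
    have := congrArg star hswv
    rwa [star_mul, star_star, star_zero] at this
  have hwsv : w * star v = 0 := by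
    have h3 : (e - star w * w) * star v = star v := by
      have := congrArg star h2
      rwa [star_mul, pr_star he'.2] at this
    rw [← h3, ← mul_assoc, hwe', zero_mul]
  have hsum : star (w + v) * (w + v) = star w * w + star v * v := by
    rw [star_add, add_mul, mul_add, mul_add, hswv, hsvw, add_zero, zero_add]
  have hproj : IsStarProjection (star (w + v) * (w + v)) := by
    rw [hsum]
    refine hwp.add hvp ?_
    rw [mul_assoc, ← mul_assoc w, hwsv, zero_mul, mul_zero]
  have hvE : v * e = v := by
    rw [← h2, mul_assoc, sub_mul, pr_eq he.2, hpe]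
  have hfv : f * v = v := by
    rw [← h1, ← mul_assoc, mul_sub, pr_eq hf.2, hfq]
  have hvp0 : v * (star w * w) = 0 := by
    rw [← h2, mul_assoc, sub_mul, hep, pr_eq hwp, sub_self, mul_zero]
  have hm := hmax ⟨w + v, add_mem hwP hvP, hproj, by rw [add_mul, hwe, hvE],
    by rw [mul_add, hfw, hfv]⟩ (show (w + v) * (star w * w) = w by
      rw [add_mul, hvp0, add_zero, pi_mul hwp])
  have hm' : tr ξ (star (w + v) * (w + v)) ≤ tr ξ (star w * w) := hm
  rw [hsum, tr_add hnr] at hm'
  have hvv0 : star v * v ≠ 0 := by
    intro h0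
    exact hv0 ((CStarRing.star_mul_self_eq_zero_iff v).1 h0)
  have hpos := tr_pos h ⟨mul_mem (star_mem hvP) hvP, hvp⟩ hvv0
  linarith

end Crest.Agent.R95
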