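import Crest.Agent.R95.C3

/-!
# Row 95, piece C4: no minimal projections

`P` a II₁ factor, `e ≠ 0` a projection: there is a projection `f ≤ e`, `f ≠ 0`, `f ≠ e`.
Proof.  Suppose not.  (a) `e P e = ℂ e`: for self-adjoint `x ∈ e P e` and `lam : ℝ` the cut
`f = spec_cut x lam`; `f` commutes with `x`, `e`, and `f e` is `0` or `e`, so either
`x ≤ lam e` or `x ≥ lam e`; with `lam = sup` of those with `x ≥ lam e` we get `x = lam e`.
(b) Let `k` be maximal such that there are partial isometries `w_1..w_k ∈ P` with `w_i* w_i = e`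
and `w_i w_i* =: e_i` pairwise orthogonal (`k tr e ≤ 1`).  Let `r = 1 - ∑ e_i`.  If
`tr r ≥ tr e`, `c3` gives `w_{k+1}`, contradiction.  So `tr r < tr e`, and `c3` gives
`w* w = r`, `w w* ≤ e`; `w w*` has trace `< tr e`, so is `≠ e`, so it is `0`, `r = 0`.
(c) every `x ∈ P` is `x = ∑_{i,j} e_i x e_j = ∑ w_i (w_i* x w_j) w_j* ∈ span {w_i w_j*}`: `P` is
finite dimensional, contradiction.
-/

set_option autoImplicit false

namespace Crest.Agent.R95

open Crest.OpAlg
open scoped InnerProductSpace ComplexConjugate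

variable {H : Type*} [NormedAddCommGroup H] [InnerProductSpace ℂ H] [CompleteSpace H]
variable {ξ : ℕ → H} {P M : VonNeumannAlgebra H}

namespace C4aux

theorem pis {w e : H →L[ℂ] H} (he : IsStarProjection e) (hw : star w * w = e) : w * e = w := by
  have hee := he.isIdempotentElem.eq
  have hes := he.isSelfAdjoint.star_eq
  have h1 : star (w - w * e) * (w - w * e) = 0 := by
    rw [star_sub, star_mul, hes]
    have : (star w - e * star w) * (w - w * e) =
        star w * w - star w * w * e - e * (star w * w) + e * (star w * w) * e := by noncomm_ring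
    rw [this, hw, hee, hee]
    simp
  have h2 : w - w * e = 0 := by
    rw [← norm_eq_zero, ← mul_self_eq_zero, ← CStarRing.norm_star_mul_self, h1, norm_zero]
  exact (sub_eq_zero.1 h2).symm

theorem pj_mul {f e : H →L[ℂ] H} (hf : Pj P f) (he : Pj P e) (hc : e * f = f * e) :
    Pj P (f * e) := by
  refine ⟨mul_mem hf.1 he.1, ?_, ?_⟩
  · have h1 := hf.2.isIdempotentElem.eq
    have h2 := he.2.isIdempotentElem.eq
    rw [IsIdempotentElem]
    calc f * e * (f * e) = f * (e * f) * e := by noncomm_ring
      _ = (f * f) * (e * e) := by rw [hc]; noncomm_ring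
      _ = f * e := by rw [h1, h2]
  · rw [IsSelfAdjoint, star_mul, hf.2.isSelfAdjoint.star_eq, he.2.isSelfAdjoint.star_eq, hc]

theorem inner_move {e : H →L[ℂ] H} (he : IsStarProjection e) (v w : H) :
    ⟪e v, w⟫_ℂ = ⟪v, e w⟫_ℂ := by
  have h := ContinuousLinearMap.adjoint_inner_right e v w
  rw [← ContinuousLinearMap.star_eq_adjoint, he.isSelfAdjoint.star_eq] at h
  exact h.symm

theorem dich {e : H →L[ℂ] H} (he : Pj P e)
    (hmin : ∀ f, Pj P f → f * e = f → f = 0 ∨ f = e) {x : H →L[ℂ] H} (hx : x ∈ P)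
    (hs : IsSelfAdjoint x) (hex : e * x = x) (hxe : x * e = x) (lam : ℝ) :
    (∀ v, lam * ‖e v‖ ^ 2 ≤ (⟪v, x v⟫_ℂ).re) ∨ (∀ v, (⟪v, x v⟫_ℂ).re ≤ lam * ‖e v‖ ^ 2) := by
  obtain ⟨f, hf, -, hcomm, h1, h2⟩ := spec_cut P hx hs lam
  have hc : e * f = f * e := hcomm e (by rw [hex, hxe])
  have hQ : ∀ v, ⟪e v, x (e v)⟫_ℂ = ⟪v, x v⟫_ℂ := by
    intro v
    rw [inner_move he.2]
    have h3 : e (x (e v)) = (e * (x * e)) v := rfl
    rw [h3, hxe, hex]
  rcases hmin (f * e) (pj_mul hf he hc) (by rw [mul_assoc, he.2.isIdempotentElem.eq]) with h0 | h0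
  · right
    intro v
    have h4 : (1 - f) (e v) = e v := by
      have : (1 - f) (e v) = ((1 - f) * e) v := rfl
      rw [this, sub_mul, h0, one_mul, sub_zero]
    have := h2 (e v)
    rw [h4, hQ] at this
    exact this
  · left
    intro v
    have h4 : f (e v) = e v := by
      have : f (e v) = (f * e) v := rfl
      rw [this, h0]
    have := h1 (e v)
    rw [h4, hQ] at this
    exact this

theorem scalar_sa {e : H →L[ℂ] H} (he : Pj P e) (he0 : e ≠ 0)
    (hmin : ∀ f, Pj P f → f * e = f → f = 0 ∨ f = e) {x : H →L[ℂ] H} (hx : x ∈ P)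
    (hs : IsSelfAdjoint x) (hex : e * x = x) (hxe : x * e = x) : ∃ c : ℝ, x = (c : ℂ) • e := by
  obtain ⟨v0, hv0⟩ : ∃ v, e v ≠ 0 := by
    by_contra hcon
    push Not at hcon
    exact he0 (ContinuousLinearMap.ext hcon)
  have hQ : ∀ v, ⟪e v, x (e v)⟫_ℂ = ⟪v, x v⟫_ℂ := by
    intro v
    rw [inner_move he.2]
    have h3 : e (x (e v)) = (e * (x * e)) v := rfl
    rw [h3, hxe, hex]
  set S : Set ℝ := {lam | ∀ v, lam * ‖e v‖ ^ 2 ≤ (⟪v, x v⟫_ℂ).re} with hS
  have hle : ∀ lam ∈ S, ∀ v, e v ≠ 0 → lam ≤ (⟪v, x v⟫_ℂ).re / ‖e v‖ ^ 2 := by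
    intro lam hl v hv
    rw [le_div_iff₀ (by positivity)]
    exact hl v
  have hne : S.Nonempty := by
    refine ⟨-‖x‖, fun v => ?_⟩
    rw [← hQ v]
    have h1 : |(⟪e v, x (e v)⟫_ℂ).re| ≤ ‖x‖ * ‖e v‖ ^ 2 := by
      calc |(⟪e v, x (e v)⟫_ℂ).re| ≤ ‖⟪e v, x (e v)⟫_ℂ‖ := Complex.abs_re_le_norm _
        _ ≤ ‖e v‖ * ‖x (e v)‖ := norm_inner_le_norm _ _
        _ ≤ ‖e v‖ * (‖x‖ * ‖e v‖) :=
            mul_le_mul_of_nonneg_left (x.le_opNorm _) (norm_nonneg _)
        _ = ‖x‖ * ‖e v‖ ^ 2 := by ring
    have := (abs_le.1 h1).1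
    linarith
  have hbdd : BddAbove S := ⟨_, fun lam hl => hle lam hl v0 hv0⟩
  set c := sSup S with hc
  have hQ0 : ∀ v, e v = 0 → (⟪v, x v⟫_ℂ).re = 0 := by
    intro v hv
    rw [← hQ v, hv]
    simp
  have hup : ∀ v, (⟪v, x v⟫_ℂ).re ≤ c * ‖e v‖ ^ 2 := by
    intro v
    refine le_of_forall_pos_le_add fun ε hε => ?_
    have hpos : 0 < ‖e v‖ ^ 2 + 1 := by positivity
    have hlt : c < c + ε / (‖e v‖ ^ 2 + 1) := by
      have := div_pos hε hpos
      linarith
    have hnot : c + ε / (‖e v‖ ^ 2 + 1) ∉ S := notMem_of_csSup_lt hlt hbdd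
    rcases dich he hmin hx hs hex hxe (c + ε / (‖e v‖ ^ 2 + 1)) with h | h
    · exact absurd h hnot
    · refine (h v).trans ?_
      have h5 : ε / (‖e v‖ ^ 2 + 1) * ‖e v‖ ^ 2 ≤ ε := by
        rw [div_mul_eq_mul_div, div_le_iff₀ hpos]
        nlinarith [sq_nonneg ‖e v‖]
      nlinarith
  have hlo : ∀ v, c * ‖e v‖ ^ 2 ≤ (⟪v, x v⟫_ℂ).re := by
    intro v
    by_cases hv : e v = 0
    · rw [hQ0 v hv, hv]
      simp
    · have h1 : c ≤ (⟪v, x v⟫_ℂ).re / ‖e v‖ ^ 2 := csSup_le hne fun lam hl => hle lam hl v hv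
      rwa [le_div_iff₀ (by positivity)] at h1
  refine ⟨c, ?_⟩
  have hsa : IsSelfAdjoint (x - (c : ℂ) • e) := by
    rw [IsSelfAdjoint, star_sub, star_smul, hs.star_eq, he.2.isSelfAdjoint.star_eq]
    simp
  have hsym := ContinuousLinearMap.isSelfAdjoint_iff_isSymmetric.1 hsa
  have hz : ((x - (c : ℂ) • e : H →L[ℂ] H) : H →ₗ[ℂ] H) = 0 := by
    rw [← hsym.inner_map_self_eq_zero]
    intro v
    have him := hsym.im_inner_apply_self v
    have hre : (⟪(x - (c : ℂ) • e) v, v⟫_ℂ).re = 0 := by
      have h6 : (⟪(x - (c : ℂ) • e) v, v⟫_ℂ).re = (⟪v, (x - (c : ℂ) • e) v⟫_ℂ).re :=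
        inner_re_symm (𝕜 := ℂ) _ _
      rw [h6]
      have h7 : ⟪v, (x - (c : ℂ) • e) v⟫_ℂ = ⟪v, x v⟫_ℂ - (c : ℂ) * ⟪v, e v⟫_ℂ := by
        simp
      have h8 : ⟪v, e v⟫_ℂ = ((‖e v‖ ^ 2 : ℝ) : ℂ) := by
        have h9 : ⟪v, e v⟫_ℂ = ⟪e v, e v⟫_ℂ := by
          rw [inner_move he.2]
          have : e (e v) = (e * e) v := rfl
          rw [this, he.2.isIdempotentElem.eq]
        rw [h9, inner_self_eq_norm_sq_to_K]
        norm_cast
      rw [h7, h8, Complex.sub_re, ← Complex.ofReal_mul, Complex.ofReal_re]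
      linarith [hlo v, hup v]
    exact Complex.ext hre him
  have hz' : x - (c : ℂ) • e = 0 := by
    ext v
    have := congrArg (fun T : H →ₗ[ℂ] H => T v) hz
    simpa using this
  exact sub_eq_zero.1 hz'

theorem scalar {e : H →L[ℂ] H} (he : Pj P e) (he0 : e ≠ 0)
    (hmin : ∀ f, Pj P f → f * e = f → f = 0 ∨ f = e) {x : H →L[ℂ] H} (hx : x ∈ P)
    (hex : e * x = x) (hxe : x * e = x) : ∃ c : ℂ, x = c • e := by
  have hes := he.2.isSelfAdjoint.star_eq
  have hex' : e * star x = star x := by
    have := congrArg star hxe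
    rwa [star_mul, hes] at this
  have hxe' : star x * e = star x := by
    have := congrArg star hex
    rwa [star_mul, hes] at this
  obtain ⟨c1, h1⟩ := scalar_sa he he0 hmin (x := x + star x) (add_mem hx (star_mem hx))
    (by rw [IsSelfAdjoint, star_add, star_star, add_comm])
    (by rw [mul_add, hex, hex']) (by rw [add_mul, hxe, hxe'])
  obtain ⟨c2, h2⟩ := scalar_sa he he0 hmin (x := Complex.I • (x - star x))
    (vn_smul_mem P _ (sub_mem hx (star_mem hx)))
    (by
      rw [IsSelfAdjoint, star_smul, star_sub, star_star]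
      simp only [Complex.star_def, Complex.conj_I]
      rw [neg_smul, ← smul_neg, neg_sub])
    (by rw [mul_smul_comm, mul_sub, hex, hex']) (by rw [smul_mul_assoc, sub_mul, hxe, hxe'])
  refine ⟨(1 / 2 : ℂ) * c1 - (Complex.I / 2) * c2, ?_⟩
  have h3 : x = (1 / 2 : ℂ) • (x + star x) - (Complex.I / 2) • (Complex.I • (x - star x)) := by
    rw [smul_smul, div_mul_eq_mul_div, Complex.I_mul_I, smul_add, smul_sub]
    have : (-1 / 2 : ℂ) = -(1 / 2) := by ring
    rw [this, neg_smul, neg_smul]
    have h4 : (1 / 2 : ℂ) • x + (1 / 2 : ℂ) • x = x := by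
      rw [← add_smul]; norm_num
    calc x = (1 / 2 : ℂ) • x + (1 / 2 : ℂ) • x := h4.symm
      _ = _ := by abel
  conv_lhs => rw [h3]
  rw [h1, h2, smul_smul, smul_smul, ← sub_smul]

end C4aux

open C4aux in
theorem c4 (hP : Fac P ξ) {e : H →L[ℂ] H} (he : Pj P e) (he0 : e ≠ 0) :
    ∃ f, Pj P f ∧ f * e = f ∧ f ≠ 0 ∧ f ≠ e := by
  by_contra hcon
  have hmin : ∀ f, Pj P f → f * e = f → f = 0 ∨ f = e := by
    intro f hf hfe
    by_contra h
    push Not at h
    exact hcon ⟨f, hf, hfe, h.1, h.2⟩
  have hnr : Nr ξ := hP.trc.nr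
  have hpos : 0 < tr ξ e := tr_pos hP.trc he he0
  have hee := he.2.isIdempotentElem.eq
  have hes := he.2.isSelfAdjoint.star_eq
  -- families of orthogonal copies
  let Q : ℕ → Prop := fun k => ∃ w : Fin k → (H →L[ℂ] H), (∀ i, w i ∈ P) ∧
    (∀ i, star (w i) * w i = e) ∧ ∀ i j, i ≠ j → star (w i) * w j = 0
  have hproj : ∀ k, ∀ w : Fin k → (H →L[ℂ] H), (∀ i, w i ∈ P) →
      (∀ i, star (w i) * w i = e) → (∀ i j, i ≠ j → star (w i) * w j = 0) →
      Pj P (1 - ∑ i, w i * star (w i)) ∧ Pj P (∑ i, w i * star (w i)) := by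
    intro k w hw hwe hwo
    have hsum : (∑ i, w i * star (w i)) * (∑ i, w i * star (w i)) = ∑ i, w i * star (w i) := by
      rw [Finset.sum_mul]
      refine Finset.sum_congr rfl fun i _ => ?_
      rw [Finset.mul_sum, Finset.sum_eq_single i]
      · calc w i * star (w i) * (w i * star (w i)) = w i * (star (w i) * w i) * star (w i) := by
              noncomm_ring
          _ = w i * star (w i) := by rw [hwe i, pis he.2 (hwe i)]
      · intro j _ hj
        calc w i * star (w i) * (w j * star (w j)) = w i * (star (w i) * w j) * star (w j) := by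
              noncomm_ring
          _ = 0 := by rw [hwo i j (Ne.symm hj)]; simp
      · intro h
        exact absurd (Finset.mem_univ i) h
    have hsa : IsSelfAdjoint (∑ i, w i * star (w i)) := by
      rw [IsSelfAdjoint, star_sum]
      refine Finset.sum_congr rfl fun i _ => ?_
      rw [star_mul, star_star]
    have hmem : (∑ i, w i * star (w i)) ∈ P := sum_mem fun i _ => mul_mem (hw i) (star_mem (hw i))
    refine ⟨⟨sub_mem (one_mem P) hmem, ?_, ?_⟩, ⟨hmem, hsum, hsa⟩⟩
    · rw [IsIdempotentElem, sub_mul, mul_sub, mul_sub, one_mul, one_mul, mul_one, hsum]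
      abel
    · rw [IsSelfAdjoint, star_sub, star_one, hsa.star_eq]
  have htrk : ∀ k, ∀ w : Fin k → (H →L[ℂ] H), (∀ i, w i ∈ P) →
      (∀ i, star (w i) * w i = e) → tr ξ (∑ i, w i * star (w i)) = k * tr ξ e := by
    intro k w hw hwe
    rw [tr_sum hnr]
    have : ∀ i, tr ξ (w i * star (w i)) = tr ξ e := by
      intro i
      rw [tr, tau_comm hP.trc (hw i) (star_mem (hw i)), hwe i, tr]
    rw [Finset.sum_congr rfl fun i _ => this i, Finset.sum_const, Finset.card_univ,
      Fintype.card_fin, nsmul_eq_mul]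
  -- a maximal one
  obtain ⟨k, hk, hk1⟩ : ∃ k, Q k ∧ ¬ Q (k + 1) := by
    by_contra hno
    push Not at hno
    have hall : ∀ k, Q k := by
      intro k
      induction k with
      | zero => exact ⟨fun i => i.elim0, fun i => i.elim0, fun i => i.elim0, fun i => i.elim0⟩
      | succ k ih => exact hno k ih
    obtain ⟨k, hk⟩ := exists_nat_gt (1 / tr ξ e)
    obtain ⟨w, hw, hwe, hwo⟩ := hall k
    have h1 := tr_le_one hnr (hproj k w hw hwe hwo).2.2
    rw [htrk k w hw hwe] at h1
    rw [div_lt_iff₀ hpos] at hk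
    linarith
  obtain ⟨w, hw, hwe, hwo⟩ := hk
  set r := 1 - ∑ i, w i * star (w i) with hr
  have hrP : Pj P r := (hproj k w hw hwe hwo).1
  have hwr : ∀ i, star (w i) * r = 0 := by
    intro i
    rw [hr, mul_sub, mul_one, Finset.mul_sum, Finset.sum_eq_single i]
    · rw [← mul_assoc, hwe i]
      have := congrArg star (pis he.2 (hwe i))
      rw [star_mul, hes] at this
      rw [this, sub_self]
    · intro j _ hj
      rw [← mul_assoc, hwo i j (Ne.symm hj), zero_mul]
    · intro h
      exact absurd (Finset.mem_univ i) h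
  have hr0 : r = 0 := by
    rcases le_total (tr ξ e) (tr ξ r) with hle | hle
    · exfalso
      obtain ⟨w', hw', hwe', hrw', -⟩ := c3 hP.fac hP.trc he hrP hle
      refine hk1 ⟨Fin.snoc (α := fun _ => H →L[ℂ] H) w w', ?_, ?_, ?_⟩
      · intro i
        induction i using Fin.lastCases with
        | last => rw [Fin.snoc_last]; exact hw'
        | cast i => rw [Fin.snoc_castSucc]; exact hw i
      · intro i
        induction i using Fin.lastCases with
        | last => rw [Fin.snoc_last]; exact hwe'
        | cast i => rw [Fin.snoc_castSucc]; exact hwe i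
      · have hz : ∀ i, star (w i) * w' = 0 := by
          intro i
          rw [← hrw', ← mul_assoc, hwr, zero_mul]
        intro i j hij
        induction i using Fin.lastCases with
        | last =>
          induction j using Fin.lastCases with
          | last => exact absurd rfl hij
          | cast j =>
            rw [Fin.snoc_last, Fin.snoc_castSucc]
            have := congrArg star (hz j)
            rwa [star_mul, star_star, star_zero] at this
        | cast i =>
          induction j using Fin.lastCases with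
          | last => rw [Fin.snoc_last, Fin.snoc_castSucc]; exact hz i
          | cast j =>
            rw [Fin.snoc_castSucc, Fin.snoc_castSucc]
            exact hwo i j (fun h => hij (by rw [h]))
    · obtain ⟨w', hw', hwr', hew', hpj⟩ := c3 hP.fac hP.trc hrP he hle
      by_contra hr0
      have hg : Pj P (w' * star w') := ⟨mul_mem hw' (star_mem hw'), hpj⟩
      have hge : w' * star w' * e = w' * star w' := by
        have h1 : e * (w' * star w') = w' * star w' := by rw [← mul_assoc, hew']
        have := congrArg star h1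
        rwa [star_mul, hes, hpj.isSelfAdjoint.star_eq] at this
      have htr : tr ξ (w' * star w') = tr ξ r := by
        rw [tr, tau_comm hP.trc hw' (star_mem hw'), hwr', tr]
      rcases hmin _ hg hge with h | h
      · have h2 : star w' = 0 := by
          rw [← norm_eq_zero, ← mul_self_eq_zero, ← CStarRing.norm_star_mul_self, star_star, h,
            norm_zero]
        apply hr0
        rw [← hwr', h2, zero_mul]
      · -- `tr r = tr e`, so a further copy exists: `r` itself
        have hle2 : tr ξ e ≤ tr ξ r := by rw [← htr, h]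
        obtain ⟨w'', hw'', hwe'', hrw'', -⟩ := c3 hP.fac hP.trc he hrP hle2
        refine hk1 ⟨Fin.snoc (α := fun _ => H →L[ℂ] H) w w'', ?_, ?_, ?_⟩
        · intro i
          induction i using Fin.lastCases with
          | last => rw [Fin.snoc_last]; exact hw''
          | cast i => rw [Fin.snoc_castSucc]; exact hw i
        · intro i
          induction i using Fin.lastCases with
          | last => rw [Fin.snoc_last]; exact hwe''
          | cast i => rw [Fin.snoc_castSucc]; exact hwe i
        · have hz : ∀ i, star (w i) * w'' = 0 := by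
            intro i
            rw [← hrw'', ← mul_assoc, hwr, zero_mul]
          intro i j hij
          induction i using Fin.lastCases with
          | last =>
            induction j using Fin.lastCases with
            | last => exact absurd rfl hij
            | cast j =>
              rw [Fin.snoc_last, Fin.snoc_castSucc]
              have := congrArg star (hz j)
              rwa [star_mul, star_star, star_zero] at this
          | cast i =>
            induction j using Fin.lastCases with
            | last => rw [Fin.snoc_last, Fin.snoc_castSucc]; exact hz i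
            | cast j =>
              rw [Fin.snoc_castSucc, Fin.snoc_castSucc]
              exact hwo i j (fun h => hij (by rw [h]))
  have h1 : ∑ i, w i * star (w i) = 1 := by
    exact (sub_eq_zero.1 (hr.symm.trans hr0)).symm
  -- finite dimensionality
  have hspan : ∀ x ∈ P, x ∈ Submodule.span ℂ
      (Set.range fun p : Fin k × Fin k => w p.1 * star (w p.2)) := by
    intro x hx
    have hexp : x = ∑ i, ∑ j, w i * (star (w i) * x * w j) * star (w j) := by
      calc x = (∑ i, w i * star (w i)) * x * (∑ j, w j * star (w j)) := by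
            rw [h1, one_mul, mul_one]
        _ = _ := by
            rw [Finset.sum_mul, Finset.sum_mul]
            refine Finset.sum_congr rfl fun i _ => ?_
            rw [Finset.mul_sum]
            refine Finset.sum_congr rfl fun j _ => ?_
            noncomm_ring
    rw [hexp]
    refine Submodule.sum_mem _ fun i _ => Submodule.sum_mem _ fun j _ => ?_
    have hw1 : e * star (w i) = star (w i) := by
      have := congrArg star (pis he.2 (hwe i))
      rwa [star_mul, hes] at this
    have hw2 : w j * e = w j := pis he.2 (hwe j)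
    obtain ⟨c, hc⟩ := scalar he he0 hmin (x := star (w i) * x * w j)
      (mul_mem (mul_mem (star_mem (hw i)) hx) (hw j))
      (by rw [← mul_assoc, ← mul_assoc, hw1]) (by rw [mul_assoc, hw2])
    have : w i * (star (w i) * x * w j) * star (w j) = c • (w i * star (w j)) := by
      rw [hc, mul_smul_comm, pis he.2 (hwe i), smul_mul_assoc]
    rw [this]
    exact Submodule.smul_mem _ _ (Submodule.subset_span ⟨(i, j), rfl⟩)
  apply hP.inf
  have hfin : FiniteDimensional ℂ (Submodule.span ℂ
      (Set.range fun p : Fin k × Fin k => w p.1 * star (w p.2))) :=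
    FiniteDimensional.span_of_finite ℂ (Set.finite_range _)
  let φ : P.toStarSubalgebra →ₗ[ℂ] Submodule.span ℂ
      (Set.range fun p : Fin k × Fin k => w p.1 * star (w p.2)) :=
    { toFun := fun x => ⟨x.1, hspan x.1 x.2⟩
      map_add' := fun x y => rfl
      map_smul' := fun c x => rfl }
  refine FiniteDimensional.of_injective φ (fun x y hxy => ?_)
  have h2 : (φ x).1 = (φ y).1 := by rw [hxy]
  exact Subtype.ext h2

end Crest.Agent.R95
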