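import Crest.Agent.R95.C4

/-!
# Row 95, piece C5: subprojections of every trace

`e ∈ P`, `0 ≤ t ≤ tr e`: there is a projection `f ≤ e` in `P` with `tr f = t`.
-/

set_option autoImplicit false

namespace Crest.Agent.R95

open Crest.OpAlg
open scoped InnerProductSpace ComplexConjugate

variable {H : Type*} [NormedAddCommGroup H] [InnerProductSpace ℂ H] [CompleteSpace H]
variable {ξ : ℕ → H} {P M : VonNeumannAlgebra H}

theorem c5_comm {p e : H →L[ℂ] H} (hp : IsStarProjection p) (he : IsStarProjection e)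
    (h : p * e = p) : e * p = p := by
  have := congrArg star h
  rw [star_mul, he.isSelfAdjoint.star_eq, hp.isSelfAdjoint.star_eq] at this
  exact this

theorem c5_sub {p e : H →L[ℂ] H} (hp : Pj P p) (he : Pj P e) (h : p * e = p) : Pj P (e - p) := by
  have h' := c5_comm hp.2 he.2 h
  refine ⟨sub_mem he.1 hp.1, ?_, ?_⟩
  · show (e - p) * (e - p) = e - p
    have h1 : e * e = e := he.2.isIdempotentElem
    have h2 : p * p = p := hp.2.isIdempotentElem
    rw [mul_sub, sub_mul, sub_mul, h1, h2, h, h']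
    abel
  · exact he.2.isSelfAdjoint.sub hp.2.isSelfAdjoint

theorem c5_add {p g : H →L[ℂ] H} (hp : Pj P p) (hg : Pj P g) (h : g * p = 0) : Pj P (p + g) := by
  have h' : p * g = 0 := by
    have := congrArg star h
    rw [star_mul, hp.2.isSelfAdjoint.star_eq, hg.2.isSelfAdjoint.star_eq, star_zero] at this
    exact this
  refine ⟨add_mem hp.1 hg.1, ?_, ?_⟩
  · show (p + g) * (p + g) = p + g
    have h1 : g * g = g := hg.2.isIdempotentElem
    have h2 : p * p = p := hp.2.isIdempotentElem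
    rw [mul_add, add_mul, add_mul, h1, h2, h, h']
    abel
  · exact hp.2.isSelfAdjoint.add hg.2.isSelfAdjoint

/-- small nonzero subprojections -/
theorem c5_small (hP : Fac P ξ) {e : H →L[ℂ] H} (he : Pj P e) (he0 : e ≠ 0) (n : ℕ) :
    ∃ f, Pj P f ∧ f * e = f ∧ f ≠ 0 ∧ tr ξ f ≤ tr ξ e / 2 ^ n := by
  induction n with
  | zero => exact ⟨e, he, he.2.isIdempotentElem, he0, by simp⟩
  | succ n ih =>
    obtain ⟨f, hf, hfe, hf0, hft⟩ := ih
    obtain ⟨g, hg, hgf, hg0, hgne⟩ := c4 hP hf hf0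
    have hnr : Nr ξ := hP.trc.nr
    have hsub := c5_sub hg hf hgf
    have hsum : tr ξ (f - g) = tr ξ f - tr ξ g := tr_sub hnr f g
    have hge : g * e = g := by rw [← hgf, mul_assoc, hfe]
    rcases le_total (tr ξ g) (tr ξ f / 2) with h | h
    · refine ⟨g, hg, hge, hg0, ?_⟩
      calc tr ξ g ≤ tr ξ f / 2 := h
        _ ≤ (tr ξ e / 2 ^ n) / 2 := by linarith
        _ = tr ξ e / 2 ^ (n + 1) := by rw [pow_succ]; field_simp
    · refine ⟨f - g, hsub, ?_, sub_ne_zero.mpr (Ne.symm hgne), ?_⟩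
      · rw [sub_mul, hfe, hge]
      · calc tr ξ (f - g) ≤ tr ξ f / 2 := by rw [hsum]; linarith
          _ ≤ (tr ξ e / 2 ^ n) / 2 := by linarith
          _ = tr ξ e / 2 ^ (n + 1) := by rw [pow_succ]; field_simp

theorem c5 (hP : Fac P ξ) {e : H →L[ℂ] H} (he : Pj P e) (t : ℝ) (ht0 : 0 ≤ t)
    (ht : t ≤ tr ξ e) : ∃ f, Pj P f ∧ f * e = f ∧ tr ξ f = t := by
  have hnr : Nr ξ := hP.trc.nr
  let X := {f : H →L[ℂ] H // Pj P f ∧ f * e = f ∧ tr ξ f ≤ t}
  have h0 : Pj P (0 : H →L[ℂ] H) := ⟨zero_mem _, IsStarProjection.zero _⟩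
  have htr0 : tr ξ (0 : H →L[ℂ] H) = 0 := by
    unfold tr
    rw [tau_zero]; rfl
  have hex := exhaustion (X := X) (fun f g => f.1 * g.1 = f.1)
    (fun f => f.2.1.2.isIdempotentElem)
    (fun x y z hxy hyz => by
      show x.1 * z.1 = x.1
      calc x.1 * z.1 = (x.1 * y.1) * z.1 := by rw [hxy]
        _ = x.1 * (y.1 * z.1) := mul_assoc _ _ _
        _ = x.1 * y.1 := by rw [hyz]
        _ = x.1 := hxy)
    (fun f => tr ξ f.1) (fun f => tr_le_one hnr f.2.1.2)
    (fun x y hxy => tr_mono hnr x.2.1.2 y.2.1.2 hxy)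
    (fun x hx => by
      obtain ⟨q, hq, hpq, hlim⟩ := proj_lim hP.trc (fun k => (x k).1) (fun k => (x k).2.1) hx
      have hqe : q * e = q := by
        have h1 : Filter.Tendsto (fun k => n2 ξ ((x k).1 * e - q * e)) Filter.atTop (nhds 0) := by
          refine n2_lim_mul hP.trc (fun k => (x k).2.1.1) (fun _ => he.1) (C := 1)
            (fun k => pj_norm_le (x k).2.1.2) hq.1 he.1 hlim ?_
          simp [n2_zero]
        have h2 : Filter.Tendsto (fun k => n2 ξ ((x k).1 - q * e)) Filter.atTop (nhds 0) := by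
          refine h1.congr ?_
          intro k
          rw [(x k).2.2.1]
        exact n2_lim_unique hP.trc (fun k => (x k).2.1.1) (mul_mem hq.1 he.1) hq.1 h2 hlim
      have hqt : tr ξ q ≤ t := by
        have h1 : Filter.Tendsto (fun k => tr ξ (x k).1) Filter.atTop (nhds (tr ξ q)) :=
          (Complex.continuous_re.tendsto _).comp (tau_lim hnr hlim)
        exact le_of_tendsto h1 (Filter.Eventually.of_forall fun k => (x k).2.2.2)
      exact ⟨⟨q, hq, hqe, hqt⟩, hpq⟩)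
    ⟨0, h0, zero_mul _, by rw [htr0]; exact ht0⟩
  obtain ⟨f, _, hmax⟩ := hex
  refine ⟨f.1, f.2.1, f.2.2.1, ?_⟩
  by_contra hne
  have hlt : tr ξ f.1 < t := lt_of_le_of_ne f.2.2.2 hne
  have hsub := c5_sub f.2.1 he f.2.2.1
  have hsum : tr ξ (e - f.1) = tr ξ e - tr ξ f.1 := tr_sub hnr e f.1
  have hne0 : e - f.1 ≠ 0 := by
    intro h
    rw [h, htr0] at hsum
    linarith
  obtain ⟨n, hn⟩ : ∃ n : ℕ, 1 / (2 : ℝ) ^ n < t - tr ξ f.1 := by
    obtain ⟨n, hn⟩ := exists_pow_lt_of_lt_one (sub_pos.mpr hlt) (by norm_num : (1 / 2 : ℝ) < 1)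
    exact ⟨n, by rw [one_div_pow] at hn; exact hn⟩
  obtain ⟨g, hg, hge, hg0, hgt⟩ := c5_small hP hsub hne0 n
  have hgt' : tr ξ g ≤ t - tr ξ f.1 := by
    have h1 : tr ξ (e - f.1) ≤ 1 := tr_le_one hnr hsub.2
    calc tr ξ g ≤ tr ξ (e - f.1) / 2 ^ n := hgt
      _ ≤ 1 / 2 ^ n := by gcongr
      _ ≤ _ := hn.le
  have hff : f.1 * f.1 = f.1 := f.2.1.2.isIdempotentElem
  have hef : e * f.1 = f.1 := c5_comm f.2.1.2 he.2 f.2.2.1
  have hgf : g * f.1 = 0 := by
    rw [← hge, mul_assoc, sub_mul, hef, hff, sub_self, mul_zero]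
  have hfg : f.1 * g = 0 := by
    have := congrArg star hgf
    rw [star_mul, f.2.1.2.isSelfAdjoint.star_eq, hg.2.isSelfAdjoint.star_eq, star_zero] at this
    exact this
  have hgee : g * e = g := by
    have h1 : (e - f.1) * e = e - f.1 := by
      rw [sub_mul, f.2.2.1]
      congr 1
      exact he.2.isIdempotentElem
    rw [← hge, mul_assoc, h1]
  have hadd := c5_add f.2.1 hg hgf
  have hm := hmax ⟨f.1 + g, hadd, by rw [add_mul, f.2.2.1, hgee], by
    rw [tr_add hnr]; linarith⟩ (by show f.1 * (f.1 + g) = f.1; rw [mul_add, hff, hfg, add_zero])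
  have hm' : tr ξ (f.1 + g) ≤ tr ξ f.1 := hm
  rw [tr_add hnr] at hm'
  have := tr_pos hP.trc hg hg0
  linarith

end Crest.Agent.R95
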