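import Crest.Agent.R95.C5

/-!
# Row 95, piece C6: equal partitions, matrix units, covers

(a) `equal_part`: any projection `e ∈ P` and `N ≥ 1`: `e = ∑_{i<N} e_i`, orthogonal projections of
`P` of trace `tr e / N` (`c5` repeatedly; induction on `N` inside `e - (previous ones)`).
-/

set_option autoImplicit false

namespace Crest.Agent.R95

open Crest.OpAlg
open scoped InnerProductSpace ComplexConjugate

variable {H : Type*} [NormedAddCommGroup H] [InnerProductSpace ℂ H] [CompleteSpace H]
variable {ξ : ℕ → H} {P M : VonNeumannAlgebra H}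

theorem c6a_ef {e f : H →L[ℂ] H} (he : IsStarProjection e) (hf : IsStarProjection f)
    (hfe : f * e = f) : e * f = f := by
  have h := congrArg star hfe
  rw [star_mul, he.isSelfAdjoint.star_eq, hf.isSelfAdjoint.star_eq] at h
  exact h

theorem c6a_sub {e f : H →L[ℂ] H} (he : Pj P e) (hf : Pj P f) (hfe : f * e = f) :
    Pj P (e - f) := by
  have hef := c6a_ef he.2 hf.2 hfe
  refine ⟨sub_mem he.1 hf.1, ?_, he.2.isSelfAdjoint.sub hf.2.isSelfAdjoint⟩
  change (e - f) * (e - f) = e - f
  rw [mul_sub, sub_mul, sub_mul, he.2.isIdempotentElem.eq, hf.2.isIdempotentElem.eq, hfe, hef]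
  abel

theorem c6a_zero (h : Trc P ξ) {e : H →L[ℂ] H} (he : Pj P e) (h0 : tr ξ e = 0) : e = 0 := by
  by_contra hne
  exact absurd h0 (tr_pos h he hne).ne'

theorem c6a_ind (hP : Fac P ξ) (t : ℝ) (ht : 0 ≤ t) (N : ℕ) :
    ∀ e : H →L[ℂ] H, Pj P e → tr ξ e = N * t →
    ∃ q : Fin N → (H →L[ℂ] H), (∀ i, Pj P (q i)) ∧ (∀ i j, i ≠ j → q i * q j = 0) ∧
      (∀ i, tr ξ (q i) = t) ∧ ∑ i, q i = e := by
  induction N with
  | zero =>
    intro e he h0
    refine ⟨fun i => i.elim0, fun i => i.elim0, fun i => i.elim0, fun i => i.elim0, ?_⟩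
    rw [c6a_zero hP.trc he (by simpa using h0)]
    simp
  | succ n ih =>
    intro e he htr
    push_cast at htr
    obtain ⟨f, hf, hfe, hft⟩ := c5 hP he t ht (by rw [htr]; nlinarith [mul_nonneg (Nat.cast_nonneg (α := ℝ) n) ht])
    have hef := c6a_ef he.2 hf.2 hfe
    obtain ⟨q, hq, ho, htq, hsum⟩ := ih (e - f) (c6a_sub he hf hfe) (by
      rw [tr_sub hP.trc.nr, htr, hft]; ring)
    have hqe : ∀ i, q i * (e - f) = q i := by
      intro i
      rw [← hsum, Finset.mul_sum, Finset.sum_eq_single i]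
      · exact (hq i).2.isIdempotentElem.eq
      · intro j _ hj
        exact ho i j (Ne.symm hj)
      · intro hi; exact absurd (Finset.mem_univ i) hi
    have hqf : ∀ i, q i * f = 0 := by
      intro i
      rw [← hqe i, mul_assoc, sub_mul, hef, hf.2.isIdempotentElem.eq, sub_self, mul_zero]
    have hfq : ∀ i, f * q i = 0 := by
      intro i
      have h := congrArg star (hqf i)
      rw [star_mul, (hq i).2.isSelfAdjoint.star_eq, hf.2.isSelfAdjoint.star_eq, star_zero] at h
      exact h
    refine ⟨Fin.cons f q, ?_, ?_, ?_, ?_⟩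
    · intro i
      refine Fin.cases ?_ (fun j => ?_) i
      · simpa using hf
      · simpa using hq j
    · intro i j
      refine Fin.cases ?_ (fun i' => ?_) i <;> refine Fin.cases ?_ (fun j' => ?_) j
      · intro h; exact absurd rfl h
      · intro _; simpa using hfq j'
      · intro _; simpa using hqf i'
      · intro h
        simpa using ho i' j' (fun h' => h (by rw [h']))
    · intro i
      refine Fin.cases ?_ (fun j => ?_) i
      · simpa using hft
      · simpa using htq j
    · rw [Fin.sum_univ_succ]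
      simp only [Fin.cons_zero, Fin.cons_succ]
      rw [hsum]; abel

theorem equal_part (hP : Fac P ξ) {e : H →L[ℂ] H} (he : Pj P e) (N : ℕ) (hN : 1 ≤ N) :
    ∃ q : Fin N → (H →L[ℂ] H), (∀ i, Pj P (q i)) ∧ (∀ i j, i ≠ j → q i * q j = 0) ∧
      (∀ i, tr ξ (q i) = tr ξ e / N) ∧ ∑ i, q i = e := by
  have hN' : (0 : ℝ) < N := by exact_mod_cast hN
  refine c6a_ind hP (tr ξ e / N) (div_nonneg (tr_nonneg hP.trc.nr he.2) hN'.le) N e he ?_
  field_simp

end Crest.Agent.R95
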