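import Crest.Agent.R95.C6a

/-!
# Row 95, piece C6B: matrix units with prescribed diagonal, covers

(b) `matrix_units`: prescribed orthogonal projections with equal traces are the diagonal of
matrix units: `c3` gives `w_i* w_i = q_0`, `w_i w_i* ≤ q_i` with the same trace, so `= q_i`
(`eq_of_tr_le`); `E i j = w_i w_j*`  (case `N = 0` trivial).
(c) `cover`: `e ≠ 0`: there are finitely many `w_i ∈ P` with `w_i e = w_i`, `∑ w_i w_i* = 1`:
`k` with `1/k ≤ tr e`, `1 = ∑ e_i` with traces `1/k` (`equal_part`), `c3`: `v_i* v_i = e_i`,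
`e v_i = v_i`; `w_i = v_i*`.
-/

set_option autoImplicit false

namespace Crest.Agent.R95

open Crest.OpAlg
open scoped InnerProductSpace ComplexConjugate Topology

variable {H : Type*} [NormedAddCommGroup H] [InnerProductSpace ℂ H] [CompleteSpace H]
variable {ξ : ℕ → H} {P M : VonNeumannAlgebra H}

theorem matrix_units (hP : Fac P ξ) {N : ℕ} {q : Fin N → (H →L[ℂ] H)} (hq : ∀ i, Pj P (q i))
    (ho : ∀ i j, i ≠ j → q i * q j = 0) (ht : ∀ i j, tr ξ (q i) = tr ξ (q j)) :
    ∃ E : Fin N → Fin N → (H →L[ℂ] H), MU P (∑ i, q i) N E ∧ ∀ i, E i i = q i := by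
  rcases Nat.eq_zero_or_pos N with hN | hN
  · subst hN
    exact ⟨fun i _ => i.elim0, ⟨fun i => i.elim0, fun i => i.elim0, fun i => i.elim0, by simp⟩,
      fun i => i.elim0⟩
  let z : Fin N := ⟨0, hN⟩
  have hex : ∀ i, ∃ w ∈ P, star w * w = q z ∧ q i * w = w ∧ IsStarProjection (w * star w) :=
    fun i => c3 hP.fac hP.trc (hq z) (hq i) (ht z i).le
  choose w hwP hw1 hw2 hw3 using hex
  -- `w_i w_i* = q_i`
  have hw4 : ∀ i, w i * star (w i) = q i := by
    intro i
    have hpj : Pj P (w i * star (w i)) := ⟨mul_mem (hwP i) (star_mem (hwP i)), hw3 i⟩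
    have hsub : (w i * star (w i)) * q i = w i * star (w i) := by
      have h1 : star (w i) * q i = star (w i) := by
        have := congrArg star (hw2 i)
        rw [star_mul, (hq i).2.isSelfAdjoint.star_eq] at this
        exact this
      rw [mul_assoc, h1]
    apply eq_of_tr_le hP.trc hpj (hq i) hsub
    have h2 : tr ξ (w i * star (w i)) = tr ξ (star (w i) * w i) := by
      unfold tr
      rw [tau_comm hP.trc (hwP i) (star_mem (hwP i))]
    rw [h2, hw1, ht z i]
  have hwq : ∀ i, w i * q z = w i := by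
    intro i
    -- `(w q_z - w)* (w q_z - w) = 0`
    have h5 : w i * q z = (w i * star (w i)) * w i := by rw [← hw1 i, mul_assoc]
    rw [h5, hw4, hw2]
  refine ⟨fun i j => w i * star (w j), ⟨?_, ?_, ?_, ?_⟩, hw4⟩
  · intro i j
    exact mul_mem (hwP i) (star_mem (hwP j))
  · intro i j k l
    by_cases hjk : j = k
    · subst hjk
      rw [if_pos rfl]
      have : w i * star (w j) * (w j * star (w l)) = w i * (star (w j) * w j) * star (w l) := by
        simp only [mul_assoc]
      rw [this, hw1, hwq]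
    · rw [if_neg hjk]
      have h6 : star (w j) * w k = 0 := by
        have h7 : star (w j) = star (w j) * q j := by
          have := congrArg star (hw2 j)
          rw [star_mul, (hq j).2.isSelfAdjoint.star_eq] at this
          exact this.symm
        rw [h7, ← hw2 k]
        have : star (w j) * q j * (q k * w k) = star (w j) * (q j * q k) * w k := by
          simp only [mul_assoc]
        rw [this, ho j k hjk, mul_zero, zero_mul]
      have : w i * star (w j) * (w k * star (w l)) = w i * (star (w j) * w k) * star (w l) := by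
        simp only [mul_assoc]
      rw [this, h6, mul_zero, zero_mul]
  · intro i j
    rw [star_mul, star_star]
  · exact Finset.sum_congr rfl fun i _ => hw4 i

theorem cover (hP : Fac P ξ) {e : H →L[ℂ] H} (he : Pj P e) (he0 : e ≠ 0) :
    ∃ (k : ℕ) (w : Fin k → (H →L[ℂ] H)), (∀ i, w i ∈ P) ∧ (∀ i, w i * e = w i) ∧
      ∑ i, w i * star (w i) = 1 := by
  have hpos : 0 < tr ξ e := tr_pos hP.trc he he0
  obtain ⟨k, hk⟩ := exists_nat_gt (1 / tr ξ e)
  have hk0 : (0 : ℝ) < k := lt_trans (by positivity) hk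
  have hk1 : 1 ≤ k := by exact_mod_cast hk0
  have h1pj : Pj P (1 : H →L[ℂ] H) := ⟨one_mem P, IsStarProjection.one _⟩
  obtain ⟨q, hq, ho, hqt, hsum⟩ := equal_part hP h1pj k hk1
  have hle : ∀ i, tr ξ (q i) ≤ tr ξ e := by
    intro i
    rw [hqt i, tr_one hP.trc.nr]
    rw [div_lt_iff₀ hpos] at hk
    rw [div_le_iff₀ hk0]
    linarith
  have hex : ∀ i, ∃ w ∈ P, star w * w = q i ∧ e * w = w ∧ IsStarProjection (w * star w) :=
    fun i => c3 hP.fac hP.trc (hq i) he (hle i)
  choose v hvP hv1 hv2 hv3 using hex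
  refine ⟨k, fun i => star (v i), fun i => star_mem (hvP i), fun i => ?_, ?_⟩
  · have := congrArg star (hv2 i)
    rw [star_mul, he.2.isSelfAdjoint.star_eq] at this
    exact this
  · rw [← hsum]
    refine Finset.sum_congr rfl fun i _ => ?_
    rw [star_star, hv1]

end Crest.Agent.R95
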