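import Crest.Agent.R95.TrB
import Crest.Agent.R95.VNa

/-!
# Row 95, part F (asymptotic freeness by a flow of symmetries): F1, words and the core inequality

Words in the letters `g i`, `star (g i)`; replacing `g l` by `g l * (1 - 2 p)` (`p` a projection of
`M`) changes `τ(W b)` by `-2 (#l) τ(p) τ(W b)` up to quantization errors and shorter words.
-/

set_option autoImplicit false

namespace Crest.Agent.R95

open Crest.OpAlg
open scoped InnerProductSpace ComplexConjugate

variable {H : Type*} [NormedAddCommGroup H] [InnerProductSpace ℂ H] [CompleteSpace H]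
variable {ξ : ℕ → H} {P M : VonNeumannAlgebra H} {k : ℕ}

/-- words -/
abbrev Wd (k : ℕ) := List (Fin k × Bool)

/-- letter -/
noncomputable def Lt (g : Fin k → (H →L[ℂ] H)) (a : Fin k × Bool) : H →L[ℂ] H :=
  if a.2 then g a.1 else star (g a.1)

/-- value of a word -/
noncomputable def Wv (g : Fin k → (H →L[ℂ] H)) : Wd k → (H →L[ℂ] H)
  | [] => 1
  | a :: w => Lt g a * Wv g w

/-- modified generators -/
noncomputable def md (g : Fin k → (H →L[ℂ] H)) (l : Fin k) (p : H →L[ℂ] H) :
    Fin k → (H →L[ℂ] H) :=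
  Function.update g l (g l * (1 - (2 : ℂ) • p))

/-- number of letters with index `l` -/
def cnt (l : Fin k) : Wd k → ℕ
  | [] => 0
  | a :: w => (if a.1 = l then 1 else 0) + cnt l w

/-- quantization by `p`, functional form -/
def Qz (M : VonNeumannAlgebra H) (ξ : ℕ → H) (p : H →L[ℂ] H) (η : ℝ) (X : H →L[ℂ] H) : Prop :=
  ∀ R ∈ M, ‖R‖ ≤ 1 → ‖tau ξ (p * X * p * R) - tau ξ X * tau ξ (p * R)‖ ≤ η * tr ξ p

@[simp] theorem Wv_nil (g : Fin k → (H →L[ℂ] H)) : Wv g [] = 1 := rfl

@[simp] theorem Wv_cons (g : Fin k → (H →L[ℂ] H)) (a : Fin k × Bool) (w : Wd k) :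
    Wv g (a :: w) = Lt g a * Wv g w := rfl

theorem Wv_append (g : Fin k → (H →L[ℂ] H)) (s x : Wd k) :
    Wv g (s ++ x) = Wv g s * Wv g x := by
  induction s with
  | nil => simp
  | cons a s ih => simp [ih, mul_assoc]

theorem Wv_singleton (g : Fin k → (H →L[ℂ] H)) (a : Fin k × Bool) : Wv g [a] = Lt g a := by
  simp

theorem Un.one (M : VonNeumannAlgebra H) : Un M (1 : H →L[ℂ] H) := ⟨one_mem M, one_mem _⟩

theorem Un.mul {u v : H →L[ℂ] H} (hu : Un M u) (hv : Un M v) : Un M (u * v) :=
  ⟨mul_mem hu.1 hv.1, mul_mem hu.2 hv.2⟩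

theorem Un.star {u : H →L[ℂ] H} (hu : Un M u) : Un M (star u) :=
  ⟨star_mem hu.1, Unitary.star_mem hu.2⟩

theorem Un.norm_le {u : H →L[ℂ] H} (hu : Un M u) : ‖u‖ ≤ 1 := by
  rcases subsingleton_or_nontrivial H with hH | hH
  · have : u = 0 := by ext v; exact Subsingleton.elim _ _
    simp [this]
  · exact (CStarRing.norm_of_mem_unitary hu.2).le

theorem Un.symm {p : H →L[ℂ] H} (hp : Pj M p) : Un M (1 - (2 : ℂ) • p) := by
  have h1 : p * p = p := hp.2.isIdempotentElem
  have h2 : Star.star p = p := hp.2.isSelfAdjoint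
  have hs : Star.star (1 - (2 : ℂ) • p) = 1 - (2 : ℂ) • p := by
    simp [star_sub, star_smul, h2]
  have hm : (1 - (2 : ℂ) • p) * (1 - (2 : ℂ) • p) = 1 := by
    simp only [sub_mul, mul_sub, one_mul, mul_one, smul_mul_assoc, mul_smul_comm, h1]
    module
  refine ⟨sub_mem (one_mem M) ?_, ?_⟩
  · exact M.toStarSubalgebra.smul_mem hp.1 2
  · rw [Unitary.mem_iff, hs]
    exact ⟨hm, hm⟩

theorem Lt_un {g : Fin k → (H →L[ℂ] H)} (hg : ∀ i, Un M (g i)) (a : Fin k × Bool) :
    Un M (Lt g a) := by
  unfold Lt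
  split_ifs
  · exact hg _
  · exact (hg _).star

theorem Wv_un {g : Fin k → (H →L[ℂ] H)} (hg : ∀ i, Un M (g i)) (w : Wd k) : Un M (Wv g w) := by
  induction w with
  | nil => exact Un.one M
  | cons a w ih => exact (Lt_un hg a).mul ih

theorem md_un {g : Fin k → (H →L[ℂ] H)} (hg : ∀ i, Un M (g i)) (l : Fin k) {p : H →L[ℂ] H}
    (hp : Pj M p) : ∀ i, Un M (md g l p i) := by
  intro i
  unfold md
  by_cases hi : i = l
  · subst hi
    simpa using (hg i).mul (Un.symm hp)
  · simpa [Function.update_of_ne hi] using hg i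

theorem Lt_md_ne (g : Fin k → (H →L[ℂ] H)) {l : Fin k} (p : H →L[ℂ] H) {a : Fin k × Bool}
    (ha : a.1 ≠ l) : Lt (md g l p) a = Lt g a := by
  unfold Lt md
  simp [Function.update_of_ne ha]

theorem Lt_md_pos (g : Fin k → (H →L[ℂ] H)) (l : Fin k) (p : H →L[ℂ] H) :
    Lt (md g l p) (l, true) - Lt g (l, true) = -((2 : ℂ) • (Lt g (l, true) * p)) := by
  simp [Lt, md, mul_sub]

theorem Lt_md_neg (g : Fin k → (H →L[ℂ] H)) (l : Fin k) {p : H →L[ℂ] H} (hp : Star.star p = p) :
    Lt (md g l p) (l, false) - Lt g (l, false) = -((2 : ℂ) • (p * Lt g (l, false))) := by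
  simp [Lt, md, mul_sub, star_sub, star_mul, star_smul, hp]

/-- size of a quantized middle term -/
theorem Qz.bound (h : Trc M ξ) {p X R : H →L[ℂ] H} (hp : Pj M p) {η : ℝ}
    (hq : Qz M ξ p η X) (hR : R ∈ M) (hR1 : ‖R‖ ≤ 1) {m : ℝ} (hm : ‖tau ξ X‖ ≤ m) :
    ‖tau ξ (p * X * p * R)‖ ≤ (m + η) * tr ξ p := by
  have h1 := hq R hR hR1
  have hpp : p * p = p := hp.2.isIdempotentElem
  have h2 : ‖tau ξ (p * R)‖ ≤ tr ξ p := by
    have e : tau ξ (p * R) = tau ξ (p * R * p) := by
      rw [tau_comm h (mul_mem hp.1 hR) hp.1, ← mul_assoc, hpp]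
    rw [e]
    refine (norm_tau_pj_le h.nr hp.2 R).trans ?_
    have := tr_nonneg h.nr hp.2
    nlinarith
  have h3 : ‖tau ξ X * tau ξ (p * R)‖ ≤ m * tr ξ p := by
    rw [norm_mul]
    exact mul_le_mul hm h2 (norm_nonneg _) ((norm_nonneg _).trans hm)
  calc ‖tau ξ (p * X * p * R)‖
      = ‖(tau ξ (p * X * p * R) - tau ξ X * tau ξ (p * R)) + tau ξ X * tau ξ (p * R)‖ := by
        congr 1; ring
    _ ≤ η * tr ξ p + m * tr ξ p := (norm_add_le _ _).trans (add_le_add h1 h3)
    _ = (m + η) * tr ξ p := by ring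

theorem Wv_diff_cons (g g' : Fin k → (H →L[ℂ] H)) (a : Fin k × Bool) (x : Wd k) :
    Wv g' (a :: x) - Wv g (a :: x) = (Lt g' a - Lt g a) * Wv g' x + Lt g a * (Wv g' x - Wv g x) := by
  simp only [Wv_cons, sub_mul, mul_sub]
  abel

theorem claimA (h : Trc M ξ) {g : Fin k → (H →L[ℂ] H)} (hg : ∀ i, Un M (g i)) {l : Fin k}
    {p : H →L[ℂ] H} (hp : Pj M p) {η m : ℝ} (hη : 0 ≤ η) (hm : 0 ≤ m) (x : Wd k) :
    ∀ (s : Wd k) (Z : H →L[ℂ] H), Z ∈ M → ‖Z‖ ≤ 1 → (s ≠ [] ∨ x.head? ≠ some (l, false)) →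
    (∀ u, u <+: s ++ x → u ≠ [] → Qz M ξ p η (Wv g u)) →
    (∀ u, u <+: s ++ x → u ≠ [] → (u ≠ s ++ x ∨ (s ++ x).getLast? = some (l, true)) →
      ‖tau ξ (Wv g u)‖ ≤ m) →
    ‖tau ξ (p * Wv g s * (Wv (md g l p) x - Wv g x) * Z)‖ ≤
      cnt l x * (2 * (m + η)) * tr ξ p := by
  have hpp : p * p = p := hp.2.isIdempotentElem
  have hps : Star.star p = p := hp.2.isSelfAdjoint
  have ht := tr_nonneg h.nr hp.2
  induction x with
  | nil =>
    intro s Z _ _ _ _ _
    simp [cnt, tau_zero]
  | cons a x ih =>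
    intro s Z hZ hZ1 hs hq hb
    have hassoc : s ++ [a] ++ x = s ++ (a :: x) := by simp
    have IH := ih (s ++ [a]) Z hZ hZ1 (Or.inl (by simp)) (by rw [hassoc]; exact hq)
      (by rw [hassoc]; exact hb)
    rw [Wv_append, Wv_singleton] at IH
    have hsplit : p * Wv g s * (Wv (md g l p) (a :: x) - Wv g (a :: x)) * Z =
        p * Wv g s * ((Lt (md g l p) a - Lt g a) * Wv (md g l p) x) * Z +
        p * (Wv g s * Lt g a) * (Wv (md g l p) x - Wv g x) * Z := by
      rw [Wv_diff_cons]
      simp only [mul_add, add_mul, mul_assoc]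
    rw [hsplit, tau_add h.nr]
    have hWx := Wv_un (md_un hg l hp) x
    by_cases ha : a.1 = l
    · -- the touched letter
      obtain ⟨i, b⟩ := a
      simp only at ha
      subst ha
      have hc : cnt i ((i, b) :: x) = 1 + cnt i x := by simp [cnt]
      have key : ‖tau ξ (p * Wv g s * ((Lt (md g i p) (i, b) - Lt g (i, b)) * Wv (md g i p) x) * Z)‖
          ≤ 2 * (m + η) * tr ξ p := by
        cases b with
        | true =>
          rw [Lt_md_pos]
          have e : p * Wv g s * (-((2 : ℂ) • (Lt g (i, true) * p)) * Wv (md g i p) x) * Z =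
              (-(2 : ℂ)) • (p * Wv g (s ++ [(i, true)]) * p * (Wv (md g i p) x * Z)) := by
            rw [Wv_append, Wv_singleton]
            simp only [neg_mul, mul_neg, smul_mul_assoc, mul_smul_comm, mul_assoc, neg_smul]
          rw [e, tau_smul, norm_mul]
          have hpre : s ++ [(i, true)] <+: s ++ ((i, true) :: x) := by
            refine ⟨x, by simp⟩
          have hQ := hq _ hpre (by simp)
          have hB : ‖tau ξ (Wv g (s ++ [(i, true)]))‖ ≤ m := by
            refine hb _ hpre (by simp) ?_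
            by_cases hx : x = []
            · right; subst hx; simp
            · left
              intro hcon
              apply hx
              have := congrArg List.length hcon
              simp at this
              exact this
          have := hQ.bound h hp (mul_mem hWx.1 hZ)
            ((norm_mul_le _ _).trans (by
              calc ‖Wv (md g i p) x‖ * ‖Z‖ ≤ 1 * 1 :=
                mul_le_mul hWx.norm_le hZ1 (norm_nonneg _) zero_le_one
                _ = 1 := one_mul 1)) hB
          have h2 : ‖(-(2 : ℂ))‖ = 2 := by simp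
          rw [h2]
          linarith
        | false =>
          rw [Lt_md_neg g i hps]
          have hsne : s ≠ [] := by
            rcases hs with hs | hs
            · exact hs
            · exact absurd (by simp) hs
          have e : p * Wv g s * (-((2 : ℂ) • (p * Lt g (i, false))) * Wv (md g i p) x) * Z =
              (-(2 : ℂ)) • (p * Wv g s * p * (Lt g (i, false) * Wv (md g i p) x * Z)) := by
            simp only [neg_mul, mul_neg, smul_mul_assoc, mul_smul_comm, mul_assoc, neg_smul]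
          rw [e, tau_smul, norm_mul]
          have hpre : s <+: s ++ ((i, false) :: x) := ⟨_, rfl⟩
          have hQ := hq _ hpre hsne
          have hB : ‖tau ξ (Wv g s)‖ ≤ m := by
            refine hb _ hpre hsne (Or.inl ?_)
            intro hcon
            have := congrArg List.length hcon
            simp at this
          have hL := Lt_un hg (i, false)
          have := hQ.bound h hp (mul_mem (mul_mem hL.1 hWx.1) hZ)
            ((norm_mul_le _ _).trans (by
              calc ‖Lt g (i, false) * Wv (md g i p) x‖ * ‖Z‖ ≤ 1 * 1 :=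
                mul_le_mul (hL.mul hWx).norm_le hZ1 (norm_nonneg _) zero_le_one
                _ = 1 := one_mul 1)) hB
          have h2 : ‖(-(2 : ℂ))‖ = 2 := by simp
          rw [h2]
          linarith
      rw [hc]
      push_cast
      calc _ ≤ 2 * (m + η) * tr ξ p + cnt i x * (2 * (m + η)) * tr ξ p :=
            (norm_add_le _ _).trans (add_le_add key IH)
        _ = _ := by ring
    · have hc : cnt l (a :: x) = cnt l x := by simp [cnt, ha]
      rw [hc, Lt_md_ne g p ha, sub_self]
      simpa [tau_zero] using IH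

end Crest.Agent.R95
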