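import Crest.Agent.R95.F1

/-!
# Row 95, part F: F2, claim B (a marked word `τ(W s (W' x - W x) b)`, `s ++ x = w` reduced)

`g' = md g l p`, `W = Wv g`, `W' = Wv g'`, `t = tr p`.  By induction on `x` (`Wv_diff_cons`):
a letter `(l, true)`: `-2 τ(p W' x' b W(s h))`, `= -2 τ(p W x' b W (s h)) + ` (`claimA` with `s := []`;
`w` reduced, so `x'` does not start with `(l, false)`); the first is quantized (`B1` with `R = 1`)
to `-2 t τ(W w b)`.  A letter `(l, false)`: `-2 τ(p W [h] W' x' b W s)`, `claimA` with `s := [h]`.
-/

set_option autoImplicit false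

namespace Crest.Agent.R95

open Crest.OpAlg
open scoped InnerProductSpace ComplexConjugate

variable {H : Type*} [NormedAddCommGroup H] [InnerProductSpace ℂ H] [CompleteSpace H]
variable {ξ : ℕ → H} {P M : VonNeumannAlgebra H} {k : ℕ}

theorem claimB (h : Trc M ξ) {g : Fin k → (H →L[ℂ] H)} (hg : ∀ i, Un M (g i)) {l : Fin k}
    {p : H →L[ℂ] H} (hp : Pj M p) {η m : ℝ} (hη : 0 ≤ η) (hm : 0 ≤ m) {w : Wd k}
    (hw : FreeGroup.IsReduced w) {b : H →L[ℂ] H} (hb : b ∈ M) (hb1 : ‖b‖ ≤ 1)
    (B1 : ∀ s x, s ++ x = w → Qz M ξ p η (Wv g x * b * Wv g s))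
    (B2 : ∀ u, u <:+: w → u ≠ [] → Qz M ξ p η (Wv g u))
    (B3 : ∀ u, u <:+: w → u ≠ [] →
      (u ≠ w ∨ (w.head? = some (l, false) ∧ w.getLast? = some (l, true))) →
      ‖tau ξ (Wv g u)‖ ≤ m) (x : Wd k) :
    ∀ s : Wd k, s ++ x = w →
      ‖tau ξ (Wv g s * (Wv (md g l p) x - Wv g x) * b) +
        ((2 * cnt l x * tr ξ p : ℝ) : ℂ) * tau ξ (Wv g w * b)‖ ≤
      cnt l x * (2 * η + 4 * cnt l w * (m + η)) * tr ξ p := by
  have hpp : p * p = p := hp.2.isIdempotentElem
  have hps : Star.star p = p := hp.2.isSelfAdjoint
  have ht := tr_nonneg h.nr hp.2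
  have htau : tau ξ p = ((tr ξ p : ℝ) : ℂ) := tau_pj hp.2
  -- quantized main term
  have hmain : ∀ s x, s ++ x = w →
      ‖tau ξ (p * (Wv g x * b * Wv g s)) - (tr ξ p : ℂ) * tau ξ (Wv g w * b)‖ ≤ η * tr ξ p := by
    intro s x hsx
    have hY : Wv g x * b * Wv g s ∈ M := mul_mem (mul_mem (Wv_un hg x).1 hb) (Wv_un hg s).1
    have h1 := B1 s x hsx 1 (one_mem M) (Un.one M).norm_le
    have e1 : tau ξ (p * (Wv g x * b * Wv g s) * p * 1) = tau ξ (p * (Wv g x * b * Wv g s)) := by
      rw [mul_one, tau_comm h (mul_mem hp.1 hY) hp.1, ← mul_assoc, hpp]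
    have e2 : tau ξ (Wv g x * b * Wv g s) = tau ξ (Wv g w * b) := by
      rw [tau_comm h (mul_mem (Wv_un hg x).1 hb) (Wv_un hg s).1, ← mul_assoc, ← Wv_append, hsx]
    rw [e1, e2, mul_one, htau] at h1
    rw [mul_comm ((tr ξ p : ℝ) : ℂ)]
    exact h1
  induction x with
  | nil =>
    intro s _
    simp [cnt, tau_zero]
  | cons a x ih =>
    intro s hsx
    have hsx' : (s ++ [a]) ++ x = w := by simpa using hsx
    have IH := ih (s ++ [a]) hsx'
    rw [Wv_append, Wv_singleton] at IH
    have hsplit : Wv g s * (Wv (md g l p) (a :: x) - Wv g (a :: x)) * b =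
        Wv g s * ((Lt (md g l p) a - Lt g a) * Wv (md g l p) x) * b +
        (Wv g s * Lt g a) * (Wv (md g l p) x - Wv g x) * b := by
      rw [Wv_diff_cons]
      simp only [mul_add, add_mul, mul_assoc]
    rw [hsplit, tau_add h.nr]
    have hWx := Wv_un (md_un hg l hp) x
    have hWgx := Wv_un hg x
    have hWs := Wv_un hg s
    have hxw : cnt l x ≤ cnt l w := by
      rw [← hsx']
      clear IH ih hsx hsx' hsplit hmain B1 B2 B3 hw
      induction (s ++ [a]) with
      | nil => simp
      | cons c s ih => simp only [List.cons_append, cnt]; omega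
    by_cases ha : a.1 = l
    · obtain ⟨i, c⟩ := a
      simp only at ha
      subst ha
      have hc : cnt i ((i, c) :: x) = 1 + cnt i x := by simp [cnt]
      have key : ‖tau ξ (Wv g s * ((Lt (md g i p) (i, c) - Lt g (i, c)) * Wv (md g i p) x) * b) +
          ((2 * tr ξ p : ℝ) : ℂ) * tau ξ (Wv g w * b)‖ ≤
          (2 * η + 4 * cnt i w * (m + η)) * tr ξ p := by
        have hcnt : (cnt i x : ℝ) ≤ cnt i w := by exact_mod_cast hxw
        have hfin : 2 * (η * tr ξ p) + 2 * (cnt i x * (2 * (m + η)) * tr ξ p) ≤
            (2 * η + 4 * cnt i w * (m + η)) * tr ξ p := by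
          have : (cnt i x : ℝ) * ((m + η) * tr ξ p) ≤ cnt i w * ((m + η) * tr ξ p) :=
            mul_le_mul_of_nonneg_right hcnt (by positivity)
          nlinarith
        cases c with
        | true =>
          rw [Lt_md_pos]
          have hZ : b * Wv g (s ++ [(i, true)]) ∈ M := mul_mem hb (Wv_un hg _).1
          have hZ1 : ‖b * Wv g (s ++ [(i, true)])‖ ≤ 1 :=
            (norm_mul_le _ _).trans (by
              calc ‖b‖ * ‖Wv g (s ++ [(i, true)])‖ ≤ 1 * 1 :=
                mul_le_mul hb1 (Wv_un hg _).norm_le (norm_nonneg _) zero_le_one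
                _ = 1 := one_mul 1)
          have e : tau ξ (Wv g s * (-((2 : ℂ) • (Lt g (i, true) * p)) * Wv (md g i p) x) * b) =
              -2 * (tau ξ (p * (Wv g x * b * Wv g (s ++ [(i, true)]))) +
                tau ξ (p * Wv g [] * (Wv (md g i p) x - Wv g x) *
                  (b * Wv g (s ++ [(i, true)])))) := by
            rw [← tau_add h.nr]
            have e1 : Wv g s * (-((2 : ℂ) • (Lt g (i, true) * p)) * Wv (md g i p) x) * b =
                (-(2 : ℂ)) • (Wv g (s ++ [(i, true)]) * (p * (Wv (md g i p) x * b))) := by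
              rw [Wv_append, Wv_singleton]
              simp only [neg_mul, mul_neg, smul_mul_assoc, mul_smul_comm, mul_assoc, neg_smul]
            rw [e1, tau_smul, tau_comm h (Wv_un hg _).1 (mul_mem hp.1 (mul_mem hWx.1 hb))]
            congr 2
            simp only [Wv_nil, mul_one, mul_sub, sub_mul, mul_assoc]
            abel
          rw [e]
          have hM := hmain (s ++ [(i, true)]) x hsx'
          have hA := claimA h hg hp hη hm x [] (b * Wv g (s ++ [(i, true)])) hZ hZ1
            (Or.inr (by
              intro hx0
              have hx1 : ∃ y, x = (i, false) :: y := by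
                cases x with
                | nil => simp at hx0
                | cons z y =>
                  simp only [List.head?_cons, Option.some.injEq] at hx0
                  exact ⟨y, by rw [hx0]⟩
              obtain ⟨y, rfl⟩ := hx1
              have hred : FreeGroup.IsReduced ((i, true) :: (i, false) :: y) :=
                hw.infix ⟨s, [], by simp [← hsx]⟩
              have := (FreeGroup.isReduced_cons_cons.1 hred).1 rfl
              simp at this))
            (fun u hu hu0 => B2 u (by
              obtain ⟨z, hz⟩ := hu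
              simp only [List.nil_append] at hz
              exact ⟨s ++ [(i, true)], z, by rw [← hsx', ← hz]; simp⟩) hu0)
            (fun u hu hu0 _ => B3 u (by
              obtain ⟨z, hz⟩ := hu
              simp only [List.nil_append] at hz
              exact ⟨s ++ [(i, true)], z, by rw [← hsx', ← hz]; simp⟩) hu0 (Or.inl (by
                intro hcon
                obtain ⟨z, hz⟩ := hu
                have h1 := congrArg List.length hz
                have h2 := congrArg List.length hsx'
                have h3 := congrArg List.length hcon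
                simp at h1 h2 h3
                omega)))
          have e3 : -2 * (tau ξ (p * (Wv g x * b * Wv g (s ++ [(i, true)]))) +
                tau ξ (p * Wv g [] * (Wv (md g i p) x - Wv g x) *
                  (b * Wv g (s ++ [(i, true)])))) +
                ((2 * tr ξ p : ℝ) : ℂ) * tau ξ (Wv g w * b) =
              (-2) * (tau ξ (p * (Wv g x * b * Wv g (s ++ [(i, true)]))) -
                (tr ξ p : ℂ) * tau ξ (Wv g w * b)) +
              (-2) * tau ξ (p * Wv g [] * (Wv (md g i p) x - Wv g x) *
                  (b * Wv g (s ++ [(i, true)]))) := by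
            push_cast
            ring
          rw [e3]
          refine (norm_add_le _ _).trans ?_
          rw [norm_mul, norm_mul]
          have h2 : ‖(-2 : ℂ)‖ = 2 := by simp
          rw [h2]
          refine le_trans ?_ hfin
          linarith
        | false =>
          rw [Lt_md_neg g i hps]
          have hZ : b * Wv g s ∈ M := mul_mem hb (Wv_un hg _).1
          have hZ1 : ‖b * Wv g s‖ ≤ 1 :=
            (norm_mul_le _ _).trans (by
              calc ‖b‖ * ‖Wv g s‖ ≤ 1 * 1 :=
                mul_le_mul hb1 (Wv_un hg _).norm_le (norm_nonneg _) zero_le_one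
                _ = 1 := one_mul 1)
          have hL := Lt_un hg (i, false)
          have e : tau ξ (Wv g s * (-((2 : ℂ) • (p * Lt g (i, false))) * Wv (md g i p) x) * b) =
              -2 * (tau ξ (p * (Wv g ((i, false) :: x) * b * Wv g s)) +
                tau ξ (p * Wv g [(i, false)] * (Wv (md g i p) x - Wv g x) * (b * Wv g s))) := by
            rw [← tau_add h.nr]
            have e1 : Wv g s * (-((2 : ℂ) • (p * Lt g (i, false))) * Wv (md g i p) x) * b =
                (-(2 : ℂ)) • (Wv g s * (p * (Lt g (i, false) * (Wv (md g i p) x * b)))) := by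
              simp only [neg_mul, mul_neg, smul_mul_assoc, mul_smul_comm, mul_assoc, neg_smul]
            rw [e1, tau_smul, tau_comm h (Wv_un hg _).1
              (mul_mem hp.1 (mul_mem hL.1 (mul_mem hWx.1 hb)))]
            congr 2
            simp only [Wv_cons, Wv_nil, mul_one, mul_sub, sub_mul, mul_assoc]
            abel
          rw [e]
          have hM := hmain s ((i, false) :: x) hsx
          have hA := claimA h hg hp hη hm x [(i, false)] (b * Wv g s) hZ hZ1
            (Or.inl (by simp))
            (fun u hu hu0 => B2 u (by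
              obtain ⟨z, hz⟩ := hu
              exact ⟨s, z, by rw [← hsx, List.append_assoc, hz]; simp⟩) hu0)
            (fun u hu hu0 hu1 => B3 u (by
              obtain ⟨z, hz⟩ := hu
              exact ⟨s, z, by rw [← hsx, List.append_assoc, hz]; simp⟩) hu0 (by
                by_cases huw : u = w
                · right
                  obtain ⟨z, hz⟩ := hu
                  have h1 := congrArg List.length hz
                  have h2 := congrArg List.length hsx
                  have h3 := congrArg List.length huw
                  simp at h1 h2 h3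
                  have hs0 : s = [] := List.length_eq_zero_iff.1 (by omega)
                  have hz0 : z = [] := List.length_eq_zero_iff.1 (by omega)
                  subst hs0
                  subst hz0
                  simp only [List.nil_append] at hsx
                  simp only [List.append_nil, List.singleton_append] at hz
                  rcases hu1 with hu1 | hu1
                  · exact absurd (by simpa using hz) hu1
                  · refine ⟨by rw [← hsx]; simp, ?_⟩
                    rw [← hsx]
                    simpa using hu1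
                · exact Or.inl huw))
          have e3 : -2 * (tau ξ (p * (Wv g ((i, false) :: x) * b * Wv g s)) +
                tau ξ (p * Wv g [(i, false)] * (Wv (md g i p) x - Wv g x) * (b * Wv g s))) +
                ((2 * tr ξ p : ℝ) : ℂ) * tau ξ (Wv g w * b) =
              (-2) * (tau ξ (p * (Wv g ((i, false) :: x) * b * Wv g s)) -
                (tr ξ p : ℂ) * tau ξ (Wv g w * b)) +
              (-2) * tau ξ (p * Wv g [(i, false)] * (Wv (md g i p) x - Wv g x) *
                (b * Wv g s)) := by
            push_cast
            ring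
          rw [e3]
          refine (norm_add_le _ _).trans ?_
          rw [norm_mul, norm_mul]
          have h2 : ‖(-2 : ℂ)‖ = 2 := by simp
          rw [h2]
          refine le_trans ?_ hfin
          linarith
      rw [hc]
      have e4 : tau ξ (Wv g s * ((Lt (md g i p) (i, c) - Lt g (i, c)) * Wv (md g i p) x) * b) +
          tau ξ (Wv g s * Lt g (i, c) * (Wv (md g i p) x - Wv g x) * b) +
          ((2 * ((1 + cnt i x : ℕ) : ℝ) * tr ξ p : ℝ) : ℂ) * tau ξ (Wv g w * b) =
          (tau ξ (Wv g s * ((Lt (md g i p) (i, c) - Lt g (i, c)) * Wv (md g i p) x) * b) +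
            ((2 * tr ξ p : ℝ) : ℂ) * tau ξ (Wv g w * b)) +
          (tau ξ (Wv g s * Lt g (i, c) * (Wv (md g i p) x - Wv g x) * b) +
            ((2 * cnt i x * tr ξ p : ℝ) : ℂ) * tau ξ (Wv g w * b)) := by
        push_cast
        ring
      rw [e4]
      refine (norm_add_le _ _).trans ((add_le_add key IH).trans (le_of_eq ?_))
      push_cast
      ring
    · have hc : cnt l (a :: x) = cnt l x := by simp [cnt, ha]
      rw [hc, Lt_md_ne g p ha, sub_self]
      simpa [tau_zero] using IH

/-- one word, one test element -/
theorem word_step (h : Trc M ξ) {g : Fin k → (H →L[ℂ] H)} (hg : ∀ i, Un M (g i)) {l : Fin k}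
    {p : H →L[ℂ] H} (hp : Pj M p) {η m : ℝ} (hη : 0 ≤ η) (hm : 0 ≤ m) {w : Wd k}
    (hw : FreeGroup.IsReduced w) {b : H →L[ℂ] H} (hb : b ∈ M) (hb1 : ‖b‖ ≤ 1)
    (B1 : ∀ s x, s ++ x = w → Qz M ξ p η (Wv g x * b * Wv g s))
    (B2 : ∀ u, u <:+: w → u ≠ [] → Qz M ξ p η (Wv g u))
    (B3 : ∀ u, u <:+: w → u ≠ [] → u.length < w.length → ‖tau ξ (Wv g u)‖ ≤ m)
    (ht : 2 * cnt l w * tr ξ p ≤ 1) :
    ‖tau ξ (Wv (md g l p) w * b)‖ ≤ (1 - 2 * cnt l w * tr ξ p) * ‖tau ξ (Wv g w * b)‖ +
      cnt l w * (2 * η + 4 * cnt l w * (m + η)) * tr ξ p := by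
  have B3' : ∀ u, u <:+: w → u ≠ [] →
      (u ≠ w ∨ (w.head? = some (l, false) ∧ w.getLast? = some (l, true))) →
      ‖tau ξ (Wv g u)‖ ≤ m := by
    intro u hu hu0 hu1
    by_cases huw : u = w
    · subst huw
      rcases hu1 with hu1 | ⟨hh, hl⟩
      · exact absurd rfl hu1
      · cases u with
        | nil => exact absurd rfl hu0
        | cons a y =>
          simp only [List.head?_cons, Option.some.injEq] at hh
          subst hh
          rcases List.eq_nil_or_concat' y with rfl | ⟨z, c, rfl⟩
          · simp at hl
          · have hc : c = (l, true) := by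
              have : ((l, false) :: (z ++ [c])).getLast? = some c := by
                rw [← List.cons_append, List.getLast?_append]
                simp
              rw [this] at hl
              exact Option.some.inj hl
            subst hc
            have hz0 : z ≠ [] := by
              rintro rfl
              have := (FreeGroup.isReduced_cons_cons.1 hw).1 rfl
              simp at this
            have hz : z <:+: (l, false) :: (z ++ [(l, true)]) := ⟨[(l, false)], [(l, true)], by simp⟩
            have hlen : z.length < ((l, false) :: (z ++ [(l, true)])).length := by simp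
            have := B3 z hz hz0 hlen
            have e : tau ξ (Wv g ((l, false) :: (z ++ [(l, true)]))) = tau ξ (Wv g z) := by
              rw [Wv_cons, Wv_append, Wv_singleton,
                tau_comm h (Lt_un hg _).1 (mul_mem (Wv_un hg z).1 (Lt_un hg _).1), mul_assoc]
              have : Lt g (l, true) * Lt g (l, false) = 1 := by
                simp only [Lt]
                exact (Unitary.mem_iff.1 (hg l).2).2
              rw [this, mul_one]
            rw [e]
            exact this
    · have hlen : u.length < w.length :=
        lt_of_le_of_ne hu.length_le (fun h' => huw (hu.eq_of_length h'))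
      exact B3 u hu hu0 hlen
  have hcl := claimB h hg hp hη hm hw hb hb1 B1 B2 B3' w [] (by simp)
  simp only [Wv_nil, one_mul] at hcl
  have ht0 := tr_nonneg h.nr hp.2
  set C : ℝ := cnt l w * (2 * η + 4 * cnt l w * (m + η)) * tr ξ p with hC
  set a : ℝ := 2 * cnt l w * tr ξ p with ha
  have ha0 : 0 ≤ a := by positivity
  have e : tau ξ (Wv (md g l p) w * b) =
      (tau ξ ((Wv (md g l p) w - Wv g w) * b) + (a : ℂ) * tau ξ (Wv g w * b)) +
        ((1 - a : ℝ) : ℂ) * tau ξ (Wv g w * b) := by
    rw [sub_mul, tau_sub h.nr]
    push_cast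
    ring
  rw [e]
  refine (norm_add_le _ _).trans ?_
  rw [norm_mul, Complex.norm_real, Real.norm_of_nonneg (by linarith : 0 ≤ 1 - a)]
  linarith

end Crest.Agent.R95
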