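import Crest.Agent.R95.F2

/-!
# Row 95, part F: F3, the potential

`RW k L`: reduced nonempty words of length `≤ L`; `Phi = ∑_w ω^|w| ∑_{b ∈ B} ‖τ(W w b)‖`;
`Phl` the same with the weight `cnt l w`.

PIECE F3A `phi_md_le`: sum `word_step` over `w ∈ RW k L`, `b ∈ B`, with `m = Phi / ω^(|w|-1)`:
a nonempty infix `u` of `w` with `|u| < |w|` is in `RW k L` (`IsReduced.infix`) and `1 ∈ B`, so
`ω^|u| ‖τ(W u)‖ ≤ Phi`, `‖τ(W u)‖ ≤ Phi / ω^|u| ≤ m`; `ω^|w| m = ω Phi`; `cnt l w ≤ |w| ≤ L`.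
`B1, B2` from `hQ` (`b = 1`, `s = []` for `B2`).

PIECE F3B `exists_phl`: `∑_l cnt l w = |w| ≥ 1`.
-/

set_option autoImplicit false

namespace Crest.Agent.R95

open Crest.OpAlg
open scoped InnerProductSpace ComplexConjugate

variable {H : Type*} [NormedAddCommGroup H] [InnerProductSpace ℂ H] [CompleteSpace H]
variable {ξ : ℕ → H} {P M : VonNeumannAlgebra H} {k : ℕ}

open Classical in
/-- reduced nonempty words of length at most `L` -/
noncomputable def RW (k L : ℕ) : Finset (Wd k) :=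
  (List.finite_length_le (Fin k × Bool) L).toFinset.filter
    (fun w => w ≠ [] ∧ FreeGroup.IsReduced w)

theorem mem_RW {L : ℕ} {w : Wd k} :
    w ∈ RW k L ↔ w.length ≤ L ∧ w ≠ [] ∧ FreeGroup.IsReduced w := by
  simp [RW]

/-- the potential -/
noncomputable def Phi (ξ : ℕ → H) (ω : ℝ) (L : ℕ) (B : Finset (H →L[ℂ] H))
    (g : Fin k → (H →L[ℂ] H)) : ℝ :=
  ∑ w ∈ RW k L, ω ^ w.length * ∑ b ∈ B, ‖tau ξ (Wv g w * b)‖

/-- the part of the letter `l` -/
noncomputable def Phl (ξ : ℕ → H) (ω : ℝ) (L : ℕ) (B : Finset (H →L[ℂ] H))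
    (l : Fin k) (g : Fin k → (H →L[ℂ] H)) : ℝ :=
  ∑ w ∈ RW k L, ω ^ w.length * (cnt l w * ∑ b ∈ B, ‖tau ξ (Wv g w * b)‖)

theorem Phi_nonneg {ω : ℝ} (hω : 0 ≤ ω) (L : ℕ) (B : Finset (H →L[ℂ] H))
    (g : Fin k → (H →L[ℂ] H)) : 0 ≤ Phi ξ ω L B g := by
  unfold Phi
  positivity

theorem cnt_le_length (l : Fin k) (w : Wd k) : cnt l w ≤ w.length := by
  induction w with
  | nil => simp [cnt]
  | cons a w ih =>
    simp only [cnt, List.length_cons]
    split_ifs <;> omega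

theorem phi_md_le (h : Trc M ξ) {g : Fin k → (H →L[ℂ] H)} (hg : ∀ i, Un M (g i)) (l : Fin k)
    {p : H →L[ℂ] H} (hp : Pj M p) {η ω : ℝ} (hη : 0 ≤ η) (hω : 0 < ω) (hω1 : ω ≤ 1) {L : ℕ}
    {B : Finset (H →L[ℂ] H)} (hB1 : (1 : H →L[ℂ] H) ∈ B) (hB : ∀ b ∈ B, b ∈ M ∧ ‖b‖ ≤ 1)
    (hQ : ∀ s x : Wd k, s.length + x.length ≤ L → ∀ b ∈ B,
      Qz M ξ p η (Wv g x * b * Wv g s))
    (ht : 2 * L * tr ξ p ≤ 1) :
    Phi ξ ω L B (md g l p) ≤ Phi ξ ω L B g - 2 * tr ξ p * Phl ξ ω L B l g +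
      (RW k L).card * B.card * (6 * L ^ 2 * η + 4 * L ^ 2 * ω * Phi ξ ω L B g) * tr ξ p := by
  have htr : 0 ≤ tr ξ p := tr_nonneg h.nr hp.2
  have hPhi : 0 ≤ Phi ξ ω L B g := Phi_nonneg hω.le L B g
  set Φ := Phi ξ ω L B g with hΦ
  -- shorter words have small trace
  have hshort : ∀ u ∈ RW k L, ω ^ u.length * ‖tau ξ (Wv g u)‖ ≤ Φ := by
    intro u hu
    have h1 : ‖tau ξ (Wv g u)‖ ≤ ∑ b ∈ B, ‖tau ξ (Wv g u * b)‖ := by
      have := Finset.single_le_sum (f := fun b => ‖tau ξ (Wv g u * b)‖)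
        (fun _ _ => norm_nonneg _) hB1
      simpa using this
    have h2 : ω ^ u.length * ∑ b ∈ B, ‖tau ξ (Wv g u * b)‖ ≤ Φ := by
      rw [hΦ, Phi]
      exact Finset.single_le_sum (f := fun w => ω ^ w.length * ∑ b ∈ B, ‖tau ξ (Wv g w * b)‖)
        (fun w _ => by positivity) hu
    exact (mul_le_mul_of_nonneg_left h1 (by positivity)).trans h2
  have hword : ∀ w ∈ RW k L, ∀ b ∈ B,
      ω ^ w.length * ‖tau ξ (Wv (md g l p) w * b)‖ ≤
        ω ^ w.length * ‖tau ξ (Wv g w * b)‖ -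
          2 * tr ξ p * (ω ^ w.length * (cnt l w * ‖tau ξ (Wv g w * b)‖)) +
          (6 * L ^ 2 * η + 4 * L ^ 2 * ω * Φ) * tr ξ p := by
    intro w hw b hb
    obtain ⟨hwL, hw0, hwr⟩ := mem_RW.1 hw
    have hwl : 1 ≤ w.length := by
      have := List.length_pos_iff.2 hw0
      omega
    have hc : cnt l w ≤ L := (cnt_le_length l w).trans hwL
    have hcR : (cnt l w : ℝ) ≤ L := by exact_mod_cast hc
    have hc0 : (0 : ℝ) ≤ cnt l w := Nat.cast_nonneg _
    have hL1 : (1 : ℝ) ≤ L := by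
      have : 1 ≤ L := hwl.trans hwL
      exact_mod_cast this
    set m : ℝ := Φ / ω ^ (w.length - 1) with hm
    have hm0 : 0 ≤ m := by positivity
    have hωm : ω ^ w.length * m = ω * Φ := by
      have : ω ^ w.length = ω * ω ^ (w.length - 1) := by
        rw [← pow_succ']
        congr 1
        omega
      rw [this, hm]
      field_simp
    have hstep := word_step h hg (l := l) hp hη hm0 hwr (hB b hb).1 (hB b hb).2
      (fun s x hsx => hQ s x (by
        have := congrArg List.length hsx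
        rw [List.length_append] at this
        omega) b hb)
      (fun u hu hu0 => by
        have := hQ [] u (by
          have := hu.length_le
          simp only [List.length_nil]
          omega) 1 hB1
        simpa using this)
      (fun u hu hu0 hul => by
        have hur : FreeGroup.IsReduced u := hwr.infix hu
        have hmem : u ∈ RW k L := mem_RW.2 ⟨by omega, hu0, hur⟩
        have h1 := hshort u hmem
        have h2 : ‖tau ξ (Wv g u)‖ ≤ Φ / ω ^ u.length := by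
          rw [le_div_iff₀ (by positivity), mul_comm]
          exact h1
        refine h2.trans ?_
        rw [hm]
        refine div_le_div_of_nonneg_left hPhi (by positivity) ?_
        exact pow_le_pow_of_le_one hω.le hω1 (by omega))
      (by
        have : 2 * (cnt l w : ℝ) * tr ξ p ≤ 2 * L * tr ξ p := by gcongr
        exact this.trans ht)
    have hωw0 : 0 ≤ ω ^ w.length := by positivity
    have hωw1 : ω ^ w.length ≤ 1 := pow_le_one₀ hω.le hω1
    have hmul := mul_le_mul_of_nonneg_left hstep hωw0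
    refine hmul.trans ?_
    have hc2 : (cnt l w : ℝ) ^ 2 ≤ L ^ 2 := by gcongr
    have hcL2 : (cnt l w : ℝ) ≤ L ^ 2 := by nlinarith
    have e : ω ^ w.length * ((1 - 2 * cnt l w * tr ξ p) * ‖tau ξ (Wv g w * b)‖ +
        cnt l w * (2 * η + 4 * cnt l w * (m + η)) * tr ξ p) =
        ω ^ w.length * ‖tau ξ (Wv g w * b)‖ -
          2 * tr ξ p * (ω ^ w.length * (cnt l w * ‖tau ξ (Wv g w * b)‖)) +
          (ω ^ w.length * ((2 * cnt l w + 4 * (cnt l w : ℝ) ^ 2) * η) +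
            4 * (cnt l w : ℝ) ^ 2 * (ω ^ w.length * m)) * tr ξ p := by ring
    rw [e, hωm]
    have b1 : ω ^ w.length * ((2 * cnt l w + 4 * (cnt l w : ℝ) ^ 2) * η) ≤ 6 * L ^ 2 * η := by
      have h3 : (2 * cnt l w + 4 * (cnt l w : ℝ) ^ 2) ≤ 6 * L ^ 2 := by linarith
      calc ω ^ w.length * ((2 * cnt l w + 4 * (cnt l w : ℝ) ^ 2) * η)
          ≤ 1 * ((2 * cnt l w + 4 * (cnt l w : ℝ) ^ 2) * η) :=
            mul_le_mul_of_nonneg_right hωw1 (by positivity)
        _ ≤ 6 * L ^ 2 * η := by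
            rw [one_mul]
            exact mul_le_mul_of_nonneg_right h3 hη
    have b2 : 4 * (cnt l w : ℝ) ^ 2 * (ω * Φ) ≤ 4 * L ^ 2 * ω * Φ := by
      calc 4 * (cnt l w : ℝ) ^ 2 * (ω * Φ) ≤ 4 * (L : ℝ) ^ 2 * (ω * Φ) := by gcongr
        _ = _ := by ring
    have b3 := mul_le_mul_of_nonneg_right (add_le_add b1 b2) htr
    linarith
  -- sum up
  calc Phi ξ ω L B (md g l p)
      = ∑ w ∈ RW k L, ∑ b ∈ B, ω ^ w.length * ‖tau ξ (Wv (md g l p) w * b)‖ := by
        rw [Phi]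
        exact Finset.sum_congr rfl fun w _ => Finset.mul_sum _ _ _
    _ ≤ ∑ w ∈ RW k L, ∑ b ∈ B, (ω ^ w.length * ‖tau ξ (Wv g w * b)‖ -
          2 * tr ξ p * (ω ^ w.length * (cnt l w * ‖tau ξ (Wv g w * b)‖)) +
          (6 * L ^ 2 * η + 4 * L ^ 2 * ω * Φ) * tr ξ p) :=
        Finset.sum_le_sum fun w hw => Finset.sum_le_sum fun b hb => hword w hw b hb
    _ = Φ - 2 * tr ξ p * Phl ξ ω L B l g +
      (RW k L).card * B.card * (6 * L ^ 2 * η + 4 * L ^ 2 * ω * Φ) * tr ξ p := by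
        have e1 : Φ = ∑ w ∈ RW k L, ∑ b ∈ B, ω ^ w.length * ‖tau ξ (Wv g w * b)‖ := by
          rw [hΦ, Phi]
          exact Finset.sum_congr rfl fun w _ => Finset.mul_sum _ _ _
        have e2 : 2 * tr ξ p * Phl ξ ω L B l g = ∑ w ∈ RW k L, ∑ b ∈ B,
            2 * tr ξ p * (ω ^ w.length * (cnt l w * ‖tau ξ (Wv g w * b)‖)) := by
          rw [Phl, Finset.mul_sum]
          refine Finset.sum_congr rfl fun w _ => ?_
          rw [Finset.mul_sum, Finset.mul_sum, Finset.mul_sum]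
        simp only [Finset.sum_add_distrib, Finset.sum_sub_distrib, Finset.sum_const, nsmul_eq_mul]
        rw [← e1, ← e2]
        ring

theorem sum_cnt (w : Wd k) : ∑ l : Fin k, cnt l w = w.length := by
  induction w with
  | nil => simp [cnt]
  | cons a w ih =>
    simp only [cnt, List.length_cons]
    rw [Finset.sum_add_distrib, ih]
    simp
    omega

theorem exists_phl (hk : 0 < k) {ω : ℝ} (hω : 0 ≤ ω) (L : ℕ) (B : Finset (H →L[ℂ] H))
    (g : Fin k → (H →L[ℂ] H)) : ∃ l : Fin k, Phi ξ ω L B g ≤ k * Phl ξ ω L B l g := by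
  by_contra hcon
  push Not at hcon
  have hsum : Phi ξ ω L B g ≤ ∑ l : Fin k, Phl ξ ω L B l g := by
    simp only [Phl]
    rw [Finset.sum_comm, Phi]
    refine Finset.sum_le_sum fun w hw => ?_
    obtain ⟨-, hw0, -⟩ := mem_RW.1 hw
    rw [← Finset.mul_sum, ← Finset.sum_mul]
    have h1 : (1 : ℝ) ≤ ∑ l : Fin k, (cnt l w : ℝ) := by
      have h2 : ((∑ l : Fin k, cnt l w : ℕ) : ℝ) = (w.length : ℝ) := by rw [sum_cnt]
      push_cast at h2
      rw [h2]
      have : 1 ≤ w.length := List.length_pos_iff.2 hw0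
      exact_mod_cast this
    refine mul_le_mul_of_nonneg_left ?_ (by positivity)
    have h3 : 0 ≤ ∑ b ∈ B, ‖tau ξ (Wv g w * b)‖ := by positivity
    nlinarith
  have hlt : ∑ l : Fin k, (k : ℝ) * Phl ξ ω L B l g < ∑ _l : Fin k, Phi ξ ω L B g :=
    Finset.sum_lt_sum_of_nonempty ⟨⟨0, hk⟩, Finset.mem_univ _⟩ (fun l _ => hcon l)
  rw [← Finset.mul_sum, Finset.sum_const, Finset.card_univ, Fintype.card_fin, nsmul_eq_mul] at hlt
  have hkR : (0 : ℝ) < k := by exact_mod_cast hk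
  have := lt_of_mul_lt_mul_left hlt hkR.le
  linarith

end Crest.Agent.R95
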