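import Crest.Agent.R95.TrA

/-!
# Row 95, piece SGN: second moment over signs

Expand the square with the trace form `τ(x* y)`; for `i ≠ j`, `k ≠ l` the mean of
`ζ_i ζ_j ζ_k ζ_l` is `1` if `{i,j} = {k,l}` and `0` otherwise; cross terms `τ(x_{ij}* x_{ji})` by
Cauchy–Schwarz.
-/

set_option autoImplicit false

namespace Crest.Agent.R95

open Crest.OpAlg
open scoped InnerProductSpace ComplexConjugate Topology

variable {H : Type*} [NormedAddCommGroup H] [InnerProductSpace ℂ H] [CompleteSpace H]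
variable {ξ : ℕ → H} {P M : VonNeumannAlgebra H}

/-- the real sign -/
private def sg (b : Bool) : ℝ := if b then 1 else -1

private theorem sg_not (b : Bool) : sg (!b) = - sg b := by
  cases b <;> simp [sg]

private theorem sg_abs (b : Bool) : |sg b| = 1 := by
  cases b <;> simp [sg]

/-- flipping one coordinate -/
private theorem sum_flip {N : ℕ} (a : Fin N) (f : (Fin N → Bool) → ℝ)
    (hf : ∀ s, f (Function.update s a (!s a)) = - f s) : ∑ s, f s = 0 := by
  have hinv : Function.Involutive (fun s : Fin N → Bool => Function.update s a (!s a)) := by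
    intro s
    funext k
    by_cases hk : k = a
    · subst hk; simp
    · simp [Function.update_of_ne hk]
  have h1 : ∑ s, f (hinv.toPerm _ s) = ∑ s, f s := Equiv.sum_comp (hinv.toPerm _) f
  have h2 : ∑ s, f (hinv.toPerm _ s) = - ∑ s, f s := by
    rw [← Finset.sum_neg_distrib]
    exact Finset.sum_congr rfl fun s _ => hf s
  linarith

/-- the coefficient of the pair `p` -/
private def cf {N : ℕ} (p : Fin N × Fin N) (s : Fin N → Bool) : ℝ :=
  if p.1 = p.2 then 0 else sg (s p.1) * sg (s p.2)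

private theorem cf_abs {N : ℕ} (p : Fin N × Fin N) (s : Fin N → Bool) : |cf p s| ≤ 1 := by
  unfold cf
  split_ifs
  · simp
  · rw [abs_mul, sg_abs, sg_abs, one_mul]

private theorem cf_swap {N : ℕ} (p : Fin N × Fin N) (s : Fin N → Bool) :
    cf p.swap s = cf p s := by
  unfold cf
  by_cases h : p.1 = p.2
  · simp [h]
  · have h' : ¬ p.2 = p.1 := fun e => h e.symm
    simp [h, h', mul_comm]

private theorem cf_flip_fst {N : ℕ} (p : Fin N × Fin N) (s : Fin N → Bool) :
    cf p (Function.update s p.1 (!s p.1)) = - cf p s := by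
  unfold cf
  by_cases h : p.1 = p.2
  · simp [h]
  · have h' : p.2 ≠ p.1 := fun e => h e.symm
    rw [if_neg h, if_neg h, Function.update_self, Function.update_of_ne h', sg_not]
    ring

private theorem cf_flip_none {N : ℕ} (a : Fin N) (q : Fin N × Fin N) (h1 : q.1 ≠ a)
    (h2 : q.2 ≠ a) (s : Fin N → Bool) :
    cf q (Function.update s a (!s a)) = cf q s := by
  unfold cf
  rw [Function.update_of_ne h1, Function.update_of_ne h2]

/-- the sum over signs of a product of two coefficients vanishes off the diagonals -/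
private theorem cf_orth {N : ℕ} (p q : Fin N × Fin N) (h1 : q ≠ p) (h2 : q ≠ p.swap) :
    ∑ s, cf p s * cf q s = 0 := by
  by_cases hp : p.1 = p.2
  · exact Finset.sum_eq_zero fun s _ => by simp [cf, hp]
  by_cases hq : q.1 = q.2
  · exact Finset.sum_eq_zero fun s _ => by simp [cf, hq]
  have key : ∀ p : Fin N × Fin N, q.1 ≠ p.1 → q.2 ≠ p.1 → ∑ s, cf p s * cf q s = 0 := by
    intro p ha hb
    refine sum_flip p.1 _ fun s => ?_
    rw [cf_flip_fst, cf_flip_none _ _ ha hb, neg_mul]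
  by_cases ha : q.1 ≠ p.1 ∧ q.2 ≠ p.1
  · exact key p ha.1 ha.2
  by_cases hb : q.1 ≠ p.2 ∧ q.2 ≠ p.2
  · have := key p.swap hb.1 hb.2
    simpa [cf_swap] using this
  exfalso
  rw [not_and_or, not_not, not_not] at ha hb
  rcases ha with ha | ha <;> rcases hb with hb | hb
  · exact hp (ha.symm.trans hb)
  · exact h1 (Prod.ext ha hb)
  · exact h2 (Prod.ext hb ha)
  · exact hp (ha.symm.trans hb)

private theorem cf_sum_abs {N : ℕ} (p q : Fin N × Fin N) :
    |∑ s, cf p s * cf q s| ≤ 2 ^ N := by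
  refine (Finset.abs_sum_le_sum_abs _ _).trans ?_
  calc ∑ s : Fin N → Bool, |cf p s * cf q s| ≤ ∑ _s : Fin N → Bool, (1 : ℝ) := by
        refine Finset.sum_le_sum fun s _ => ?_
        rw [abs_mul]
        exact mul_le_one₀ (cf_abs p s) (abs_nonneg _) (cf_abs q s)
    _ = 2 ^ N := by simp

/-- the pointwise (Hilbert space) version -/
private theorem sign_var_vec {N : ℕ} (v : Fin N × Fin N → H) :
    ∑ s : Fin N → Bool, ‖∑ p, ((cf p s : ℝ) : ℂ) • v p‖ ^ 2 ≤ 2 ^ N * (2 * ∑ p, ‖v p‖ ^ 2) := by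
  have hexp : ∀ s : Fin N → Bool, ‖∑ p, ((cf p s : ℝ) : ℂ) • v p‖ ^ 2
      = ∑ p, ∑ q, cf p s * cf q s * (⟪v p, v q⟫_ℂ).re := by
    intro s
    rw [← inner_self_eq_norm_sq (𝕜 := ℂ), sum_inner]
    simp only [inner_sum, inner_smul_left, inner_smul_right, Complex.conj_ofReal]
    rw [map_sum]
    refine Finset.sum_congr rfl fun p _ => ?_
    rw [map_sum]
    refine Finset.sum_congr rfl fun q _ => ?_
    simp only [RCLike.re_eq_complex_re, Complex.re_ofReal_mul]
    ring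
  simp_rw [hexp]
  rw [Finset.sum_comm]
  have hswap : ∀ p, ∑ s : Fin N → Bool, ∑ q, cf p s * cf q s * (⟪v p, v q⟫_ℂ).re
      = ∑ q, (∑ s : Fin N → Bool, cf p s * cf q s) * (⟪v p, v q⟫_ℂ).re := by
    intro p
    rw [Finset.sum_comm]
    exact Finset.sum_congr rfl fun q _ => by rw [Finset.sum_mul]
  simp_rw [hswap]
  have hinner : ∀ p q, |(⟪v p, v q⟫_ℂ).re| ≤ (‖v p‖ ^ 2 + ‖v q‖ ^ 2) / 2 := by
    intro p q
    have h1 : |(⟪v p, v q⟫_ℂ).re| ≤ ‖v p‖ * ‖v q‖ :=
      (Complex.abs_re_le_norm _).trans (norm_inner_le_norm _ _)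
    nlinarith [sq_nonneg (‖v p‖ - ‖v q‖)]
  have hterm : ∀ p q, (∑ s : Fin N → Bool, cf p s * cf q s) * (⟪v p, v q⟫_ℂ).re
      ≤ (if q = p then 2 ^ N * ((‖v p‖ ^ 2 + ‖v q‖ ^ 2) / 2) else 0)
        + (if q = p.swap then 2 ^ N * ((‖v p‖ ^ 2 + ‖v q‖ ^ 2) / 2) else 0) := by
    intro p q
    have hb : (∑ s : Fin N → Bool, cf p s * cf q s) * (⟪v p, v q⟫_ℂ).re
        ≤ 2 ^ N * ((‖v p‖ ^ 2 + ‖v q‖ ^ 2) / 2) := by
      refine (le_abs_self _).trans ?_
      rw [abs_mul]
      exact mul_le_mul (cf_sum_abs p q) (hinner p q) (abs_nonneg _) (by positivity)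
    have hnn : (0 : ℝ) ≤ 2 ^ N * ((‖v p‖ ^ 2 + ‖v q‖ ^ 2) / 2) := by positivity
    by_cases h1 : q = p
    · rw [if_pos h1]
      refine hb.trans (le_add_of_nonneg_right ?_)
      split_ifs
      · exact hnn
      · exact le_refl 0
    · rw [if_neg h1, zero_add]
      by_cases h2 : q = p.swap
      · rw [if_pos h2]; exact hb
      · rw [if_neg h2, cf_orth p q h1 h2, zero_mul]
  refine (Finset.sum_le_sum fun p _ => Finset.sum_le_sum fun q _ => hterm p q).trans ?_
  have hsw : ∑ p : Fin N × Fin N, ‖v p.swap‖ ^ 2 = ∑ p : Fin N × Fin N, ‖v p‖ ^ 2 :=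
    Equiv.sum_comp (Equiv.prodComm (Fin N) (Fin N)) (fun p => ‖v p‖ ^ 2)
  have hfin : ∑ p : Fin N × Fin N, ∑ q : Fin N × Fin N,
      ((if q = p then 2 ^ N * ((‖v p‖ ^ 2 + ‖v q‖ ^ 2) / 2) else 0)
        + (if q = p.swap then 2 ^ N * ((‖v p‖ ^ 2 + ‖v q‖ ^ 2) / 2) else 0))
      = 2 ^ N * (2 * ∑ p, ‖v p‖ ^ 2) := by
    simp only [Finset.sum_add_distrib, Finset.sum_ite_eq', Finset.mem_univ, if_true]
    rw [← Finset.mul_sum, ← Finset.mul_sum, ← Finset.sum_div, ← Finset.sum_div,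
      Finset.sum_add_distrib, Finset.sum_add_distrib, hsw]
    ring
  exact hfin.le

/-- sign averaging: for vectors `x i j` (here operators) with `i ≠ j`, the mean over signs of
`‖∑_{i ≠ j} ζ_i ζ_j x_{ij}‖₂²` is at most `2 ∑ ‖x_{ij}‖₂²`.  Stated as a sum over all sign vectors. -/
theorem sign_var (h : Nr ξ) (N : ℕ) (x : Fin N → Fin N → (H →L[ℂ] H)) :
    ∑ s : Fin N → Bool, n2 ξ (∑ i, ∑ j, if i = j then 0 else
        ((if s i then (1 : ℂ) else -1) * (if s j then (1 : ℂ) else -1)) • x i j) ^ 2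
      ≤ 2 ^ N * (2 * ∑ i, ∑ j, n2 ξ (x i j) ^ 2) := by
  have hop : ∀ (s : Fin N → Bool) (n : ℕ), (∑ i, ∑ j, if i = j then 0 else
        ((if s i then (1 : ℂ) else -1) * (if s j then (1 : ℂ) else -1)) • x i j) (ξ n)
      = ∑ p : Fin N × Fin N, ((cf p s : ℝ) : ℂ) • x p.1 p.2 (ξ n) := by
    intro s n
    rw [Fintype.sum_prod_type, ContinuousLinearMap.sum_apply]
    refine Finset.sum_congr rfl fun i _ => ?_
    rw [ContinuousLinearMap.sum_apply]
    refine Finset.sum_congr rfl fun j _ => ?_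
    by_cases hij : i = j
    · simp [cf, hij]
    · rw [if_neg hij, ContinuousLinearMap.smul_apply]
      congr 1
      simp only [cf, if_neg hij, sg]
      cases s i <;> cases s j <;> simp
  have h2 : ∀ s : Fin N → Bool, n2 ξ (∑ i, ∑ j, if i = j then 0 else
        ((if s i then (1 : ℂ) else -1) * (if s j then (1 : ℂ) else -1)) • x i j) ^ 2
      = ∑' n, ‖∑ p : Fin N × Fin N, ((cf p s : ℝ) : ℂ) • x p.1 p.2 (ξ n)‖ ^ 2 := by
    intro s
    rw [n2_sq']
    exact tsum_congr fun n => by rw [hop s n]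
  have hsum : ∀ s : Fin N → Bool,
      Summable fun n => ‖∑ p : Fin N × Fin N, ((cf p s : ℝ) : ℂ) • x p.1 p.2 (ξ n)‖ ^ 2 := by
    intro s
    have := summable_n2 h (∑ i, ∑ j, if i = j then 0 else
        ((if s i then (1 : ℂ) else -1) * (if s j then (1 : ℂ) else -1)) • x i j)
    exact this.congr fun n => by rw [hop s n]
  have hsx : ∀ p : Fin N × Fin N, Summable fun n => ‖x p.1 p.2 (ξ n)‖ ^ 2 :=
    fun p => summable_n2 h (x p.1 p.2)
  simp_rw [h2]
  rw [← Summable.tsum_finsetSum fun s _ => hsum s]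
  have hR : 2 ^ N * (2 * ∑ i, ∑ j, n2 ξ (x i j) ^ 2)
      = ∑' n, 2 ^ N * (2 * ∑ p : Fin N × Fin N, ‖x p.1 p.2 (ξ n)‖ ^ 2) := by
    rw [tsum_mul_left, tsum_mul_left, Summable.tsum_finsetSum fun p _ => hsx p,
      Fintype.sum_prod_type]
    simp_rw [n2_sq']
  rw [hR]
  refine Summable.tsum_le_tsum (fun n => sign_var_vec fun p => x p.1 p.2 (ξ n)) ?_ ?_
  · exact summable_sum fun s _ => hsum s
  · exact ((summable_sum fun p _ => hsx p).mul_left _).mul_left _

end Crest.Agent.R95
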