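import Crest.Agent.R95.L3e
import Crest.Agent.R95.Sgn

/-!
# Row 95, piece LQ: local quantization inside a prescribed projection, with prescribed scalar

`e ∈ P` nonzero projection, `F ⊆ M` finite, `ε > 0`: there is a nonzero projection `q ≤ e` in `P`,
`tr q ≤ ε`, with `n2 (q b q - lam q) ≤ ε n2 q`, `lam = τ(e b)/τ(e)`, for all `b ∈ F`.
Proof.  `l3e` with a small `ε'` and a large `N`; `matrix_units` `E` with diagonal `q_i`.  For
signs `ζ ∈ {±1}^N` put `v = N^{-1/2} ∑_i ζ_i E_{i0}`, `g = E_{00}`: `v* v = g`,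
`q = v v* = (1/N) ∑ ζ_i ζ_j E_{ij}` a projection `≤ e` of trace `tr e / N`.
`q b q - lam q = v (v* b v - lam g) v*`, so its `n2` is `≤ n2 (v* b v - lam g)`.
`v* b v = (1/N) ∑_{i,j} ζ_i ζ_j E_{0i} b E_{j0}`.
Mean over signs: `A = (1/N) ∑_i E_{0i} b E_{i0}`; variance
`E ‖v* b v - A‖₂² ≤ (2/N²) ∑_{i ≠ j} n2 (E_{0i} b E_{j0})² ≤ (2/N²) n2 (e b e)² ≤ (2/N) ‖b‖² tr g`
(`E ζ_iζ_jζ_kζ_l ≠ 0` for `i ≠ j, k ≠ l` only if `{i,j} = {k,l}`; cross term by Cauchy–Schwarz;
`n2 (E_{0i} b E_{j0}) = n2 (q_i b q_j)`, `n2_entries_sq`).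
`A - lam g = (1/N) ∑ (E_{0i} b E_{i0} - lam_i g)` as `lam = (1/N) ∑ lam_i`; so
`n2 (A - lam g)² ≤ (1/N) ∑ n2 (q_i b q_i - lam_i q_i)² ≤ ε'/N = (ε'/tr e) tr g`.
Sum over `b ∈ F`, average over signs: some `ζ` is good for all `b`.  If you prefer, replace the
random signs by any exact design (e.g. average over all sign vectors `Fin N → Bool`).
The statement is over `Set.Finite` for convenience.
-/

set_option autoImplicit false

namespace Crest.Agent.R95

open Crest.OpAlg
open scoped InnerProductSpace ComplexConjugate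

variable {H : Type*} [NormedAddCommGroup H] [InnerProductSpace ℂ H] [CompleteSpace H]
variable {ξ : ℕ → H} {P M : VonNeumannAlgebra H}

theorem lq_smul_mem {x : H →L[ℂ] H} (hx : x ∈ M) (c : ℂ) : c • x ∈ M :=
  M.toStarSubalgebra.toSubalgebra.smul_mem hx c

theorem lq_star {N : ℕ} {e : H →L[ℂ] H} {E : Fin N → Fin N → (H →L[ℂ] H)} (hE : MU P e N E)
    (i0 : Fin N) (s : Fin N → Bool) :
    star (∑ i, (if s i then (1 : ℂ) else -1) • E i i0)
      = ∑ i, (if s i then (1 : ℂ) else -1) • E i0 i := by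
  rw [star_sum]
  refine Finset.sum_congr rfl fun i _ => ?_
  rw [star_smul, hE.star]
  congr 1
  split_ifs <;> simp

theorem lq_expand {N : ℕ} {e : H →L[ℂ] H} {E : Fin N → Fin N → (H →L[ℂ] H)} (hE : MU P e N E)
    (i0 : Fin N) (s : Fin N → Bool) (x : H →L[ℂ] H) :
    star (∑ i, (if s i then (1 : ℂ) else -1) • E i i0) * x *
        (∑ i, (if s i then (1 : ℂ) else -1) • E i i0)
    = (∑ i, ∑ j, if i = j then 0 else
        ((if s i then (1 : ℂ) else -1) * (if s j then (1 : ℂ) else -1)) • (E i0 i * x * E j i0))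
      + ∑ i, E i0 i * x * E i i0 := by
  rw [lq_star hE, Finset.sum_mul, Finset.sum_mul, ← Finset.sum_add_distrib]
  refine Finset.sum_congr rfl fun i _ => ?_
  rw [Finset.mul_sum]
  have h2 : ∀ j, (if s i then (1 : ℂ) else -1) • E i0 i * x *
      ((if s j then (1 : ℂ) else -1) • E j i0)
      = (if i = j then 0 else
        ((if s i then (1 : ℂ) else -1) * (if s j then (1 : ℂ) else -1)) • (E i0 i * x * E j i0))
        + (if i = j then E i0 i * x * E i i0 else 0) := by
    intro j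
    by_cases hij : i = j
    · subst hij
      rw [if_pos rfl, if_pos rfl, zero_add, smul_mul_assoc, smul_mul_assoc, mul_smul_comm,
        smul_smul]
      split_ifs <;> simp
    · rw [if_neg hij, if_neg hij, add_zero, smul_mul_assoc, smul_mul_assoc, mul_smul_comm,
        smul_smul]
  rw [Finset.sum_congr rfl fun j _ => h2 j, Finset.sum_add_distrib, Finset.sum_ite_eq]
  simp

theorem lq_one {N : ℕ} {e : H →L[ℂ] H} {E : Fin N → Fin N → (H →L[ℂ] H)} (hE : MU P e N E)
    (i0 : Fin N) (s : Fin N → Bool) :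
    star (∑ i, (if s i then (1 : ℂ) else -1) • E i i0) *
        (∑ i, (if s i then (1 : ℂ) else -1) • E i i0)
    = (N : ℂ) • E i0 i0 := by
  have h := lq_expand hE i0 s 1
  rw [mul_one] at h
  rw [h]
  have h1 : ∀ i : Fin N, E i0 i * 1 * E i i0 = E i0 i0 := by
    intro i
    rw [mul_one, hE.mul, if_pos rfl]
  have h2 : ∀ i j : Fin N, (if i = j then (0 : H →L[ℂ] H) else
        ((if s i then (1 : ℂ) else -1) * (if s j then (1 : ℂ) else -1)) •
          (E i0 i * 1 * E j i0)) = 0 := by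
    intro i j
    by_cases hij : i = j
    · rw [if_pos hij]
    · rw [if_neg hij, mul_one, hE.mul, if_neg hij, smul_zero]
  simp only [h1, h2, Finset.sum_const_zero, zero_add, Finset.sum_const, Finset.card_univ,
    Fintype.card_fin, Nat.cast_smul_eq_nsmul]

/-- `x` with `x* x ≤ ` a projection has norm at most one -/
theorem norm_le_one_of_star_mul {v g : H →L[ℂ] H} (hg : IsStarProjection g)
    (hv : star v * v = g) : ‖v‖ ≤ 1 := by
  have h1 : ‖v‖ * ‖v‖ ≤ 1 := by
    rw [← CStarRing.norm_star_mul_self, hv]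
    exact pj_norm_le hg
  nlinarith [norm_nonneg v]

theorem MU.norm_le {N : ℕ} {e : H →L[ℂ] H} {E : Fin N → Fin N → (H →L[ℂ] H)} (hE : MU P e N E)
    (i j : Fin N) : ‖E i j‖ ≤ 1 := by
  refine norm_le_one_of_star_mul (g := E j j) ⟨?_, ?_⟩ ?_
  · show E j j * E j j = E j j
    rw [hE.mul, if_pos rfl]
  · exact hE.star j j
  · rw [hE.star, hE.mul, if_pos rfl]

/-- the compression by matrix units does not increase the 2-norm -/
theorem lq_compress (h : Sit P M ξ) {N : ℕ} {e : H →L[ℂ] H}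
    {E : Fin N → Fin N → (H →L[ℂ] H)} (hE : MU P e N E) (i0 i j : Fin N) {x : H →L[ℂ] H}
    (hx : x ∈ M) :
    n2 ξ (E i0 i * x * E j i0) ≤ n2 ξ (E i i * x * E j j) := by
  have hm : ∀ i j, E i j ∈ M := fun i j => h.le (hE.mem i j)
  have h1 : E i0 i * x * E j i0 = E i0 i * ((E i i * x * E j j) * E j i0) := by
    have e1 : E i0 i = E i0 i * E i i := by rw [hE.mul, if_pos rfl]
    have e2 : E j i0 = E j j * E j i0 := by rw [hE.mul, if_pos rfl]
    conv_lhs => rw [e1, e2]
    simp only [mul_assoc]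
  have hm1 : E i i * x * E j j ∈ M := mul_mem (mul_mem (hm i i) hx) (hm j j)
  rw [h1]
  calc n2 ξ (E i0 i * ((E i i * x * E j j) * E j i0))
      ≤ ‖E i0 i‖ * n2 ξ ((E i i * x * E j j) * E j i0) := n2_mul_le h.trc.nr _ _
    _ ≤ 1 * n2 ξ ((E i i * x * E j j) * E j i0) :=
        mul_le_mul_of_nonneg_right (hE.norm_le _ _) (n2_nonneg _)
    _ = n2 ξ ((E i i * x * E j j) * E j i0) := one_mul _
    _ ≤ n2 ξ (E i i * x * E j j) * ‖E j i0‖ := n2_mul_le' h.trc hm1 (hm _ _)
    _ ≤ n2 ξ (E i i * x * E j j) * 1 :=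
        mul_le_mul_of_nonneg_left (hE.norm_le _ _) (n2_nonneg _)
    _ = _ := mul_one _

theorem lq (h : Sit P M ξ) {e : H →L[ℂ] H} (he : Pj P e) (he0 : e ≠ 0)
    (F : Set (H →L[ℂ] H)) (hFf : F.Finite) (hF : ∀ b ∈ F, b ∈ M) (ε : ℝ) (hε : 0 < ε) :
    ∃ q, Pj P q ∧ q ≠ 0 ∧ q * e = q ∧ tr ξ q ≤ ε ∧
      ∀ b ∈ F, n2 ξ (q * b * q - (tau ξ (e * b) / tau ξ e) • q) ≤ ε * n2 ξ q := by
  classical
  have nr := h.trc.nr
  have heM : Pj M e := ⟨h.le he.1, he.2⟩
  have ht0 : 0 < tr ξ e := tr_pos h.trc heM he0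
  have ht1 : tr ξ e ≤ 1 := tr_le_one nr he.2
  set t := tr ξ e with ht
  have hte : tau ξ e = (t : ℂ) := tau_pj he.2
  -- a norm bound
  obtain ⟨B, hB0, hB⟩ : ∃ B : ℝ, 0 ≤ B ∧ ∀ b ∈ hFf.toFinset, ‖b‖ ≤ B :=
    ⟨∑ b ∈ hFf.toFinset, ‖b‖, Finset.sum_nonneg fun _ _ => norm_nonneg _,
      fun b hb => Finset.single_le_sum (f := fun b : H →L[ℂ] H => ‖b‖)
        (fun _ _ => norm_nonneg _) hb⟩
  obtain ⟨N₁, hN₁, HN⟩ := l3e h he hFf.toFinset (fun b hb => hF b (hFf.mem_toFinset.1 hb))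
    (ε ^ 2 * t / 4) (by positivity)
  -- choice of `N`
  set K : ℝ := (hFf.toFinset.card : ℝ) with hK
  obtain ⟨N, hNN, hNε, hNK⟩ : ∃ N : ℕ, N₁ ≤ N ∧ 1 ≤ ε * N ∧ 8 * K * B ^ 2 ≤ ε ^ 2 * N := by
    refine ⟨max N₁ (max ⌈1 / ε⌉₊ ⌈8 * K * B ^ 2 / ε ^ 2⌉₊), le_max_left _ _, ?_, ?_⟩
    · have h1 : 1 / ε ≤ ((max N₁ (max ⌈1 / ε⌉₊ ⌈8 * K * B ^ 2 / ε ^ 2⌉₊) : ℕ) : ℝ) :=
        (Nat.le_ceil _).trans (by exact_mod_cast (le_max_left _ _).trans (le_max_right _ _))
      rw [div_le_iff₀ hε] at h1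
      linarith
    · have h1 : 8 * K * B ^ 2 / ε ^ 2
          ≤ ((max N₁ (max ⌈1 / ε⌉₊ ⌈8 * K * B ^ 2 / ε ^ 2⌉₊) : ℕ) : ℝ) :=
        (Nat.le_ceil _).trans (by exact_mod_cast (le_max_right _ _).trans (le_max_right _ _))
      rw [div_le_iff₀ (by positivity)] at h1
      linarith
  have hN0 : 0 < N := lt_of_lt_of_le (Nat.succ_le_iff.1 hN₁) hNN
  have hN0' : (0 : ℝ) < N := by exact_mod_cast hN0
  obtain ⟨q, hq, ho, htr, hsum, hdiag⟩ := HN N hNN
  obtain ⟨E, hE, hEq⟩ := matrix_units h.fac hq ho (fun i j => by rw [htr, htr])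
  rw [hsum] at hE
  have hqM : ∀ i, Pj M (q i) := fun i => ⟨h.le (hq i).1, (hq i).2⟩
  have hEM : ∀ i j, E i j ∈ M := fun i j => h.le (hE.mem i j)
  set i0 : Fin N := ⟨0, hN0⟩
  -- choice of the signs
  set R : (Fin N → Bool) → (H →L[ℂ] H) → (H →L[ℂ] H) := fun s b =>
    ∑ i, ∑ j, if i = j then 0 else
        ((if s i then (1 : ℂ) else -1) * (if s j then (1 : ℂ) else -1)) • (E i0 i * b * E j i0)
    with hR
  have hvar : ∀ b ∈ hFf.toFinset, ∑ s : Fin N → Bool, n2 ξ (R s b) ^ 2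
      ≤ 2 ^ N * (2 * (B ^ 2 * t)) := by
    intro b hb
    have hbM := hF b (hFf.mem_toFinset.1 hb)
    refine (sign_var nr N (fun i j => E i0 i * b * E j i0)).trans ?_
    have h1 : ∑ i, ∑ j, n2 ξ (E i0 i * b * E j i0) ^ 2 ≤ B ^ 2 * t := by
      calc ∑ i, ∑ j, n2 ξ (E i0 i * b * E j i0) ^ 2
          ≤ ∑ i, ∑ j, n2 ξ (q i * b * q j) ^ 2 := by
            refine Finset.sum_le_sum fun i _ => Finset.sum_le_sum fun j _ => ?_
            have := lq_compress h hE i0 i j hbM
            rw [hEq, hEq] at this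
            exact pow_le_pow_left₀ (n2_nonneg _) this 2
        _ = n2 ξ (e * b * e) ^ 2 := by rw [n2_entries_sq h.trc hqM ho hbM, hsum]
        _ ≤ (B * Real.sqrt t) ^ 2 := by
            refine pow_le_pow_left₀ (n2_nonneg _) ?_ 2
            refine (n2_mul_pj_le nr he.2 (e * b)).trans ?_
            refine mul_le_mul_of_nonneg_right ?_ (Real.sqrt_nonneg _)
            refine (norm_mul_le _ _).trans ?_
            calc ‖e‖ * ‖b‖ ≤ 1 * B :=
                  mul_le_mul (pj_norm_le he.2) (hB b hb) (norm_nonneg _) zero_le_one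
              _ = B := one_mul _
        _ = B ^ 2 * t := by rw [mul_pow, Real.sq_sqrt ht0.le]
    have h2 : (0 : ℝ) ≤ 2 ^ N := by positivity
    exact mul_le_mul_of_nonneg_left (mul_le_mul_of_nonneg_left h1 (by norm_num)) h2
  obtain ⟨s, hs⟩ : ∃ s : Fin N → Bool, ∑ b ∈ hFf.toFinset, n2 ξ (R s b) ^ 2
      ≤ K * (2 * (B ^ 2 * t)) := by
    by_contra hcon
    push Not at hcon
    have h1 : ∑ s : Fin N → Bool, ∑ b ∈ hFf.toFinset, n2 ξ (R s b) ^ 2
        ≤ K * (2 ^ N * (2 * (B ^ 2 * t))) := by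
      rw [Finset.sum_comm]
      refine (Finset.sum_le_sum hvar).trans ?_
      rw [Finset.sum_const, nsmul_eq_mul]
    have h2 : ∑ s : Fin N → Bool, K * (2 * (B ^ 2 * t))
        < ∑ s : Fin N → Bool, ∑ b ∈ hFf.toFinset, n2 ξ (R s b) ^ 2 := by
      refine Finset.sum_lt_sum_of_nonempty ⟨fun _ => true, Finset.mem_univ _⟩ fun s _ => hcon s
    rw [Finset.sum_const, Finset.card_univ, Fintype.card_fun, Fintype.card_bool,
      Fintype.card_fin, nsmul_eq_mul] at h2
    push_cast at h2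
    nlinarith
  -- the partial isometry
  set V : H →L[ℂ] H := ∑ i, (if s i then (1 : ℂ) else -1) • E i i0 with hV
  set c : ℂ := ((1 / Real.sqrt N : ℝ) : ℂ) with hc
  have hcc : c * c = ((1 / N : ℝ) : ℂ) := by
    rw [hc, ← Complex.ofReal_mul]
    congr 1
    rw [div_mul_div_comm, one_mul, Real.mul_self_sqrt hN0'.le]
  have hcs : star c = c := by rw [hc]; exact Complex.conj_ofReal _
  have hNc : ((1 / N : ℝ) : ℂ) * (N : ℂ) = 1 := by
    push_cast
    rw [one_div, inv_mul_cancel₀]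
    exact_mod_cast hN0.ne'
  set v : H →L[ℂ] H := c • V with hv
  have hVM : V ∈ M := by
    rw [hV]
    refine sum_mem fun i _ => ?_
    exact lq_smul_mem (hEM i i0) _
  have hVP : V ∈ P := by
    rw [hV]
    refine sum_mem fun i _ => ?_
    exact lq_smul_mem (hE.mem i i0) _
  have hvP : v ∈ P := lq_smul_mem hVP _
  have hvM : v ∈ M := lq_smul_mem hVM _
  have hsv : star v = c • star V := by rw [hv, star_smul, hcs]
  have hvv : star v * v = E i0 i0 := by
    rw [hsv, hv, smul_mul_assoc, mul_smul_comm, smul_smul, hcc, hV, lq_one hE i0 s, smul_smul,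
      hNc, one_smul]
  have hg : Pj P (E i0 i0) := by rw [hEq]; exact hq i0
  have hnv : ‖v‖ ≤ 1 := norm_le_one_of_star_mul hg.2 hvv
  have hnsv : ‖star v‖ ≤ 1 := by rw [norm_star]; exact hnv
  have hVg : V * E i0 i0 = V := by
    rw [hV, Finset.sum_mul]
    refine Finset.sum_congr rfl fun i _ => ?_
    rw [smul_mul_assoc, hE.mul, if_pos rfl]
  have hvg : v * E i0 i0 = v := by rw [hv, smul_mul_assoc, hVg]
  have hsVe : star V * e = star V := by
    rw [hV, lq_star hE, Finset.sum_mul]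
    refine Finset.sum_congr rfl fun i _ => ?_
    rw [smul_mul_assoc, ← hE.sum, Finset.mul_sum]
    congr 1
    rw [Finset.sum_congr rfl fun j _ => hE.mul i0 i j j]
    simp
  have hsve : star v * e = star v := by rw [hsv, smul_mul_assoc, hsVe]
  set p : H →L[ℂ] H := v * star v with hp
  have hpP : Pj P p := by
    refine ⟨mul_mem hvP (star_mem hvP), ?_, ?_⟩
    · show p * p = p
      calc v * star v * (v * star v) = v * (star v * v) * star v := by simp only [mul_assoc]
        _ = v * star v := by rw [hvv, hvg]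
    · show star p = p
      rw [hp, star_mul, star_star]
  have hptr : tr ξ p = t / N := by
    show (tau ξ (v * star v)).re = t / N
    rw [tau_comm h.trc hvM (star_mem hvM), hvv, hEq]
    exact htr i0
  have hpn : n2 ξ p ^ 2 = t / N := by rw [n2_pj_sq nr hpP.2, hptr]
  refine ⟨p, hpP, ?_, ?_, ?_, ?_⟩
  · intro h0
    have : tr ξ p = 0 := by
      rw [h0]
      show (tau ξ (0 : H →L[ℂ] H)).re = 0
      rw [tau_zero]; rfl
    rw [hptr] at this
    have : 0 < t / N := by positivity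
    linarith
  · rw [hp, mul_assoc, hsve]
  · rw [hptr, div_le_iff₀ hN0']
    linarith
  · intro b hb
    have hbF : b ∈ hFf.toFinset := hFf.mem_toFinset.2 hb
    have hbM := hF b hb
    set lam : ℂ := tau ξ (e * b) / tau ξ e with hlam
    set l : Fin N → ℂ := fun i => tau ξ (q i * b) / tau ξ (q i) with hl
    -- the scalars
    have hlsum : (N : ℂ) * lam = ∑ i, l i := by
      have h1 : ∀ i, l i = (N : ℂ) / (t : ℂ) * tau ξ (q i * b) := by
        intro i
        have h2 : tau ξ (q i) = ((t / N : ℝ) : ℂ) := by rw [tau_pj (hq i).2, htr]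
        show tau ξ (q i * b) / tau ξ (q i) = _
        rw [h2]
        push_cast
        have hN' : (N : ℂ) ≠ 0 := by exact_mod_cast hN0.ne'
        have ht' : (t : ℂ) ≠ 0 := by exact_mod_cast ht0.ne'
        field_simp
      rw [Finset.sum_congr rfl fun i _ => h1 i, ← Finset.mul_sum, ← tau_sum nr, ← Finset.sum_mul,
        hsum, hlam, hte]
      ring
    -- the compression
    have hcomp : star v * b * v - lam • E i0 i0
        = ((1 / N : ℝ) : ℂ) • (R s b) + ((1 / N : ℝ) : ℂ) •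
            (∑ i, (E i0 i * b * E i i0 - l i • E i0 i0)) := by
      have h1 : star v * b * v = (c * c) • (star V * b * V) := by
        rw [hsv, hv, smul_mul_assoc, smul_mul_assoc, mul_smul_comm, smul_smul]
      have h2 : lam • E i0 i0 = ((1 / N : ℝ) : ℂ) • ((∑ i, l i) • E i0 i0) := by
        rw [← hlsum, smul_smul, ← mul_assoc, hNc, one_mul]
      rw [h1, hcc, hV, lq_expand hE i0 s b, h2, Finset.sum_sub_distrib, Finset.sum_smul,
        smul_add, smul_sub, add_sub_assoc]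
    have hconj : p * b * p - lam • p = v * ((star v * b * v - lam • E i0 i0) * star v) := by
      have e1 : p * b * p = v * (star v * b * v) * star v := by
        rw [hp]; simp only [mul_assoc]
      have e2 : lam • p = v * (lam • E i0 i0) * star v := by
        rw [mul_smul_comm, smul_mul_assoc, hvg]
      rw [e1, e2, ← sub_mul, ← mul_sub, mul_assoc]
    have hxM : star v * b * v - lam • E i0 i0 ∈ M :=
      sub_mem (mul_mem (mul_mem (star_mem hvM) hbM) hvM) (lq_smul_mem (hEM _ _) _)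
    have hstep1 : n2 ξ (p * b * p - lam • p) ≤ n2 ξ (star v * b * v - lam • E i0 i0) := by
      rw [hconj]
      calc n2 ξ (v * ((star v * b * v - lam • E i0 i0) * star v))
          ≤ ‖v‖ * n2 ξ ((star v * b * v - lam • E i0 i0) * star v) := n2_mul_le nr _ _
        _ ≤ 1 * n2 ξ ((star v * b * v - lam • E i0 i0) * star v) :=
            mul_le_mul_of_nonneg_right hnv (n2_nonneg _)
        _ = n2 ξ ((star v * b * v - lam • E i0 i0) * star v) := one_mul _
        _ ≤ n2 ξ (star v * b * v - lam • E i0 i0) * ‖star v‖ :=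
            n2_mul_le' h.trc hxM (star_mem hvM)
        _ ≤ n2 ξ (star v * b * v - lam • E i0 i0) * 1 :=
            mul_le_mul_of_nonneg_left hnsv (n2_nonneg _)
        _ = _ := mul_one _
    -- the random part
    have hA : n2 ξ (R s b) ≤ (ε / 2) * Real.sqrt (t * N) := by
      have h1 : n2 ξ (R s b) ^ 2 ≤ ((ε / 2) * Real.sqrt (t * N)) ^ 2 := by
        have h2 : n2 ξ (R s b) ^ 2 ≤ ∑ b ∈ hFf.toFinset, n2 ξ (R s b) ^ 2 :=
          Finset.single_le_sum (f := fun b => n2 ξ (R s b) ^ 2) (fun _ _ => sq_nonneg _) hbF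
        rw [mul_pow, Real.sq_sqrt (by positivity)]
        have h3 : K * (2 * (B ^ 2 * t)) = 8 * K * B ^ 2 * (t / 4) := by ring
        have h4 : 8 * K * B ^ 2 * (t / 4) ≤ ε ^ 2 * N * (t / 4) :=
          mul_le_mul_of_nonneg_right hNK (by positivity)
        nlinarith
      exact (pow_le_pow_iff_left₀ (n2_nonneg _) (by positivity) two_ne_zero).1 h1
    -- the diagonal part
    have hD : n2 ξ (∑ i, (E i0 i * b * E i i0 - l i • E i0 i0)) ≤ (ε / 2) * Real.sqrt (t * N) := by
      have h1 : ∀ i, n2 ξ (E i0 i * b * E i i0 - l i • E i0 i0)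
          ≤ n2 ξ (q i * b * q i - l i • q i) := by
        intro i
        have h2 : E i0 i * b * E i i0 - l i • E i0 i0
            = E i0 i * ((b - l i • (1 : H →L[ℂ] H))) * E i i0 := by
          rw [mul_sub, sub_mul, mul_smul_comm, mul_one, smul_mul_assoc, hE.mul, if_pos rfl]
        have h3 : q i * b * q i - l i • q i
            = E i i * ((b - l i • (1 : H →L[ℂ] H))) * E i i := by
          rw [mul_sub, sub_mul, mul_smul_comm, mul_one, smul_mul_assoc, hE.mul, if_pos rfl, hEq]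
        rw [h2, h3]
        exact lq_compress h hE i0 i i (sub_mem hbM (lq_smul_mem (one_mem _) _))
      have h2 : n2 ξ (∑ i, (E i0 i * b * E i i0 - l i • E i0 i0)) ^ 2
          ≤ N * ∑ i, n2 ξ (q i * b * q i - l i • q i) ^ 2 := by
        calc n2 ξ (∑ i, (E i0 i * b * E i i0 - l i • E i0 i0)) ^ 2
            ≤ (∑ i, n2 ξ (q i * b * q i - l i • q i)) ^ 2 := by
              refine pow_le_pow_left₀ (n2_nonneg _) ?_ 2
              exact (n2_sum_le nr _ _).trans (Finset.sum_le_sum fun i _ => h1 i)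
          _ ≤ (Finset.univ : Finset (Fin N)).card *
                ∑ i, n2 ξ (q i * b * q i - l i • q i) ^ 2 := sq_sum_le_card_mul_sum_sq
          _ = _ := by rw [Finset.card_univ, Fintype.card_fin]
      have h3 : ∑ i, n2 ξ (q i * b * q i - l i • q i) ^ 2 ≤ ε ^ 2 * t / 4 :=
        (Finset.single_le_sum (f := fun b => ∑ i, n2 ξ (q i * b * q i -
          (tau ξ (q i * b) / tau ξ (q i)) • q i) ^ 2)
          (fun _ _ => Finset.sum_nonneg fun _ _ => sq_nonneg _) hbF).trans hdiag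
      have h4 : n2 ξ (∑ i, (E i0 i * b * E i i0 - l i • E i0 i0)) ^ 2
          ≤ ((ε / 2) * Real.sqrt (t * N)) ^ 2 := by
        rw [mul_pow, Real.sq_sqrt (by positivity)]
        refine h2.trans ((mul_le_mul_of_nonneg_left h3 hN0'.le).trans (le_of_eq ?_))
        ring
      exact (pow_le_pow_iff_left₀ (n2_nonneg _) (by positivity) two_ne_zero).1 h4
    have hn1 : ‖((1 / N : ℝ) : ℂ)‖ = 1 / N := by
      rw [Complex.norm_real, Real.norm_of_nonneg (by positivity)]
    have hpn' : n2 ξ p = Real.sqrt (t * N) / N := by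
      have h1 : n2 ξ p ^ 2 = (Real.sqrt (t * N) / N) ^ 2 := by
        rw [hpn, div_pow, Real.sq_sqrt (by positivity)]
        field_simp
      exact (pow_left_inj₀ (n2_nonneg _) (by positivity) two_ne_zero).1 h1
    calc n2 ξ (p * b * p - lam • p) ≤ n2 ξ (star v * b * v - lam • E i0 i0) := hstep1
      _ ≤ n2 ξ (((1 / N : ℝ) : ℂ) • (R s b)) + n2 ξ (((1 / N : ℝ) : ℂ) •
            (∑ i, (E i0 i * b * E i i0 - l i • E i0 i0))) := by
          rw [hcomp]; exact n2_add_le nr _ _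
      _ = 1 / N * n2 ξ (R s b) + 1 / N * n2 ξ (∑ i, (E i0 i * b * E i i0 - l i • E i0 i0)) := by
          rw [n2_smul, n2_smul, hn1]
      _ ≤ 1 / N * ((ε / 2) * Real.sqrt (t * N)) + 1 / N * ((ε / 2) * Real.sqrt (t * N)) := by
          have : (0 : ℝ) ≤ 1 / N := by positivity
          exact add_le_add (mul_le_mul_of_nonneg_left hA this)
            (mul_le_mul_of_nonneg_left hD this)
      _ = ε * n2 ξ p := by rw [hpn']; ring

end Crest.Agent.R95
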