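import Crest.Agent.R95.F3
import Crest.Agent.R95.Lq

/-!
# Row 95, part F: F3C, the step

PIECE F3C.  `g i = c i * v i`.
(1) `qz_of_lq`: `q` a projection of `P` with `n2 (q b q - τ(b) q) ≤ η n2 q`, `b = v X v*`, `v` a
unitary of `M`; `p = v* q v`.  Then `p X p R` has the trace of `q b q (v R v*)`, and
`|τ((q b q - τ(b) q) (v R v*))| = |τ((q b q - τ(b) q) (q v R v*))|
≤ n2 (star (q b q - τ(b) q)) n2 (q v R v*) ≤ η n2 q * n2 q` (`tau_cs`, `n2_star`, `n2_mul_le'`),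
`n2 q ^ 2 = tr q = tr p`, `τ b = τ X`.
(2) `phi_step`: choose `l` with `Phi ≤ k Phl l` (`exists_phl`), then `η > 0` with
`(#RW) #B 6 L² η ≤ Φ₀/(2k)`, then `q` by `lq` with `e = 1`, `ε = min η (1/(2L+1))`, the finite set
`F = {v_l (W x b W s) v_l* : |s| + |x| ≤ L, b ∈ B}`.  `p = v_l* q v_l`.
`md c l q i * v i = md g l p i` as `(1 - 2q) v_l = v_l (1 - 2p)`.  `phi_md_le`:
`Phi' ≤ Phi - 2 t Phi / k + t (Φ₀/(2k) + Phi/(2k)) ≤ Phi - t Φ₀ / k`.
-/

set_option autoImplicit false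

namespace Crest.Agent.R95

open Crest.OpAlg
open scoped InnerProductSpace ComplexConjugate

variable {H : Type*} [NormedAddCommGroup H] [InnerProductSpace ℂ H] [CompleteSpace H]
variable {ξ : ℕ → H} {P M : VonNeumannAlgebra H} {k : ℕ}

theorem qz_of_lq (h : Trc M ξ) {q v X : H →L[ℂ] H} (hq : Pj M q) (hv : Un M v) (hX : X ∈ M)
    {η : ℝ} (hη : 0 ≤ η)
    (hlq : n2 ξ (q * (v * X * star v) * q - tau ξ (v * X * star v) • q) ≤ η * n2 ξ q) :
    Pj M (star v * q * v) ∧ tr ξ (star v * q * v) = tr ξ q ∧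
      Qz M ξ (star v * q * v) η X := by
  have hvs : star v * v = 1 := (Unitary.mem_iff.1 hv.2).1
  have hvs' : v * star v = 1 := (Unitary.mem_iff.1 hv.2).2
  have hqq : q * q = q := hq.2.isIdempotentElem
  have hqs : star q = q := hq.2.isSelfAdjoint
  have hvq : ∀ y : H →L[ℂ] H, v * (star v * y) = y := fun y => by
    rw [← mul_assoc, hvs', one_mul]
  have hconj : ∀ y ∈ M, tau ξ (star v * y * v) = tau ξ y := fun y hy => by
    have := tau_conj h hy (star_mem hv.1) (by rw [star_star]; exact hvs')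
    rwa [star_star] at this
  have hconj' : ∀ y ∈ M, tau ξ (v * y * star v) = tau ξ y := fun y hy =>
    tau_conj h hy hv.1 hvs
  have hpM : star v * q * v ∈ M := mul_mem (mul_mem (star_mem hv.1) hq.1) hv.1
  refine ⟨⟨hpM, ?_, ?_⟩, ?_, ?_⟩
  · show star v * q * v * (star v * q * v) = star v * q * v
    simp only [mul_assoc, hvq]
    rw [← mul_assoc q q, hqq]
  · show star (star v * q * v) = star v * q * v
    rw [star_mul, star_mul, star_star, hqs, mul_assoc]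
  · unfold tr
    rw [hconj q hq.1]
  · intro R hR hR1
    set b : H →L[ℂ] H := v * X * star v with hb
    set R' : H →L[ℂ] H := v * R * star v with hR'
    have hbM : b ∈ M := mul_mem (mul_mem hv.1 hX) (star_mem hv.1)
    have hR'M : R' ∈ M := mul_mem (mul_mem hv.1 hR) (star_mem hv.1)
    have hR'1 : ‖R'‖ ≤ 1 := by
      have h1 : ‖R'‖ ≤ ‖v * R‖ * ‖star v‖ := norm_mul_le _ _
      have h2 : ‖v * R‖ ≤ ‖v‖ * ‖R‖ := norm_mul_le _ _
      have h3 : ‖v‖ ≤ 1 := hv.norm_le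
      have h4 : ‖star v‖ ≤ 1 := hv.star.norm_le
      have h5 : ‖v * R‖ ≤ 1 := h2.trans (mul_le_one₀ h3 (norm_nonneg _) hR1)
      exact h1.trans (mul_le_one₀ h5 (norm_nonneg _) h4)
    have e1 : tau ξ (star v * q * v * X * (star v * q * v) * R) = tau ξ (q * b * q * R') := by
      rw [← hconj (q * b * q * R') (mul_mem (mul_mem (mul_mem hq.1 hbM) hq.1) hR'M)]
      congr 1
      rw [hb, hR']
      simp only [mul_assoc, hvs, mul_one]
    have e2 : tau ξ X = tau ξ b := (hconj' X hX).symm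
    have e3 : tau ξ (star v * q * v * R) = tau ξ (q * R') := by
      rw [← hconj (q * R') (mul_mem hq.1 hR'M)]
      congr 1
      rw [hR']
      simp only [mul_assoc, hvs, mul_one]
    have e4 : tr ξ (star v * q * v) = n2 ξ q * n2 ξ q := by
      have : n2 ξ q ^ 2 = tr ξ q := n2_pj_sq h.nr hq.2
      unfold tr at this ⊢
      rw [hconj q hq.1, ← this]
      ring
    have hD : q * b * q - tau ξ b • q ∈ M :=
      sub_mem (mul_mem (mul_mem hq.1 hbM) hq.1) (vn_smul_mem M _ hq.1)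
    rw [e1, e2, e3, ← tau_smul, ← tau_sub h.nr, e4]
    have e5 : q * b * q * R' - tau ξ b • (q * R') = (q * b * q - tau ξ b • q) * (q * R') := by
      rw [sub_mul, smul_mul_assoc, ← mul_assoc q q, hqq, ← mul_assoc (q * b * q) q R',
        mul_assoc (q * b) q q, hqq]
    rw [e5]
    calc ‖tau ξ ((q * b * q - tau ξ b • q) * (q * R'))‖
        ≤ n2 ξ (q * b * q - tau ξ b • q) * n2 ξ (q * R') :=
          norm_tau_mul_le h hD (mul_mem hq.1 hR'M)
      _ ≤ (η * n2 ξ q) * (n2 ξ q * 1) := by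
          refine mul_le_mul hlq ?_ (n2_nonneg _) (mul_nonneg hη (n2_nonneg _))
          exact (n2_mul_le' h hq.1 hR'M).trans
            (mul_le_mul_of_nonneg_left hR'1 (n2_nonneg _))
      _ = η * (n2 ξ q * n2 ξ q) := by ring

theorem md_mul (c v : Fin k → (H →L[ℂ] H)) (l : Fin k) (q : H →L[ℂ] H)
    (hv : v l * star (v l) = 1) :
    (fun i => md c l q i * v i) = md (fun i => c i * v i) l (star (v l) * q * v l) := by
  funext i
  unfold md
  by_cases hi : i = l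
  · subst hi
    simp only [Function.update_self]
    have h1 : c i * v i * (star (v i) * q * v i) = c i * q * v i := by
      calc c i * v i * (star (v i) * q * v i) = c i * (v i * star (v i)) * q * v i := by
            simp only [mul_assoc]
        _ = c i * q * v i := by rw [hv, mul_one]
    rw [mul_sub, mul_sub, sub_mul, mul_one, mul_one, mul_smul_comm, mul_smul_comm,
      smul_mul_assoc, h1]
  · simp only [Function.update_of_ne hi]

theorem phi_step (h : Sit P M ξ) {v : Fin k → (H →L[ℂ] H)} (hv : ∀ i, Un M (v i)) {ω : ℝ}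
    (hω : 0 < ω) (hω1 : ω ≤ 1) {L : ℕ} {B : Finset (H →L[ℂ] H)} (hB1 : (1 : H →L[ℂ] H) ∈ B)
    (hB : ∀ b ∈ B, b ∈ M ∧ ‖b‖ ≤ 1) (hk : 0 < k)
    (hωk : (RW k L).card * B.card * (4 * L ^ 2 * ω) ≤ 1 / (2 * k : ℝ))
    {Φ₀ : ℝ} (hΦ₀ : 0 < Φ₀) {c : Fin k → (H →L[ℂ] H)} (hc : ∀ i, Un P (c i))
    (hΦ : Φ₀ ≤ Phi ξ ω L B (fun i => c i * v i)) :
    ∃ (l : Fin k) (q : H →L[ℂ] H), Pj P q ∧ 0 < tr ξ q ∧
      Phi ξ ω L B (fun i => md c l q i * v i) ≤
        Phi ξ ω L B (fun i => c i * v i) - Φ₀ / k * tr ξ q := by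
  classical
  set g : Fin k → (H →L[ℂ] H) := fun i => c i * v i with hg
  have hgU : ∀ i, Un M (g i) := fun i => Un.mul ⟨h.le (hc i).1, (hc i).2⟩ (hv i)
  obtain ⟨l, hl⟩ := exists_phl (ξ := ξ) hk hω.le L B g
  have hk' : (0 : ℝ) < k := by exact_mod_cast hk
  -- nontriviality of `H`
  have hone : (1 : H →L[ℂ] H) ≠ 0 := by
    intro h0
    have h1 := tau_one h.trc.nr
    rw [h0, tau_zero] at h1
    exact zero_ne_one h1
  -- choice of `η`
  set A : ℝ := (RW k L).card * B.card with hA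
  have hA0 : 0 ≤ A := by positivity
  set η : ℝ := (Φ₀ / (2 * k)) / (A * (6 * L ^ 2) + 1) with hη
  have hden : 0 < A * (6 * (L : ℝ) ^ 2) + 1 := by positivity
  have hη0 : 0 < η := by positivity
  have hηb : A * (6 * L ^ 2 * η) ≤ Φ₀ / (2 * k) := by
    have h1 : η * (A * (6 * (L : ℝ) ^ 2) + 1) = Φ₀ / (2 * k) := by
      rw [hη]; field_simp
    nlinarith
  set ε : ℝ := min η (1 / (2 * L + 1)) with hε
  have hε0 : 0 < ε := lt_min hη0 (by positivity)
  -- the finite set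
  let T : Set (Wd k × Wd k × (H →L[ℂ] H)) :=
    {a | a.1.length + a.2.1.length ≤ L ∧ a.2.2 ∈ B}
  have hT : T.Finite := by
    refine Set.Finite.subset ((List.finite_length_le (Fin k × Bool) L).prod
        ((List.finite_length_le (Fin k × Bool) L).prod B.finite_toSet)) ?_
    rintro ⟨s, x, b⟩ ⟨h1, h2⟩
    simp only at h1 h2
    refine ⟨?_, ?_, ?_⟩
    · show s.length ≤ L
      omega
    · show x.length ≤ L
      omega
    · exact h2
  let F : Set (H →L[ℂ] H) :=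
    (fun a : Wd k × Wd k × (H →L[ℂ] H) =>
      v l * (Wv g a.2.1 * a.2.2 * Wv g a.1) * star (v l)) '' T
  have hF : F.Finite := hT.image _
  have hXM : ∀ s x : Wd k, ∀ b ∈ B, Wv g x * b * Wv g s ∈ M := fun s x b hb =>
    mul_mem (mul_mem (Wv_un hgU x).1 (hB b hb).1) (Wv_un hgU s).1
  have hFM : ∀ b ∈ F, b ∈ M := by
    rintro _ ⟨⟨s, x, b⟩, ⟨_, h2⟩, rfl⟩
    exact mul_mem (mul_mem (hv l).1 (hXM s x b h2)) (star_mem (hv l).1)
  have h1P : Pj P (1 : H →L[ℂ] H) := ⟨one_mem P, IsStarProjection.one _⟩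
  obtain ⟨q, hqP, hq0, -, hqε, hqF⟩ := lq h h1P hone F hF hFM ε hε0
  have hqM : Pj M q := ⟨h.le hqP.1, hqP.2⟩
  have hvl : v l * star (v l) = 1 := (Unitary.mem_iff.1 (hv l).2).2
  set p : H →L[ℂ] H := star (v l) * q * v l with hp
  have hqz : ∀ X ∈ M, v l * X * star (v l) ∈ F →
      Pj M p ∧ tr ξ p = tr ξ q ∧ Qz M ξ p η X := by
    intro X hX hXF
    refine qz_of_lq h.trc hqM (hv l) hX hη0.le ?_
    have h1 := hqF _ hXF
    rw [one_mul, tau_one h.trc.nr, div_one] at h1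
    exact h1.trans (mul_le_mul_of_nonneg_right (min_le_left _ _) (n2_nonneg _))
  have hmem : ∀ s x : Wd k, s.length + x.length ≤ L → ∀ b ∈ B,
      v l * (Wv g x * b * Wv g s) * star (v l) ∈ F := fun s x hsx b hb =>
    ⟨(s, x, b), ⟨hsx, hb⟩, rfl⟩
  obtain ⟨hpP, hpt, -⟩ := hqz (Wv g [] * 1 * Wv g []) (hXM [] [] 1 hB1)
    (hmem [] [] (by simp) 1 hB1)
  have hQ : ∀ s x : Wd k, s.length + x.length ≤ L → ∀ b ∈ B,
      Qz M ξ p η (Wv g x * b * Wv g s) := fun s x hsx b hb =>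
    (hqz _ (hXM s x b hb) (hmem s x hsx b hb)).2.2
  have htp : 0 < tr ξ q := tr_pos h.trc hqM hq0
  have ht : 2 * L * tr ξ p ≤ 1 := by
    rw [hpt]
    have h1 : tr ξ q ≤ 1 / (2 * L + 1) := hqε.trans (min_le_right _ _)
    rw [le_div_iff₀ (by positivity)] at h1
    nlinarith
  have hmain := phi_md_le h.trc hgU l hpP hη0.le hω hω1 hB1 hB hQ ht
  refine ⟨l, q, hqP, htp, ?_⟩
  rw [md_mul c v l q hvl]
  refine hmain.trans ?_
  rw [hpt]
  have h1 : A * (6 * L ^ 2 * η + 4 * L ^ 2 * ω * Phi ξ ω L B g) ≤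
      Φ₀ / (2 * k) + Phi ξ ω L B g / (2 * k) := by
    have h2 : A * (4 * L ^ 2 * ω) * Phi ξ ω L B g ≤ 1 / (2 * k) * Phi ξ ω L B g :=
      mul_le_mul_of_nonneg_right hωk (Phi_nonneg hω.le L B g)
    have h3 : 1 / (2 * k : ℝ) * Phi ξ ω L B g = Phi ξ ω L B g / (2 * k) := by ring
    have h4 : A * (6 * L ^ 2 * η + 4 * L ^ 2 * ω * Phi ξ ω L B g) =
      A * (6 * L ^ 2 * η) + A * (4 * L ^ 2 * ω) * Phi ξ ω L B g := by ring
    rw [h4]
    linarith
  have h2 : Phi ξ ω L B g / k ≤ Phl ξ ω L B l g := by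
    rw [div_le_iff₀ hk']
    linarith
  have h3 := mul_le_mul_of_nonneg_right h1 htp.le
  have h4 := mul_le_mul_of_nonneg_right h2 htp.le
  have h5 : Φ₀ / k * tr ξ q ≤ Phi ξ ω L B g / k * tr ξ q :=
    mul_le_mul_of_nonneg_right (div_le_div_of_nonneg_right hΦ hk'.le) htp.le
  have h6 : (Φ₀ / (2 * k) + Phi ξ ω L B g / (2 * k)) * tr ξ q =
      (Φ₀ / k * tr ξ q) / 2 + (Phi ξ ω L B g / k * tr ξ q) / 2 := by
    field_simp
  rw [h6] at h3
  have h7 : 2 * tr ξ q * Phl ξ ω L B l g = 2 * (Phl ξ ω L B l g * tr ξ q) := by ring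
  rw [h7]
  have h8 : (0:ℝ) ≤ Phi ξ ω L B g / k * tr ξ q :=
    mul_nonneg (div_nonneg (Phi_nonneg hω.le L B g) hk'.le) htp.le
  linarith

end Crest.Agent.R95
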