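import Crest.Agent.R95.F3c
import Crest.Agent.R95.Exh
import Crest.Agent.R95.B2

/-!
# Row 95, part F: F4, the infimum of the potential is zero (exhaustion / Ekeland)

PIECE F4A `phi_lim`: `Phi` is continuous along `n2`-limits of unitaries (`n2_lim_mul`,
`n2_lim_star`, `tau_lim`, induction on words, finite sums).

PIECE F4B `phi_inf`: let `X = {c : Fin k → B(H) // ∀ i, Un P (c i)}`,
`Ψ c = Phi (fun i => c i * v i)`, `K = 2 k / Φ₀`,
`R c c' := Ψ c' ≤ Ψ c ∧ ∀ i, ∀ y ∈ M, ‖y‖ ≤ 1 → ‖τ((c' i - c i) y)‖ ≤ K (Ψ c - Ψ c')`.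
`R` is reflexive and transitive, `m c = - Ψ c ≤ 0`.  Upper bounds: if `R (c_n) (c_{n+1})` for all `n`,
then `R (c_n) (c_m)` for `n ≤ m`, `Ψ c_n` is decreasing and bounded below, so Cauchy;
`n2 (c_m i - c_n i)² = τ((c_m i - c_n i) (c_m i - c_n i)*) ≤ 2 K (Ψ c_n - Ψ c_m)`
(`y = (1/2)(c_m i - c_n i)*`, norm `≤ 1`; `tau_star_mul_self`, `tau_comm`); `vn_complete` for `P`
(`h.trc.mono h.le`), `un_lim`: limits `c i`, unitaries of `P`; pass to the limit in `R (c_n) (c_m)`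
(`tau_lim`, `phi_lim`).  `exhaustion` from `c = 1` gives `c` with `Ψ c ≤ Ψ c'` whenever `R c c'`.
If `Φ₀ ≤ Ψ c`, then `phi_step` gives `c' = md c l q` with `Ψ c' ≤ Ψ c - (Φ₀/k) tr q < Ψ c`;
`c' l - c l = -2 c l q`, `|τ((c' l - c l) y)| = 2 |τ(q y c l)| ≤ 2 tr q ≤ K (Ψ c - Ψ c')`
(`norm_tau_pj_mul` or as in `F1.Qz.bound`), so `R c c'`: contradiction.

PIECE F4C `star_free'`: from `phi_inf`.  `L` = max length of `toWord g`, `g ∈ S`;
`C = 1 + ∑_{y ∈ Z} ‖y‖`, `B = {1} ∪ {C⁻¹ • y}`; `ω ∈ (0,1]` small as in `hωk`;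
`Φ₀ = ω^L ε / C`.  `FreeGroup.lift f g = ∏ (toWord g)` (`FreeGroup.lift_mk`/`FreeGroup.mk_toWord`)
`= Wv g (toWord g)`.  For `k = 0` every `g` is `1`.  (If `ω^|w| ‖τ(W w y)‖/C ≤ Phi < Φ₀` then
`‖τ(W w y)‖ ≤ ε`.)
-/

set_option autoImplicit false

namespace Crest.Agent.R95

open Crest.OpAlg
open scoped InnerProductSpace ComplexConjugate Topology

variable {H : Type*} [NormedAddCommGroup H] [InnerProductSpace ℂ H] [CompleteSpace H]
variable {ξ : ℕ → H} {P M : VonNeumannAlgebra H} {k : ℕ}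

private theorem f4_Lt_sub (h : Trc M ξ) {g G : Fin k → (H →L[ℂ] H)} (hg : ∀ i, Un M (g i))
    (hG : ∀ i, Un M (G i)) (a : Fin k × Bool) :
    n2 ξ (Lt g a - Lt G a) = n2 ξ (g a.1 - G a.1) := by
  unfold Lt
  split_ifs
  · rfl
  · rw [← star_sub, n2_star h (sub_mem (hg _).1 (hG _).1)]

private theorem f4_Wv_sub (h : Trc M ξ) {g G : Fin k → (H →L[ℂ] H)} (hg : ∀ i, Un M (g i))
    (hG : ∀ i, Un M (G i)) (w : Wd k) :
    n2 ξ (Wv g w - Wv G w) ≤ w.length * ∑ i, n2 ξ (g i - G i) := by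
  induction w with
  | nil => simp [n2_zero]
  | cons a w ih =>
    rw [Wv_diff_cons]
    refine (n2_add_le h.nr _ _).trans ?_
    have hL : n2 ξ ((Lt g a - Lt G a) * Wv g w) ≤ ∑ i, n2 ξ (g i - G i) := by
      refine (n2_mul_le' h (sub_mem (Lt_un hg a).1 (Lt_un hG a).1) (Wv_un hg w).1).trans ?_
      have h1 : n2 ξ (Lt g a - Lt G a) ≤ ∑ i, n2 ξ (g i - G i) := by
        rw [f4_Lt_sub h hg hG]
        exact Finset.single_le_sum (f := fun i => n2 ξ (g i - G i))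
          (fun i _ => n2_nonneg _) (Finset.mem_univ a.1)
      calc n2 ξ (Lt g a - Lt G a) * ‖Wv g w‖ ≤ n2 ξ (Lt g a - Lt G a) * 1 :=
            mul_le_mul_of_nonneg_left (Wv_un hg w).norm_le (n2_nonneg _)
        _ ≤ _ := by rw [mul_one]; exact h1
    have hR : n2 ξ (Lt G a * (Wv g w - Wv G w)) ≤ w.length * ∑ i, n2 ξ (g i - G i) := by
      refine (n2_mul_le h.nr _ _).trans ?_
      calc ‖Lt G a‖ * n2 ξ (Wv g w - Wv G w) ≤ 1 * n2 ξ (Wv g w - Wv G w) :=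
            mul_le_mul_of_nonneg_right (Lt_un hG a).norm_le (n2_nonneg _)
        _ ≤ _ := by rw [one_mul]; exact ih
    rw [List.length_cons]
    push_cast
    linarith

theorem phi_lim (h : Trc M ξ) {g : ℕ → Fin k → (H →L[ℂ] H)} (hg : ∀ n i, Un M (g n i))
    {G : Fin k → (H →L[ℂ] H)} (hG : ∀ i, Un M (G i))
    (hl : ∀ i, Filter.Tendsto (fun n => n2 ξ (g n i - G i)) Filter.atTop (𝓝 0))
    (ω : ℝ) (L : ℕ) {B : Finset (H →L[ℂ] H)} (hB : ∀ b ∈ B, b ∈ M) :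
    Filter.Tendsto (fun n => Phi ξ ω L B (g n)) Filter.atTop (𝓝 (Phi ξ ω L B G)) := by
  unfold Phi
  refine tendsto_finset_sum _ fun w _ => ?_
  refine Filter.Tendsto.const_mul _ (tendsto_finset_sum _ fun b hb => ?_)
  refine Filter.Tendsto.norm ?_
  rw [tendsto_iff_norm_sub_tendsto_zero]
  have hsum : Filter.Tendsto (fun n => (w.length : ℝ) * (∑ i, n2 ξ (g n i - G i)) * n2 ξ b)
      Filter.atTop (𝓝 0) := by
    have h1 : Filter.Tendsto (fun n => ∑ i, n2 ξ (g n i - G i)) Filter.atTop (𝓝 0) := by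
      have := tendsto_finset_sum (Finset.univ : Finset (Fin k)) fun i _ => hl i
      simpa using this
    have h2 := (h1.const_mul (w.length : ℝ)).mul_const (n2 ξ b)
    simpa using h2
  refine squeeze_zero (fun n => norm_nonneg _) (fun n => ?_) hsum
  rw [← tau_sub h.nr, ← sub_mul]
  refine (norm_tau_mul_le h (sub_mem (Wv_un (hg n) w).1 (Wv_un hG w).1) (hB b hb)).trans ?_
  exact mul_le_mul_of_nonneg_right (f4_Wv_sub h (hg n) hG w) (n2_nonneg _)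

end Crest.Agent.R95
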