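import Crest.Agent.R95.F4

/-!
# Row 95, part F: piece F4B (proof in the header of `F4.lean`)
-/

set_option autoImplicit false

namespace Crest.Agent.R95

open Crest.OpAlg
open scoped InnerProductSpace ComplexConjugate Topology

variable {H : Type*} [NormedAddCommGroup H] [InnerProductSpace ℂ H] [CompleteSpace H]
variable {ξ : ℕ → H} {P M : VonNeumannAlgebra H} {k : ℕ}

/-- if the functionals `τ(d y)` are small then `n2 d` is small. -/
theorem F4b.n2_of_tau (h : Trc M ξ) {d : H →L[ℂ] H} (hd : d ∈ M) (hd2 : ‖d‖ ≤ 2) {r : ℝ}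
    (hr : ∀ y ∈ M, ‖y‖ ≤ 1 → ‖tau ξ (d * y)‖ ≤ r) : n2 ξ d ^ 2 ≤ 2 * r := by
  have hy : (1 / 2 : ℂ) • star d ∈ M := M.toStarSubalgebra.smul_mem (star_mem hd) _
  have hyn : ‖(1 / 2 : ℂ) • star d‖ ≤ 1 := by
    rw [norm_smul, norm_star]
    have : ‖(1 / 2 : ℂ)‖ = 1 / 2 := by norm_num
    rw [this]; linarith
  have h1 := hr _ hy hyn
  rw [mul_smul_comm, tau_smul, tau_comm h hd (star_mem hd), tau_star_mul_self h.nr, norm_mul,
    Complex.norm_real, Real.norm_of_nonneg (sq_nonneg _)] at h1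
  have : ‖(1 / 2 : ℂ)‖ = 1 / 2 := by norm_num
  rw [this] at h1
  linarith

theorem phi_inf (h : Sit P M ξ) {v : Fin k → (H →L[ℂ] H)} (hv : ∀ i, Un M (v i)) {ω : ℝ}
    (hω : 0 < ω) (hω1 : ω ≤ 1) {L : ℕ} {B : Finset (H →L[ℂ] H)} (hB1 : (1 : H →L[ℂ] H) ∈ B)
    (hB : ∀ b ∈ B, b ∈ M ∧ ‖b‖ ≤ 1) (hk : 0 < k)
    (hωk : (RW k L).card * B.card * (4 * L ^ 2 * ω) ≤ 1 / (2 * k : ℝ))
    {Φ₀ : ℝ} (hΦ₀ : 0 < Φ₀) :
    ∃ c : Fin k → (H →L[ℂ] H), (∀ i, Un P (c i)) ∧
      Phi ξ ω L B (fun i => c i * v i) < Φ₀ := by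
  classical
  by_contra hcon
  have hcon' : ∀ c : Fin k → (H →L[ℂ] H), (∀ i, Un P (c i)) →
      Φ₀ ≤ Phi ξ ω L B (fun i => c i * v i) := by
    intro c hc
    by_contra hlt
    exact hcon ⟨c, hc, not_le.1 hlt⟩
  have hkr : (0 : ℝ) < k := by exact_mod_cast hk
  set Ψ : (Fin k → (H →L[ℂ] H)) → ℝ := fun c => Phi ξ ω L B (fun i => c i * v i) with hΨ
  have hΨ0 : ∀ c, 0 ≤ Ψ c := fun c => Phi_nonneg hω.le _ _ _
  set K : ℝ := 2 * k / Φ₀ with hK
  have hKpos : 0 < K := by positivity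
  let X := {c : Fin k → (H →L[ℂ] H) // ∀ i, Un P (c i)}
  let R : X → X → Prop := fun c c' => Ψ c'.1 ≤ Ψ c.1 ∧ ∀ i, ∀ y ∈ M, ‖y‖ ≤ 1 →
    ‖tau ξ ((c'.1 i - c.1 i) * y)‖ ≤ K * (Ψ c.1 - Ψ c'.1)
  have hrefl : ∀ x, R x x := by
    intro x
    refine ⟨le_rfl, fun i y _ _ => ?_⟩
    simp [tau_zero]
  have htrans : ∀ x y z, R x y → R y z → R x z := by
    intro x y z hxy hyz
    refine ⟨hyz.1.trans hxy.1, fun i w hw hw1 => ?_⟩
    have h1 := hxy.2 i w hw hw1
    have h2 := hyz.2 i w hw hw1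
    have e : (z.1 i - x.1 i) * w = (z.1 i - y.1 i) * w + (y.1 i - x.1 i) * w := by
      rw [← add_mul]; congr 1; abel
    rw [e, tau_add h.trc.nr]
    refine (norm_add_le _ _).trans ?_
    have : K * (Ψ x.1 - Ψ z.1) = K * (Ψ y.1 - Ψ z.1) + K * (Ψ x.1 - Ψ y.1) := by ring
    rw [this]
    exact add_le_add h2 h1
  have hm1 : ∀ x : X, -Ψ x.1 ≤ 1 := fun x => by have := hΨ0 x.1; linarith
  have hmono : ∀ x y : X, R x y → -Ψ x.1 ≤ -Ψ y.1 := fun x y hxy => neg_le_neg hxy.1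
  have hub : ∀ x : ℕ → X, (∀ n, R (x n) (x (n + 1))) → ∃ y, ∀ n, R (x n) y := by
    intro x hx
    have hle : ∀ n m, n ≤ m → R (x n) (x m) := by
      intro n m hnm
      induction m, hnm using Nat.le_induction with
      | base => exact hrefl _
      | succ m _ ih => exact htrans _ _ _ ih (hx m)
    have hanti : Antitone fun n => Ψ (x n).1 := antitone_nat_of_succ_le fun n => (hx n).1
    have hlim : Filter.Tendsto (fun n => Ψ (x n).1) Filter.atTop (𝓝 (⨅ n, Ψ (x n).1)) :=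
      tendsto_atTop_ciInf hanti ⟨0, by rintro _ ⟨n, rfl⟩; exact hΨ0 _⟩
    have hcau := hlim.cauchySeq
    have htP : Trc P ξ := h.trc.mono h.le
    have hdist : ∀ i n m, n ≤ m → n2 ξ ((x m).1 i - (x n).1 i) ^ 2 ≤
        2 * (K * (Ψ (x n).1 - Ψ (x m).1)) := by
      intro i n m hnm
      have hmem : (x m).1 i - (x n).1 i ∈ M :=
        sub_mem (h.le ((x m).2 i).1) (h.le ((x n).2 i).1)
      have hn2 : ‖(x m).1 i - (x n).1 i‖ ≤ 2 := by
        refine (norm_sub_le _ _).trans ?_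
        have h1 := ((x m).2 i).norm_le
        have h2 := ((x n).2 i).norm_le
        linarith
      exact F4b.n2_of_tau h.trc hmem hn2 fun y hy hy1 => (hle n m hnm).2 i y hy hy1
    have hex : ∀ i, ∃ y ∈ P, ‖y‖ ≤ 1 ∧
        Filter.Tendsto (fun n => n2 ξ ((x n).1 i - y)) Filter.atTop (𝓝 0) := by
      intro i
      refine vn_complete htP (fun n => (x n).1 i) (fun n => ((x n).2 i).1) 1
        (fun n => ((x n).2 i).norm_le) ?_
      intro ε hε
      have hε' : 0 < ε ^ 2 / (2 * K) := by positivity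
      obtain ⟨N, hN⟩ := (Metric.cauchySeq_iff.1 hcau) _ hε'
      refine ⟨N, ?_⟩
      have key : ∀ n m, N ≤ n → n ≤ m → n2 ξ ((x m).1 i - (x n).1 i) ≤ ε := by
        intro n m hn hnm
        have h1 := hdist i n m hnm
        have h2 := hN n hn m (hn.trans hnm)
        rw [Real.dist_eq] at h2
        have h3 : Ψ (x n).1 - Ψ (x m).1 < ε ^ 2 / (2 * K) := (le_abs_self _).trans_lt h2
        have h4 : 2 * (K * (Ψ (x n).1 - Ψ (x m).1)) ≤ ε ^ 2 := by
          rw [lt_div_iff₀ (by positivity)] at h3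
          linarith
        exact abs_le_of_sq_le_sq' (h1.trans h4) hε.le |>.2
      intro n m hn hm
      rcases le_total n m with hnm | hnm
      · rw [n2_sub_comm]; exact key n m hn hnm
      · exact key m n hm hnm
    choose y hyP hy1 hyl using hex
    have hyU : ∀ i, Un P (y i) := fun i => un_lim htP (fun n => (x n).2 i) (hyP i) (hyl i)
    let Y : X := ⟨y, hyU⟩
    have hΨl : Filter.Tendsto (fun n => Ψ (x n).1) Filter.atTop (𝓝 (Ψ Y.1)) := by
      refine phi_lim h.trc (g := fun n i => (x n).1 i * v i) (G := fun i => y i * v i)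
        (fun n i => ?_) (fun i => ?_) (fun i => ?_) ω L (fun b hb => (hB b hb).1)
      · exact Un.mul ⟨h.le ((x n).2 i).1, ((x n).2 i).2⟩ (hv i)
      · exact Un.mul ⟨h.le (hyU i).1, (hyU i).2⟩ (hv i)
      · refine (hyl i).congr fun n => ?_
        rw [← sub_mul, n2_mul_unitary h.trc (sub_mem (h.le ((x n).2 i).1) (h.le (hyP i)))
          (hv i).1 (Unitary.mem_iff.1 (hv i).2).2]
    refine ⟨Y, fun n => ⟨?_, fun i z hz hz1 => ?_⟩⟩
    · exact le_of_tendsto hΨl (Filter.eventually_atTop.2 ⟨n, fun m hm => (hle n m hm).1⟩)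
    · have h1 : Filter.Tendsto (fun m => tau ξ (((x m).1 i - (x n).1 i) * z)) Filter.atTop
          (𝓝 (tau ξ ((y i - (x n).1 i) * z))) := by
        apply tau_lim h.trc.nr
        have h2 : Filter.Tendsto (fun m => n2 ξ ((x m).1 i - y i) * ‖z‖) Filter.atTop (𝓝 0) := by
          simpa using (hyl i).mul_const ‖z‖
        refine squeeze_zero (fun m => n2_nonneg _) (fun m => ?_) h2
        have e : ((x m).1 i - (x n).1 i) * z - (y i - (x n).1 i) * z = ((x m).1 i - y i) * z := by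
          rw [← sub_mul]; congr 1; abel
        rw [e]
        exact n2_mul_le' h.trc (sub_mem (h.le ((x m).2 i).1) (h.le (hyP i))) hz
      have h3 : Filter.Tendsto (fun m => K * (Ψ (x n).1 - Ψ (x m).1)) Filter.atTop
          (𝓝 (K * (Ψ (x n).1 - Ψ Y.1))) := (hΨl.const_sub _).const_mul K
      exact le_of_tendsto_of_tendsto h1.norm h3
        (Filter.eventually_atTop.2 ⟨n, fun m hm => (hle n m hm).2 i z hz hz1⟩)
  obtain ⟨c, -, hc⟩ := exhaustion R hrefl htrans (fun x => -Ψ x.1) hm1 hmono hub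
    ⟨fun _ => 1, fun _ => Un.one P⟩
  obtain ⟨l, q, hq, hq0, hstep⟩ := phi_step h hv hω hω1 hB1 hB hk hωk hΦ₀ c.2 (hcon' c.1 c.2)
  let c' : X := ⟨md c.1 l q, md_un c.2 l hq⟩
  have hstep' : Ψ c'.1 ≤ Ψ c.1 - Φ₀ / k * tr ξ q := hstep
  have hpos : 0 < Φ₀ / k * tr ξ q := by positivity
  have hR : R c c' := by
    refine ⟨by linarith, fun i z hz hz1 => ?_⟩
    have hKe : K * (Φ₀ / k * tr ξ q) = 2 * tr ξ q := by
      rw [hK]; field_simp
    have hlow : 2 * tr ξ q ≤ K * (Ψ c.1 - Ψ c'.1) := by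
      rw [← hKe]
      exact mul_le_mul_of_nonneg_left (by linarith) hKpos.le
    refine le_trans ?_ hlow
    show ‖tau ξ ((md c.1 l q i - c.1 i) * z)‖ ≤ 2 * tr ξ q
    by_cases hi : i = l
    · subst hi
      have hqM : q ∈ M := h.le hq.1
      have hcM : c.1 i ∈ M := h.le (c.2 i).1
      have e : (md c.1 i q i - c.1 i) * z = (-2 : ℂ) • (c.1 i * (q * z)) := by
        unfold md
        rw [Function.update_self, mul_sub, mul_one, mul_smul_comm, sub_sub_cancel_left, neg_mul,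
          smul_mul_assoc, neg_smul, mul_assoc]
      have e2 : tau ξ (c.1 i * (q * z)) = tau ξ (q * (z * c.1 i) * q) := by
        have hqq : q * q = q := hq.2.isIdempotentElem
        calc tau ξ (c.1 i * (q * z)) = tau ξ (q * z * c.1 i) :=
              tau_comm h.trc hcM (mul_mem hqM hz)
          _ = tau ξ (q * (q * (z * c.1 i))) := by rw [← mul_assoc q q, hqq, mul_assoc]
          _ = tau ξ (q * (z * c.1 i) * q) :=
              tau_comm h.trc hqM (mul_mem hqM (mul_mem hz hcM))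
      rw [e, tau_smul, norm_mul, e2]
      have h2 : ‖(-2 : ℂ)‖ = 2 := by norm_num
      rw [h2]
      have h3 := norm_tau_pj_le h.trc.nr hq.2 (z * c.1 i)
      have h4 : ‖z * c.1 i‖ ≤ 1 := by
        refine (norm_mul_le _ _).trans ?_
        have := (c.2 i).norm_le
        exact mul_le_one₀ hz1 (norm_nonneg _) this
      have h5 : ‖z * c.1 i‖ * tr ξ q ≤ 1 * tr ξ q := mul_le_mul_of_nonneg_right h4 hq0.le
      linarith
    · unfold md
      rw [Function.update_of_ne hi, sub_self, zero_mul, tau_zero, norm_zero]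
      positivity
  have hfin := hc c' hR
  have : -Ψ c'.1 ≤ -Ψ c.1 := hfin
  linarith

end Crest.Agent.R95
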