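import Crest.Agent.R95.GDefs

/-! Row 95, S0125 part (helper98). Matrix units, averaging over matrix units, the relative
commutant of a system of matrix units in a II₁ factor is a II₁ factor. -/

set_option autoImplicit false
set_option linter.unusedSectionVars false
set_option linter.deprecated false
open Crest.OpAlg
open scoped InnerProductSpace ENNReal

namespace Crest.Agent.R95.G

variable {H : Type*} [NormedAddCommGroup H] [InnerProductSpace ℂ H] [CompleteSpace H]

/-- a system of `k × k` matrix units (with sum of the diagonal `1`) -/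
structure MU {k : ℕ} (e : Fin k → Fin k → (H →L[ℂ] H)) : Prop where
  star : ∀ i j, star (e i j) = e j i
  mul : ∀ i j l m, e i j * e l m = if j = l then e i m else 0
  one : ∑ i, e i i = 1

/-- average over the matrix units -/
noncomputable def avg {k : ℕ} (e : Fin k → Fin k → (H →L[ℂ] H)) (x : H →L[ℂ] H) : H →L[ℂ] H :=
  (k : ℂ)⁻¹ • ∑ i, ∑ j, e i j * x * e j i

/-- the set of the matrix units -/
def mset {k : ℕ} (e : Fin k → Fin k → (H →L[ℂ] H)) : Set (H →L[ℂ] H) := {x | ∃ i j, x = e i j}

section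
variable {k : ℕ} {e : Fin k → Fin k → (H →L[ℂ] H)}

theorem MU.mul_same (he : MU e) (i j m : Fin k) : e i j * e j m = e i m := by
  rw [he.mul, if_pos rfl]

theorem MU.mul_ne (he : MU e) (i : Fin k) {j l : Fin k} (m : Fin k) (h : j ≠ l) :
    e i j * e l m = 0 := by
  rw [he.mul, if_neg h]

theorem mset_star (he : MU e) : ∀ g ∈ mset e, star g ∈ mset e := by
  rintro g ⟨i, j, rfl⟩
  exact ⟨j, i, he.star i j⟩

theorem mem_rel_mset (he : MU e) {M : VonNeumannAlgebra H} {z : H →L[ℂ] H} :
    z ∈ rel M (mset e) ↔ z ∈ M ∧ ∀ i j, e i j * z = z * e i j := by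
  rw [mem_rel (mset_star he)]
  constructor
  · rintro ⟨h1, h2⟩; exact ⟨h1, fun i j => h2 _ ⟨i, j, rfl⟩⟩
  · rintro ⟨h1, h2⟩
    refine ⟨h1, ?_⟩
    rintro g ⟨i, j, rfl⟩
    exact h2 i j

theorem avg_add (x y : H →L[ℂ] H) : avg e (x + y) = avg e x + avg e y := by
  simp only [avg, mul_add, add_mul, Finset.sum_add_distrib, smul_add]

theorem avg_sub (x y : H →L[ℂ] H) : avg e (x - y) = avg e x - avg e y := by
  simp only [avg, mul_sub, sub_mul, Finset.sum_sub_distrib, smul_sub]

theorem avg_smul (c : ℂ) (x : H →L[ℂ] H) : avg e (c • x) = c • avg e x := by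
  simp only [avg, mul_smul_comm, smul_mul_assoc, ← Finset.smul_sum, smul_comm c]

theorem avg_star (he : MU e) (x : H →L[ℂ] H) : avg e (star x) = star (avg e x) := by
  simp only [avg, star_smul, star_sum, star_mul, he.star, mul_assoc, star_inv₀, star_natCast]

theorem avg_mem {M : VonNeumannAlgebra H} (hM : ∀ i j, e i j ∈ M) {x : H →L[ℂ] H} (hx : x ∈ M) :
    avg e x ∈ M :=
  smul_mem' M _ (sum_mem' M _ fun i _ => sum_mem' M _ fun j _ =>
    mul_mem (mul_mem (hM i j) hx) (hM j i))

theorem avg_comm (he : MU e) (x : H →L[ℂ] H) (l m : Fin k) :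
    e l m * avg e x = avg e x * e l m := by
  have h1 : e l m * avg e x = (k : ℂ)⁻¹ • ∑ j, e l j * x * e j m := by
    rw [avg, mul_smul_comm, Finset.mul_sum]
    congr 1
    rw [Finset.sum_eq_single m]
    · rw [Finset.mul_sum]
      refine Finset.sum_congr rfl fun j _ => ?_
      rw [← mul_assoc, ← mul_assoc, he.mul_same]
    · intro i _ hi
      rw [Finset.mul_sum]
      refine Finset.sum_eq_zero fun j _ => ?_
      rw [← mul_assoc, ← mul_assoc, he.mul_ne _ _ (Ne.symm hi), zero_mul, zero_mul]
    · intro h; exact absurd (Finset.mem_univ _) h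
  have h2 : avg e x * e l m = (k : ℂ)⁻¹ • ∑ j, e l j * x * e j m := by
    rw [avg, smul_mul_assoc, Finset.sum_mul]
    congr 1
    rw [Finset.sum_eq_single l]
    · rw [Finset.sum_mul]
      refine Finset.sum_congr rfl fun j _ => ?_
      rw [mul_assoc, he.mul_same]
    · intro i _ hi
      rw [Finset.sum_mul]
      refine Finset.sum_eq_zero fun j _ => ?_
      rw [mul_assoc, he.mul_ne _ _ hi, mul_zero]
    · intro h; exact absurd (Finset.mem_univ _) h
  rw [h1, h2]

theorem sum_ij (he : MU e) : ∑ i, ∑ j, e i j * e j i = (k : ℂ) • (1 : H →L[ℂ] H) := by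
  have : ∀ i j : Fin k, e i j * e j i = e i i := fun i j => he.mul_same i j i
  simp only [this, Finset.sum_const, Finset.card_univ, Fintype.card_fin]
  rw [← Finset.smul_sum, he.one, ← Nat.cast_smul_eq_nsmul ℂ]

theorem avg_of_comm (he : MU e) (hk : 0 < k) {x : H →L[ℂ] H} (hx : ∀ i j, e i j * x = x * e i j) :
    avg e x = x := by
  have : ∀ i j : Fin k, e i j * x * e j i = x * (e i j * e j i) := fun i j => by
    rw [hx, mul_assoc]
  rw [avg]
  simp only [this]
  simp only [← Finset.mul_sum]
  rw [sum_ij he, mul_smul_comm, mul_one, smul_smul, inv_mul_cancel₀, one_smul]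
  exact_mod_cast hk.ne'

theorem avg_one (he : MU e) (hk : 0 < k) : avg e (1 : H →L[ℂ] H) = 1 :=
  avg_of_comm he hk fun i j => by simp

theorem avg_zero : avg e (0 : H →L[ℂ] H) = 0 := by simp [avg]

end

section
variable {k : ℕ} {e : Fin k → Fin k → (H →L[ℂ] H)}
variable {M : VonNeumannAlgebra H} {ξ : ℕ → H} (hξ : IsFaithfulTracialVectorState M ξ)
include hξ

/-- `avg` preserves the trace against elements commuting with the matrix units -/
theorem trace_mul_avg (he : MU e) (hk : 0 < k) (hM : ∀ i j, e i j ∈ M) {z x : H →L[ℂ] H}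
    (hz : z ∈ M) (hzc : ∀ i j, e i j * z = z * e i j) (hx : x ∈ M) :
    vectorState ξ (z * avg e x) = vectorState ξ (z * x) := by
  have hs := summable_of hξ
  have h1 : ∀ i j : Fin k, vectorState ξ (z * (e i j * x * e j i)) = vectorState ξ (z * x * e j j) := by
    intro i j
    have : z * (e i j * x * e j i) = (z * (e i j * x)) * e j i := by simp only [mul_assoc]
    rw [this, trace_comm hξ (mul_mem hz (mul_mem (hM i j) hx)) (hM j i)]
    have : e j i * (z * (e i j * x)) = z * (e j j * x) := by
      rw [← mul_assoc, hzc j i, mul_assoc, ← mul_assoc (e j i), he.mul_same]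
    rw [this, trace_comm hξ hz (mul_mem (hM j j) hx), mul_assoc (e j j),
      trace_comm hξ (hM j j) (mul_mem hx hz)]
    have h3 : x * z * e j j = (x * e j j) * z := by rw [mul_assoc, ← hzc, ← mul_assoc]
    rw [h3, trace_comm hξ (mul_mem hx (hM j j)) hz, ← mul_assoc]
  rw [avg, mul_smul_comm, vectorState_smul hs, Finset.mul_sum, vectorState_sum hs]
  have h2 : ∀ i : Fin k, vectorState ξ (z * ∑ j, e i j * x * e j i) = vectorState ξ (z * x) := by
    intro i
    rw [Finset.mul_sum, vectorState_sum hs]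
    simp only [h1]
    rw [← vectorState_sum hs, ← Finset.mul_sum, he.one, mul_one]
  simp only [h2, Finset.sum_const, Finset.card_univ, Fintype.card_fin, nsmul_eq_mul]
  rw [← mul_assoc, inv_mul_cancel₀, one_mul]
  exact_mod_cast hk.ne'

theorem trace_avg (he : MU e) (hk : 0 < k) (hM : ∀ i j, e i j ∈ M) {x : H →L[ℂ] H} (hx : x ∈ M) :
    vectorState ξ (avg e x) = vectorState ξ x := by
  have := trace_mul_avg hξ he hk hM (one_mem M) (fun i j => by simp) hx
  simpa using this

theorem n2_avg_le (he : MU e) (hk : 0 < k) (hM : ∀ i j, e i j ∈ M) {x : H →L[ℂ] H} (hx : x ∈ M) :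
    n2 ξ (avg e x) ≤ n2 ξ x := by
  have hs := summable_of hξ
  have ha := avg_mem hM hx
  have h1 : vectorState ξ (star (avg e x) * avg e x) = vectorState ξ (star (avg e x) * x) := by
    refine trace_mul_avg hξ he hk hM (star_mem ha) (fun i j => ?_) hx
    rw [← avg_star he, avg_comm he]
  rw [vectorState_self hs] at h1
  have h2 := norm_vectorState_star_mul_le hs (avg e x) x
  rw [← h1, Complex.norm_real, Real.norm_of_nonneg (by positivity), sq] at h2
  by_cases h0 : n2 ξ (avg e x) = 0
  · rw [h0]; exact n2_nonneg _ _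
  · exact le_of_mul_le_mul_left h2 (lt_of_le_of_ne (n2_nonneg _ _) (Ne.symm h0))

end

/-! ### the relative commutant of matrix units -/

/-- entries -/
noncomputable def entry {k : ℕ} (e : Fin k → Fin k → (H →L[ℂ] H)) (i j : Fin k) (y : H →L[ℂ] H) :
    H →L[ℂ] H := ∑ m, e m i * y * e j m

section
variable {k : ℕ} {e : Fin k → Fin k → (H →L[ℂ] H)}

theorem entry_comm (he : MU e) (i j : Fin k) (y : H →L[ℂ] H) (l m : Fin k) :
    e l m * entry e i j y = entry e i j y * e l m := by
  rw [entry, Finset.mul_sum, Finset.sum_mul, Finset.sum_eq_single m, Finset.sum_eq_single l]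
  · rw [← mul_assoc, ← mul_assoc, he.mul_same, mul_assoc (e l i * y), he.mul_same]
  · intro b _ hb
    rw [mul_assoc, he.mul_ne _ _ hb, mul_zero]
  · intro h; exact absurd (Finset.mem_univ _) h
  · intro b _ hb
    rw [← mul_assoc, ← mul_assoc, he.mul_ne _ _ (Ne.symm hb), zero_mul, zero_mul]
  · intro h; exact absurd (Finset.mem_univ _) h

theorem entry_mem (he : MU e) {M : VonNeumannAlgebra H} (hM : ∀ i j, e i j ∈ M) (i j : Fin k)
    {y : H →L[ℂ] H} (hy : y ∈ M) : entry e i j y ∈ rel M (mset e) := by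
  rw [mem_rel_mset he]
  exact ⟨sum_mem' M _ fun m _ => mul_mem (mul_mem (hM m i) hy) (hM j m),
    fun l m => entry_comm he i j y l m⟩

theorem eq_sum_entry (he : MU e) (y : H →L[ℂ] H) : y = ∑ i, ∑ j, entry e i j y * e i j := by
  have h1 : ∀ i j : Fin k, entry e i j y * e i j = e i i * y * e j j := by
    intro i j
    rw [entry, Finset.sum_mul, Finset.sum_eq_single i]
    · rw [mul_assoc, he.mul_same]
    · intro b _ hb
      rw [mul_assoc, he.mul_ne _ _ hb, mul_zero]
    · intro h; exact absurd (Finset.mem_univ _) h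
  simp only [h1]
  have h2 : ∀ i : Fin k, ∑ j, e i i * y * e j j = e i i * y := by
    intro i
    rw [← Finset.mul_sum, he.one, mul_one]
  simp only [h2]
  rw [← Finset.sum_mul, he.one, one_mul]

theorem rel_le (he : MU e) {M : VonNeumannAlgebra H} : rel M (mset e) ≤ M :=
  fun _ hx => ((mem_rel_mset he).1 hx).1

theorem rel_isFactor (he : MU e) {M : VonNeumannAlgebra H} (hM : ∀ i j, e i j ∈ M)
    (hf : IsFactor M) : IsFactor (rel M (mset e)) := by
  intro x hx hc
  obtain ⟨hxM, hxe⟩ := (mem_rel_mset he).1 hx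
  refine hf x hxM fun y hy => ?_
  rw [eq_sum_entry he y, Finset.mul_sum, Finset.sum_mul]
  refine Finset.sum_congr rfl fun i _ => ?_
  rw [Finset.mul_sum, Finset.sum_mul]
  refine Finset.sum_congr rfl fun j _ => ?_
  rw [← mul_assoc, hc _ (entry_mem he hM i j hy), mul_assoc, mul_assoc, hxe]

theorem rel_not_finiteDimensional (he : MU e) {M : VonNeumannAlgebra H} (hM : ∀ i j, e i j ∈ M)
    (hf : ¬ FiniteDimensional ℂ M.toStarSubalgebra) :
    ¬ FiniteDimensional ℂ (rel M (mset e)).toStarSubalgebra := by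
  intro hfd
  apply hf
  let f : (Fin k → Fin k → (rel M (mset e)).toStarSubalgebra) →ₗ[ℂ] M.toStarSubalgebra :=
    { toFun := fun g => ⟨∑ i, ∑ j, (g i j : H →L[ℂ] H) * e i j, by
        change _ ∈ M
        exact sum_mem' M _ fun i _ => sum_mem' M _ fun j _ =>
          mul_mem (rel_le he (g i j).2) (hM i j)⟩
      map_add' := by
        intro g h
        apply Subtype.ext
        simp [add_mul, Finset.sum_add_distrib]
      map_smul' := by
        intro c g
        apply Subtype.ext
        simp [Finset.smul_sum] }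
  refine Module.Finite.of_surjective f ?_
  rintro ⟨y, hy⟩
  refine ⟨fun i j => ⟨entry e i j y, entry_mem he hM i j hy⟩, ?_⟩
  apply Subtype.ext
  exact (eq_sum_entry he y).symm

end

end Crest.Agent.R95.G
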