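import Crest.Agent.R95.G1

/-! Row 95, S0125 part (helper98). An infinite sequence of commuting systems of matrix units with
trivial relative commutant, from the approximation property `C1`. -/

set_option autoImplicit false
set_option linter.unusedSectionVars false
set_option linter.deprecated false
open Crest.OpAlg Filter Topology
open scoped InnerProductSpace ENNReal

namespace Crest.Agent.R95.G

variable {H : Type*} [NormedAddCommGroup H] [InnerProductSpace ℂ H] [CompleteSpace H]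

/-- Input from the comparison layer: a self-adjoint element of a II₁ factor is 2-norm close to a
diagonal element of a matrix algebra. -/
def C1 (H : Type*) [NormedAddCommGroup H] [InnerProductSpace ℂ H] [CompleteSpace H] : Prop :=
  ∀ N : VonNeumannAlgebra H, IsFactor N → ¬ FiniteDimensional ℂ N.toStarSubalgebra →
  ∀ ξ : ℕ → H, IsFaithfulTracialVectorState N ξ → ∀ h ∈ N, star h = h → ∀ δ : ℝ, 0 < δ →
  ∀ k0 : ℕ, ∃ k ≥ k0, ∃ e : Fin k → Fin k → (H →L[ℂ] H), (∀ i j, e i j ∈ N) ∧ MU e ∧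
    ∃ μ : Fin k → ℝ, traceNormSq ξ (h - ∑ i, (μ i : ℂ) • e i i) < δ

/-- the state of the recursion: a II₁ subfactor with its conditional expectation -/
structure St (M : VonNeumannAlgebra H) (ξ : ℕ → H) where
  N : VonNeumannAlgebra H
  Φ : (H →L[ℂ] H) → (H →L[ℂ] H)
  le : N ≤ M
  fac : IsFactor N
  inf : ¬ FiniteDimensional ℂ N.toStarSubalgebra
  mem : ∀ x ∈ M, Φ x ∈ N
  sa : ∀ x, star (Φ x) = Φ (star x)
  tr : ∀ z ∈ N, ∀ x ∈ M, vectorState ξ (z * Φ x) = vectorState ξ (z * x)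

section
variable {M : VonNeumannAlgebra H} {ξ : ℕ → H}

/-- the initial state -/
def St.init (hf : IsFactor M) (hinf : ¬ FiniteDimensional ℂ M.toStarSubalgebra) : St M ξ where
  N := M
  Φ := id
  le := le_rfl
  fac := hf
  inf := hinf
  mem := fun _ h => h
  sa := fun _ => rfl
  tr := fun _ _ _ _ => rfl

/-- the next state -/
noncomputable def St.next (hξ : IsFaithfulTracialVectorState M ξ) (s : St M ξ) {k : ℕ} (hk : 0 < k)
    (e : Fin k → Fin k → (H →L[ℂ] H)) (he : MU e) (hN : ∀ i j, e i j ∈ s.N) : St M ξ where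
  N := rel s.N (mset e)
  Φ := fun x => avg e (s.Φ x)
  le := (rel_le he).trans s.le
  fac := rel_isFactor he hN s.fac
  inf := rel_not_finiteDimensional he hN s.inf
  mem := fun x hx => by
    rw [mem_rel_mset he]
    exact ⟨avg_mem hN (s.mem x hx), fun i j => avg_comm he _ i j⟩
  sa := fun x => by rw [← avg_star he, s.sa]
  tr := fun z hz x hx => by
    obtain ⟨hz1, hz2⟩ := (mem_rel_mset he).1 hz
    rw [trace_mul_avg (tracial_mono hξ s.le) he hk hN hz1 hz2 (s.mem x hx), s.tr z hz1 x hx]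

/-- average of a diagonal matrix unit -/
theorem avg_diag {k : ℕ} {e : Fin k → Fin k → (H →L[ℂ] H)} (he : MU e) (l : Fin k) :
    avg e (e l l) = (k : ℂ)⁻¹ • (1 : H →L[ℂ] H) := by
  rw [avg]
  congr 1
  have : ∀ i : Fin k, ∑ j, e i j * e l l * e j i = e i i := by
    intro i
    rw [Finset.sum_eq_single l]
    · rw [he.mul_same, he.mul_same]
    · intro b _ hb
      rw [he.mul_ne _ _ hb, zero_mul]
    · intro h; exact absurd (Finset.mem_univ _) h
  simp only [this]
  exact he.one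

theorem avg_sum {k : ℕ} {e : Fin k → Fin k → (H →L[ℂ] H)} {ι : Type*} (s : Finset ι)
    (f : ι → (H →L[ℂ] H)) : avg e (∑ i ∈ s, f i) = ∑ i ∈ s, avg e (f i) := by
  classical
  induction s using Finset.induction_on with
  | empty => simp [avg_zero]
  | insert a s ha ih => rw [Finset.sum_insert ha, Finset.sum_insert ha, avg_add, ih]

/-- one step of the recursion -/
theorem step (hC1 : C1 H) (hξ : IsFaithfulTracialVectorState M ξ) (s : St M ξ) {y : H →L[ℂ] H}
    (hy : y ∈ M) (hsa : star y = y) {δ : ℝ} (hδ : 0 < δ) :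
    ∃ k : ℕ, 2 ≤ k ∧ ∃ e : Fin k → Fin k → (H →L[ℂ] H), (∀ i j, e i j ∈ s.N) ∧ MU e ∧
      n2 ξ (avg e (s.Φ y) - (vectorState ξ y) • (1 : H →L[ℂ] H)) ≤ δ := by
  have hs := summable_of hξ
  have hsaΦ : star (s.Φ y) = s.Φ y := by rw [s.sa, hsa]
  have hNξ := tracial_mono hξ s.le
  obtain ⟨k, hk, e, heN, he, μ, hμ⟩ := hC1 s.N s.fac s.inf ξ hNξ (s.Φ y) (s.mem y hy) hsaΦ
    ((δ / 2) ^ 2) (by positivity) 2
  refine ⟨k, hk, e, heN, he, ?_⟩
  have hk0 : 0 < k := by omega
  set D : H →L[ℂ] H := ∑ i, (μ i : ℂ) • e i i with hD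
  have hDN : D ∈ s.N := sum_mem' _ _ fun i _ => smul_mem' _ _ (heN i i)
  have hD2 : n2 ξ (s.Φ y - D) ≤ δ / 2 := by
    rw [n2]
    calc Real.sqrt (traceNormSq ξ (s.Φ y - D)) ≤ Real.sqrt ((δ / 2) ^ 2) :=
          Real.sqrt_le_sqrt hμ.le
      _ = δ / 2 := Real.sqrt_sq (by positivity)
  have hav : avg e D = (vectorState ξ D) • (1 : H →L[ℂ] H) := by
    have h1 : avg e D = (∑ i, (μ i : ℂ) * (k : ℂ)⁻¹) • (1 : H →L[ℂ] H) := by
      rw [hD, avg_sum, Finset.sum_smul]
      refine Finset.sum_congr rfl fun i _ => ?_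
      rw [avg_smul, avg_diag he, smul_smul]
    have h2 := trace_avg hNξ he hk0 heN hDN
    rw [h1, vectorState_smul hs, vectorState_one hξ, mul_one] at h2
    rw [h1, h2]
  have htr : vectorState ξ (s.Φ y) = vectorState ξ y := by
    have := s.tr 1 (one_mem _) y hy
    simpa using this
  have h3 : avg e (s.Φ y) - (vectorState ξ y) • (1 : H →L[ℂ] H) =
      avg e (s.Φ y - D) + (vectorState ξ (D - s.Φ y)) • (1 : H →L[ℂ] H) := by
    rw [avg_sub, hav, vectorState_sub hs, htr, sub_smul]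
    abel
  rw [h3]
  refine (n2_add_le hs _ _).trans ?_
  have h4 : n2 ξ (avg e (s.Φ y - D)) ≤ δ / 2 :=
    (n2_avg_le hNξ he hk0 heN (sub_mem (s.mem y hy) hDN)).trans hD2
  have h5 : n2 ξ ((vectorState ξ (D - s.Φ y)) • (1 : H →L[ℂ] H)) ≤ δ / 2 := by
    rw [n2_smul hs, n2_one hξ, mul_one]
    refine (norm_vectorState_le hξ _).trans ?_
    rw [n2_sub_comm hs]; exact hD2
  linarith

/-- a state together with the matrix units used to get to the next state -/
structure Nd (M : VonNeumannAlgebra H) (ξ : ℕ → H) where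
  s : St M ξ
  k : ℕ
  e : Fin k → Fin k → (H →L[ℂ] H)
  hk : 2 ≤ k
  he : MU e
  hN : ∀ i j, e i j ∈ s.N

theorem exists_seq (hC1 : C1 H) (hξ : IsFaithfulTracialVectorState M ξ) (hf : IsFactor M)
    (hinf : ¬ FiniteDimensional ℂ M.toStarSubalgebra) (y : ℕ → (H →L[ℂ] H)) (hy : ∀ j, y j ∈ M)
    (hsa : ∀ j, star (y j) = y j) (δ : ℕ → ℝ) (hδ : ∀ j, 0 < δ j) :
    ∃ nd : ℕ → Nd M ξ, (nd 0).s.N = M ∧
      (∀ j, (nd (j + 1)).s.N = rel (nd j).s.N (mset (nd j).e)) ∧
      (∀ j, n2 ξ ((nd (j + 1)).s.Φ (y j) - (vectorState ξ (y j)) • (1 : H →L[ℂ] H)) ≤ δ j) := by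
  have hstep : ∀ (j : ℕ) (s : St M ξ), ∃ nd : Nd M ξ, nd.s = s ∧
      n2 ξ (avg nd.e (nd.s.Φ (y j)) - (vectorState ξ (y j)) • (1 : H →L[ℂ] H)) ≤ δ j := by
    intro j s
    obtain ⟨k, hk, e, heN, he, h⟩ := step hC1 hξ s (hy j) (hsa j) (hδ j)
    exact ⟨⟨s, k, e, hk, he, heN⟩, rfl, h⟩
  choose F hF1 hF2 using hstep
  let G : Nd M ξ → St M ξ := fun nd =>
    nd.s.next hξ (k := nd.k) (lt_of_lt_of_le two_pos nd.hk) nd.e nd.he nd.hN
  let nd : ℕ → Nd M ξ := fun j => Nat.rec (F 0 (St.init hf hinf)) (fun j nd => F (j + 1) (G nd)) j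
  have hnd : ∀ j, nd (j + 1) = F (j + 1) (G (nd j)) := fun j => rfl
  have hs : ∀ j, (nd (j + 1)).s = G (nd j) := fun j => by rw [hnd, hF1]
  refine ⟨nd, ?_, ?_, ?_⟩
  · change (F 0 (St.init hf hinf)).s.N = M
    rw [hF1]; rfl
  · intro j
    rw [hs]; rfl
  · intro j
    rw [hs]
    change n2 ξ (avg (nd j).e ((nd j).s.Φ (y j)) - _) ≤ _
    cases j with
    | zero => exact hF2 0 _
    | succ j => rw [hnd]; exact hF2 (j + 1) _

/-- separability of ℓ²(ℕ, H) -/
theorem lp_separable [TopologicalSpace.SeparableSpace H] :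
    TopologicalSpace.SeparableSpace (lp (fun _ : ℕ => H) 2) := by
  have h1 : ∀ n, TopologicalSpace.IsSeparable
      (Set.range (lp.single (E := fun _ : ℕ => H) 2 n)) := fun n =>
    TopologicalSpace.isSeparable_range (lp.isometry_single n).continuous
  have h2 := ((TopologicalSpace.IsSeparable.iUnion h1).span (R := ℂ)).closure
  have h3 : closure ((Submodule.span ℂ (⋃ n, Set.range (lp.single (E := fun _ : ℕ => H) 2 n)) :
      Submodule ℂ (lp (fun _ : ℕ => H) 2)) : Set (lp (fun _ : ℕ => H) 2)) = Set.univ := by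
    rw [Set.eq_univ_iff_forall]
    intro f
    have h4 := lp.hasSum_single (p := 2) (by norm_num) f
    refine mem_closure_of_tendsto h4 (Eventually.of_forall fun s => ?_)
    exact Submodule.sum_mem _ fun i _ => Submodule.subset_span
      (Set.mem_iUnion.mpr ⟨i, ⟨f i, rfl⟩⟩)
  rw [h3] at h2
  exact TopologicalSpace.isSeparable_univ_iff.mp h2

/-- a 2-norm dense sequence of self-adjoint elements -/
theorem exists_dense_sa [TopologicalSpace.SeparableSpace H]
    (hξ : IsFaithfulTracialVectorState M ξ) :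
    ∃ d : ℕ → (H →L[ℂ] H), (∀ m, d m ∈ M) ∧ (∀ m, star (d m) = d m) ∧
      ∀ y ∈ M, star y = y → ∀ ε : ℝ, 0 < ε → ∃ m, n2 ξ (y - d m) < ε := by
  have hs := summable_of hξ
  have := lp_separable (H := H)
  have : SecondCountableTopology (lp (fun _ : ℕ => H) 2) :=
    UniformSpace.secondCountable_of_separable _
  let S : Set (lp (fun _ : ℕ => H) 2) := {v | ∃ x ∈ M, star x = x ∧ J hs x = v}
  have : Nonempty S := ⟨⟨0, 0, zero_mem _, star_zero _, map_zero _⟩⟩
  have : TopologicalSpace.SeparableSpace S := inferInstance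
  have hd := TopologicalSpace.denseRange_denseSeq S
  choose d hdM hdsa hdJ using fun m => (TopologicalSpace.denseSeq S m).2
  refine ⟨d, hdM, hdsa, fun y hy hysa ε hε => ?_⟩
  have hyS : J hs y ∈ S := ⟨y, hy, hysa, rfl⟩
  obtain ⟨m, hm⟩ := hd.exists_dist_lt (⟨J hs y, hyS⟩ : S) hε
  refine ⟨m, ?_⟩
  rw [Subtype.dist_eq, dist_eq_norm] at hm
  rw [← hdJ m, ← map_sub, norm_J] at hm
  exact hm

end

end Crest.Agent.R95.G
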