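import Crest.Agent.R95.G2

/-! Row 95, S0125 part (helper98). A sequence of commuting systems of matrix units in a II₁ factor
with trivial relative commutant. -/

set_option autoImplicit false
set_option linter.unusedSectionVars false
set_option linter.deprecated false
open Crest.OpAlg Filter Topology
open scoped InnerProductSpace ENNReal

namespace Crest.Agent.R95.G

variable {H : Type*} [NormedAddCommGroup H] [InnerProductSpace ℂ H] [CompleteSpace H]
variable {M : VonNeumannAlgebra H} {ξ : ℕ → H}

theorem eq_scalar_of_trace (hξ : IsFaithfulTracialVectorState M ξ) {z : H →L[ℂ] H} (hz : z ∈ M)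
    (h : vectorState ξ (z * star z) = vectorState ξ z * vectorState ξ (star z)) :
    ∃ c : ℂ, z = c • (1 : H →L[ℂ] H) := by
  have hs := summable_of hξ
  refine ⟨vectorState ξ z, ?_⟩
  set c := vectorState ξ z with hc
  rw [← sub_eq_zero]
  have hm : z - c • (1 : H →L[ℂ] H) ∈ M := sub_mem hz (smul_mem' M c (one_mem M))
  refine eq_zero_of_n2 hξ hm ?_
  have h1 := vectorState_self hs (z - c • (1 : H →L[ℂ] H))
  have h2 : star (z - c • (1 : H →L[ℂ] H)) * (z - c • (1 : H →L[ℂ] H)) =
      star z * z - c • star z - (starRingEnd ℂ c) • z + ((starRingEnd ℂ c) * c) •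
        (1 : H →L[ℂ] H) := by
    rw [star_sub, star_smul, star_one, sub_mul, mul_sub, mul_sub, mul_smul_comm, mul_one,
      smul_mul_assoc, one_mul, smul_mul_assoc, one_mul, smul_smul]
    simp only [RCLike.star_def]
    abel
  rw [h2, vectorState_add hs, vectorState_sub hs, vectorState_sub hs, vectorState_smul hs,
    vectorState_smul hs, vectorState_smul hs, vectorState_one hξ, vectorState_star hs,
    ← hc, trace_comm hξ (star_mem hz) hz, h, vectorState_star hs, ← hc] at h1
  have h3 : ((n2 ξ (z - c • (1 : H →L[ℂ] H)) ^ 2 : ℝ) : ℂ) = 0 := by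
    rw [← h1]; ring
  have h4 : n2 ξ (z - c • (1 : H →L[ℂ] H)) ^ 2 = 0 := by exact_mod_cast h3
  exact pow_eq_zero_iff (two_ne_zero) |>.1 h4

/-- The main construction: commuting systems of matrix units with trivial relative commutant. -/
theorem exists_irreducible_seq [TopologicalSpace.SeparableSpace H] (hC1 : C1 H)
    (hξ : IsFaithfulTracialVectorState M ξ) (hf : IsFactor M)
    (hinf : ¬ FiniteDimensional ℂ M.toStarSubalgebra) :
    ∃ (k : ℕ → ℕ) (e : ∀ j, Fin (k j) → Fin (k j) → (H →L[ℂ] H)), (∀ j, 2 ≤ k j) ∧
      (∀ j, MU (e j)) ∧ (∀ j a b, e j a b ∈ M) ∧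
      (∀ i j, i < j → ∀ a b c d, e i a b * e j c d = e j c d * e i a b) ∧
      (∀ z ∈ M, (∀ j a b, e j a b * z = z * e j a b) → ∃ c : ℂ, z = c • (1 : H →L[ℂ] H)) := by
  have hs := summable_of hξ
  obtain ⟨d, hdM, hdsa, hdd⟩ := exists_dense_sa hξ
  obtain ⟨nd, hnd0, hnd1, hnd2⟩ := exists_seq hC1 hξ hf hinf (fun j => d (Nat.unpair j).1)
    (fun j => hdM _) (fun j => hdsa _) (fun j => 1 / ((j : ℝ) + 1)) (fun j => by positivity)
  have hmono : ∀ i j, i ≤ j → (nd j).s.N ≤ (nd i).s.N := by
    intro i j hij
    induction hij with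
    | refl => exact le_rfl
    | step _ ih => rw [hnd1]; exact (rel_le (nd _).he).trans ih
  refine ⟨fun j => (nd j).k, fun j => (nd j).e, fun j => (nd j).hk, fun j => (nd j).he,
    fun j a b => (nd j).s.le ((nd j).hN a b), ?_, ?_⟩
  · intro i j hij a b c d
    have h1 : (nd j).e c d ∈ (nd (i + 1)).s.N := hmono _ _ hij ((nd j).hN c d)
    rw [hnd1, mem_rel_mset (nd i).he] at h1
    exact h1.2 a b
  · intro z hz hzc
    have hzN : ∀ j, z ∈ (nd j).s.N := by
      intro j
      induction j with
      | zero => rw [hnd0]; exact hz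
      | succ j ih => rw [hnd1, mem_rel_mset (nd j).he]; exact ⟨ih, hzc j⟩
    -- factorisation on the dense sequence
    have h1 : ∀ m, vectorState ξ (z * d m) = vectorState ξ z * vectorState ξ (d m) := by
      intro m
      have h2 : ∀ n : ℕ, ‖vectorState ξ (z * d m) - vectorState ξ z * vectorState ξ (d m)‖ ≤
          n2 ξ (star z) * (1 / ((n : ℝ) + 1)) := by
        intro n
        have h3 := hnd2 (Nat.pair m n)
        simp only [Nat.unpair_pair] at h3
        have h4 := (nd (Nat.pair m n + 1)).s.tr z (hzN _) (d m) (hdM m)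
        have h5 : vectorState ξ (z * d m) - vectorState ξ z * vectorState ξ (d m) =
            vectorState ξ (star (star z) * ((nd (Nat.pair m n + 1)).s.Φ (d m) -
              (vectorState ξ (d m)) • (1 : H →L[ℂ] H))) := by
          rw [star_star, mul_sub, vectorState_sub hs, h4, mul_smul_comm, mul_one,
            vectorState_smul hs, mul_comm (vectorState ξ (d m))]
        rw [h5]
        refine (norm_vectorState_star_mul_le hs _ _).trans ?_
        refine mul_le_mul_of_nonneg_left (h3.trans ?_) (n2_nonneg _ _)
        have : (n : ℝ) ≤ (Nat.pair m n : ℝ) := by exact_mod_cast Nat.right_le_pair m n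
        gcongr
      have h6 : Tendsto (fun n : ℕ => n2 ξ (star z) * (1 / ((n : ℝ) + 1))) atTop
          (𝓝 (n2 ξ (star z) * 0)) := tendsto_one_div_add_atTop_nhds_zero_nat.const_mul _
      rw [mul_zero] at h6
      have h7 := ge_of_tendsto h6 (Eventually.of_forall h2)
      exact sub_eq_zero.1 (norm_le_zero_iff.1 h7)
    -- factorisation on self-adjoint elements
    have h2 : ∀ y ∈ M, star y = y →
        vectorState ξ (z * y) = vectorState ξ z * vectorState ξ y := by
      intro y hy hysa
      rw [← sub_eq_zero, ← norm_le_zero_iff]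
      refine le_of_forall_pos_le_add fun ε hε => ?_
      set K := n2 ξ (star z) + ‖vectorState ξ z‖ with hK
      have hK0 : 0 ≤ K := add_nonneg (n2_nonneg _ _) (norm_nonneg _)
      obtain ⟨m, hm⟩ := hdd y hy hysa (ε / (K + 1)) (by positivity)
      have h3 : vectorState ξ (z * y) - vectorState ξ z * vectorState ξ y =
          vectorState ξ (star (star z) * (y - d m)) - vectorState ξ z * vectorState ξ (y - d m) := by
        rw [star_star, mul_sub, vectorState_sub hs, vectorState_sub hs, h1]; ring
      rw [h3, zero_add]
      refine (norm_sub_le _ _).trans ?_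
      rw [norm_mul]
      have h4 := norm_vectorState_star_mul_le hs (star z) (y - d m)
      have h5 := norm_vectorState_le hξ (y - d m)
      have h6 := norm_nonneg (vectorState ξ z)
      calc ‖vectorState ξ (star (star z) * (y - d m))‖ + ‖vectorState ξ z‖ *
            ‖vectorState ξ (y - d m)‖ ≤ n2 ξ (star z) * n2 ξ (y - d m) +
              ‖vectorState ξ z‖ * n2 ξ (y - d m) := by gcongr
        _ = K * n2 ξ (y - d m) := by rw [hK]; ring
        _ ≤ K * (ε / (K + 1)) := by gcongr
        _ ≤ ε := by
          rw [mul_div_assoc', div_le_iff₀ (by positivity)]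
          nlinarith
    -- all elements
    have h3 : ∀ y ∈ M, vectorState ξ (z * y) = vectorState ξ z * vectorState ξ y := by
      intro y hy
      have hre : star (y + star y) = y + star y := by rw [star_add, star_star, add_comm]
      have him : star (Complex.I • (y - star y)) = Complex.I • (y - star y) := by
        rw [star_smul, star_sub, star_star]
        simp only [RCLike.star_def, Complex.conj_I, neg_smul, ← smul_neg, neg_sub]
      have e1 := h2 (y + star y) (add_mem hy (star_mem hy)) hre
      have e2 := h2 (Complex.I • (y - star y)) (smul_mem' M _ (sub_mem hy (star_mem hy))) him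
      have hy2 : y = (1 / 2 : ℂ) • (y + star y) + (-Complex.I / 2) • (Complex.I • (y - star y)) := by
        rw [smul_smul]
        have : -Complex.I / 2 * Complex.I = 1 / 2 := by
          rw [div_mul_eq_mul_div, neg_mul, Complex.I_mul_I]; norm_num
        rw [this, ← smul_add]
        have : y + star y + (y - star y) = (2 : ℂ) • y := by rw [two_smul]; abel
        rw [this, smul_smul]; norm_num
      have e3 : vectorState ξ (z * y) = (1 / 2 : ℂ) * vectorState ξ (z * (y + star y)) +
          (-Complex.I / 2) * vectorState ξ (z * (Complex.I • (y - star y))) := by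
        conv_lhs => rw [hy2]
        rw [mul_add, vectorState_add hs, mul_smul_comm, vectorState_smul hs, mul_smul_comm,
          vectorState_smul hs]
      have e4 : vectorState ξ y = (1 / 2 : ℂ) * vectorState ξ (y + star y) +
          (-Complex.I / 2) * vectorState ξ (Complex.I • (y - star y)) := by
        conv_lhs => rw [hy2]
        rw [vectorState_add hs, vectorState_smul hs, vectorState_smul hs]
      rw [e3, e4, e1, e2]; ring
    exact eq_scalar_of_trace hξ hz (h3 _ (star_mem hz))

end Crest.Agent.R95.G
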