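import Crest.Agent.R95.G3

/-! Row 95, S0125 part (helper98). Gap lemma (Rosenblum), series of commuting operators with
rapidly decreasing coefficients. -/

set_option autoImplicit false
set_option linter.unusedSectionVars false
set_option linter.deprecated false
open Crest.OpAlg Filter Topology
open scoped InnerProductSpace ENNReal

namespace Crest.Agent.R95.G

variable {H : Type*} [NormedAddCommGroup H] [InnerProductSpace ℂ H] [CompleteSpace H]

/-- **Gap lemma.** -/
theorem gap {ι : Type*} [Fintype ι] [DecidableEq ι] (p : ι → (H →L[ℂ] H))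
    (hp : ∀ i j, p i * p j = if i = j then p i else 0) (hsum : ∑ i, p i = 1)
    (c : ι → ℂ) (g : ℝ) (hg : ∀ i j, i ≠ j → g ≤ ‖c j - c i‖)
    (r : H →L[ℂ] H) (hr : ∀ i, r * p i = p i * r) (hrn : 2 * ‖r‖ < g)
    (z : H →L[ℂ] H) (hz : z * (∑ i, c i • p i + r) = (∑ i, c i • p i + r) * z) (i : ι) :
    z * p i = p i * z := by
  have hR1 : ∀ j, (∑ i, c i • p i + r) * p j = c j • p j + p j * r := by
    intro j
    rw [add_mul, hr, Finset.sum_mul, Finset.sum_eq_single j]
    · rw [smul_mul_assoc, hp, if_pos rfl]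
    · intro b _ hb
      rw [smul_mul_assoc, hp, if_neg hb, smul_zero]
    · intro h; exact absurd (Finset.mem_univ _) h
  have hR2 : ∀ j, p j * (∑ i, c i • p i + r) = c j • p j + r * p j := by
    intro j
    rw [mul_add, hr, Finset.mul_sum, Finset.sum_eq_single j]
    · rw [mul_smul_comm, hp, if_pos rfl]
    · intro b _ hb
      rw [mul_smul_comm, hp, if_neg (Ne.symm hb), smul_zero]
    · intro h; exact absurd (Finset.mem_univ _) h
  have hoff : ∀ i j, i ≠ j → p i * z * p j = 0 := by
    intro i j hij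
    set Z := p i * z * p j with hZ
    have h1 : p i * (z * (∑ i, c i • p i + r)) * p j = c j • Z + Z * r := by
      rw [mul_assoc, mul_assoc, hR1, mul_add, mul_add, mul_smul_comm, mul_smul_comm]
      simp only [hZ, mul_assoc]
    have h2 : p i * ((∑ i, c i • p i + r) * z) * p j = c i • Z + r * Z := by
      rw [← mul_assoc, hR2, add_mul, add_mul, smul_mul_assoc, smul_mul_assoc]
      simp only [hZ, mul_assoc]
    rw [hz, h2] at h1
    have h3 : (c j - c i) • Z = r * Z - Z * r := by
      rw [sub_smul, sub_eq_sub_iff_add_eq_add]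
      rw [← h1]; abel
    have h4 : ‖(c j - c i) • Z‖ ≤ 2 * ‖r‖ * ‖Z‖ := by
      rw [h3]
      calc ‖r * Z - Z * r‖ ≤ ‖r * Z‖ + ‖Z * r‖ := norm_sub_le _ _
        _ ≤ ‖r‖ * ‖Z‖ + ‖Z‖ * ‖r‖ := add_le_add (norm_mul_le _ _) (norm_mul_le _ _)
        _ = _ := by ring
    rw [norm_smul] at h4
    by_contra hne
    have hpos : 0 < ‖Z‖ := norm_pos_iff.2 hne
    have h5 := hg i j hij
    nlinarith
  have h1 : z * p i = p i * z * p i := by
    have : z * p i = ∑ j, p j * z * p i := by
      rw [← Finset.sum_mul, ← Finset.sum_mul, hsum, one_mul]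
    refine this.trans (Finset.sum_eq_single i (fun j _ hj => hoff j i hj)
      (fun h => absurd (Finset.mem_univ _) h))
  have h2 : p i * z = p i * z * p i := by
    have : p i * z = ∑ j, p i * z * p j := by
      rw [← Finset.mul_sum, hsum, mul_one]
    refine this.trans (Finset.sum_eq_single i (fun j _ hj => hoff i j (Ne.symm hj))
      (fun h => absurd (Finset.mem_univ _) h))
  rw [h1, ← h2]

/-- **Series lemma.** -/
theorem series (m : ℕ → ℕ) (p : ∀ j, Fin (m j) → (H →L[ℂ] H))
    (hp : ∀ j a b, p j a * p j b = if a = b then p j a else 0) (hsum : ∀ j, ∑ a, p j a = 1)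
    (lam : ∀ j, Fin (m j) → ℂ) (g : ℕ → ℝ) (hg : ∀ j a b, a ≠ b → g j ≤ ‖lam j b - lam j a‖)
    (T : ℕ → (H →L[ℂ] H)) (hT : ∀ j, T j = ∑ a, lam j a • p j a)
    (hcomm : ∀ j l, j < l → ∀ a, T l * p j a = p j a * T l)
    (c : ℕ → ℝ) (hc : ∀ j, 0 < c j) (B : ℕ → ℝ) (hB : ∀ j, ‖T j‖ ≤ B j)
    (hS : Summable fun j => c j * B j)
    (htail : ∀ j, 2 * ∑' l, c (l + (j + 1)) * B (l + (j + 1)) < c j * g j)
    (z : H →L[ℂ] H) (hz : z * (∑' j, (c j : ℂ) • T j) = (∑' j, (c j : ℂ) • T j) * z) :
    ∀ j a, z * p j a = p j a * z := by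
  have hnorm : ∀ j, ‖(c j : ℂ) • T j‖ ≤ c j * B j := by
    intro j
    rw [norm_smul, Complex.norm_real, Real.norm_of_nonneg (hc j).le]
    exact mul_le_mul_of_nonneg_left (hB j) (hc j).le
  have hsm : Summable fun j => (c j : ℂ) • T j := Summable.of_norm_bounded hS hnorm
  have hsm' : ∀ j, Summable fun l => (c (l + j) : ℂ) • T (l + j) := fun j =>
    (summable_nat_add_iff (f := fun j => (c j : ℂ) • T j) j).2 hsm
  set R : ℕ → (H →L[ℂ] H) := fun j => ∑' l, (c (l + j) : ℂ) • T (l + j) with hR
  have hR0 : R 0 = ∑' j, (c j : ℂ) • T j := by simp [hR]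
  have hRs : ∀ j, R j = (c j : ℂ) • T j + R (j + 1) := by
    intro j
    have h := (hsm' j).tsum_eq_zero_add
    simp only [hR]
    rw [h]
    simp only [zero_add]
    congr 1
    refine tsum_congr fun l => ?_
    have : l + 1 + j = l + (j + 1) := by ring
    rw [this]
  have hRn : ∀ j, 2 * ‖R (j + 1)‖ < c j * g j := by
    intro j
    refine lt_of_le_of_lt ?_ (htail j)
    have h1 : Summable fun l => c (l + (j + 1)) * B (l + (j + 1)) := 
      (summable_nat_add_iff (f := fun j => c j * B j) (j + 1)).2 hS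
    have h2 : ‖R (j + 1)‖ ≤ ∑' l, c (l + (j + 1)) * B (l + (j + 1)) :=
      tsum_of_norm_bounded h1.hasSum fun l => hnorm _
    linarith
  have hRc : ∀ j a, R (j + 1) * p j a = p j a * R (j + 1) := by
    intro j a
    simp only [hR]
    rw [← (hsm' (j + 1)).tsum_mul_right, ← (hsm' (j + 1)).tsum_mul_left]
    refine tsum_congr fun l => ?_
    rw [smul_mul_assoc, mul_smul_comm, hcomm j (l + (j + 1)) (by omega)]
  have key : ∀ j, z * R j = R j * z ∧ ∀ l, l < j → ∀ a, z * p l a = p l a * z := by
    intro j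
    induction j with
    | zero => exact ⟨by rw [hR0]; exact hz, fun l hl => absurd hl (Nat.not_lt_zero _)⟩
    | succ j ih =>
      obtain ⟨ih1, ih2⟩ := ih
      have h1 : R j = ∑ a, ((c j : ℂ) * lam j a) • p j a + R (j + 1) := by
        rw [hRs, hT, Finset.smul_sum]
        simp only [smul_smul]
      have h2 : ∀ a, z * p j a = p j a * z := by
        intro a
        refine gap (p j) (hp j) (hsum j) (fun a => (c j : ℂ) * lam j a) (c j * g j) ?_ (R (j + 1))
          (hRc j) (hRn j) z ?_ a
        · intro a b hab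
          rw [← mul_sub, norm_mul, Complex.norm_real, Real.norm_of_nonneg (hc j).le]
          exact mul_le_mul_of_nonneg_left (hg j a b hab) (hc j).le
        · rw [← h1]; exact ih1
      refine ⟨?_, ?_⟩
      · have h3 : R (j + 1) = R j - (c j : ℂ) • T j := by rw [hRs j]; abel
        have h4 : z * T j = T j * z := by
          rw [hT, Finset.mul_sum, Finset.sum_mul]
          refine Finset.sum_congr rfl fun a _ => ?_
          rw [mul_smul_comm, smul_mul_assoc, h2]
        rw [h3, mul_sub, sub_mul, ih1, mul_smul_comm, smul_mul_assoc, h4]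
      · intro l hl a
        rcases Nat.lt_succ_iff_lt_or_eq.1 hl with h | rfl
        · exact ih2 l h a
        · exact h2 a
  intro j a
  exact (key (j + 1)).2 j (Nat.lt_succ_self j) a

/-- the coefficients -/
noncomputable def coef (k : ℕ → ℕ) : ℕ → ℝ
  | 0 => 1
  | j + 1 => coef k j / (8 * k j * k (j + 1))

theorem coef_pos (k : ℕ → ℕ) (hk : ∀ j, 2 ≤ k j) : ∀ j, 0 < coef k j
  | 0 => one_pos
  | j + 1 => by
    have h1 : (0 : ℝ) < k j := by have := hk j; positivity
    have h2 : (0 : ℝ) < k (j + 1) := by have := hk (j + 1); positivity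
    rw [coef]
    exact div_pos (coef_pos k hk j) (by positivity)

theorem coef_succ (k : ℕ → ℕ) (hk : ∀ j, 2 ≤ k j) (j : ℕ) :
    coef k (j + 1) * k (j + 1) = coef k j / (8 * k j) := by
  have h1 : (0 : ℝ) < k j := by have := hk j; positivity
  have h2 : (0 : ℝ) < k (j + 1) := by have := hk (j + 1); positivity
  rw [coef]
  field_simp

theorem coef_half (k : ℕ → ℕ) (hk : ∀ j, 2 ≤ k j) (j : ℕ) :
    coef k (j + 1) * k (j + 1) ≤ (coef k j * k j) / 2 := by
  rw [coef_succ k hk]
  have h1 : (2 : ℝ) ≤ k j := by exact_mod_cast hk j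
  have h2 := coef_pos k hk j
  rw [div_le_div_iff₀ (by positivity) (by norm_num)]
  nlinarith [mul_pos h2 (by positivity : (0 : ℝ) < k j), mul_le_mul h1 h1 (by norm_num) (by positivity)]

theorem coef_geo (k : ℕ → ℕ) (hk : ∀ j, 2 ≤ k j) (j l : ℕ) :
    coef k (l + j) * k (l + j) ≤ (coef k j * k j) * (1 / 2) ^ l := by
  induction l with
  | zero => simp
  | succ l ih =>
    have := coef_half k hk (l + j)
    have e : l + 1 + j = l + j + 1 := by ring
    rw [e, pow_succ]
    linarith

theorem coef_summable (k : ℕ → ℕ) (hk : ∀ j, 2 ≤ k j) :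
    Summable fun j => coef k j * k j := by
  refine Summable.of_nonneg_of_le (fun j => ?_) (fun j => coef_geo k hk 0 j)
    (summable_geometric_two.mul_left _)
  have := coef_pos k hk j
  positivity

theorem coef_tail (k : ℕ → ℕ) (hk : ∀ j, 2 ≤ k j) (j : ℕ) :
    2 * ∑' l, coef k (l + (j + 1)) * k (l + (j + 1)) < coef k j * (1 / k j) := by
  have h1 : Summable fun l => coef k (l + (j + 1)) * k (l + (j + 1)) :=
    (summable_nat_add_iff (f := fun j => coef k j * k j) (j + 1)).2 (coef_summable k hk)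
  have h2 : ∑' l, coef k (l + (j + 1)) * k (l + (j + 1)) ≤
      (coef k (j + 1) * k (j + 1)) * 2 := by
    rw [← tsum_geometric_two, ← tsum_mul_left]
    exact Summable.tsum_le_tsum (fun l => coef_geo k hk (j + 1) l) h1
      (summable_geometric_two.mul_left _)
  rw [coef_succ k hk] at h2
  have h3 := coef_pos k hk j
  have h4 : (0 : ℝ) < k j := by have := hk j; positivity
  have h5 : coef k j / (8 * k j) = (1 / 8) * (coef k j * (1 / k j)) := by field_simp
  have h6 : 0 < coef k j * (1 / k j) := by positivity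
  rw [h5] at h2
  linarith

end Crest.Agent.R95.G
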