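import Crest.Agent.R95.G4

/-! Row 95, S0125 part (helper98). An irreducible pair of self-adjoint elements. -/

set_option autoImplicit false
set_option linter.unusedSectionVars false
set_option linter.deprecated false
open Crest.OpAlg Filter Topology
open scoped InnerProductSpace ENNReal

namespace Crest.Agent.R95.G

variable {H : Type*} [NormedAddCommGroup H] [InnerProductSpace ℂ H] [CompleteSpace H]

theorem norm_proj_le {p : H →L[ℂ] H} (h1 : star p = p) (h2 : p * p = p) : ‖p‖ ≤ 1 := by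
  have h3 : ‖p‖ * ‖p‖ = ‖p‖ := by
    rw [← CStarRing.norm_star_mul_self (x := p), h1, h2]
  by_contra h
  push Not at h
  nlinarith

theorem tsum_mem' (M : VonNeumannAlgebra H) {f : ℕ → (H →L[ℂ] H)} (hf : ∀ j, f j ∈ M)
    (hs : Summable f) : ∑' j, f j ∈ M := by
  rw [mem_iff_commutant]
  intro g hg
  rw [← hs.tsum_mul_left, ← hs.tsum_mul_right]
  exact tsum_congr fun j => (mem_iff_commutant M).1 (hf j) g hg

section
variable {k : ℕ} {e : Fin k → Fin k → (H →L[ℂ] H)}

/-- diagonal generator -/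
noncomputable def Adiag {k : ℕ} (e : Fin k → Fin k → (H →L[ℂ] H)) : H →L[ℂ] H :=
  ∑ a : Fin k, (((a : ℕ) : ℂ) / (k : ℂ)) • e a a

/-- projection onto the all-ones vector -/
noncomputable def qproj {k : ℕ} (e : Fin k → Fin k → (H →L[ℂ] H)) : H →L[ℂ] H :=
  (k : ℂ)⁻¹ • ∑ a, ∑ b, e a b

theorem norm_diag_le (he : MU e) (a : Fin k) : ‖e a a‖ ≤ 1 :=
  norm_proj_le (he.star a a) (he.mul_same a a a)

theorem Adiag_star (he : MU e) : star (Adiag e) = Adiag e := by
  simp only [Adiag, star_sum, star_smul, he.star, star_div₀, star_natCast]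

theorem qproj_star (he : MU e) : star (qproj e) = qproj e := by
  simp only [qproj, star_sum, star_smul, he.star, star_inv₀, star_natCast]
  rw [Finset.sum_comm]

theorem Adiag_norm (he : MU e) : ‖Adiag e‖ ≤ k := by
  calc ‖Adiag e‖ ≤ ∑ a : Fin k, ‖(((a : ℕ) : ℂ) / (k : ℂ)) • e a a‖ := norm_sum_le _ _
    _ ≤ ∑ _a : Fin k, (1 : ℝ) := by
      refine Finset.sum_le_sum fun a _ => ?_
      rw [norm_smul]
      have h1 : ‖(((a : ℕ) : ℂ) / (k : ℂ))‖ ≤ 1 := by
        rw [norm_div, Complex.norm_natCast, Complex.norm_natCast]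
        refine div_le_one_of_le₀ ?_ (by positivity)
        exact_mod_cast a.2.le
      exact mul_le_one₀ h1 (norm_nonneg _) (norm_diag_le he a)
    _ = k := by simp

theorem qproj_mul (he : MU e) (hk : 0 < k) : qproj e * qproj e = qproj e := by
  have h1 : (∑ a, ∑ b, e a b) * (∑ c, ∑ d, e c d) = (k : ℂ) • ∑ a, ∑ d, e a d := by
    have h2 : ∀ a b : Fin k, e a b * (∑ c, ∑ d, e c d) = ∑ d, e a d := by
      intro a b
      rw [Finset.mul_sum, Finset.sum_eq_single b]
      · rw [Finset.mul_sum]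
        exact Finset.sum_congr rfl fun d _ => he.mul_same a b d
      · intro c _ hc
        rw [Finset.mul_sum]
        exact Finset.sum_eq_zero fun d _ => he.mul_ne _ _ (Ne.symm hc)
      · intro h; exact absurd (Finset.mem_univ _) h
    rw [Finset.sum_mul, Finset.smul_sum]
    refine Finset.sum_congr rfl fun a _ => ?_
    rw [Finset.sum_mul]
    simp only [h2, Finset.sum_const, Finset.card_univ, Fintype.card_fin]
    rw [← Nat.cast_smul_eq_nsmul ℂ]
  have hk' : (k : ℂ) ≠ 0 := by exact_mod_cast hk.ne'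
  rw [qproj, smul_mul_assoc, mul_smul_comm, h1, smul_smul, smul_smul, mul_assoc,
    inv_mul_cancel₀ hk', mul_one]

theorem qproj_norm (he : MU e) (hk : 0 < k) : ‖qproj e‖ ≤ k :=
  (norm_proj_le (qproj_star he) (qproj_mul he hk)).trans (by exact_mod_cast hk)

theorem diag_q_diag (he : MU e) (a b : Fin k) :
    e a a * qproj e * e b b = (k : ℂ)⁻¹ • e a b := by
  rw [qproj, mul_smul_comm, smul_mul_assoc]
  congr 1
  rw [Finset.mul_sum, Finset.sum_eq_single a, Finset.mul_sum, Finset.sum_mul,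
    Finset.sum_eq_single b]
  · rw [he.mul_same, he.mul_same]
  · intro c _ hc
    rw [he.mul_same, he.mul_ne _ _ hc]
  · intro h; exact absurd (Finset.mem_univ _) h
  · intro c _ hc
    rw [Finset.mul_sum]
    exact Finset.sum_eq_zero fun d _ => he.mul_ne _ _ (Ne.symm hc)
  · intro h; exact absurd (Finset.mem_univ _) h

theorem qproj_comm {x : H →L[ℂ] H} (h : ∀ a b, x * e a b = e a b * x) :
    x * qproj e = qproj e * x := by
  simp only [qproj, mul_smul_comm, smul_mul_assoc, Finset.mul_sum, Finset.sum_mul, h]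

/-- commuting with the diagonal and with `q` is commuting with all matrix units -/
theorem comm_of_diag_q (he : MU e) (hk : 0 < k) {z : H →L[ℂ] H}
    (h1 : ∀ a, z * e a a = e a a * z) (h2 : z * qproj e = qproj e * z) (a b : Fin k) :
    e a b * z = z * e a b := by
  have hk' : (k : ℂ) ≠ 0 := by exact_mod_cast hk.ne'
  have h3 : e a b = (k : ℂ) • (e a a * qproj e * e b b) := by
    rw [diag_q_diag he, smul_smul, mul_inv_cancel₀ hk', one_smul]
  rw [h3, smul_mul_assoc, mul_smul_comm]
  congr 1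
  rw [mul_assoc, ← h1, ← mul_assoc, mul_assoc (e a a), ← h2, ← mul_assoc, ← h1, mul_assoc, mul_assoc,
    ← mul_assoc (e a a)]

end

/-- data of a commuting sequence of matrix units -/
structure Sys (H : Type*) [NormedAddCommGroup H] [InnerProductSpace ℂ H] [CompleteSpace H] where
  k : ℕ → ℕ
  e : ∀ j, Fin (k j) → Fin (k j) → (H →L[ℂ] H)
  hk : ∀ j, 2 ≤ k j
  he : ∀ j, MU (e j)
  hc : ∀ i j, i < j → ∀ a b c d, e i a b * e j c d = e j c d * e i a b

namespace Sys
variable (S : Sys H)

theorem kpos (j : ℕ) : 0 < S.k j := lt_of_lt_of_le two_pos (S.hk j)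

noncomputable def a : H →L[ℂ] H := ∑' j, (coef S.k j : ℂ) • Adiag (S.e j)
noncomputable def b : H →L[ℂ] H := ∑' j, (coef S.k j : ℂ) • qproj (S.e j)

theorem summable_aux (T : ℕ → (H →L[ℂ] H)) (hT : ∀ j, ‖T j‖ ≤ S.k j) :
    Summable fun j => (coef S.k j : ℂ) • T j := by
  refine Summable.of_norm_bounded (coef_summable S.k S.hk) fun j => ?_
  rw [norm_smul, Complex.norm_real, Real.norm_of_nonneg (coef_pos S.k S.hk j).le]
  exact mul_le_mul_of_nonneg_left (hT j) (coef_pos S.k S.hk j).le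

theorem a_mem (M : VonNeumannAlgebra H) (hM : ∀ j a b, S.e j a b ∈ M) : S.a ∈ M :=
  tsum_mem' M (fun j => smul_mem' M _ (sum_mem' M _ fun a _ => smul_mem' M _ (hM j a a)))
    (S.summable_aux _ fun j => Adiag_norm (S.he j))

theorem b_mem (M : VonNeumannAlgebra H) (hM : ∀ j a b, S.e j a b ∈ M) : S.b ∈ M :=
  tsum_mem' M (fun j => smul_mem' M _ (smul_mem' M _ (sum_mem' M _ fun a _ =>
    sum_mem' M _ fun b _ => hM j a b))) (S.summable_aux _ fun j => qproj_norm (S.he j) (S.kpos j))

theorem a_star : star S.a = S.a := by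
  rw [a, tsum_star]
  refine tsum_congr fun j => ?_
  rw [star_smul, Adiag_star (S.he j), RCLike.star_def, Complex.conj_ofReal]

theorem b_star : star S.b = S.b := by
  rw [b, tsum_star]
  refine tsum_congr fun j => ?_
  rw [star_smul, qproj_star (S.he j), RCLike.star_def, Complex.conj_ofReal]

theorem comm_a (z : H →L[ℂ] H) (hz : z * S.a = S.a * z) (j : ℕ) (s : Fin (S.k j)) :
    z * S.e j s s = S.e j s s * z := by
  refine series S.k (fun j s => S.e j s s) ?_ (fun j => (S.he j).one)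
    (fun j s => ((s : ℕ) : ℂ) / (S.k j : ℂ)) (fun j => 1 / (S.k j : ℝ)) ?_
    (fun j => Adiag (S.e j)) (fun j => rfl) ?_ (coef S.k) (coef_pos S.k S.hk)
    (fun j => (S.k j : ℝ)) (fun j => Adiag_norm (S.he j)) (coef_summable S.k S.hk)
    (coef_tail S.k S.hk) z hz j s
  · intro j s t
    rw [(S.he j).mul]
    split_ifs with h
    · rw [h]
    · rfl
  · intro j s t hst
    have hk : (0 : ℝ) < S.k j := by exact_mod_cast S.kpos j
    rw [← sub_div, norm_div, Complex.norm_natCast]
    refine div_le_div_of_nonneg_right ?_ hk.le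
    have h1 : ((t : ℕ) : ℤ) - ((s : ℕ) : ℤ) ≠ 0 := by
      intro h
      apply hst
      apply Fin.ext
      omega
    have h2 : (1 : ℝ) ≤ |(((t : ℕ) : ℤ) - ((s : ℕ) : ℤ) : ℤ)| := by
      exact_mod_cast Int.one_le_abs h1
    have h3 : ‖(((t : ℕ) : ℂ) - ((s : ℕ) : ℂ))‖ = |((((t : ℕ) : ℤ) - ((s : ℕ) : ℤ) : ℤ) : ℝ)| := by
      have : (((t : ℕ) : ℂ) - ((s : ℕ) : ℂ)) = (((((t : ℕ) : ℤ) - ((s : ℕ) : ℤ) : ℤ) : ℝ) : ℂ) := by
        push_cast; ring
      rw [this, Complex.norm_real, Real.norm_eq_abs]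
    rw [h3]
    simpa using h2
  · intro j l hjl s
    simp only [Adiag]
    rw [Finset.sum_mul, Finset.mul_sum]
    refine Finset.sum_congr rfl fun t _ => ?_
    rw [smul_mul_assoc, mul_smul_comm, S.hc j l hjl]

theorem comm_b (z : H →L[ℂ] H) (hz : z * S.b = S.b * z) (j : ℕ) :
    z * qproj (S.e j) = qproj (S.e j) * z := by
  have hq : ∀ j, qproj (S.e j) * qproj (S.e j) = qproj (S.e j) := fun j =>
    qproj_mul (S.he j) (S.kpos j)
  refine series (fun _ => 2) (fun j => ![qproj (S.e j), 1 - qproj (S.e j)]) ?_ ?_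
    (fun j => ![1, 0]) (fun _ => 1) ?_
    (fun j => qproj (S.e j)) ?_ ?_ (coef S.k) (coef_pos S.k S.hk)
    (fun j => (S.k j : ℝ)) (fun j => qproj_norm (S.he j) (S.kpos j)) (coef_summable S.k S.hk)
    ?_ z hz j (0 : Fin 2)
  · intro j s t
    fin_cases s <;> fin_cases t <;> simp [hq, mul_sub, sub_mul]
  · intro j
    simp [Fin.sum_univ_two]
  · intro j s t hst
    fin_cases s <;> fin_cases t <;> simp at hst ⊢
  · intro j
    simp [Fin.sum_univ_two]
  · intro j l hjl s
    have h1 : qproj (S.e l) * qproj (S.e j) = qproj (S.e j) * qproj (S.e l) := by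
      refine qproj_comm fun a b => ?_
      exact (qproj_comm fun c d => S.hc j l hjl a b c d).symm
    fin_cases s
    · simpa using h1
    · simp [mul_sub, sub_mul, h1]
  · intro j
    refine (coef_tail S.k S.hk j).trans_le ?_
    refine mul_le_mul_of_nonneg_left ?_ (coef_pos S.k S.hk j).le
    have h2 : (1 : ℝ) ≤ S.k j := by exact_mod_cast S.kpos j
    rw [div_le_one (by positivity)]
    exact h2

theorem comm_all (z : H →L[ℂ] H) (ha : z * S.a = S.a * z) (hb : z * S.b = S.b * z) (j : ℕ)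
    (s t : Fin (S.k j)) : S.e j s t * z = z * S.e j s t :=
  comm_of_diag_q (S.he j) (S.kpos j) (S.comm_a z ha j) (S.comm_b z hb j) s t

/-- the generated von Neumann algebra contains all matrix units -/
theorem mem_gen (j : ℕ) (s t : Fin (S.k j)) : S.e j s t ∈ gen {S.a, S.b} := by
  change _ ∈ (comm {S.a, S.b}).commutant
  rw [VonNeumannAlgebra.mem_commutant_iff]
  intro g hg
  rw [mem_comm] at hg
  have h1 := (hg S.a (by simp)).1
  have h2 := (hg S.b (by simp)).1
  exact (S.comm_all g h1.symm h2.symm j s t).symm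

end Sys

end Crest.Agent.R95.G
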