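import Crest.Agent.R95.G5

/-! Row 95, S0125 part (helper98). The von Neumann algebra generated by the pair is infinite
dimensional. -/

set_option autoImplicit false
set_option linter.unusedSectionVars false
set_option linter.deprecated false
open Crest.OpAlg Filter Topology
open scoped InnerProductSpace ENNReal

namespace Crest.Agent.R95.G

variable {H : Type*} [NormedAddCommGroup H] [InnerProductSpace ℂ H] [CompleteSpace H]

namespace Sys
variable (S : Sys H)

/-- the index `0` -/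
def i0 (j : ℕ) : Fin (S.k j) := ⟨0, S.kpos j⟩
/-- the index `1` -/
def i1 (j : ℕ) : Fin (S.k j) := ⟨1, S.hk j⟩

theorem i0_ne_i1 (j : ℕ) : S.i0 j ≠ S.i1 j := by
  intro h
  have := congrArg Fin.val h
  simp [i0, i1] at this

/-- products of corner projections -/
noncomputable def f : ℕ → (H →L[ℂ] H)
  | 0 => 1
  | j + 1 => f j * S.e j (S.i0 j) (S.i0 j)

noncomputable def t (j : ℕ) : H →L[ℂ] H := S.f j * S.e j (S.i1 j) (S.i1 j)

theorem f_comm (j : ℕ) : ∀ l, j ≤ l → ∀ a b, S.f j * S.e l a b = S.e l a b * S.f j := by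
  induction j with
  | zero => intro l _ a b; simp [f]
  | succ j ih =>
    intro l hl a b
    rw [f, mul_assoc, S.hc j l (by omega), ← mul_assoc, ih l (by omega), mul_assoc]

theorem f_comm1 (j : ℕ) : ∀ l a b, l ≠ l → S.f j * S.e l a b = S.e l a b * S.f j :=
  fun _ _ _ h => absurd rfl h

/-- if a product with one diagonal unit vanishes then the element vanishes -/
theorem eq_zero_of_mul {j : ℕ} {x : H →L[ℂ] H} (hx : ∀ a b, x * S.e j a b = S.e j a b * x)
    (c : Fin (S.k j)) (h : x * S.e j c c = 0) : x = 0 := by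
  have h1 : ∀ a, x * S.e j a a = 0 := by
    intro a
    calc x * S.e j a a = x * (S.e j a c * S.e j c a) := by rw [(S.he j).mul_same]
      _ = x * S.e j a c * S.e j c a := by rw [mul_assoc]
      _ = S.e j a c * x * (S.e j c c * S.e j c a) := by rw [hx, (S.he j).mul_same]
      _ = S.e j a c * (x * S.e j c c) * S.e j c a := by simp only [mul_assoc]
      _ = 0 := by rw [h, mul_zero, zero_mul]
  calc x = x * ∑ a, S.e j a a := by rw [(S.he j).one, mul_one]
    _ = 0 := by rw [Finset.mul_sum]; exact Finset.sum_eq_zero fun a _ => h1 a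

theorem f_ne_zero [Nontrivial H] (j : ℕ) : S.f j ≠ 0 := by
  induction j with
  | zero => simp [f]
  | succ j ih =>
    intro h
    exact ih (S.eq_zero_of_mul (S.f_comm j j le_rfl) _ h)

theorem t_ne_zero [Nontrivial H] (j : ℕ) : S.t j ≠ 0 := by
  intro h
  exact S.f_ne_zero j (S.eq_zero_of_mul (S.f_comm j j le_rfl) _ h)

/-- `e_{i,11} f_j = 0` for `i < j` -/
theorem e1_f (i : ℕ) : ∀ j, i < j → S.e i (S.i1 i) (S.i1 i) * S.f j = 0 := by
  intro j hj
  induction j with
  | zero => omega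
  | succ j ih =>
    rcases Nat.lt_succ_iff_lt_or_eq.1 hj with h | rfl
    · rw [f, ← mul_assoc, ih h, zero_mul]
    · rw [f, ← mul_assoc, ← S.f_comm i i le_rfl, mul_assoc,
        (S.he i).mul_ne _ _ (Ne.symm (S.i0_ne_i1 i)), mul_zero]

theorem f_e1 (i : ℕ) : ∀ j, i < j → S.f j * S.e i (S.i1 i) (S.i1 i) = 0 := by
  intro j hj
  induction j with
  | zero => omega
  | succ j ih =>
    rcases Nat.lt_succ_iff_lt_or_eq.1 hj with h | rfl
    · rw [f, mul_assoc, ← S.hc i j h, ← mul_assoc, ih h, zero_mul]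
    · rw [f, mul_assoc, (S.he i).mul_ne _ _ (S.i0_ne_i1 i), mul_zero]

theorem t_mul_lt {i j : ℕ} (h : i < j) : S.t i * S.t j = 0 := by
  rw [t, t, mul_assoc, ← mul_assoc (S.e i _ _), S.e1_f i j h, zero_mul, mul_zero]

theorem t_mul_gt {i j : ℕ} (h : j < i) : S.t i * S.t j = 0 := by
  have h1 : S.e i (S.i1 i) (S.i1 i) * S.f j = S.f j * S.e i (S.i1 i) (S.i1 i) :=
    (S.f_comm j i h.le _ _).symm
  have h2 : S.f j * S.e j (S.i1 j) (S.i1 j) = S.e j (S.i1 j) (S.i1 j) * S.f j :=
    S.f_comm j j le_rfl _ _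
  have h3 : S.e i (S.i1 i) (S.i1 i) * S.e j (S.i1 j) (S.i1 j) =
      S.e j (S.i1 j) (S.i1 j) * S.e i (S.i1 i) (S.i1 i) := (S.hc j i h _ _ _ _).symm
  calc S.t i * S.t j = S.f i * (S.e i (S.i1 i) (S.i1 i) * (S.f j * S.e j (S.i1 j) (S.i1 j))) := by
        rw [t, t, mul_assoc]
    _ = S.f i * (S.e i (S.i1 i) (S.i1 i) * S.e j (S.i1 j) (S.i1 j)) * S.f j := by
        rw [h2]; simp only [mul_assoc]
    _ = (S.f i * S.e j (S.i1 j) (S.i1 j)) * S.e i (S.i1 i) (S.i1 i) * S.f j := by
        rw [h3]; simp only [mul_assoc]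
    _ = 0 := by rw [S.f_e1 j i h, zero_mul, zero_mul]

theorem t_mul_self (i : ℕ) : S.t i * S.t i = S.f i * S.f i * S.e i (S.i1 i) (S.i1 i) := by
  have h2 : S.f i * S.e i (S.i1 i) (S.i1 i) = S.e i (S.i1 i) (S.i1 i) * S.f i :=
    S.f_comm i i le_rfl _ _
  calc S.t i * S.t i = S.f i * (S.e i (S.i1 i) (S.i1 i) * S.f i) * S.e i (S.i1 i) (S.i1 i) := by
        rw [t]; simp only [mul_assoc]
    _ = S.f i * S.f i * (S.e i (S.i1 i) (S.i1 i) * S.e i (S.i1 i) (S.i1 i)) := by
        rw [← h2]; simp only [mul_assoc]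
    _ = _ := by rw [(S.he i).mul_same]

theorem f_idem (i : ℕ) : S.f i * S.f i = S.f i := by
  induction i with
  | zero => simp [f]
  | succ i ih =>
    have h2 : S.f i * S.e i (S.i0 i) (S.i0 i) = S.e i (S.i0 i) (S.i0 i) * S.f i :=
      S.f_comm i i le_rfl _ _
    calc S.f (i + 1) * S.f (i + 1) =
          S.f i * (S.e i (S.i0 i) (S.i0 i) * S.f i) * S.e i (S.i0 i) (S.i0 i) := by
          rw [f]; simp only [mul_assoc]
      _ = (S.f i * S.f i) * (S.e i (S.i0 i) (S.i0 i) * S.e i (S.i0 i) (S.i0 i)) := by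
          rw [← h2]; simp only [mul_assoc]
      _ = _ := by rw [ih, (S.he i).mul_same, f]

theorem t_idem (i : ℕ) : S.t i * S.t i = S.t i := by
  rw [t_mul_self, f_idem, t]

theorem t_linearIndependent [Nontrivial H] : LinearIndependent ℂ S.t := by
  rw [linearIndependent_iff']
  intro s g hg i hi
  have h1 : S.t i * ∑ j ∈ s, g j • S.t j = g i • S.t i := by
    rw [Finset.mul_sum, Finset.sum_eq_single i]
    · rw [mul_smul_comm, S.t_idem]
    · intro j _ hj
      rw [mul_smul_comm]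
      rcases lt_or_gt_of_ne hj with h | h
      · rw [S.t_mul_gt h, smul_zero]
      · rw [S.t_mul_lt h, smul_zero]
    · intro h; exact absurd hi h
  rw [hg, mul_zero] at h1
  exact (smul_eq_zero.1 h1.symm).resolve_right (S.t_ne_zero i)

theorem t_mem (M : VonNeumannAlgebra H) (hM : ∀ j a b, S.e j a b ∈ M) (j : ℕ) : S.t j ∈ M := by
  have hf : ∀ j, S.f j ∈ M := by
    intro j
    induction j with
    | zero => exact one_mem M
    | succ j ih => exact mul_mem ih (hM _ _ _)
  exact mul_mem (hf j) (hM _ _ _)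

theorem not_finiteDimensional [Nontrivial H] (M : VonNeumannAlgebra H)
    (hM : ∀ j a b, S.e j a b ∈ M) : ¬ FiniteDimensional ℂ M.toStarSubalgebra := by
  intro hfd
  let v : ℕ → M.toStarSubalgebra := fun j => ⟨S.t j, S.t_mem M hM j⟩
  have hv : LinearIndependent ℂ v := by
    have h1 : LinearIndependent ℂ
        (M.toStarSubalgebra.toSubalgebra.toSubmodule.subtype ∘ v) := S.t_linearIndependent
    exact LinearIndependent.of_comp _ h1
  exact Module.Finite.not_linearIndependent_of_infinite v hv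

end Sys

/-- **Irreducible pair.** -/
theorem exists_irreducible_pair [TopologicalSpace.SeparableSpace H] (hC1 : C1 H)
    {M : VonNeumannAlgebra H} (hM : IsTypeIIOneFactor M) :
    ∃ a ∈ M, ∃ b ∈ M, star a = a ∧ star b = b ∧
      (∀ z ∈ M, z * a = a * z → z * b = b * z → ∃ c : ℂ, z = c • (1 : H →L[ℂ] H)) ∧
      gen {a, b} ≤ M ∧ IsTypeIIOneFactor (gen {a, b}) := by
  obtain ⟨hf, hinf, ξ, hξ⟩ := hM
  have hnt : Nontrivial H := by
    by_contra hnt
    rw [not_nontrivial_iff_subsingleton] at hnt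
    apply hinf
    have : Subsingleton (H →L[ℂ] H) := ⟨fun x y => by ext v; exact Subsingleton.elim _ _⟩
    have : Subsingleton M.toStarSubalgebra := ⟨fun x y => Subtype.ext (Subsingleton.elim _ _)⟩
    infer_instance
  obtain ⟨k, e, hk, he, heM, hcomm, hirr⟩ := exists_irreducible_seq hC1 hξ hf hinf
  let S : Sys H := ⟨k, e, hk, he, hcomm⟩
  have ha : S.a ∈ M := S.a_mem M heM
  have hb : S.b ∈ M := S.b_mem M heM
  have hirr' : ∀ z ∈ M, z * S.a = S.a * z → z * S.b = S.b * z →
      ∃ c : ℂ, z = c • (1 : H →L[ℂ] H) := fun z hz h1 h2 =>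
    hirr z hz fun j s t => S.comm_all z h1 h2 j s t
  have hle : gen {S.a, S.b} ≤ M := gen_le fun x hx => by
    rcases hx with rfl | rfl
    · exact ha
    · exact hb
  refine ⟨S.a, ha, S.b, hb, S.a_star, S.b_star, hirr', hle, ?_, ?_, ξ, tracial_mono hξ hle⟩
  · intro x hx hxc
    refine hirr' x (hle hx) ?_ ?_
    · exact hxc _ (subset_gen _ (by simp))
    · exact hxc _ (subset_gen _ (by simp))
  · exact S.not_finiteDimensional _ S.mem_gen

end Crest.Agent.R95.G
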