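import Crest.Agent.R95.G6

/-! Row 95, S0125 part (helper98). Single generator from an irreducible pair and a unitary. -/

set_option autoImplicit false
set_option linter.unusedSectionVars false
set_option linter.deprecated false
open Crest.OpAlg Filter Topology
open scoped InnerProductSpace ENNReal

namespace Crest.Agent.R95.G

variable {H : Type*} [NormedAddCommGroup H] [InnerProductSpace ℂ H] [CompleteSpace H]

/-- generation of `M` by one element, from generation of the relative commutant of matrix units by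
finitely many self-adjoint elements -/
theorem single_of_entries {M : VonNeumannAlgebra H} {K : ℕ} {E : Fin K → Fin K → (H →L[ℂ] H)}
    (hE : MU E) (hEM : ∀ i j, E i j ∈ M) (α : Fin K → (H →L[ℂ] H))
    (hα : ∀ i, α i ∈ rel M (mset E)) (hαs : ∀ i, star (α i) = α i)
    (hgen : ∀ z : H →L[ℂ] H, (∀ i, z * α i = α i * z) → (∀ i, star z * α i = α i * star z) →
      ∀ y ∈ rel M (mset E), z * y = y * z) :
    ∃ x ∈ M, ∀ N : VonNeumannAlgebra H, x ∈ N → M ≤ N := by
  have hαM : ∀ i, α i ∈ M := fun i => ((mem_rel_mset hE).1 (hα i)).1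
  have hαE : ∀ i s t, E s t * α i = α i * E s t := fun i => ((mem_rel_mset hE).1 (hα i)).2
  set r : H →L[ℂ] H := ∑ i, α i * E i i with hr
  set L : ℝ := 2 * ‖r‖ + 1 with hL
  set A : H →L[ℂ] H := ∑ i : Fin K, ((L : ℂ) * ((i : ℕ) : ℂ)) • E i i + r with hA
  set B : H →L[ℂ] H := ∑ i, ∑ j, E i j with hB
  have hrM : r ∈ M := sum_mem' M _ fun i _ => mul_mem (hαM i) (hEM i i)
  have hAM : A ∈ M := add_mem (sum_mem' M _ fun i _ => smul_mem' M _ (hEM i i)) hrM
  have hBM : B ∈ M := sum_mem' M _ fun i _ => sum_mem' M _ fun j _ => hEM i j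
  have hrs : star r = r := by
    rw [hr, star_sum]
    refine Finset.sum_congr rfl fun i _ => ?_
    rw [star_mul, hαs, hE.star, hαE]
  have hAs : star A = A := by
    rw [hA, star_add, hrs, star_sum]
    congr 1
    refine Finset.sum_congr rfl fun i _ => ?_
    rw [star_smul, hE.star, star_mul', RCLike.star_def, Complex.conj_ofReal, map_natCast]
  have hBs : star B = B := by
    rw [hB, star_sum, Finset.sum_comm]
    simp only [star_sum, hE.star]
  refine ⟨A + Complex.I • B, add_mem hAM (smul_mem' M _ hBM), fun N hN y hy => ?_⟩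
  have hxs : star (A + Complex.I • B) = A - Complex.I • B := by
    rw [star_add, star_smul, hAs, hBs, RCLike.star_def, Complex.conj_I, neg_smul, sub_eq_add_neg]
  have hN2 : A - Complex.I • B ∈ N := hxs ▸ star_mem hN
  have hAN : A ∈ N := by
    have h1 : A = (1 / 2 : ℂ) • ((A + Complex.I • B) + (A - Complex.I • B)) := by
      have : (A + Complex.I • B) + (A - Complex.I • B) = (2 : ℂ) • A := by
        rw [two_smul]; abel
      rw [this, smul_smul]; norm_num
    rw [h1]
    exact smul_mem' N _ (add_mem hN hN2)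
  have hBN : B ∈ N := by
    have h1 : B = (-Complex.I / 2 : ℂ) • ((A + Complex.I • B) - (A - Complex.I • B)) := by
      have : (A + Complex.I • B) - (A - Complex.I • B) = (2 * Complex.I : ℂ) • B := by
        rw [mul_smul, two_smul]; abel
      rw [this, smul_smul]
      have : -Complex.I / 2 * (2 * Complex.I) = 1 := by
        have := Complex.I_mul_I
        linear_combination -this
      rw [this, one_smul]
    rw [h1]
    exact smul_mem' N _ (sub_mem hN hN2)
  have hrE : ∀ i, r * E i i = α i * E i i := by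
    intro i
    rw [hr, Finset.sum_mul, Finset.sum_eq_single i]
    · rw [mul_assoc, hE.mul_same]
    · intro b _ hb
      rw [mul_assoc, hE.mul_ne _ _ hb, mul_zero]
    · intro h; exact absurd (Finset.mem_univ _) h
  have hEr : ∀ i, E i i * r = α i * E i i := by
    intro i
    rw [hr, Finset.mul_sum, Finset.sum_eq_single i]
    · rw [← mul_assoc, hαE, mul_assoc, hE.mul_same]
    · intro b _ hb
      rw [← mul_assoc, hαE, mul_assoc, hE.mul_ne _ _ (Ne.symm hb), mul_zero]
    · intro h; exact absurd (Finset.mem_univ _) h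
  have hEBE : ∀ i j, E i i * B * E j j = E i j := by
    intro i j
    rw [hB, Finset.mul_sum, Finset.sum_eq_single i, Finset.mul_sum, Finset.sum_mul,
      Finset.sum_eq_single j]
    · rw [hE.mul_same, hE.mul_same]
    · intro c _ hc
      rw [hE.mul_same, hE.mul_ne _ _ hc]
    · intro h; exact absurd (Finset.mem_univ _) h
    · intro c _ hc
      rw [Finset.mul_sum]
      exact Finset.sum_eq_zero fun d _ => hE.mul_ne _ _ (Ne.symm hc)
    · intro h; exact absurd (Finset.mem_univ _) h
  -- an operator commuting with A and B commutes with everything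
  have key1 : ∀ z : H →L[ℂ] H, z * A = A * z → z * B = B * z →
      (∀ s t, z * E s t = E s t * z) ∧ ∀ i, z * α i = α i * z := by
    intro z hzA hzB
    have h1 : ∀ i, z * E i i = E i i * z := by
      intro i
      refine gap (fun i => E i i) ?_ hE.one (fun i => (L : ℂ) * ((i : ℕ) : ℂ)) L ?_ r ?_ ?_ z ?_ i
      · intro i j
        rw [hE.mul]
        split_ifs with h
        · rw [h]
        · rfl
      · intro i j hij
        have hL0 : 0 ≤ L := by positivity
        rw [← mul_sub, norm_mul, Complex.norm_real, Real.norm_of_nonneg hL0]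
        have h1 : ((j : ℕ) : ℤ) - ((i : ℕ) : ℤ) ≠ 0 := by
          intro h
          apply hij
          apply Fin.ext
          omega
        have h2 : (1 : ℝ) ≤ |(((j : ℕ) : ℤ) - ((i : ℕ) : ℤ) : ℤ)| := by
          exact_mod_cast Int.one_le_abs h1
        have h3 : ‖(((j : ℕ) : ℂ) - ((i : ℕ) : ℂ))‖ =
            |((((j : ℕ) : ℤ) - ((i : ℕ) : ℤ) : ℤ) : ℝ)| := by
          have : (((j : ℕ) : ℂ) - ((i : ℕ) : ℂ)) =
              (((((j : ℕ) : ℤ) - ((i : ℕ) : ℤ) : ℤ) : ℝ) : ℂ) := by
            push_cast; ring
          rw [this, Complex.norm_real, Real.norm_eq_abs]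
        rw [h3]
        have h4 : (1 : ℝ) ≤ |((((j : ℕ) : ℤ) - ((i : ℕ) : ℤ) : ℤ) : ℝ)| := by simpa using h2
        nlinarith
      · intro i
        rw [hrE, hEr]
      · rw [hL]; linarith
      · exact hzA
    have h2 : ∀ s t, z * E s t = E s t * z := by
      intro s t
      rw [← hEBE s t]
      calc z * (E s s * B * E t t) = (z * E s s) * B * E t t := by simp only [mul_assoc]
        _ = E s s * (z * B) * E t t := by rw [h1]; simp only [mul_assoc]
        _ = E s s * B * (z * E t t) := by rw [hzB]; simp only [mul_assoc]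
        _ = E s s * B * E t t * z := by rw [h1]; simp only [mul_assoc]
    refine ⟨h2, fun i => ?_⟩
    have h3 : z * r = r * z := by
      have h4 : r = A - ∑ i : Fin K, ((L : ℂ) * ((i : ℕ) : ℂ)) • E i i := by rw [hA]; abel
      have h5 : z * ∑ i : Fin K, ((L : ℂ) * ((i : ℕ) : ℂ)) • E i i =
          (∑ i : Fin K, ((L : ℂ) * ((i : ℕ) : ℂ)) • E i i) * z := by
        rw [Finset.mul_sum, Finset.sum_mul]
        refine Finset.sum_congr rfl fun i _ => ?_
        rw [mul_smul_comm, smul_mul_assoc, h1]
      rw [h4, mul_sub, sub_mul, hzA, h5]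
    have h4 : α i = ∑ j, E j i * (r * E i i) * E i j := by
      have h5 : ∀ j, E j i * (r * E i i) * E i j = α i * E j j := by
        intro j
        rw [hrE, ← mul_assoc, hαE, mul_assoc, mul_assoc, hE.mul_same, hE.mul_same]
      simp only [h5]
      rw [← Finset.mul_sum, hE.one, mul_one]
    have h6 : ∀ j, z * (E j i * (r * E i i) * E i j) = E j i * (r * E i i) * E i j * z := by
      intro j
      calc z * (E j i * (r * E i i) * E i j) = (z * E j i) * (r * E i i) * E i j := by
            simp only [mul_assoc]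
        _ = E j i * (z * r) * E i i * E i j := by rw [h2]; simp only [mul_assoc]
        _ = E j i * r * (z * E i i) * E i j := by rw [h3]; simp only [mul_assoc]
        _ = E j i * r * E i i * (z * E i j) := by rw [h2]; simp only [mul_assoc]
        _ = _ := by rw [h2]; simp only [mul_assoc]
    calc z * α i = z * ∑ j, E j i * (r * E i i) * E i j := congrArg (z * ·) h4
      _ = ∑ j, z * (E j i * (r * E i i) * E i j) := Finset.mul_sum _ _ _
      _ = ∑ j, E j i * (r * E i i) * E i j * z := Finset.sum_congr rfl fun j _ => h6 j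
      _ = (∑ j, E j i * (r * E i i) * E i j) * z := (Finset.sum_mul _ _ _).symm
      _ = α i * z := congrArg (· * z) h4.symm
  rw [mem_iff_commutant]
  intro g hg
  have hgA := (mem_iff_commutant N).1 hAN g hg
  have hgB := (mem_iff_commutant N).1 hBN g hg
  have hg' : star g ∈ N.commutant := star_mem hg
  have hgA' := (mem_iff_commutant N).1 hAN _ hg'
  have hgB' := (mem_iff_commutant N).1 hBN _ hg'
  obtain ⟨k1, k2⟩ := key1 g hgA hgB
  obtain ⟨_, k3⟩ := key1 (star g) hgA' hgB'
  have k4 := hgen g k2 k3
  rw [eq_sum_entry hE y, Finset.mul_sum, Finset.sum_mul]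
  refine Finset.sum_congr rfl fun i _ => ?_
  rw [Finset.mul_sum, Finset.sum_mul]
  refine Finset.sum_congr rfl fun j _ => ?_
  rw [← mul_assoc, k4 _ (entry_mem hE hEM i j hy), mul_assoc, k1, mul_assoc]

/-- The conclusion of S0126 which is needed. -/
def C3 (H : Type*) [NormedAddCommGroup H] [InnerProductSpace ℂ H] [CompleteSpace H] : Prop :=
  ∀ P M : VonNeumannAlgebra H, P ≤ M → IsTypeIIOneFactor P → IsTypeIIOneFactor M →
    (∀ x ∈ M, (∀ y ∈ P, x * y = y * x) → ∃ c : ℂ, x = c • (1 : H →L[ℂ] H)) →
    ∃ v ∈ M, ∀ N : VonNeumannAlgebra H, P ≤ N → v ∈ N → M ≤ N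

theorem single_generator [TopologicalSpace.SeparableSpace H] (hC1 : C1 H) (hC3 : C3 H)
    (M : VonNeumannAlgebra H) (hM : IsTypeIIOneFactor M) :
    ∃ x ∈ M, ∀ N : VonNeumannAlgebra H, x ∈ N → M ≤ N := by
  obtain ⟨hf, hinf, ξ, hξ⟩ := hM
  obtain ⟨K, hK, E, hEM, hE, -, -⟩ := hC1 M hf hinf ξ hξ 0 (zero_mem M) (star_zero _) 1 one_pos 4
  have hM1 : IsTypeIIOneFactor (rel M (mset E)) :=
    ⟨rel_isFactor hE hEM hf, rel_not_finiteDimensional hE hEM hinf, ξ, tracial_mono hξ (rel_le hE)⟩
  obtain ⟨a, ha, b, hb, has, hbs, hirr, hle, hP⟩ := exists_irreducible_pair hC1 hM1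
  obtain ⟨v, hv, hvgen⟩ := hC3 (gen {a, b}) (rel M (mset E)) hle hP hM1 (by
    intro x hx hc
    exact hirr x hx (hc a (subset_gen _ (by simp))) (hc b (subset_gen _ (by simp))))
  have hv' : star v ∈ rel M (mset E) := star_mem hv
  -- real and imaginary parts
  set c : H →L[ℂ] H := v + star v with hc
  set d : H →L[ℂ] H := Complex.I • (v - star v) with hd
  have hcs : star c = c := by rw [hc, star_add, star_star, add_comm]
  have hds : star d = d := by
    rw [hd, star_smul, star_sub, star_star]
    simp only [RCLike.star_def, Complex.conj_I, neg_smul, ← smul_neg, neg_sub]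
  have hcm : c ∈ rel M (mset E) := add_mem hv hv'
  have hdm : d ∈ rel M (mset E) := smul_mem' _ _ (sub_mem hv hv')
  have hvcd : v = (1 / 2 : ℂ) • c + (-Complex.I / 2) • d := by
    rw [hd, smul_smul]
    have : -Complex.I / 2 * Complex.I = 1 / 2 := by
      rw [div_mul_eq_mul_div, neg_mul, Complex.I_mul_I]; norm_num
    rw [this, ← smul_add, hc]
    have : v + star v + (v - star v) = (2 : ℂ) • v := by rw [two_smul]; abel
    rw [this, smul_smul]; norm_num
  let α : Fin K → (H →L[ℂ] H) := fun i =>
    if (i : ℕ) = 0 then a else if (i : ℕ) = 1 then b else if (i : ℕ) = 2 then c else d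
  refine single_of_entries hE hEM α ?_ ?_ ?_
  · intro i
    simp only [α]
    split_ifs
    · exact ha
    · exact hb
    · exact hcm
    · exact hdm
  · intro i
    simp only [α]
    split_ifs
    · exact has
    · exact hbs
    · exact hcs
    · exact hds
  · intro z hz hzs y hy
    have z0 : z * a = a * z := by simpa [α] using hz ⟨0, by omega⟩
    have z1 : z * b = b * z := by simpa [α] using hz ⟨1, by omega⟩
    have z2 : z * c = c * z := by simpa [α] using hz ⟨2, by omega⟩
    have z3 : z * d = d * z := by simpa [α] using hz ⟨3, by omega⟩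
    have w0 : star z * a = a * star z := by simpa [α] using hzs ⟨0, by omega⟩
    have w1 : star z * b = b * star z := by simpa [α] using hzs ⟨1, by omega⟩
    have w2 : star z * c = c * star z := by simpa [α] using hzs ⟨2, by omega⟩
    have w3 : star z * d = d * star z := by simpa [α] using hzs ⟨3, by omega⟩
    have zv : z * v = v * z := by
      rw [hvcd, mul_add, add_mul, mul_smul_comm, mul_smul_comm, smul_mul_assoc, smul_mul_assoc,
        z2, z3]
    have wv : star z * v = v * star z := by
      rw [hvcd, mul_add, add_mul, mul_smul_comm, mul_smul_comm, smul_mul_assoc, smul_mul_assoc,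
        w2, w3]
    have hN : rel M (mset E) ≤ comm {z} := by
      refine hvgen (comm {z}) (gen_le ?_) ?_
      · rintro x (rfl | rfl)
        · rw [mem_comm]; rintro g rfl; exact ⟨z0, w0⟩
        · rw [mem_comm]; rintro g rfl; exact ⟨z1, w1⟩
      · rw [mem_comm]; rintro g rfl; exact ⟨zv, wv⟩
    exact (mem_comm.1 (hN hy) z rfl).1

end Crest.Agent.R95.G
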