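import Mathlib
import Crest.Prelude.Def_VNFactor

/-! Row 95, S0125 part (helper98). Basic API: 2-norm calculus through the map
`J : x ↦ (x ξ_n)_n` into `lp (fun _ => H) 2`, relative commutants as von Neumann algebras. -/

set_option autoImplicit false
set_option linter.unusedSectionVars false
set_option linter.deprecated false
open Crest.OpAlg
open scoped InnerProductSpace ENNReal

namespace Crest.Agent.R95.G

variable {H : Type*} [NormedAddCommGroup H] [InnerProductSpace ℂ H] [CompleteSpace H]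

/-! ### The vector representation -/

theorem memlp {ξ : ℕ → H} (hs : Summable fun n => ‖ξ n‖ ^ 2) (x : H →L[ℂ] H) :
    Memℓp (fun n => x (ξ n)) 2 := by
  apply memℓp_gen
  simp only [ENNReal.toReal_ofNat, Real.rpow_two]
  refine Summable.of_nonneg_of_le (fun n => by positivity) (fun n => ?_) (hs.mul_left (‖x‖ ^ 2))
  have := x.le_opNorm (ξ n)
  calc ‖x (ξ n)‖ ^ 2 ≤ (‖x‖ * ‖ξ n‖) ^ 2 := by gcongr
    _ = _ := by ring

/-- `J hs x = (x ξ_n)_n`. -/
noncomputable def J {ξ : ℕ → H} (hs : Summable fun n => ‖ξ n‖ ^ 2) :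
    (H →L[ℂ] H) →ₗ[ℂ] lp (fun _ : ℕ => H) 2 where
  toFun x := ⟨fun n => x (ξ n), memlp hs x⟩
  map_add' x y := by ext n; rfl
  map_smul' c x := by ext n; rfl

@[simp] theorem J_apply {ξ : ℕ → H} (hs : Summable fun n => ‖ξ n‖ ^ 2) (x : H →L[ℂ] H) (n : ℕ) :
    (J hs x : ∀ _ : ℕ, H) n = x (ξ n) := rfl

/-- the 2-norm -/
noncomputable def n2 (ξ : ℕ → H) (x : H →L[ℂ] H) : ℝ := Real.sqrt (traceNormSq ξ x)

theorem traceNormSq_nonneg (ξ : ℕ → H) (x : H →L[ℂ] H) : 0 ≤ traceNormSq ξ x :=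
  tsum_nonneg fun _ => by positivity

theorem n2_nonneg (ξ : ℕ → H) (x : H →L[ℂ] H) : 0 ≤ n2 ξ x := Real.sqrt_nonneg _

theorem n2_sq (ξ : ℕ → H) (x : H →L[ℂ] H) : n2 ξ x ^ 2 = traceNormSq ξ x :=
  Real.sq_sqrt (traceNormSq_nonneg ξ x)

section
variable {ξ : ℕ → H} (hs : Summable fun n => ‖ξ n‖ ^ 2)
include hs

theorem norm_J_sq (x : H →L[ℂ] H) : ‖J hs x‖ ^ 2 = traceNormSq ξ x := by
  have h := lp.norm_rpow_eq_tsum (p := 2) (by norm_num) (J hs x)
  simp only [ENNReal.toReal_ofNat, Real.rpow_two] at h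
  rw [h]; rfl

theorem norm_J (x : H →L[ℂ] H) : ‖J hs x‖ = n2 ξ x := by
  rw [n2, ← norm_J_sq hs, Real.sqrt_sq (norm_nonneg _)]

theorem inner_J (x y : H →L[ℂ] H) : ⟪J hs x, J hs y⟫_ℂ = vectorState ξ (star x * y) := by
  rw [lp.inner_eq_tsum, vectorState]
  congr 1
  ext n
  simp only [J_apply, ContinuousLinearMap.mul_apply, ContinuousLinearMap.star_eq_adjoint,
    ContinuousLinearMap.adjoint_inner_right]

theorem inner_J_one (y : H →L[ℂ] H) : ⟪J hs 1, J hs y⟫_ℂ = vectorState ξ y := by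
  rw [inner_J]; simp

theorem vectorState_add (x y : H →L[ℂ] H) :
    vectorState ξ (x + y) = vectorState ξ x + vectorState ξ y := by
  rw [← inner_J_one hs, ← inner_J_one hs, ← inner_J_one hs, map_add, inner_add_right]

theorem vectorState_sub (x y : H →L[ℂ] H) :
    vectorState ξ (x - y) = vectorState ξ x - vectorState ξ y := by
  rw [← inner_J_one hs, ← inner_J_one hs, ← inner_J_one hs, map_sub, inner_sub_right]

theorem vectorState_smul (c : ℂ) (x : H →L[ℂ] H) :
    vectorState ξ (c • x) = c * vectorState ξ x := by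
  rw [← inner_J_one hs, ← inner_J_one hs, map_smul, inner_smul_right]

theorem vectorState_zero : vectorState ξ (0 : H →L[ℂ] H) = 0 := by
  simp [vectorState]

theorem vectorState_neg (x : H →L[ℂ] H) : vectorState ξ (-x) = - vectorState ξ x := by
  have := vectorState_smul hs (-1) x
  simpa using this

theorem vectorState_sum {ι : Type*} (s : Finset ι) (f : ι → (H →L[ℂ] H)) :
    vectorState ξ (∑ i ∈ s, f i) = ∑ i ∈ s, vectorState ξ (f i) := by
  classical
  induction s using Finset.induction_on with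
  | empty => simp [vectorState]
  | insert a s ha ih => rw [Finset.sum_insert ha, Finset.sum_insert ha, vectorState_add hs, ih]

theorem vectorState_star (x : H →L[ℂ] H) :
    vectorState ξ (star x) = (starRingEnd ℂ) (vectorState ξ x) := by
  have h1 := inner_J hs x 1
  rw [mul_one] at h1
  rw [← h1, ← inner_J_one hs, inner_conj_symm]

theorem n2_add_le (x y : H →L[ℂ] H) : n2 ξ (x + y) ≤ n2 ξ x + n2 ξ y := by
  rw [← norm_J hs, ← norm_J hs, ← norm_J hs, map_add]; exact norm_add_le _ _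

theorem n2_sub_le (x y : H →L[ℂ] H) : n2 ξ (x - y) ≤ n2 ξ x + n2 ξ y := by
  rw [← norm_J hs, ← norm_J hs, ← norm_J hs, map_sub]; exact norm_sub_le _ _

theorem n2_sub_comm (x y : H →L[ℂ] H) : n2 ξ (x - y) = n2 ξ (y - x) := by
  rw [← norm_J hs, ← norm_J hs, map_sub, map_sub]; exact norm_sub_rev _ _

theorem n2_smul (c : ℂ) (x : H →L[ℂ] H) : n2 ξ (c • x) = ‖c‖ * n2 ξ x := by
  rw [← norm_J hs, ← norm_J hs, map_smul, norm_smul]

theorem n2_zero : n2 ξ (0 : H →L[ℂ] H) = 0 := by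
  rw [← norm_J hs, map_zero, norm_zero]

theorem n2_neg (x : H →L[ℂ] H) : n2 ξ (-x) = n2 ξ x := by
  rw [← norm_J hs, ← norm_J hs, map_neg, norm_neg]

theorem n2_sum_le {ι : Type*} (s : Finset ι) (f : ι → (H →L[ℂ] H)) :
    n2 ξ (∑ i ∈ s, f i) ≤ ∑ i ∈ s, n2 ξ (f i) := by
  rw [← norm_J hs, map_sum]
  refine (norm_sum_le _ _).trans (le_of_eq ?_)
  exact Finset.sum_congr rfl fun i _ => norm_J hs _

/-- Cauchy-Schwarz -/
theorem norm_vectorState_star_mul_le (x y : H →L[ℂ] H) :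
    ‖vectorState ξ (star x * y)‖ ≤ n2 ξ x * n2 ξ y := by
  rw [← inner_J hs, ← norm_J hs, ← norm_J hs]; exact norm_inner_le_norm _ _

/-- left multiplication -/
theorem n2_mul_le (x y : H →L[ℂ] H) : n2 ξ (x * y) ≤ ‖x‖ * n2 ξ y := by
  have h : traceNormSq ξ (x * y) ≤ ‖x‖ ^ 2 * traceNormSq ξ y := by
    have h1 : Summable fun n => ‖y (ξ n)‖ ^ 2 := by
      have := (memℓp_gen_iff (p := 2) (by norm_num)).1 (memlp hs y)
      simpa using this
    have h2 : Summable fun n => ‖(x * y) (ξ n)‖ ^ 2 := by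
      have := (memℓp_gen_iff (p := 2) (by norm_num)).1 (memlp hs (x * y))
      simpa using this
    rw [traceNormSq, traceNormSq, ← tsum_mul_left]
    refine Summable.tsum_le_tsum (fun n => ?_) h2 (h1.mul_left _)
    have := x.le_opNorm (y (ξ n))
    calc ‖(x * y) (ξ n)‖ ^ 2 = ‖x (y (ξ n))‖ ^ 2 := rfl
      _ ≤ (‖x‖ * ‖y (ξ n)‖) ^ 2 := by gcongr
      _ = _ := by ring
  calc n2 ξ (x * y) ≤ Real.sqrt (‖x‖ ^ 2 * traceNormSq ξ y) := Real.sqrt_le_sqrt h
    _ = _ := by rw [Real.sqrt_mul (by positivity), Real.sqrt_sq (norm_nonneg _), n2]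

theorem vectorState_self (x : H →L[ℂ] H) :
    vectorState ξ (star x * x) = ((n2 ξ x ^ 2 : ℝ) : ℂ) := by
  rw [← inner_J hs, inner_self_eq_norm_sq_to_K, norm_J hs]; norm_cast

end

/-! ### The tracial situation -/

theorem summable_of {M : VonNeumannAlgebra H} {ξ : ℕ → H} (hξ : IsFaithfulTracialVectorState M ξ) :
    Summable fun n => ‖ξ n‖ ^ 2 := hξ.1.summable

section
variable {M : VonNeumannAlgebra H} {ξ : ℕ → H} (hξ : IsFaithfulTracialVectorState M ξ)
include hξ

theorem vectorState_one : vectorState ξ (1 : H →L[ℂ] H) = 1 := by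
  have h : vectorState ξ (1 : H →L[ℂ] H) = ((n2 ξ (1 : H →L[ℂ] H) ^ 2 : ℝ) : ℂ) := by
    have := vectorState_self (summable_of hξ) (1 : H →L[ℂ] H)
    simpa using this
  rw [h, n2_sq]
  have : traceNormSq ξ (1 : H →L[ℂ] H) = 1 := by
    simp only [traceNormSq, ContinuousLinearMap.one_apply]
    exact hξ.1.tsum_eq
  rw [this]; simp

theorem n2_one : n2 ξ (1 : H →L[ℂ] H) = 1 := by
  have : traceNormSq ξ (1 : H →L[ℂ] H) = 1 := by
    simp only [traceNormSq, ContinuousLinearMap.one_apply]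
    exact hξ.1.tsum_eq
  rw [n2, this, Real.sqrt_one]

theorem trace_comm {x y : H →L[ℂ] H} (hx : x ∈ M) (hy : y ∈ M) :
    vectorState ξ (x * y) = vectorState ξ (y * x) := hξ.2.1 x hx y hy

theorem n2_star {x : H →L[ℂ] H} (hx : x ∈ M) : n2 ξ (star x) = n2 ξ x := by
  have h1 := vectorState_self (summable_of hξ) x
  have h2 := vectorState_self (summable_of hξ) (star x)
  rw [star_star, trace_comm hξ hx (star_mem hx), h1] at h2
  have h3 : n2 ξ x ^ 2 = n2 ξ (star x) ^ 2 := by exact_mod_cast h2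
  exact ((pow_left_inj₀ (n2_nonneg _ _) (n2_nonneg _ _) two_ne_zero).1 h3).symm

theorem n2_le_norm (x : H →L[ℂ] H) : n2 ξ x ≤ ‖x‖ := by
  have := n2_mul_le (summable_of hξ) x 1
  rwa [mul_one, n2_one hξ, mul_one] at this

/-- right multiplication -/
theorem n2_mul_le_right {x y : H →L[ℂ] H} (hx : x ∈ M) (hy : y ∈ M) :
    n2 ξ (x * y) ≤ n2 ξ x * ‖y‖ := by
  rw [← n2_star hξ (mul_mem hx hy), star_mul]
  refine (n2_mul_le (summable_of hξ) _ _).trans ?_
  rw [norm_star, n2_star hξ hx, mul_comm]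

theorem eq_zero_of_n2 {x : H →L[ℂ] H} (hx : x ∈ M) (h : n2 ξ x = 0) : x = 0 := by
  have h1 : J (summable_of hξ) x = 0 := by
    rw [← norm_eq_zero, norm_J, h]
  refine hξ.2.2 x hx fun n => ?_
  rw [← J_apply (summable_of hξ) x n, h1]; rfl

theorem norm_vectorState_le (x : H →L[ℂ] H) : ‖vectorState ξ x‖ ≤ n2 ξ x := by
  have := norm_vectorState_star_mul_le (summable_of hξ) 1 x
  simpa [n2_one hξ] using this

/-- passing to a smaller algebra -/
theorem tracial_mono {N : VonNeumannAlgebra H} (h : N ≤ M) :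
    IsFaithfulTracialVectorState N ξ :=
  ⟨hξ.1, fun x hx y hy => hξ.2.1 x (h hx) y (h hy), fun x hx => hξ.2.2 x (h hx)⟩

end

/-! ### Scalars, relative commutants -/

theorem smul_mem' (M : VonNeumannAlgebra H) (c : ℂ) {x : H →L[ℂ] H} (hx : x ∈ M) : c • x ∈ M :=
  M.toStarSubalgebra.smul_mem hx c

theorem sum_mem' (M : VonNeumannAlgebra H) {ι : Type*} (s : Finset ι) {f : ι → (H →L[ℂ] H)}
    (hf : ∀ i ∈ s, f i ∈ M) : ∑ i ∈ s, f i ∈ M :=
  sum_mem hf

/-- the commutant of the star closure of a set, as a von Neumann algebra -/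
noncomputable def comm (S : Set (H →L[ℂ] H)) : VonNeumannAlgebra H where
  toStarSubalgebra := StarSubalgebra.centralizer ℂ S
  centralizer_centralizer' := by
    change Set.centralizer (Set.centralizer
      ((StarSubalgebra.centralizer ℂ S : StarSubalgebra ℂ (H →L[ℂ] H)) : Set (H →L[ℂ] H))) =
      ((StarSubalgebra.centralizer ℂ S : StarSubalgebra ℂ (H →L[ℂ] H)) : Set (H →L[ℂ] H))
    rw [StarSubalgebra.coe_centralizer, Set.centralizer_centralizer_centralizer]

theorem mem_comm {S : Set (H →L[ℂ] H)} {z : H →L[ℂ] H} :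
    z ∈ comm S ↔ ∀ g ∈ S, g * z = z * g ∧ star g * z = z * star g :=
  StarSubalgebra.mem_centralizer_iff ℂ

theorem mem_comm_of_star {S : Set (H →L[ℂ] H)} (hS : ∀ g ∈ S, star g ∈ S) {z : H →L[ℂ] H} :
    z ∈ comm S ↔ ∀ g ∈ S, g * z = z * g := by
  rw [mem_comm]
  exact ⟨fun h g hg => (h g hg).1, fun h g hg => ⟨h g hg, h _ (hS g hg)⟩⟩

/-- `z ∈ M` iff `z` commutes with the commutant -/
theorem mem_iff_commutant (M : VonNeumannAlgebra H) {z : H →L[ℂ] H} :
    z ∈ M ↔ ∀ g ∈ M.commutant, g * z = z * g := by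
  conv_lhs => rw [← VonNeumannAlgebra.commutant_commutant M]
  exact VonNeumannAlgebra.mem_commutant_iff

/-- the relative commutant `M ∩ S'` (S star closed) -/
noncomputable def rel (M : VonNeumannAlgebra H) (S : Set (H →L[ℂ] H)) : VonNeumannAlgebra H :=
  comm ((M.commutant : Set (H →L[ℂ] H)) ∪ S)

theorem mem_rel {M : VonNeumannAlgebra H} {S : Set (H →L[ℂ] H)} (hS : ∀ g ∈ S, star g ∈ S)
    {z : H →L[ℂ] H} : z ∈ rel M S ↔ z ∈ M ∧ ∀ g ∈ S, g * z = z * g := by
  rw [rel, mem_comm_of_star, mem_iff_commutant M]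
  · constructor
    · intro h
      exact ⟨fun g hg => h g (Or.inl hg), fun g hg => h g (Or.inr hg)⟩
    · rintro ⟨h1, h2⟩ g (hg | hg)
      · exact h1 g hg
      · exact h2 g hg
  · rintro g (hg | hg)
    · exact Or.inl (star_mem hg : star g ∈ M.commutant)
    · exact Or.inr (hS g hg)

/-- the von Neumann algebra generated by a set -/
noncomputable def gen (S : Set (H →L[ℂ] H)) : VonNeumannAlgebra H := (comm S).commutant

theorem subset_gen (S : Set (H →L[ℂ] H)) : S ⊆ gen S := by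
  intro x hx
  change x ∈ (comm S).commutant
  rw [VonNeumannAlgebra.mem_commutant_iff]
  intro g hg
  exact ((mem_comm.1 hg) x hx).1.symm

theorem gen_le {S : Set (H →L[ℂ] H)} {N : VonNeumannAlgebra H} (h : ∀ x ∈ S, x ∈ N) :
    gen S ≤ N := by
  intro x hx
  rw [mem_iff_commutant N]
  intro g hg
  refine VonNeumannAlgebra.mem_commutant_iff.1 hx g ?_
  rw [mem_comm]
  intro s hs
  have h1 := VonNeumannAlgebra.mem_commutant_iff.1 hg s (h s hs)
  have h2 := VonNeumannAlgebra.mem_commutant_iff.1 hg (star s) (star_mem (h s hs))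
  exact ⟨h1, h2⟩

end Crest.Agent.R95.G
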