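import Crest.Agent.R95.SpecB

/-!
# Row 95, piece SPECC: from self-adjoint contractions to projections

If a self-adjoint contraction `h' ∈ P`, `e h' = h'`, has `n2 (b h' - h' b) > 2 D`, then there is a
projection `f ∈ P`, `f e = f`, with `n2 (b f - f b) > D`.
Proof: `a = (h' + e)/2` satisfies `0 ≤ a ≤ e` (as forms); `layer_cake` gives `f_k`; with `T = e`
(commutes with `a`) `e` commutes with `f_k`, and for `u = f_k (1 - e) v` we have `f_k u = u`,
`e u = 0`, `a u = 0`, so `(1/n) ‖u‖² ≤ 0`; hence `f_k e = f_k`.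
`[b, h'] = 2 [b, a]` because `e b = b = b e`, and
`n2 [b, a] ≤ (1/n) ∑ n2 [b, f_k] + (2/n) ‖b‖`; take `n` large: some `k` has `n2 [b, f_k] > D`.
-/

set_option autoImplicit false

namespace Crest.Agent.R95

open Crest.OpAlg
open scoped InnerProductSpace ComplexConjugate Topology

variable {H : Type*} [NormedAddCommGroup H] [InnerProductSpace ℂ H] [CompleteSpace H]
variable {ξ : ℕ → H} {P M : VonNeumannAlgebra H}

theorem exists_proj_comm (h : Trc M ξ) (hPM : P ≤ M) {e h' b : H →L[ℂ] H} (he : Pj P e)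
    (hh : h' ∈ P) (hs : IsSelfAdjoint h') (hn : ‖h'‖ ≤ 1) (heh : e * h' = h') (hb : b ∈ M)
    (heb : e * b = b) (hbe : b * e = b) (D : ℝ) (hD0 : 0 ≤ D)
    (hD : 2 * D < n2 ξ (b * h' - h' * b)) :
    ∃ f, Pj P f ∧ f * e = f ∧ D < n2 ξ (b * f - f * b) := by
  have hnr : Nr ξ := h.1
  have hes : star e = e := he.2.isSelfAdjoint
  have hee : e * e = e := he.2.isIdempotentElem
  have hhe : h' * e = h' := by
    have := congrArg star heh
    rw [star_mul, hs.star_eq, hes] at this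
    exact this
  set a : H →L[ℂ] H := (1 / 2 : ℂ) • (h' + e) with ha_def
  have haP : a ∈ P := vn_smul_mem P _ (add_mem hh he.1)
  have has : IsSelfAdjoint a := by
    rw [ha_def, isSelfAdjoint_iff, star_smul, star_add, hs.star_eq, hes]
    congr 1
    simp
  have hea : e * a = a := by
    rw [ha_def, mul_smul_comm, mul_add, heh, hee]
  have hae : a * e = a := by
    rw [ha_def, smul_mul_assoc, add_mul, hhe, hee]
  -- norms of `e v`
  have hev : ∀ v : H, (⟪v, e v⟫_ℂ).re = ‖e v‖ ^ 2 := by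
    intro v
    have h1 : ⟪v, e v⟫_ℂ = ⟪e v, e v⟫_ℂ := by
      have h2 : e v = e (e v) := by
        have := congrArg (fun T : H →L[ℂ] H => T v) hee
        simpa using this.symm
      have h3 : ⟪e v, e v⟫_ℂ = ⟪v, (star e) (e v)⟫_ℂ := by
        rw [ContinuousLinearMap.star_eq_adjoint, ContinuousLinearMap.adjoint_inner_right]
      rw [h3, hes, ← h2]
    rw [h1, inner_self_eq_norm_sq_to_K]
    norm_cast
  have hhv : ∀ v : H, |(⟪v, h' v⟫_ℂ).re| ≤ ‖e v‖ ^ 2 := by
    intro v
    have h1 : ⟪v, h' v⟫_ℂ = ⟪e v, h' (e v)⟫_ℂ := by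
      have h2 : h' v = e (h' (e v)) := by
        have h4 : h' = e * h' * e := by rw [heh, hhe]
        have := congrArg (fun T : H →L[ℂ] H => T v) h4
        simpa using this
      have h3 : ⟪e v, h' (e v)⟫_ℂ = ⟪v, (star e) (h' (e v))⟫_ℂ := by
        rw [ContinuousLinearMap.star_eq_adjoint, ContinuousLinearMap.adjoint_inner_right]
      rw [h3, hes, ← h2]
    rw [h1]
    calc |(⟪e v, h' (e v)⟫_ℂ).re| ≤ ‖⟪e v, h' (e v)⟫_ℂ‖ := Complex.abs_re_le_norm _
      _ ≤ ‖e v‖ * ‖h' (e v)‖ := norm_inner_le_norm _ _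
      _ ≤ ‖e v‖ * (1 * ‖e v‖) := by
          gcongr
          exact (h'.le_opNorm _).trans (by gcongr)
      _ = ‖e v‖ ^ 2 := by ring
  have hav : ∀ v : H, (⟪v, a v⟫_ℂ).re = 1 / 2 * ((⟪v, h' v⟫_ℂ).re + ‖e v‖ ^ 2) := by
    intro v
    have h1 : a v = (1 / 2 : ℂ) • (h' v + e v) := by
      rw [ha_def]; simp
    rw [h1, inner_smul_right, inner_add_right]
    have h2 : ((1 / 2 : ℂ) * (⟪v, h' v⟫_ℂ + ⟪v, e v⟫_ℂ)).re
        = 1 / 2 * ((⟪v, h' v⟫_ℂ).re + (⟪v, e v⟫_ℂ).re) := by
      have h3 : (1 / 2 : ℂ) = ((1 / 2 : ℝ) : ℂ) := by push_cast; ring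
      rw [h3, Complex.re_ofReal_mul, Complex.add_re]
    rw [h2, hev]
  have hevle : ∀ v : H, ‖e v‖ ≤ ‖v‖ := by
    intro v
    have := (e.le_opNorm v).trans (mul_le_mul_of_nonneg_right (pj_norm_le he.2) (norm_nonneg v))
    simpa using this
  have h0 : ∀ v : H, 0 ≤ (⟪v, a v⟫_ℂ).re := by
    intro v
    rw [hav]
    have := abs_le.1 (hhv v)
    linarith [this.1]
  have h1 : ∀ v : H, (⟪v, a v⟫_ℂ).re ≤ ‖v‖ ^ 2 := by
    intro v
    rw [hav]
    have := abs_le.1 (hhv v)
    have h2 : ‖e v‖ ^ 2 ≤ ‖v‖ ^ 2 := by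
      have := hevle v
      gcongr
    linarith [this.2]
  set X := n2 ξ (b * h' - h' * b) with hX
  have hcomm : b * h' - h' * b = (2 : ℂ) • (b * a - a * b) := by
    have h3 : b * a - a * b = (1 / 2 : ℂ) • (b * h' - h' * b) := by
      rw [ha_def, mul_smul_comm, smul_mul_assoc, ← smul_sub, mul_add, add_mul, hbe, heb]
      congr 1
      abel
    rw [h3, smul_smul]
    norm_num
  have hXa : X = 2 * n2 ξ (b * a - a * b) := by
    rw [hX, hcomm, n2_smul]
    norm_num
  obtain ⟨n, hn1⟩ := exists_nat_gt (max 1 (2 * ‖b‖ / (X / 2 - D)))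
  have hXD : 0 < X / 2 - D := by linarith
  have hn2 : 1 ≤ n := by
    have : (1 : ℝ) < n := lt_of_le_of_lt (le_max_left _ _) hn1
    exact_mod_cast this.le
  have hnpos : (0 : ℝ) < n := by exact_mod_cast hn2
  have hn3 : 2 * ‖b‖ / n < X / 2 - D := by
    have h4 : 2 * ‖b‖ / (X / 2 - D) < n := lt_of_le_of_lt (le_max_right _ _) hn1
    rw [div_lt_iff₀ hXD] at h4
    rw [div_lt_iff₀ hnpos]
    linarith
  obtain ⟨f, hf1, hf2, hf3, hf4⟩ := layer_cake P haP has h0 h1 n hn2
  have hfe : ∀ k, f k * e = f k := by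
    intro k
    have hc : e * f k = f k * e := hf2 k e (by rw [hea, hae])
    have hff : f k * f k = f k := (hf1 k).2.isIdempotentElem
    have hz : f k * (1 - e) = 0 := by
      ext v
      set u : H := f k ((1 - e) v) with hu
      have hfu : f k u = u := by
        have := congrArg (fun T : H →L[ℂ] H => T ((1 - e) v)) hff
        simpa [hu] using this
      have h5 : e * f k * (1 - e) = 0 := by
        rw [hc, mul_assoc, mul_sub, mul_one, hee, sub_self, mul_zero]
      have heu : e u = 0 := by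
        have := congrArg (fun T : H →L[ℂ] H => T v) h5
        simpa [hu] using this
      have hau : a u = 0 := by
        have := congrArg (fun T : H →L[ℂ] H => T u) hae
        have h9 : a (e u) = a u := by simpa using this
        rw [← h9, heu, map_zero]
      have h6 := hf3 k u
      rw [hfu, hau, inner_zero_right, Complex.zero_re] at h6
      have h7 : ‖u‖ ^ 2 ≤ 0 := by
        have h8 : (0 : ℝ) < 1 / n := by positivity
        by_contra h9
        push Not at h9
        have := mul_pos h8 h9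
        linarith
      have h10 : ‖u‖ = 0 := by
        have := sq_nonneg ‖u‖
        exact pow_eq_zero_iff (two_ne_zero) |>.1 (le_antisymm h7 this)
      have h11 : u = 0 := norm_eq_zero.1 h10
      simpa [hu] using h11
    rw [mul_sub, mul_one, sub_eq_zero] at hz
    exact hz.symm
  by_contra hcon
  push Not at hcon
  have hle : ∀ k, n2 ξ (b * f k - f k * b) ≤ D := fun k => hcon (f k) (hf1 k) (hfe k)
  set r : H →L[ℂ] H := a - (1 / n : ℂ) • ∑ k, f k with hr
  have hdec : b * a - a * b = (b * r - r * b) + (1 / n : ℂ) • ∑ k, (b * f k - f k * b) := by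
    have key : ∀ (A S : H →L[ℂ] H) (c : ℂ),
        b * A - A * b = (b * (A - c • S) - (A - c • S) * b) + c • (b * S - S * b) := by
      intro A S c
      rw [mul_sub, sub_mul, mul_smul_comm, smul_mul_assoc, smul_sub]
      abel
    rw [Finset.sum_sub_distrib, ← Finset.mul_sum, ← Finset.sum_mul]
    exact key a (∑ k, f k) (1 / n : ℂ)
  have hr1 : n2 ξ (b * r - r * b) ≤ 2 * ‖b‖ / n := by
    calc n2 ξ (b * r - r * b) ≤ n2 ξ (b * r) + n2 ξ (r * b) := n2_sub_le hnr _ _
      _ ≤ ‖b * r‖ + ‖r * b‖ := add_le_add (n2_le_norm hnr _) (n2_le_norm hnr _)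
      _ ≤ ‖b‖ * ‖r‖ + ‖r‖ * ‖b‖ := add_le_add (norm_mul_le _ _) (norm_mul_le _ _)
      _ ≤ ‖b‖ * (1 / n) + (1 / n) * ‖b‖ := by gcongr
      _ = 2 * ‖b‖ / n := by ring
  have hsum : n2 ξ ((1 / n : ℂ) • ∑ k, (b * f k - f k * b)) ≤ D := by
    rw [n2_smul]
    have h12 : ‖(1 / n : ℂ)‖ = 1 / n := by simp
    rw [h12]
    calc 1 / (n : ℝ) * n2 ξ (∑ k, (b * f k - f k * b))
        ≤ 1 / (n : ℝ) * ∑ k, n2 ξ (b * f k - f k * b) := by
          gcongr
          exact n2_sum_le hnr _ _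
      _ ≤ 1 / (n : ℝ) * ∑ k : Fin n, D := by
          gcongr with k _
          exact hle k
      _ = D := by
          rw [Finset.sum_const, Finset.card_univ, Fintype.card_fin, nsmul_eq_mul]
          field_simp
  have hfin : n2 ξ (b * a - a * b) ≤ 2 * ‖b‖ / n + D := by
    rw [hdec]
    exact (n2_add_le hnr _ _).trans (add_le_add hr1 hsum)
  linarith

end Crest.Agent.R95
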