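import Crest.Agent.R95.L2a
import Crest.Agent.R95.SpecC

/-!
# Row 95, piece L2: a projection that does not commute with `b`

`Sit P M ξ`, `e ∈ P`, `b ∈ M`, `e b = b = b e`: there is a projection `f ≤ e` in `P` with
`n2 (f b - b f) ≥ (1/8) n2 (b - lam e)`, `lam = τ(b)/τ(e)`.
Proof.  `D₀ = n2 (b - lam e)`; if `D₀ = 0` take `f = 0`.  `l2a` with `D = 0.9 D₀`: `u`.
`n2 (b u - u b) = n2 (b - u b u*)` (multiply by the corner unitary: `(b - u b u*) u = b u - u b`
as `u* u = e`, `b e = b`).  `u = h₁ + i h₂` with self-adjoint contractions of the corner, so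
`n2 (b h' - h' b) ≥ 0.45 D₀ > 2 (1/8) D₀` for one of them; `exists_proj_comm`.
-/

set_option autoImplicit false

namespace Crest.Agent.R95

open Crest.OpAlg
open scoped InnerProductSpace ComplexConjugate

variable {H : Type*} [NormedAddCommGroup H] [InnerProductSpace ℂ H] [CompleteSpace H]
variable {ξ : ℕ → H} {P M : VonNeumannAlgebra H}

theorem l2 (h : Sit P M ξ) {e : H →L[ℂ] H} (he : Pj P e) {b : H →L[ℂ] H} (hb : b ∈ M)
    (heb : e * b = b) (hbe : b * e = b) :
    ∃ f, Pj P f ∧ f * e = f ∧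
      (1 / 8) * n2 ξ (b - (tau ξ b / tau ξ e) • e) ≤ n2 ξ (f * b - b * f) := by
  have hM : Trc M ξ := h.trc
  have hnr : Nr ξ := hM.1
  set D0 := n2 ξ (b - (tau ξ b / tau ξ e) • e) with hD0
  have hD0' : 0 ≤ D0 := n2_nonneg _
  rcases hD0'.eq_or_lt with h0 | h0
  · refine ⟨0, ⟨zero_mem _, IsStarProjection.zero _⟩, zero_mul _, ?_⟩
    rw [← h0, mul_zero]
    exact n2_nonneg _
  obtain ⟨u, hu, hue, hue', hb'⟩ := l2a h he hb heb hbe ((9 / 10) * D0) (by rw [hD0] at h0 ⊢; linarith)
  have hee : e * e = e := he.2.isIdempotentElem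
  have hes : star e = e := he.2.isSelfAdjoint
  -- `u e = u`
  have hu1 : u * e = u := by
    have h1 : star (u * (1 - e)) * (u * (1 - e)) = 0 := by
      have : star (u * (1 - e)) * (u * (1 - e)) = (1 - e) * (star u * u) * (1 - e) := by
        rw [star_mul, star_sub, star_one, hes]; noncomm_ring
      rw [this, hue, sub_mul, one_mul, hee, sub_self, zero_mul]
    have h2 : u * (1 - e) = 0 := CStarRing.star_mul_self_eq_zero_iff _ |>.1 h1
    rw [mul_sub, mul_one, sub_eq_zero] at h2
    exact h2.symm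
  have hu2 : e * u = u := by
    rw [← hue', mul_assoc, hue, hu1]
  have hu3 : e * star u = star u := by
    have := congrArg star hu1
    rwa [star_mul, hes] at this
  have hun : ‖u‖ ≤ 1 := by
    have h1 : ‖u‖ * ‖u‖ ≤ 1 := by
      rw [← CStarRing.norm_star_mul_self, hue]
      exact pj_norm_le he.2
    nlinarith [norm_nonneg u]
  have hsun : ‖star u‖ ≤ 1 := by rw [norm_star]; exact hun
  have hc : (9 / 10) * D0 ≤ n2 ξ (b * u - u * b) := by
    refine hb'.trans ?_
    have h1 : b - u * b * star u = (b * u - u * b) * star u := by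
      rw [sub_mul, mul_assoc b u, hue', hbe]
    rw [h1]
    have h2 := n2_mul_le' hM (x := b * u - u * b) (a := star u)
      (sub_mem (mul_mem hb (h.le hu)) (mul_mem (h.le hu) hb)) (star_mem (h.le hu))
    refine h2.trans ?_
    calc n2 ξ (b * u - u * b) * ‖star u‖ ≤ n2 ξ (b * u - u * b) * 1 :=
          mul_le_mul_of_nonneg_left hsun (n2_nonneg _)
      _ = _ := mul_one _
  -- real and imaginary part
  set h1 : H →L[ℂ] H := (1 / 2 : ℂ) • (u + star u) with hh1
  set h2 : H →L[ℂ] H := (-Complex.I / 2) • (u - star u) with hh2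
  have hdec : u = h1 + Complex.I • h2 := by
    rw [hh1, hh2, smul_smul]
    have : Complex.I * (-Complex.I / 2) = 1 / 2 := by
      have := Complex.I_mul_I
      linear_combination (-1 / 2 : ℂ) * this
    rw [this]
    module
  have hs1 : IsSelfAdjoint h1 := by
    rw [IsSelfAdjoint, hh1, star_smul, star_add, star_star, add_comm (star u) u]
    simp
  have hs2 : IsSelfAdjoint h2 := by
    rw [IsSelfAdjoint, hh2, star_smul, star_sub, star_star, ← neg_sub u (star u), smul_neg,
      ← neg_smul]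
    congr 1
    simp [Complex.ext_iff]
    norm_num
  have hn1 : ‖h1‖ ≤ 1 := by
    rw [hh1, norm_smul]
    have := norm_add_le u (star u)
    have h12 : ‖(1 / 2 : ℂ)‖ = 1 / 2 := by norm_num
    rw [h12]
    linarith
  have hn2 : ‖h2‖ ≤ 1 := by
    rw [hh2, norm_smul]
    have := norm_sub_le u (star u)
    have h12 : ‖(-Complex.I / 2 : ℂ)‖ = 1 / 2 := by
      rw [norm_div, norm_neg, Complex.norm_I]; norm_num
    rw [h12]
    linarith
  have hm1 : h1 ∈ P := vn_smul_mem P _ (add_mem hu (star_mem hu))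
  have hm2 : h2 ∈ P := vn_smul_mem P _ (sub_mem hu (star_mem hu))
  have he1 : e * h1 = h1 := by rw [hh1, mul_smul_comm, mul_add, hu2, hu3]
  have he2 : e * h2 = h2 := by rw [hh2, mul_smul_comm, mul_sub, hu2, hu3]
  have hsplit : n2 ξ (b * u - u * b) ≤ n2 ξ (b * h1 - h1 * b) + n2 ξ (b * h2 - h2 * b) := by
    clear_value h1 h2
    have h3 : b * u - u * b = (b * h1 - h1 * b) + Complex.I • (b * h2 - h2 * b) := by
      rw [hdec, mul_add, add_mul, mul_smul_comm, smul_mul_assoc, smul_sub]
      abel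
    rw [h3]
    refine (n2_add_le hnr _ _).trans ?_
    rw [n2_smul, Complex.norm_I, one_mul]
  have hor : 2 * ((1 / 8) * D0) < n2 ξ (b * h1 - h1 * b) ∨
      2 * ((1 / 8) * D0) < n2 ξ (b * h2 - h2 * b) := by
    by_contra hcon
    push Not at hcon
    linarith [hcon.1, hcon.2]
  rcases hor with hor | hor
  · obtain ⟨f, hf, hfe, hfb⟩ := exists_proj_comm hM h.le he hm1 hs1 hn1 he1 hb heb hbe _
      (by positivity) hor
    refine ⟨f, hf, hfe, ?_⟩
    rw [n2_sub_comm]
    exact hfb.le
  · obtain ⟨f, hf, hfe, hfb⟩ := exists_proj_comm hM h.le he hm2 hs2 hn2 he2 hb heb hbe _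
      (by positivity) hor
    refine ⟨f, hf, hfe, ?_⟩
    rw [n2_sub_comm]
    exact hfb.le

end Crest.Agent.R95
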