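import Crest.Agent.R95.L1
import Crest.Agent.R95.L2s
import Crest.Agent.R95.VNb2

/-!
# Row 95, piece L2A: a unitary of the corner moving `b` far

`Sit P M ξ`, `e ∈ P` projection, `b ∈ M`, `e b = b = b e`, `lam = τ(b)/τ(e)`.  For every
`D < n2 (b - lam e)` there is `u ∈ P` with `u* u = u u* = e` and `n2 (b - u b u*) ≥ D`.
Proof.  Suppose `n2 (b - u b u*) < D` for all such `u` (`e = 0` trivial: then `b = 0`).  Let
`C` = convex hull of `{u b u*}` (finite convex combinations, all of norm `≤ ‖b‖`, all within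
`n2`-distance `≤ D` of `b`).  Let `m = inf_{c ∈ C} n2 c`, `c_k ∈ C` minimizing; by the
parallelogram identity `(c_k)` is `n2`-Cauchy; `vn_complete`: limit `x ∈ M`, `n2 x = m`.
For a corner unitary `u`: `u c_k u* ∈ C` is also minimizing, and `(c_k + u c_k u*)/2 ∈ C`, so
`n2 (c_k - u c_k u*) → 0`, i.e. `u x u* = x`, `u x = x u`.  Every `y ∈ e P e` is a combination of
corner unitaries (self-adjoint contraction `y`: `y ± i √(e - y²)`), so by `l1` `x = c e`, and
`τ(x) = τ(b)` gives `c = lam`.  `n2 (b - x) ≤ D`: contradiction with `D < n2 (b - lam e)`.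
-/

set_option autoImplicit false

namespace Crest.Agent.R95

open Crest.OpAlg
open scoped InnerProductSpace ComplexConjugate

variable {H : Type*} [NormedAddCommGroup H] [InnerProductSpace ℂ H] [CompleteSpace H]
variable {ξ : ℕ → H} {P M : VonNeumannAlgebra H}

namespace L2A

omit [CompleteSpace H] in
theorem rsmul_eq (c : ℝ) (x : H →L[ℂ] H) : c • x = ((c : ℂ)) • x := by
  ext v; simp

theorem n2_rsmul {c : ℝ} (hc : 0 ≤ c) (x : H →L[ℂ] H) : n2 ξ (c • x) = c * n2 ξ x := by
  rw [rsmul_eq, n2_smul, Complex.norm_real, Real.norm_eq_abs, abs_of_nonneg hc]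

theorem n2_par (h : Nr ξ) (x y : H →L[ℂ] H) :
    n2 ξ (x - y) ^ 2 + n2 ξ (x + y) ^ 2 = 2 * n2 ξ x ^ 2 + 2 * n2 ξ y ^ 2 := by
  rw [sub_eq_add_neg, n2_add_sq h, n2_add_sq h, mul_neg, tau_neg, n2_neg, Complex.neg_re]
  ring

/-- corner unitaries -/
def CU (P : VonNeumannAlgebra H) (e u : H →L[ℂ] H) : Prop :=
  u ∈ P ∧ star u * u = e ∧ u * star u = e

theorem cu_right {e u : H →L[ℂ] H} (he : IsStarProjection e) (hu : star u * u = e) :
    u * e = u := by
  have h1 : star (u - u * e) * (u - u * e) = 0 := by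
    have h2 : star e = e := he.isSelfAdjoint
    have h3 : e * e = e := he.isIdempotentElem
    calc star (u - u * e) * (u - u * e)
        = star u * u - star u * u * e - e * (star u * u) + e * (star u * u) * e := by
          rw [star_sub, star_mul, h2]; noncomm_ring
      _ = 0 := by rw [hu, h3, h3]; simp
  have h4 : u - u * e = 0 := by
    rw [← norm_eq_zero, ← mul_self_eq_zero, ← CStarRing.norm_star_mul_self, h1, norm_zero]
  exact (sub_eq_zero.1 h4).symm

theorem cu_left {e u : H →L[ℂ] H} (he : IsStarProjection e) (hu : u * star u = e) :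
    e * u = u := by
  have h1 : star u * e = star u := cu_right he (by rw [star_star]; exact hu)
  have h2 := congrArg star h1
  rw [star_mul, star_star, he.isSelfAdjoint] at h2
  exact h2

theorem cu_norm {e u : H →L[ℂ] H} (he : IsStarProjection e) (hu : star u * u = e) :
    ‖u‖ ≤ 1 := by
  have h1 : ‖u‖ * ‖u‖ ≤ 1 := by
    rw [← CStarRing.norm_star_mul_self, hu]; exact pj_norm_le he
  nlinarith [norm_nonneg u]

theorem cu_mul {e u v : H →L[ℂ] H} (he : IsStarProjection e) (hu : CU P e u) (hv : CU P e v) :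
    CU P e (u * v) := by
  refine ⟨mul_mem hu.1 hv.1, ?_, ?_⟩
  · calc star (u * v) * (u * v) = star v * (star u * u) * v := by
          rw [star_mul]; noncomm_ring
      _ = e := by
        rw [hu.2.1, mul_assoc, cu_left he hv.2.2, hv.2.1]
  · calc u * v * star (u * v) = u * (v * star v) * star u := by
          rw [star_mul]; noncomm_ring
      _ = e := by
        rw [hv.2.2, cu_right he hu.2.1, hu.2.2]

end L2A

open L2A in
theorem l2a (h : Sit P M ξ) {e : H →L[ℂ] H} (he : Pj P e) {b : H →L[ℂ] H} (hb : b ∈ M)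
    (heb : e * b = b) (hbe : b * e = b) (D : ℝ)
    (hD : D < n2 ξ (b - (tau ξ b / tau ξ e) • e)) :
    ∃ u ∈ P, star u * u = e ∧ u * star u = e ∧ D ≤ n2 ξ (b - u * b * star u) := by
  have T := h.trc
  have nr := T.nr
  by_cases he0 : e = 0
  · subst he0
    have hb0 : b = 0 := by rw [← heb]; simp
    subst hb0
    refine ⟨0, zero_mem _, by simp, by simp, ?_⟩
    have h1 : D < 0 := by simpa [n2_zero] using hD
    exact h1.le.trans (n2_nonneg _)
  by_contra hcon
  push Not at hcon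
  have heM : Pj M e := ⟨h.le he.1, he.2⟩
  have hee : e * e = e := he.2.isIdempotentElem
  have hse : star e = e := he.2.isSelfAdjoint
  have hCUe : CU P e e := ⟨he.1, by rw [hse, hee], by rw [hse, hee]⟩
  set G : Set (H →L[ℂ] H) := {x | ∃ u, CU P e u ∧ x = u * b * star u} with hG
  set C : Set (H →L[ℂ] H) := convexHull ℝ G with hC
  set S : Set (H →L[ℂ] H) := {c | c ∈ M ∧ ‖c‖ ≤ ‖b‖ ∧ n2 ξ (b - c) ≤ D ∧ e * c = c ∧ c * e = c ∧
    tau ξ c = tau ξ b} with hS
  have hSconv : Convex ℝ S := by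
    intro x hx y hy s t hs ht hst
    obtain ⟨x1, x2, x3, x4, x5, x6⟩ := hx
    obtain ⟨y1, y2, y3, y4, y5, y6⟩ := hy
    refine ⟨add_mem (vn_rsmul_mem M _ x1) (vn_rsmul_mem M _ y1), ?_, ?_, ?_, ?_, ?_⟩
    · calc ‖s • x + t • y‖ ≤ ‖s • x‖ + ‖t • y‖ := norm_add_le _ _
        _ = s * ‖x‖ + t * ‖y‖ := by
          rw [norm_smul, norm_smul, Real.norm_eq_abs, Real.norm_eq_abs, abs_of_nonneg hs,
            abs_of_nonneg ht]
        _ ≤ s * ‖b‖ + t * ‖b‖ := by gcongr
        _ = ‖b‖ := by rw [← add_mul, hst, one_mul]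
    · have h1 : b - (s • x + t • y) = s • (b - x) + t • (b - y) := by
        have h2 : b = s • b + t • b := by rw [← add_smul, hst, one_smul]
        rw [smul_sub, smul_sub]
        nth_rewrite 1 [h2]
        abel
      rw [h1]
      calc n2 ξ (s • (b - x) + t • (b - y)) ≤ n2 ξ (s • (b - x)) + n2 ξ (t • (b - y)) :=
            n2_add_le nr _ _
        _ = s * n2 ξ (b - x) + t * n2 ξ (b - y) := by rw [n2_rsmul hs, n2_rsmul ht]
        _ ≤ s * D + t * D := by gcongr
        _ = D := by rw [← add_mul, hst, one_mul]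
    · rw [mul_add, mul_smul_comm, mul_smul_comm, x4, y4]
    · rw [add_mul, smul_mul_assoc, smul_mul_assoc, x5, y5]
    · rw [tau_add nr, rsmul_eq, rsmul_eq, tau_smul, tau_smul, x6, y6, ← add_mul]
      have : (s : ℂ) + (t : ℂ) = 1 := by exact_mod_cast hst
      rw [this, one_mul]
  have hGS : G ⊆ S := by
    rintro x ⟨u, hu, rfl⟩
    have huM : u ∈ M := h.le hu.1
    have hsuM : star u ∈ M := star_mem huM
    have hu1 : ‖u‖ ≤ 1 := cu_norm he.2 hu.2.1
    refine ⟨mul_mem (mul_mem huM hb) hsuM, ?_, (hcon u hu.1 hu.2.1 hu.2.2).le, ?_, ?_, ?_⟩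
    · calc ‖u * b * star u‖ ≤ ‖u * b‖ * ‖star u‖ := norm_mul_le _ _
        _ ≤ ‖u‖ * ‖b‖ * ‖star u‖ := by gcongr; exact norm_mul_le _ _
        _ = ‖u‖ * ‖b‖ * ‖u‖ := by rw [norm_star]
        _ ≤ 1 * ‖b‖ * 1 := by gcongr
        _ = ‖b‖ := by ring
    · rw [← mul_assoc, ← mul_assoc, cu_left he.2 hu.2.2]
    · have h1 : star u * e = star u := cu_right he.2 (by rw [star_star]; exact hu.2.2)
      rw [mul_assoc, h1]
    · rw [mul_assoc, tau_comm T huM (mul_mem hb hsuM), mul_assoc, hu.2.1, hbe]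
  have hCS : C ⊆ S := convexHull_min hGS hSconv
  have hconj : ∀ u, CU P e u → ∀ c ∈ C, u * c * star u ∈ C := by
    intro u hu
    have hlin : IsLinearMap ℝ (fun x : H →L[ℂ] H => u * x * star u) :=
      { map_add := fun x y => by simp only [mul_add, add_mul]
        map_smul := fun c x => by simp only [mul_smul_comm, smul_mul_assoc] }
    have h1 : C ⊆ (fun x : H →L[ℂ] H => u * x * star u) ⁻¹' C := by
      refine convexHull_min ?_ ((convex_convexHull ℝ G).is_linear_preimage hlin)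
      rintro x ⟨v, hv, rfl⟩
      refine subset_convexHull ℝ G ⟨u * v, cu_mul he.2 hu hv, ?_⟩
      show u * (v * b * star v) * star u = _
      rw [star_mul]; noncomm_ring
    exact fun c hc => h1 hc
  have hbC : b ∈ C := by
    refine subset_convexHull ℝ G ⟨e, hCUe, ?_⟩
    rw [hse, heb, hbe]
  set m : ℝ := sInf (n2 ξ '' C) with hm
  have hbdd : BddBelow (n2 ξ '' C) := ⟨0, by rintro _ ⟨c, -, rfl⟩; exact n2_nonneg _⟩
  have hmle : ∀ c ∈ C, m ≤ n2 ξ c := fun c hc => csInf_le hbdd ⟨c, hc, rfl⟩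
  have hm0 : 0 ≤ m := le_csInf ⟨_, b, hbC, rfl⟩ (by rintro _ ⟨c, -, rfl⟩; exact n2_nonneg _)
  have hpar : ∀ x ∈ C, ∀ y ∈ C, n2 ξ (x - y) ^ 2 ≤ 2 * n2 ξ x ^ 2 + 2 * n2 ξ y ^ 2 - 4 * m ^ 2 := by
    intro x hx y hy
    have h1 : (1 / 2 : ℝ) • x + (1 / 2 : ℝ) • y ∈ C :=
      convex_convexHull ℝ G hx hy (by norm_num) (by norm_num) (by norm_num)
    have h2 := hmle _ h1
    have h3 : (1 / 2 : ℝ) • x + (1 / 2 : ℝ) • y = (1 / 2 : ℝ) • (x + y) := by rw [smul_add]
    rw [h3, n2_rsmul (by norm_num)] at h2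
    have h4 := n2_par nr x y
    have h5 : m ^ 2 ≤ (1 / 2 * n2 ξ (x + y)) ^ 2 := by gcongr
    nlinarith
  have hseq : ∀ k : ℕ, ∃ c ∈ C, n2 ξ c < m + 1 / ((k : ℝ) + 1) := by
    intro k
    have h1 : m < m + 1 / ((k : ℝ) + 1) := by
      have : (0 : ℝ) < 1 / ((k : ℝ) + 1) := by positivity
      linarith
    have hne : (n2 ξ '' C).Nonempty := ⟨n2 ξ b, b, hbC, rfl⟩
    obtain ⟨_, ⟨c, hc, rfl⟩, hlt⟩ := exists_lt_of_csInf_lt hne h1
    exact ⟨c, hc, hlt⟩
  choose c hcC hclt using hseq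
  -- the gap function
  set g : ℕ → ℝ := fun k => 4 * ((m + 1 / ((k : ℝ) + 1)) ^ 2 - m ^ 2) with hg
  have hg0 : Filter.Tendsto g Filter.atTop (nhds 0) := by
    have h1 : Filter.Tendsto (fun k : ℕ => 1 / ((k : ℝ) + 1)) Filter.atTop (nhds 0) :=
      tendsto_one_div_add_atTop_nhds_zero_nat
    have h2 : Filter.Tendsto g Filter.atTop (nhds (4 * ((m + 0) ^ 2 - m ^ 2))) :=
      (((tendsto_const_nhds.add h1).pow 2).sub tendsto_const_nhds).const_mul 4
    simpa using h2
  have hgnn : ∀ k, 0 ≤ g k := by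
    intro k
    have : (0 : ℝ) ≤ 1 / ((k : ℝ) + 1) := by positivity
    have h2 : m ^ 2 ≤ (m + 1 / ((k : ℝ) + 1)) ^ 2 := by gcongr; linarith
    simp only [hg]; linarith
  have hsq : ∀ k, n2 ξ (c k) ^ 2 ≤ (m + 1 / ((k : ℝ) + 1)) ^ 2 := by
    intro k
    have := (hclt k).le
    have h0 := n2_nonneg (ξ := ξ) (c k)
    gcongr
  have hganti : ∀ {k l : ℕ}, k ≤ l → (m + 1 / ((l : ℝ) + 1)) ^ 2 ≤ (m + 1 / ((k : ℝ) + 1)) ^ 2 := by
    intro k l hkl
    have h1 : 1 / ((l : ℝ) + 1) ≤ 1 / ((k : ℝ) + 1) := by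
      have : (k : ℝ) ≤ l := by exact_mod_cast hkl
      gcongr
    have h2 : (0 : ℝ) ≤ 1 / ((l : ℝ) + 1) := by positivity
    gcongr
  have hcau : ∀ ε : ℝ, 0 < ε → ∃ N, ∀ k l, N ≤ k → N ≤ l → n2 ξ (c k - c l) ≤ ε := by
    intro ε hε
    obtain ⟨N, hN⟩ := (hg0.eventually_lt_const (show (0 : ℝ) < ε ^ 2 by positivity)).exists
    refine ⟨N, fun k l hk hl => ?_⟩
    have h1 := hpar _ (hcC k) _ (hcC l)
    have h2 := hsq k
    have h3 := hsq l
    have h4 := hganti hk
    have h5 := hganti hl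
    have h6 : n2 ξ (c k - c l) ^ 2 ≤ ε ^ 2 := by
      simp only [hg] at hN
      linarith
    exact le_of_sq_le_sq h6 hε.le
  obtain ⟨y, hyM, hyn, hlim⟩ := vn_complete T c (fun k => (hCS (hcC k)).1) ‖b‖
    (fun k => (hCS (hcC k)).2.1) hcau
  -- invariance of the limit
  have hlim2 : ∀ (F : ℕ → ℝ) (a : ℝ), Filter.Tendsto F Filter.atTop (nhds 0) →
      (∀ k, a ≤ F k) → a ≤ 0 := fun F a hF ha => ge_of_tendsto' hF ha
  have hye : e * y = y := by
    have h1 : n2 ξ (e * y - y) ≤ 0 := by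
      refine hlim2 (fun k => 2 * n2 ξ (c k - y)) _ (by simpa using hlim.const_mul 2) fun k => ?_
      have h2 : e * y - y = -(e * (c k - y)) + (c k - y) := by
        rw [mul_sub, (hCS (hcC k)).2.2.2.1]; abel
      rw [h2]
      have h3 := n2_add_le nr (-(e * (c k - y))) (c k - y)
      rw [n2_neg] at h3
      have h4 := n2_mul_le nr e (c k - y)
      have h5 : ‖e‖ * n2 ξ (c k - y) ≤ 1 * n2 ξ (c k - y) := by
        gcongr
        · exact n2_nonneg _
        · exact pj_norm_le he.2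
      linarith
    have h6 := n2_eq_zero T (sub_mem (mul_mem heM.1 hyM) hyM) (le_antisymm h1 (n2_nonneg _))
    exact sub_eq_zero.1 h6
  have hye' : y * e = y := by
    have h1 : n2 ξ (y * e - y) ≤ 0 := by
      refine hlim2 (fun k => 2 * n2 ξ (c k - y)) _ (by simpa using hlim.const_mul 2) fun k => ?_
      have h2 : y * e - y = -((c k - y) * e) + (c k - y) := by
        rw [sub_mul, (hCS (hcC k)).2.2.2.2.1]; abel
      rw [h2]
      have h3 := n2_add_le nr (-((c k - y) * e)) (c k - y)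
      rw [n2_neg] at h3
      have h4 := n2_mul_le' T (sub_mem (hCS (hcC k)).1 hyM) heM.1
      have h5 : n2 ξ (c k - y) * ‖e‖ ≤ n2 ξ (c k - y) * 1 := by
        gcongr
        · exact n2_nonneg _
        · exact pj_norm_le he.2
      linarith
    have h6 := n2_eq_zero T (sub_mem (mul_mem hyM heM.1) hyM) (le_antisymm h1 (n2_nonneg _))
    exact sub_eq_zero.1 h6
  have hytau : tau ξ y = tau ξ b := by
    have h1 : ‖tau ξ b - tau ξ y‖ ≤ 0 := by
      refine hlim2 (fun k => n2 ξ (c k - y)) _ hlim fun k => ?_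
      rw [← (hCS (hcC k)).2.2.2.2.2, ← tau_sub nr]
      exact norm_tau_le_n2 nr _
    have h2 : tau ξ b - tau ξ y = 0 := norm_eq_zero.1 (le_antisymm h1 (norm_nonneg _))
    exact (sub_eq_zero.1 h2).symm
  have hinv : ∀ u, CU P e u → u * y * star u = y := by
    intro u hu
    have huM : u ∈ M := h.le hu.1
    have hsuM : star u ∈ M := star_mem huM
    have hu1 : ‖u‖ ≤ 1 := cu_norm he.2 hu.2.1
    have hcontr : ∀ z ∈ M, n2 ξ (u * z * star u) ≤ n2 ξ z := by
      intro z hz
      have h1 := n2_mul_le' T (mul_mem huM hz) hsuM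
      rw [norm_star] at h1
      have h2 := n2_mul_le nr u z
      have h3 : n2 ξ (u * z) ≤ n2 ξ z := by
        refine h2.trans ?_
        calc ‖u‖ * n2 ξ z ≤ 1 * n2 ξ z := by
              gcongr
              exact n2_nonneg _
          _ = n2 ξ z := one_mul _
      calc n2 ξ (u * z * star u) ≤ n2 ξ (u * z) * ‖u‖ := h1
        _ ≤ n2 ξ (u * z) * 1 := by
            gcongr
            exact n2_nonneg _
        _ = n2 ξ (u * z) := mul_one _
        _ ≤ n2 ξ z := h3
    have hgap : ∀ k, n2 ξ (c k - u * c k * star u) ≤ Real.sqrt (g k) := by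
      intro k
      apply Real.le_sqrt_of_sq_le
      have h1 := hpar _ (hcC k) _ (hconj u hu _ (hcC k))
      have h2 := hsq k
      have h3 := hcontr (c k) (hCS (hcC k)).1
      have h4 : n2 ξ (u * c k * star u) ^ 2 ≤ n2 ξ (c k) ^ 2 := by
        have := n2_nonneg (ξ := ξ) (u * c k * star u)
        gcongr
      simp only [hg]
      linarith
    have hsqrt : Filter.Tendsto (fun k => Real.sqrt (g k)) Filter.atTop (nhds 0) := by
      have h7 := (Real.continuous_sqrt.tendsto 0).comp hg0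
      rw [Real.sqrt_zero] at h7
      exact h7
    have h1 : n2 ξ (u * y * star u - y) ≤ 0 := by
      refine hlim2 (fun k => Real.sqrt (g k) + 2 * n2 ξ (c k - y)) _
        (by simpa using hsqrt.add (hlim.const_mul 2)) fun k => ?_
      have h2 : u * y * star u - y =
          -(u * (c k - y) * star u) + (-(c k - u * c k * star u) + (c k - y)) := by
        noncomm_ring
      rw [h2]
      have h3 := n2_add_le nr (-(u * (c k - y) * star u))
        (-(c k - u * c k * star u) + (c k - y))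
      have h4 := n2_add_le nr (-(c k - u * c k * star u)) (c k - y)
      rw [n2_neg] at h3 h4
      have h5 := hcontr (c k - y) (sub_mem (hCS (hcC k)).1 hyM)
      have h6 := hgap k
      linarith
    have h6 := n2_eq_zero T (sub_mem (mul_mem (mul_mem huM hyM) hsuM) hyM)
      (le_antisymm h1 (n2_nonneg _))
    exact sub_eq_zero.1 h6
  have hcomm : ∀ u, CU P e u → y * u = u * y := by
    intro u hu
    calc y * u = u * y * star u * u := by rw [hinv u hu]
      _ = u * (y * (star u * u)) := by noncomm_ring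
      _ = u * y := by rw [hu.2.1, hye']
  obtain ⟨z, hz⟩ := l1 h he he0 hyM hye hye' (by
    intro w hw hew hwe
    obtain ⟨u, a, hu, hsum⟩ := corner_span he hw hew hwe
    rw [hsum, Finset.mul_sum, Finset.sum_mul]
    refine Finset.sum_congr rfl fun i _ => ?_
    rw [mul_smul_comm, smul_mul_assoc, hcomm (u i) (hu i)])
  have htaue : tau ξ e ≠ 0 := by
    rw [tau_pj he.2]
    have := tr_pos T heM he0
    exact_mod_cast this.ne'
  have hzval : z = tau ξ b / tau ξ e := by
    rw [eq_div_iff htaue, ← hytau, hz, tau_smul]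
  have hfin : n2 ξ (b - y) ≤ D := by
    have h1 : n2 ξ (b - y) - D ≤ 0 := by
      refine hlim2 (fun k => n2 ξ (c k - y)) _ hlim fun k => ?_
      have h2 := n2_tri nr b (c k) y
      have h3 := (hCS (hcC k)).2.2.1
      linarith
    linarith
  rw [← hzval, ← hz] at hD
  linarith

end Crest.Agent.R95
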