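import Crest.Agent.R95.TrB

/-!
# Row 95, piece L3R: refinement identity for the 2-norm

`B = q b q`, `g = q - f`: `B = fBf + gBg + fBg + gBf`, orthogonal for the trace form, and
`[f, B] = fBg - gBf`.
-/

set_option autoImplicit false

namespace Crest.Agent.R95

open Crest.OpAlg
open scoped InnerProductSpace ComplexConjugate Topology

variable {H : Type*} [NormedAddCommGroup H] [InnerProductSpace ℂ H] [CompleteSpace H]
variable {ξ : ℕ → H} {P M : VonNeumannAlgebra H}

theorem n2_add_sq_orth (h : Nr ξ) {x y : H →L[ℂ] H} (h0 : tau ξ (star x * y) = 0) :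
    n2 ξ (x + y) ^ 2 = n2 ξ x ^ 2 + n2 ξ y ^ 2 := by
  rw [n2_add_sq h, h0]; simp

/-- refinement identity -/
theorem n2_refine (h : Trc M ξ) {q f b : H →L[ℂ] H} (hq : Pj M q) (hf : Pj M f)
    (hfq : f * q = f) (hb : b ∈ M) :
    n2 ξ (q * b * q) ^ 2 = n2 ξ (f * b * f) ^ 2 + n2 ξ ((q - f) * b * (q - f)) ^ 2 +
      n2 ξ (f * (q * b * q) - (q * b * q) * f) ^ 2 := by
  have hqs : star q = q := hq.2.isSelfAdjoint
  have hfs : star f = f := hf.2.isSelfAdjoint
  have hqq : q * q = q := hq.2.isIdempotentElem
  have hff : f * f = f := hf.2.isIdempotentElem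
  have hqf : q * f = f := by
    have := congrArg star hfq
    rwa [star_mul, hqs, hfs] at this
  set g : H →L[ℂ] H := q - f with hg
  have hgs : star g = g := by rw [hg, star_sub, hqs, hfs]
  have hfg : f * g = 0 := by rw [hg, mul_sub, hfq, hff, sub_self]
  have hgf : g * f = 0 := by rw [hg, sub_mul, hqf, hff, sub_self]
  have hgM : g ∈ M := sub_mem hq.1 hf.1
  have hsb : star b ∈ M := star_mem hb
  have e1 : q * b * q = (f * b * f + g * b * g) + (f * b * g + g * b * f) := by
    have : q = f + g := by rw [hg]; abel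
    conv_lhs => rw [this]
    noncomm_ring
  have e2 : f * (q * b * q) - (q * b * q) * f = f * b * g + -(g * b * f) := by
    have h1 : f * (q * b * q) = f * b * q := by
      rw [← mul_assoc, ← mul_assoc, hfq]
    have h2 : (q * b * q) * f = q * b * f := by
      rw [mul_assoc, hqf]
    rw [h1, h2]
    have : q = f + g := by rw [hg]; abel
    conv_lhs => rw [this]
    noncomm_ring
  have z1 : ∀ s t : H →L[ℂ] H, s * f * (g * t) = 0 := by
    intro s t
    rw [mul_assoc, ← mul_assoc f g t, hfg, zero_mul, mul_zero]
  have z2 : ∀ s t : H →L[ℂ] H, s * g * (f * t) = 0 := by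
    intro s t
    rw [mul_assoc, ← mul_assoc g f t, hgf, zero_mul, mul_zero]
  have o1 : tau ξ (star (f * b * f) * (g * b * g)) = 0 := by
    have : star (f * b * f) * (g * b * g) = 0 := by
      rw [star_mul, star_mul, hfs, ← mul_assoc f (star b) f, mul_assoc g b g]
      exact z1 _ _
    rw [this, tau_zero]
  have o2 : tau ξ (star (f * b * f + g * b * g) * (f * b * g + g * b * f)) = 0 := by
    have e : star (f * b * f + g * b * g) * (f * b * g + g * b * f) =
        (f * star b * f * b) * g + (g * star b * g * b) * f := by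
      rw [star_add, star_mul, star_mul, star_mul, star_mul, hfs, hgs, add_mul, mul_add, mul_add,
        ← mul_assoc f (star b) f, ← mul_assoc g (star b) g]
      have a1 : f * star b * f * (g * b * f) = 0 := by rw [mul_assoc g b f]; exact z1 _ _
      have a2 : g * star b * g * (f * b * g) = 0 := by rw [mul_assoc f b g]; exact z2 _ _
      rw [a1, a2, add_zero, zero_add]
      have a3 : f * star b * f * (f * b * g) = f * star b * f * b * g := by
        rw [mul_assoc f b g, mul_assoc (f * star b) f, ← mul_assoc f f, hff]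
        simp only [mul_assoc]
      have hgg : g * g = g := by
        rw [hg, mul_sub, sub_mul, sub_mul, hqq, hfq, hqf, hff]; abel
      have a4 : g * star b * g * (g * b * f) = g * star b * g * b * f := by
        rw [mul_assoc g b f, mul_assoc (g * star b) g, ← mul_assoc g g, hgg]
        simp only [mul_assoc]
      rw [a3, a4]
    rw [e, tau_add h.nr,
      tau_comm h (mul_mem (mul_mem (mul_mem hf.1 hsb) hf.1) hb) hgM,
      tau_comm h (mul_mem (mul_mem (mul_mem hgM hsb) hgM) hb) hf.1]
    have b1 : g * (f * star b * f * b) = 0 := by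
      rw [mul_assoc f (star b) f, mul_assoc f, ← mul_assoc g f, hgf, zero_mul]
    have b2 : f * (g * star b * g * b) = 0 := by
      rw [mul_assoc g (star b) g, mul_assoc g, ← mul_assoc f g, hfg, zero_mul]
    rw [b1, b2, tau_zero, add_zero]
  have o3' : star (f * b * g) * (g * b * f) = 0 := by
    rw [star_mul, star_mul, hfs, hgs, ← mul_assoc g (star b) f, mul_assoc g b f]
    exact z1 _ _
  have o3 : tau ξ (star (f * b * g) * (g * b * f)) = 0 := by rw [o3', tau_zero]
  have o4 : tau ξ (star (f * b * g) * (-(g * b * f))) = 0 := by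
    rw [mul_neg, o3', neg_zero, tau_zero]
  rw [e1, n2_add_sq_orth h.nr o2, n2_add_sq_orth h.nr o1, n2_add_sq_orth h.nr o3]
  have e3 : f * (f * b * f + g * b * g + (f * b * g + g * b * f)) -
      (f * b * f + g * b * g + (f * b * g + g * b * f)) * f = f * b * g + -(g * b * f) := by
    rw [← e1]; exact e2
  rw [e3, n2_add_sq_orth h.nr o4, n2_neg]

end Crest.Agent.R95
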