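import Crest.Agent.R95.L2
import Crest.Agent.R95.L3r

/-!
# Row 95, piece L3: partitions that almost diagonalize to scalars

`Sit P M ξ`, `e ∈ P`, `F ⊆ M` finite, `ε > 0`: there is a finite partition `e = ∑ q_i` into
projections of `P` (zeros allowed) with
`∑_{b ∈ F} ∑_i n2 (q_i b q_i - lam_i(b) q_i)² ≤ ε`, `lam_i(b) = τ(q_i b)/τ(q_i)`.
Proof.  `φ(q) = ∑_b ∑_i n2 (q_i b q_i)²`, `m = inf φ` over all partitions, `q` with
`φ(q) ≤ m + δ`, `δ = ε/(64 |F|+1)`.  For every `i` pick `b_i ∈ F` maximizing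
`n2 (q_i b q_i - lam_i(b) q_i)²` and `f_i ≤ q_i` from `l2` for `q_i b_i q_i`.  The refinement
`{f_i, q_i - f_i}` has `φ` smaller by at least `∑_i n2 ([f_i, q_i b_i q_i])²`: for
`B = q b q`: `n2 (B)² = n2 (fBf + (q-f)B(q-f))² + n2 (fB(q-f) + (q-f)Bf)²`, the last being
`n2 ([f,B])²`; for the other `b ∈ F` it does not increase.  Hence
`(1/64) ∑_i max_b (…)² ≤ δ` and `∑_b ∑_i ≤ |F| ∑_i max_b ≤ 64 |F| δ ≤ ε`.
-/

set_option autoImplicit false

namespace Crest.Agent.R95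

open Crest.OpAlg
open scoped InnerProductSpace ComplexConjugate

variable {H : Type*} [NormedAddCommGroup H] [InnerProductSpace ℂ H] [CompleteSpace H]
variable {ξ : ℕ → H} {P M : VonNeumannAlgebra H}

namespace L3aux

/-- partitions of `e` in `P` -/
def Part (P : VonNeumannAlgebra H) (e : H →L[ℂ] H) {ι : Type*} [Fintype ι]
    (q : ι → (H →L[ℂ] H)) : Prop :=
  (∀ i, Pj P (q i)) ∧ (∀ i j, i ≠ j → q i * q j = 0) ∧ ∑ i, q i = e

/-- the functional -/
noncomputable def phi (ξ : ℕ → H) (F : Finset (H →L[ℂ] H)) {ι : Type*} [Fintype ι]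
    (q : ι → (H →L[ℂ] H)) : ℝ := ∑ b ∈ F, ∑ i, n2 ξ (q i * b * q i) ^ 2

theorem phi_nonneg (ξ : ℕ → H) (F : Finset (H →L[ℂ] H)) {ι : Type*} [Fintype ι]
    (q : ι → (H →L[ℂ] H)) : 0 ≤ phi ξ F q :=
  Finset.sum_nonneg fun _ _ => Finset.sum_nonneg fun _ _ => sq_nonneg _

theorem part_reindex {e : H →L[ℂ] H} {ι : Type*} [Fintype ι] {q : ι → (H →L[ℂ] H)}
    (hq : Part P e q) : Part P e (fun i : Fin (Fintype.card ι) => q ((Fintype.equivFin ι).symm i)) :=
  ⟨fun i => hq.1 _, fun i j hij => hq.2.1 _ _ fun h => hij ((Fintype.equivFin ι).symm.injective h),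
    by rw [← hq.2.2]; exact Equiv.sum_comp (Fintype.equivFin ι).symm q⟩

theorem phi_reindex (F : Finset (H →L[ℂ] H)) {ι : Type*} [Fintype ι] (q : ι → (H →L[ℂ] H)) :
    phi ξ F (fun i : Fin (Fintype.card ι) => q ((Fintype.equivFin ι).symm i)) = phi ξ F q :=
  Finset.sum_congr rfl fun b _ =>
    Equiv.sum_comp (Fintype.equivFin ι).symm (fun i => n2 ξ (q i * b * q i) ^ 2)

/-- the refinement -/
def refn {ι : Type*} (q f : ι → (H →L[ℂ] H)) : ι × Bool → (H →L[ℂ] H) :=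
  fun i => if i.2 then q i.1 - f i.1 else f i.1

theorem pj_sub {q f : H →L[ℂ] H} (hq : Pj P q) (hf : Pj P f) (hfq : f * q = f) :
    Pj P (q - f) :=
  ⟨sub_mem hq.1 hf.1, hf.2.sub_of_mul_eq_left hq.2 hfq⟩

theorem pj_mul_left {q f : H →L[ℂ] H} (hq : Pj P q) (hf : Pj P f) (hfq : f * q = f) :
    q * f = f := by
  have h1 := congrArg star hfq
  rwa [star_mul, hq.2.isSelfAdjoint.star_eq, hf.2.isSelfAdjoint.star_eq] at h1

theorem refn_part {e : H →L[ℂ] H} {ι : Type*} [Fintype ι] {q f : ι → (H →L[ℂ] H)}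
    (hq : Part P e q) (hf : ∀ i, Pj P (f i)) (hfq : ∀ i, f i * q i = f i) :
    Part P e (refn q f) := by
  have hqf : ∀ i, q i * f i = f i := fun i => pj_mul_left (hq.1 i) (hf i) (hfq i)
  have hff : ∀ i, f i * f i = f i := fun i => (hf i).2.isIdempotentElem
  have hqq : ∀ i, q i * q i = q i := fun i => (hq.1 i).2.isIdempotentElem
  have h1 : ∀ i j, i ≠ j → f i * q j = 0 := fun i j hij => by
    rw [← hfq i, mul_assoc, hq.2.1 i j hij, mul_zero]
  have h2 : ∀ i j, i ≠ j → q i * f j = 0 := fun i j hij => by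
    rw [← hqf j, ← mul_assoc, hq.2.1 i j hij, zero_mul]
  have h3 : ∀ i j, i ≠ j → f i * f j = 0 := fun i j hij => by
    rw [← hqf j, ← mul_assoc, h1 i j hij, zero_mul]
  refine ⟨?_, ?_, ?_⟩
  · rintro ⟨i, b⟩
    cases b
    · exact hf i
    · exact pj_sub (hq.1 i) (hf i) (hfq i)
  · rintro ⟨i, b⟩ ⟨j, c⟩ hij
    by_cases h : i = j
    · subst h
      cases b <;> cases c
      · exact absurd rfl hij
      · simp [refn, mul_sub, hfq, hff]
      · simp [refn, sub_mul, hqf, hff]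
      · exact absurd rfl hij
    · cases b <;> cases c <;>
        simp [refn, mul_sub, sub_mul, hq.2.1 i j h, h1 i j h, h2 i j h, h3 i j h]
  · rw [Fintype.sum_prod_type, ← hq.2.2]
    refine Finset.sum_congr rfl fun i _ => ?_
    simp [refn]

theorem refn_phi (h : Trc M ξ) (hPM : P ≤ M) {e : H →L[ℂ] H} {ι : Type*} [Fintype ι]
    {q f : ι → (H →L[ℂ] H)} {F : Finset (H →L[ℂ] H)} (hF : ∀ b ∈ F, b ∈ M)
    (hq : Part P e q) (hf : ∀ i, Pj P (f i)) (hfq : ∀ i, f i * q i = f i) :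
    phi ξ F q = phi ξ F (refn q f) +
      ∑ b ∈ F, ∑ i, n2 ξ (f i * (q i * b * q i) - (q i * b * q i) * f i) ^ 2 := by
  unfold phi
  rw [← Finset.sum_add_distrib]
  refine Finset.sum_congr rfl fun b hb => ?_
  rw [Fintype.sum_prod_type, ← Finset.sum_add_distrib]
  refine Finset.sum_congr rfl fun i _ => ?_
  rw [n2_refine h (q := q i) (f := f i) (b := b) ⟨hPM (hq.1 i).1, (hq.1 i).2⟩
    ⟨hPM (hf i).1, (hf i).2⟩ (hfq i) (hF b hb)]
  simp [refn]
  ring

end L3aux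

open L3aux

theorem l3 (h : Sit P M ξ) {e : H →L[ℂ] H} (he : Pj P e) (F : Finset (H →L[ℂ] H))
    (hF : ∀ b ∈ F, b ∈ M) (ε : ℝ) (hε : 0 < ε) :
    ∃ (n : ℕ) (q : Fin n → (H →L[ℂ] H)), (∀ i, Pj P (q i)) ∧ (∀ i j, i ≠ j → q i * q j = 0) ∧
      ∑ i, q i = e ∧
      ∑ b ∈ F, ∑ i, n2 ξ (q i * b * q i - (tau ξ (q i * b) / tau ξ (q i)) • q i) ^ 2 ≤ ε := by
  classical
  have hone : Part P e (fun _ : Fin 1 => e) :=
    ⟨fun _ => he, fun i j hij => absurd (Subsingleton.elim i j) hij, by simp⟩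
  rcases F.eq_empty_or_nonempty with rfl | hFne
  · exact ⟨1, fun _ => e, hone.1, hone.2.1, hone.2.2, by simpa using hε.le⟩
  set S : Set ℝ := {r | ∃ (n : ℕ) (q : Fin n → (H →L[ℂ] H)), Part P e q ∧ phi ξ F q = r} with hS
  have hSne : S.Nonempty := ⟨_, 1, _, hone, rfl⟩
  have hSbdd : BddBelow S := ⟨0, by rintro r ⟨n, q, -, rfl⟩; exact phi_nonneg _ _ _⟩
  set δ : ℝ := ε / (64 * F.card + 1) with hδ
  have hδpos : 0 < δ := by positivity
  obtain ⟨r, ⟨n, q, hq, rfl⟩, hr⟩ := exists_lt_of_csInf_lt hSne (lt_add_of_pos_right (sInf S) hδpos)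
  -- the maximizing elements
  have hmax : ∀ i : Fin n, ∃ b ∈ F, ∀ b' ∈ F,
      n2 ξ (q i * b' * q i - (tau ξ (q i * b') / tau ξ (q i)) • q i) ^ 2 ≤
      n2 ξ (q i * b * q i - (tau ξ (q i * b) / tau ξ (q i)) • q i) ^ 2 := fun i =>
    Finset.exists_max_image F
      (fun b => n2 ξ (q i * b * q i - (tau ξ (q i * b) / tau ξ (q i)) • q i) ^ 2) hFne
  choose b hbF hbmax using hmax
  have hqi : ∀ i, q i * q i = q i := fun i => (hq.1 i).2.isIdempotentElem
  have hqM : ∀ i, q i ∈ M := fun i => h.le (hq.1 i).1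
  have hbM : ∀ i, b i ∈ M := fun i => hF _ (hbF i)
  have hl2 : ∀ i, ∃ f, Pj P f ∧ f * q i = f ∧
      (1 / 8) * n2 ξ (q i * b i * q i - (tau ξ (q i * b i) / tau ξ (q i)) • q i) ≤
        n2 ξ (f * (q i * b i * q i) - (q i * b i * q i) * f) := by
    intro i
    have h1 := l2 h (hq.1 i) (b := q i * b i * q i)
      (mul_mem (mul_mem (hqM i) (hbM i)) (hqM i))
      (by rw [← mul_assoc, ← mul_assoc, hqi]) (by rw [mul_assoc, hqi])
    have h2 : tau ξ (q i * b i * q i) = tau ξ (q i * b i) := by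
      rw [tau_comm h.trc (mul_mem (hqM i) (hbM i)) (hqM i), ← mul_assoc, hqi]
    rw [h2] at h1
    exact h1
  choose f hf hfq hfn using hl2
  have hpart := refn_part hq hf hfq
  have hphi := refn_phi h.trc h.le hF hq hf hfq
  have hle : sInf S ≤ phi ξ F (refn q f) :=
    csInf_le hSbdd ⟨_, _, part_reindex hpart, phi_reindex F _⟩
  refine ⟨n, q, hq.1, hq.2.1, hq.2.2, ?_⟩
  have hsum : ∑ i, n2 ξ (f i * (q i * b i * q i) - (q i * b i * q i) * f i) ^ 2 ≤ δ := by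
    have h3 : ∑ i, n2 ξ (f i * (q i * b i * q i) - (q i * b i * q i) * f i) ^ 2 ≤
        ∑ b ∈ F, ∑ i, n2 ξ (f i * (q i * b * q i) - (q i * b * q i) * f i) ^ 2 := by
      rw [Finset.sum_comm]
      refine Finset.sum_le_sum fun i _ => ?_
      exact Finset.single_le_sum
        (f := fun b => n2 ξ (f i * (q i * b * q i) - (q i * b * q i) * f i) ^ 2)
        (fun _ _ => sq_nonneg _) (hbF i)
    linarith
  have hD : ∀ i, n2 ξ (q i * b i * q i - (tau ξ (q i * b i) / tau ξ (q i)) • q i) ^ 2 ≤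
      64 * n2 ξ (f i * (q i * b i * q i) - (q i * b i * q i) * f i) ^ 2 := by
    intro i
    have h4 := hfn i
    have h5 := n2_nonneg (ξ := ξ) (q i * b i * q i - (tau ξ (q i * b i) / tau ξ (q i)) • q i)
    nlinarith [n2_nonneg (ξ := ξ) (f i * (q i * b i * q i) - (q i * b i * q i) * f i)]
  calc ∑ b' ∈ F, ∑ i, n2 ξ (q i * b' * q i - (tau ξ (q i * b') / tau ξ (q i)) • q i) ^ 2
      ≤ ∑ b' ∈ F, ∑ i, 64 * n2 ξ (f i * (q i * b i * q i) - (q i * b i * q i) * f i) ^ 2 :=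
        Finset.sum_le_sum fun b' hb' => Finset.sum_le_sum fun i _ => (hbmax i b' hb').trans (hD i)
    _ = F.card * (64 * ∑ i, n2 ξ (f i * (q i * b i * q i) - (q i * b i * q i) * f i) ^ 2) := by
        rw [Finset.sum_const, nsmul_eq_mul, ← Finset.mul_sum]
    _ ≤ F.card * (64 * δ) := by gcongr
    _ ≤ ε := by
        rw [hδ, ← mul_div_assoc, ← mul_div_assoc, div_le_iff₀ (by positivity)]
        nlinarith

end Crest.Agent.R95
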