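import Crest.Agent.R95.L3
import Crest.Agent.R95.C6a

/-!
# Row 95, piece L3E: the same with `N` pieces of equal trace, for all large `N`

Proof.  Take `q_1..q_n` from `l3` with `ε/2`.  Let `t = tr e / N`.  Cut from each `q_i`
`⌊tr q_i / t⌋` pieces of trace `t` (`c5`/`equal_part`), remainder `r_i`, `tr r_i < t`.  The
remainder `r = ∑ r_i` has trace a multiple of `t`, `≤ n t`; cut it into pieces of trace `t`
(`equal_part`).  Total number is `N`.  For the pieces `q' ≤ q_i`:
`∑_{q' ≤ q_i} n2 (q' (b - lam_i) q')² ≤ n2 (q_i b q_i - lam_i q_i)²` (compressions are blocks),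
and the optimal scalar for `q'` is better (`n2_opt`).  For the pieces of `r`:
`∑ n2 (q' b q' - lam' q')² ≤ ∑ n2 (q' b q')² ≤ n2 (r b r)² ≤ ‖b‖² tr r ≤ ‖b‖² n tr e / N → 0`.
(To organize: index the pieces by any fintype of cardinality `N` and transport to `Fin N`.)
-/

set_option autoImplicit false

namespace Crest.Agent.R95

open Crest.OpAlg
open scoped InnerProductSpace ComplexConjugate

variable {H : Type*} [NormedAddCommGroup H] [InnerProductSpace ℂ H] [CompleteSpace H]
variable {ξ : ℕ → H} {P M : VonNeumannAlgebra H}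

namespace L3eaux

theorem pj_up (hPM : P ≤ M) {p : H →L[ℂ] H} (hp : Pj P p) : Pj M p := ⟨hPM hp.1, hp.2⟩

/-- `p e = p` gives `e p = p` -/
theorem flip {p e : H →L[ℂ] H} (hp : IsStarProjection p) (he : IsStarProjection e)
    (h : p * e = p) : e * p = p := by
  have := congrArg star h
  rwa [star_mul, hp.isSelfAdjoint.star_eq, he.isSelfAdjoint.star_eq] at this

theorem pj_sum {ι : Type*} [Fintype ι] {q : ι → (H →L[ℂ] H)} (hq : ∀ i, Pj P (q i))
    (ho : ∀ i j, i ≠ j → q i * q j = 0) : Pj P (∑ i, q i) := by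
  classical
  refine ⟨sum_mem fun i _ => (hq i).1, ?_, ?_⟩
  · rw [IsIdempotentElem, Finset.sum_mul]
    refine Finset.sum_congr rfl fun i _ => ?_
    rw [Finset.mul_sum, Finset.sum_eq_single i]
    · exact (hq i).2.isIdempotentElem.eq
    · intro j _ hj
      exact ho i j (Ne.symm hj)
    · intro h
      exact absurd (Finset.mem_univ i) h
  · rw [IsSelfAdjoint, star_sum]
    exact Finset.sum_congr rfl fun i _ => (hq i).2.isSelfAdjoint.star_eq

theorem mul_sum_eq {ι : Type*} [Fintype ι] {q : ι → (H →L[ℂ] H)} (hq : ∀ i, Pj P (q i))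
    (ho : ∀ i j, i ≠ j → q i * q j = 0) (i : ι) : q i * ∑ j, q j = q i := by
  classical
  rw [Finset.mul_sum, Finset.sum_eq_single i]
  · exact (hq i).2.isIdempotentElem.eq
  · intro j _ hj
    exact ho i j (Ne.symm hj)
  · intro h
    exact absurd (Finset.mem_univ i) h

theorem diag_le (h : Trc M ξ) {ι : Type*} [Fintype ι] {q : ι → (H →L[ℂ] H)}
    (hq : ∀ i, Pj M (q i)) (ho : ∀ i j, i ≠ j → q i * q j = 0) {x : H →L[ℂ] H} (hx : x ∈ M) :
    ∑ i, n2 ξ (q i * x * q i) ^ 2 ≤ n2 ξ ((∑ i, q i) * x * (∑ i, q i)) ^ 2 := by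
  rw [← n2_entries_sq h hq ho hx]
  refine Finset.sum_le_sum fun i _ => ?_
  exact Finset.single_le_sum (f := fun j => n2 ξ (q i * x * q j) ^ 2)
    (fun j _ => sq_nonneg _) (Finset.mem_univ i)

theorem compress_le (h : Trc M ξ) {g x : H →L[ℂ] H} (hg : Pj M g) (hx : x ∈ M) :
    n2 ξ (g * x * g) ^ 2 ≤ n2 ξ x ^ 2 := by
  have h1 : n2 ξ (g * x * g) ≤ n2 ξ x := by
    calc n2 ξ (g * x * g) ≤ n2 ξ (g * x) * ‖g‖ := n2_mul_le' h (mul_mem hg.1 hx) hg.1
      _ ≤ n2 ξ (g * x) * 1 := mul_le_mul_of_nonneg_left (pj_norm_le hg.2) (n2_nonneg _)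
      _ = n2 ξ (g * x) := mul_one _
      _ ≤ ‖g‖ * n2 ξ x := n2_mul_le h.nr g x
      _ ≤ 1 * n2 ξ x := mul_le_mul_of_nonneg_right (pj_norm_le hg.2) (n2_nonneg _)
      _ = n2 ξ x := one_mul _
  exact pow_le_pow_left₀ (n2_nonneg _) h1 2

/-- cut a projection of trace `m t` into `m` pieces of trace `t` -/
theorem cut (hP : Fac P ξ) {g : H →L[ℂ] H} (hg : Pj P g) (m : ℕ) (t : ℝ)
    (ht : tr ξ g = m * t) :
    ∃ q : Fin m → (H →L[ℂ] H), (∀ i, Pj P (q i)) ∧ (∀ i j, i ≠ j → q i * q j = 0) ∧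
      (∀ i, tr ξ (q i) = t) ∧ ∑ i, q i = g := by
  rcases Nat.eq_zero_or_pos m with hm | hm
  · subst hm
    have hg0 : g = 0 := by
      by_contra hne
      have := tr_pos hP.trc hg hne
      rw [ht] at this
      simp at this
    refine ⟨fun i => i.elim0, fun i => i.elim0, fun i => i.elim0, fun i => i.elim0, ?_⟩
    simp [hg0]
  · obtain ⟨q, h1, h2, h3, h4⟩ := equal_part hP hg m hm
    refine ⟨q, h1, h2, fun i => ?_, h4⟩
    rw [h3, ht]
    have : (m : ℝ) ≠ 0 := by positivity
    field_simp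

end L3eaux

open L3eaux in
theorem l3e (h : Sit P M ξ) {e : H →L[ℂ] H} (he : Pj P e) (F : Finset (H →L[ℂ] H))
    (hF : ∀ b ∈ F, b ∈ M) (ε : ℝ) (hε : 0 < ε) :
    ∃ N₁ : ℕ, 1 ≤ N₁ ∧ ∀ N : ℕ, N₁ ≤ N →
    ∃ (q : Fin N → (H →L[ℂ] H)), (∀ i, Pj P (q i)) ∧ (∀ i j, i ≠ j → q i * q j = 0) ∧
      (∀ i, tr ξ (q i) = tr ξ e / N) ∧ ∑ i, q i = e ∧
      ∑ b ∈ F, ∑ i, n2 ξ (q i * b * q i - (tau ξ (q i * b) / tau ξ (q i)) • q i) ^ 2 ≤ ε := by
  classical
  obtain ⟨n, p, hp, hpo, hps, hpe⟩ := l3 h he F hF (ε / 2) (half_pos hε)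
  have hnr : Nr ξ := h.trc.nr
  have hfac : Fac P ξ := h.fac
  set K : ℝ := ∑ b ∈ F, ‖b‖ ^ 2 with hK
  have hK0 : 0 ≤ K := Finset.sum_nonneg fun b _ => sq_nonneg _
  have htr0 : 0 ≤ tr ξ e := tr_nonneg hnr he.2
  obtain ⟨N1, hN1⟩ := exists_nat_ge (2 * K * n * tr ξ e / ε)
  refine ⟨N1 + 1, by omega, fun N hN => ?_⟩
  have hNpos : (0 : ℝ) < N := by
    have : 0 < N := by omega
    exact_mod_cast this
  by_cases h0 : tr ξ e = 0
  · have he0 : e = 0 := by
      by_contra hne
      have := tr_pos hfac.trc he hne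
      linarith
    subst he0
    refine ⟨fun _ => 0, fun _ => he, fun _ _ _ => by simp, fun _ => ?_, by simp, ?_⟩
    · rw [h0, zero_div]
    · have : ∀ b : H →L[ℂ] H, ∀ i : Fin N, n2 ξ ((0 : H →L[ℂ] H) * b * 0 -
          (tau ξ ((0 : H →L[ℂ] H) * b) / tau ξ (0 : H →L[ℂ] H)) • (0 : H →L[ℂ] H)) ^ 2 = 0 := by
        intro b i
        rw [smul_zero, mul_zero, sub_zero, n2_zero]
        norm_num
      refine le_of_eq_of_le ?_ hε.le
      exact Finset.sum_eq_zero fun b _ => Finset.sum_eq_zero fun i _ => this b i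
  have htpos : 0 < tr ξ e := lt_of_le_of_ne htr0 (Ne.symm h0)
  set t : ℝ := tr ξ e / N with ht
  have ht0 : 0 < t := div_pos htpos hNpos
  -- the main parts
  set m : Fin n → ℕ := fun i => ⌊tr ξ (p i) / t⌋₊ with hm
  have hm1 : ∀ i, (m i : ℝ) * t ≤ tr ξ (p i) := by
    intro i
    have := Nat.floor_le (div_nonneg (tr_nonneg hnr (hp i).2) ht0.le)
    rwa [le_div_iff₀ ht0] at this
  have hm2 : ∀ i, tr ξ (p i) ≤ (m i : ℝ) * t + t := by
    intro i
    have := (Nat.lt_floor_add_one (tr ξ (p i) / t)).le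
    rw [div_le_iff₀ ht0] at this
    calc tr ξ (p i) ≤ (⌊tr ξ (p i) / t⌋₊ + 1) * t := this
      _ = _ := by rw [add_mul, one_mul]
  choose g hg hgp hgt using fun i => c5 hfac (hp i) (m i * t) (by positivity) (hm1 i)
  have hgo : ∀ i j, i ≠ j → g i * g j = 0 := by
    intro i j hij
    rw [← hgp i, ← flip (hg j).2 (hp j).2 (hgp j), mul_assoc, ← mul_assoc (p i), hpo i j hij,
      zero_mul, mul_zero]
  have hge : ∀ i, g i * e = g i := by
    intro i
    rw [← hps]
    conv_lhs => rw [← hgp i]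
    rw [mul_assoc, mul_sum_eq hp hpo, hgp]
  have hGs := pj_sum hg hgo
  set G := ∑ i, g i with hG
  have hGe : G * e = G := by
    rw [hG, Finset.sum_mul]
    exact Finset.sum_congr rfl fun i _ => hge i
  have heG : e * G = G := flip hGs.2 he.2 hGe
  set r := e - G with hr
  have hrP : Pj P r := by
    refine ⟨sub_mem he.1 hGs.1, ?_, ?_⟩
    · rw [IsIdempotentElem, hr, sub_mul, mul_sub, mul_sub, he.2.isIdempotentElem.eq, heG, hGe,
        hGs.2.isIdempotentElem.eq]
      abel
    · rw [IsSelfAdjoint, hr, star_sub, he.2.isSelfAdjoint.star_eq, hGs.2.isSelfAdjoint.star_eq]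
  have htG : tr ξ G = (∑ i, (m i : ℝ)) * t := by
    rw [hG, tr_sum hnr, Finset.sum_mul]
    exact Finset.sum_congr rfl fun i _ => hgt i
  have htr : tr ξ r = tr ξ e - (∑ i, (m i : ℝ)) * t := by
    rw [hr, tr_sub hnr, htG]
  have hNt : tr ξ e = N * t := by
    rw [ht]
    field_simp
  have hle : ∑ i, m i ≤ N := by
    have h1 := tr_nonneg hnr hrP.2
    rw [htr, hNt, ← sub_mul] at h1
    have h2 : (∑ i, (m i : ℝ)) ≤ N := by
      by_contra hcon
      push Not at hcon
      have := mul_neg_of_neg_of_pos (sub_neg.2 hcon) ht0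
      linarith
    exact_mod_cast h2
  have htr1 : tr ξ r = ((N - ∑ i, m i : ℕ) : ℝ) * t := by
    rw [htr, hNt, Nat.cast_sub hle, Nat.cast_sum, sub_mul]
  have htr2 : tr ξ r ≤ n * t := by
    have h1 : tr ξ e = ∑ i, tr ξ (p i) := by rw [← hps, tr_sum hnr]
    have h2 : ∑ i, tr ξ (p i) ≤ ∑ i, ((m i : ℝ) * t + t) := Finset.sum_le_sum fun i _ => hm2 i
    rw [Finset.sum_add_distrib, ← Finset.sum_mul, Finset.sum_const, Finset.card_univ,
      Fintype.card_fin, nsmul_eq_mul] at h2
    rw [htr, h1]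
    linarith
  -- all parts
  let mm : Option (Fin n) → ℕ := fun k => k.elim (N - ∑ i, m i) m
  let GG : Option (Fin n) → (H →L[ℂ] H) := fun k => k.elim r g
  have hGG : ∀ k, Pj P (GG k) := by
    intro k
    cases k with
    | none => exact hrP
    | some i => exact hg i
  have hrg : ∀ i, r * g i = 0 := by
    intro i
    have h1 : e * g i = g i := flip (hg i).2 he.2 (hge i)
    have h2 : G * g i = g i := flip (hg i).2 hGs.2 (mul_sum_eq hg hgo i)
    rw [hr, sub_mul, h1, h2, sub_self]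
  have hgr : ∀ i, g i * r = 0 := by
    intro i
    have := congrArg star (hrg i)
    rwa [star_mul, hrP.2.isSelfAdjoint.star_eq, (hg i).2.isSelfAdjoint.star_eq, star_zero] at this
  have hGGo : ∀ k l, k ≠ l → GG k * GG l = 0 := by
    intro k l hkl
    cases k with
    | none =>
      cases l with
      | none => exact absurd rfl hkl
      | some j => exact hrg j
    | some i =>
      cases l with
      | none => exact hgr i
      | some j => exact hgo i j (fun h => hkl (by rw [h]))
  have hGGt : ∀ k, tr ξ (GG k) = (mm k : ℝ) * t := by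
    intro k
    cases k with
    | none => exact htr1
    | some i => exact hgt i
  have hGGs : ∑ k, GG k = e := by
    rw [Fintype.sum_option]
    show r + ∑ i, g i = e
    rw [hr, ← hG]
    abel
  choose w hw hwo hwt hws using fun k => cut hfac (hGG k) (mm k) t (hGGt k)
  have hwG : ∀ k j, w k j * GG k = w k j := fun k j => by
    rw [← hws k]
    exact mul_sum_eq (hw k) (hwo k) j
  have hcard : Fintype.card (Σ k, Fin (mm k)) = N := by
    rw [Fintype.card_sigma, Fintype.sum_option]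
    simp only [Fintype.card_fin]
    show (N - ∑ i, m i) + ∑ i, m i = N
    omega
  let φ : Fin N ≃ Σ k, Fin (mm k) := (Fintype.equivFinOfCardEq hcard).symm
  let u : (Σ k, Fin (mm k)) → (H →L[ℂ] H) := fun x => w x.1 x.2
  have hu : ∀ x, Pj P (u x) := fun x => hw x.1 x.2
  have huo : ∀ x y, x ≠ y → u x * u y = 0 := by
    rintro ⟨k, i⟩ ⟨l, j⟩ hne
    by_cases hkl : k = l
    · subst hkl
      exact hwo k i j (fun h => hne (by rw [h]))
    · show w k i * w l j = 0
      rw [← hwG k i, ← flip (hw l j).2 (hGG l).2 (hwG l j), mul_assoc, ← mul_assoc (GG k),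
        hGGo k l hkl, zero_mul, mul_zero]
  have hub : ∀ b ∈ F, ∑ x, n2 ξ (u x * b * u x - (tau ξ (u x * b) / tau ξ (u x)) • u x) ^ 2 ≤
      ‖b‖ ^ 2 * (n * t) +
        ∑ i, n2 ξ (p i * b * p i - (tau ξ (p i * b) / tau ξ (p i)) • p i) ^ 2 := by
    intro b hb
    have hbM := hF b hb
    rw [Fintype.sum_sigma, Fintype.sum_option]
    refine add_le_add ?_ (Finset.sum_le_sum fun i _ => ?_)
    · calc ∑ j, n2 ξ (w none j * b * w none j - (tau ξ (w none j * b) / tau ξ (w none j)) •
            w none j) ^ 2 ≤ ∑ j, n2 ξ (w none j * b * w none j) ^ 2 := by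
            refine Finset.sum_le_sum fun j _ => ?_
            have := n2_opt h.trc (pj_up h.le (hw none j)) hbM 0
            rw [zero_smul, sub_zero] at this
            exact pow_le_pow_left₀ (n2_nonneg _) this 2
        _ ≤ n2 ξ ((∑ j, w none j) * b * (∑ j, w none j)) ^ 2 :=
            diag_le h.trc (fun j => pj_up h.le (hw none j)) (hwo none) hbM
        _ = n2 ξ (r * b * r) ^ 2 := by rw [hws none]; rfl
        _ ≤ (‖r * b‖ * Real.sqrt (tr ξ r)) ^ 2 :=
            pow_le_pow_left₀ (n2_nonneg _) (n2_mul_pj_le hnr hrP.2 (r * b)) 2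
        _ = ‖r * b‖ ^ 2 * tr ξ r := by
            rw [mul_pow, Real.sq_sqrt (tr_nonneg hnr hrP.2)]
        _ ≤ ‖b‖ ^ 2 * (n * t) := by
            apply mul_le_mul _ htr2 (tr_nonneg hnr hrP.2) (sq_nonneg _)
            apply pow_le_pow_left₀ (norm_nonneg _)
            calc ‖r * b‖ ≤ ‖r‖ * ‖b‖ := norm_mul_le _ _
              _ ≤ 1 * ‖b‖ := mul_le_mul_of_nonneg_right (pj_norm_le hrP.2) (norm_nonneg _)
              _ = ‖b‖ := one_mul _
    · set lam := tau ξ (p i * b) / tau ξ (p i) with hlam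
      have hBM : p i * b * p i - lam • p i ∈ M :=
        sub_mem (mul_mem (mul_mem (h.le (hp i).1) hbM) (h.le (hp i).1))
          (vn_smul_mem M _ (h.le (hp i).1))
      have hsub : ∀ j, w (some i) j * p i = w (some i) j := by
        intro j
        have h1 : w (some i) j * g i = w (some i) j := hwG (some i) j
        calc w (some i) j * p i = w (some i) j * (g i * p i) := by
              rw [← mul_assoc, h1]
          _ = w (some i) j := by rw [hgp, h1]
      calc ∑ j, n2 ξ (w (some i) j * b * w (some i) j -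
            (tau ξ (w (some i) j * b) / tau ξ (w (some i) j)) • w (some i) j) ^ 2
          ≤ ∑ j, n2 ξ (w (some i) j * (p i * b * p i - lam • p i) * w (some i) j) ^ 2 := by
            refine Finset.sum_le_sum fun j _ => ?_
            have h1 := n2_opt h.trc (pj_up h.le (hw (some i) j)) hbM lam
            have h2 : w (some i) j * (p i * b * p i - lam • p i) * w (some i) j =
                w (some i) j * b * w (some i) j - lam • w (some i) j := by
              have h3 := hsub j
              have h4 := flip (hw (some i) j).2 (hp i).2 h3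
              have h5 := (hw (some i) j).2.isIdempotentElem.eq
              calc w (some i) j * (p i * b * p i - lam • p i) * w (some i) j
                  = (w (some i) j * p i) * b * (p i * w (some i) j) -
                    lam • ((w (some i) j * p i) * w (some i) j) := by
                    rw [mul_sub, sub_mul, mul_smul_comm, smul_mul_assoc]
                    noncomm_ring
                _ = _ := by rw [h3, h4, h5]
            rw [h2]
            exact pow_le_pow_left₀ (n2_nonneg _) h1 2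
        _ ≤ n2 ξ ((∑ j, w (some i) j) * (p i * b * p i - lam • p i) *
              (∑ j, w (some i) j)) ^ 2 :=
            diag_le h.trc (fun j => pj_up h.le (hw (some i) j)) (hwo (some i)) hBM
        _ = n2 ξ (g i * (p i * b * p i - lam • p i) * g i) ^ 2 := by rw [hws (some i)]; rfl
        _ ≤ n2 ξ (p i * b * p i - lam • p i) ^ 2 := compress_le h.trc (pj_up h.le (hg i)) hBM
  refine ⟨fun i => u (φ i), fun i => hu _, fun i j hij => huo _ _ (φ.injective.ne hij),
    fun i => hwt _ _, ?_, ?_⟩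
  · rw [Equiv.sum_comp φ u, Fintype.sum_sigma]
    show ∑ k, ∑ j, w k j = e
    rw [← hGGs]
    exact Finset.sum_congr rfl fun k _ => hws k
  · have h1 : ∀ b : H →L[ℂ] H, ∑ i, n2 ξ (u (φ i) * b * u (φ i) -
        (tau ξ (u (φ i) * b) / tau ξ (u (φ i))) • u (φ i)) ^ 2 =
        ∑ x, n2 ξ (u x * b * u x - (tau ξ (u x * b) / tau ξ (u x)) • u x) ^ 2 := fun b =>
      Equiv.sum_comp φ (fun x => n2 ξ (u x * b * u x - (tau ξ (u x * b) / tau ξ (u x)) • u x) ^ 2)
    calc ∑ b ∈ F, ∑ i, n2 ξ (u (φ i) * b * u (φ i) -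
          (tau ξ (u (φ i) * b) / tau ξ (u (φ i))) • u (φ i)) ^ 2
        ≤ ∑ b ∈ F, (‖b‖ ^ 2 * (n * t) +
          ∑ i, n2 ξ (p i * b * p i - (tau ξ (p i * b) / tau ξ (p i)) • p i) ^ 2) := by
          refine Finset.sum_le_sum fun b hb => ?_
          rw [h1]
          exact hub b hb
      _ = K * (n * t) +
          ∑ b ∈ F, ∑ i, n2 ξ (p i * b * p i - (tau ξ (p i * b) / tau ξ (p i)) • p i) ^ 2 := by
          rw [Finset.sum_add_distrib, ← Finset.sum_mul]
      _ ≤ ε / 2 + ε / 2 := by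
          refine add_le_add ?_ hpe
          have h2 : 2 * K * n * tr ξ e / ε ≤ N := by
            refine hN1.trans ?_
            have : N1 ≤ N := by omega
            exact_mod_cast this
          rw [div_le_iff₀ hε] at h2
          have h3 : K * (n * t) = K * n * tr ξ e / N := by
            rw [ht]
            ring
          rw [h3, div_le_iff₀ hNpos]
          linarith
      _ = ε := by ring

end Crest.Agent.R95
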