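import Crest.Agent.R95.VDefs
import Crest.Agent.R95.C5

/-! Row 95: projections of any prescribed trace between two given ones (adaptor for `c5`). -/

set_option autoImplicit false
set_option linter.unusedSectionVars false

open Crest.OpAlg Filter Topology
open scoped InnerProductSpace

namespace Crest.Agent.R95.VN

variable {H : Type*} [NormedAddCommGroup H] [InnerProductSpace ℂ H] [CompleteSpace H]
variable {ξ : ℕ → H} {N : VonNeumannAlgebra H}

/-- for projections, `traceNormSq` is the trace. -/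
theorem tn_eq_tr (hξ : IsFaithfulTracialVectorState N ξ) {p : H →L[ℂ] H}
    (hp : IsStarProjection p) : traceNormSq ξ p = tr ξ p := by
  rw [← n2_sq, n2_pj_sq (Trc.nr hξ) hp]

theorem exists_between (hf : IsFactor N) (hξ : IsFaithfulTracialVectorState N ξ)
    (hinf : ¬ FiniteDimensional ℂ N.toStarSubalgebra) {p q : H →L[ℂ] H} (hp : p ∈ N) (hq : q ∈ N)
    (hpp : IsStarProjection p) (hqp : IsStarProjection q) (hpq : q * p = p) {t : ℝ}
    (h1 : traceNormSq ξ p ≤ t) (h2 : t ≤ traceNormSq ξ q) :
    ∃ r ∈ N, IsStarProjection r ∧ r * p = p ∧ q * r = r ∧ traceNormSq ξ r = t := by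
  have hs := proj_sub hpp hqp hpq
  have ht := tn_proj_sub (sumsq hξ) hpp hqp hpq
  have htr : tr ξ (q - p) = traceNormSq ξ q - traceNormSq ξ p := by
    rw [← tn_eq_tr hξ hs, ht]
  obtain ⟨f, hfP, hfe, hft⟩ := c5 (P := N) (ξ := ξ) ⟨hf, hinf, hξ⟩ (e := q - p)
    ⟨sub_mem hq hp, hs⟩ (t - traceNormSq ξ p) (by linarith) (by rw [htr]; linarith)
  have hfe' : (q - p) * f = f := by
    have := congrArg star hfe
    rwa [star_mul, proj_star hs, proj_star hfP.2] at this
  have hpf : p * f = 0 := by
    rw [← hfe', ← mul_assoc, mul_sub, proj_mul hpp, proj_flip hpp hqp hpq, sub_self, zero_mul]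
  have hqf : q * f = f := by
    have : q * ((q - p) * f) = (q - p) * f := by
      rw [← mul_assoc, mul_sub, proj_mul hqp, hpq]
    rwa [hfe'] at this
  refine ⟨p + f, add_mem hp hfP.1, proj_add hfP.2 hpp hpf, ?_, ?_, ?_⟩
  · have hfp : f * p = 0 := by
      have := congrArg star hpf
      rwa [star_mul, proj_star hpp, proj_star hfP.2, star_zero] at this
    rw [add_mul, proj_mul hpp, hfp, add_zero]
  · rw [mul_add, hpq, hqf]
  · rw [tn_proj_add (sumsq hξ) hpp hpf, tn_eq_tr hξ hfP.2, hft]
    ring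

end Crest.Agent.R95.VN
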