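import Crest.Agent.R95.VEnv
import Crest.Agent.R95.VBetween

/-! Row 95, V_SPLIT: cutting a corner at a prescribed trace, compatibly with the order of the spectrum of `h`.

`f c := D (cut h q c)` is antitone, `f b = 0` (`cut_top`), `f c = D q` for `c < a` (`cut_bot`).
`S := {c ∈ Icc a b | f c ≤ t}` contains `b`; `c* := sInf S`.
Upper side: a sequence `c n ∈ S`, antitone, → `c*`; `cut h q (c n)` is increasing, `mono_proj` gives `E ∈ N` with
`D E ≤ t`, `c* • E ≤ h * E`, `h * (q - E) ≤ c* • (q - E)` (`le_of_tendsto_strong`), `E h = h E`, `q E = E`.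
Lower side: `c n := c* - 1/(n+1)`, `f (c n) ≥ t` (if `c n < a` then `f = D q ≥ t`, otherwise `c n ∉ S`);
decreasing; `anti_proj` gives `F ∈ N` with `D F ≥ t`, `c* • F ≤ h * F`, `h * (q - F) ≤ c* • (q - F)`, `F h = h F`,
`q F = F`, and `F * E = E` (each `cut h q (c* - 1/(n+1)) * cut h q (c m) = cut h q (c m)`; take limits).
`exists_between` gives `r` with `E ≤ r ≤ F`, `D r = t`.  On `F - E`: `h (F - E) = c* (F - E)`:
conjugate `c* F ≤ h F` and `h (q - E) ≤ c* (q - E)` by `F - E` (antisymmetry).  So `h (r - E) = h (F - E) (r - E) =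
c* (r - E)`, and everything follows: `h r = h E + c* (r - E)`, `h (q - r) = h (q - F) + c* (F - r)`. -/

set_option autoImplicit false
set_option linter.unusedSectionVars false

open Crest.OpAlg Filter Topology
open scoped InnerProductSpace

namespace Crest.Agent.R95.VN

variable {H : Type*} [NormedAddCommGroup H] [InnerProductSpace ℂ H] [CompleteSpace H]
variable {ξ : ℕ → H} {N : VonNeumannAlgebra H}

/-- the splitting lemma. -/
theorem split (hf : IsFactor N) (hξ : IsFaithfulTracialVectorState N ξ)
    (hinf : ¬ FiniteDimensional ℂ N.toStarSubalgebra) {h q : H →L[ℂ] H} (hh : h ∈ N)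
    (hq : q ∈ N) (hsa : star h = h) (hqp : IsStarProjection q) (hc : h * q = q * h) {a b t : ℝ}
    (hab : a ≤ b) (ha : a • q ≤ h * q) (hb : h * q ≤ b • q) (ht0 : 0 ≤ t)
    (ht1 : t ≤ traceNormSq ξ q) :
    ∃ c : ℝ, a ≤ c ∧ c ≤ b ∧ ∃ r ∈ N, IsStarProjection r ∧ q * r = r ∧ h * r = r * h ∧
      traceNormSq ξ r = t ∧
      c • r ≤ h * r ∧ h * r ≤ b • r ∧ a • (q - r) ≤ h * (q - r) ∧ h * (q - r) ≤ c • (q - r) := by
  obtain ⟨c, hac, hcb, E, hEN, F, hFN, hEp, hFp, hFE, hqF, hhE, hhF, hDE, hDF, h1, h2, h3, h4⟩ :=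
    envelope hξ hh hq hsa hqp hc hab ha hb ht0 ht1
  obtain ⟨r, hrN, hrp, hrE, hFr, hDr⟩ := exists_between hf hξ hinf hEN hFN hEp hFp hFE hDE hDF
  have hEF : E * F = E := proj_flip hEp hFp hFE
  have hFq : F * q = F := proj_flip hFp hqp hqF
  have hEr : E * r = E := proj_flip hEp hrp hrE
  have hrF : r * F = r := proj_flip hrp hFp hFr
  have hFF := proj_mul hFp
  have hEE := proj_mul hEp
  have hrr := proj_mul hrp
  have hqq := proj_mul hqp
  have hqE : q * E = E := by rw [← hFE, ← mul_assoc, hqF]
  have hEq : E * q = E := proj_flip hEp hqp hqE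
  have hqr : q * r = r := by rw [← hFr, ← mul_assoc, hqF]
  have hrq : r * q = r := proj_flip hrp hqp hqr
  -- `G = F - E`
  have hGp : IsStarProjection (F - E) := proj_sub hEp hFp hFE
  have hGs : star (F - E) = F - E := proj_star hGp
  have hGG := proj_mul hGp
  have hhG : h * (F - E) = (F - E) * h := by rw [mul_sub, sub_mul, hhF, hhE]
  have hGF : (F - E) * F = F - E := by rw [sub_mul, hFF, hEF]
  have hGqE : (F - E) * (q - E) = F - E := by
    rw [sub_mul, mul_sub, mul_sub, hFq, hFE, hEq, hEE, sub_self, sub_zero]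
  have hG : h * (F - E) = c • (F - E) := by
    apply le_antisymm
    · have := star_left_conjugate_le_conjugate h2 (F - E)
      rw [hGs] at this
      have e1 : (F - E) * (h * (q - E)) * (F - E) = h * (F - E) := by
        rw [← mul_assoc, ← hhG, mul_assoc h, hGqE, mul_assoc, hGG]
      have e2 : (F - E) * (c • (q - E)) * (F - E) = c • (F - E) := by
        rw [mul_smul_comm, hGqE, smul_mul_assoc, hGG]
      rwa [e1, e2] at this
    · have := star_left_conjugate_le_conjugate h3 (F - E)
      rw [hGs] at this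
      have e1 : (F - E) * (h * F) * (F - E) = h * (F - E) := by
        rw [← mul_assoc, ← hhG, mul_assoc h, hGF, mul_assoc, hGG]
      have e2 : (F - E) * (c • F) * (F - E) = c • (F - E) := by
        rw [mul_smul_comm, hGF, smul_mul_assoc, hGG]
      rwa [e1, e2] at this
  have hG1 : (F - E) * (r - E) = r - E := by
    rw [sub_mul, mul_sub, mul_sub, hFr, hFE, hEr, hEE, sub_self, sub_zero]
  have hG2 : (F - E) * (F - r) = F - r := by
    rw [sub_mul, mul_sub, mul_sub, hFF, hFr, hEF, hEr, sub_self, sub_zero]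
  have hr1 : h * (r - E) = c • (r - E) := by
    rw [← hG1, ← mul_assoc, hG, smul_mul_assoc]
  have hr2 : h * (F - r) = c • (F - r) := by
    rw [← hG2, ← mul_assoc, hG, smul_mul_assoc]
  have hr1' : (r - E) * h = c • (r - E) := by
    have := congrArg star hr1
    rwa [star_mul, star_smul, star_sub, hsa, proj_star hrp, proj_star hEp, star_trivial c] at this
  have hhr : h * r = r * h := by
    have e1 : h * r = h * E + c • (r - E) := by rw [← hr1, ← mul_add, add_sub_cancel]
    have e2 : r * h = E * h + c • (r - E) := by rw [← hr1', ← add_mul, add_sub_cancel]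
    rw [e1, e2, hhE]
  have hqrp : IsStarProjection (q - r) := proj_sub hrp hqp hqr
  have hqrs : star (q - r) = q - r := proj_star hqrp
  have hqrr := proj_mul hqrp
  refine ⟨c, hac, hcb, r, hrN, hrp, hqr, hhr, hDr, ?_, ?_, ?_, ?_⟩
  · have e1 : c • r = c • E + c • (r - E) := by rw [← smul_add, add_sub_cancel]
    have e2 : h * r = h * E + c • (r - E) := by rw [← hr1, ← mul_add, add_sub_cancel]
    rw [e1, e2]
    exact add_le_add_left h1 _
  · have := star_left_conjugate_le_conjugate hb r
    rw [proj_star hrp] at this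
    have e1 : r * (h * q) * r = h * r := by
      rw [← mul_assoc, ← hhr, mul_assoc h, hrq, mul_assoc, hrr]
    have e2 : r * (b • q) * r = b • r := by
      rw [mul_smul_comm, hrq, smul_mul_assoc, hrr]
    rwa [e1, e2] at this
  · have := star_left_conjugate_le_conjugate ha (q - r)
    rw [hqrs] at this
    have hq1 : (q - r) * q = q - r := by rw [sub_mul, hqq, hrq]
    have hhqr : h * (q - r) = (q - r) * h := by rw [mul_sub, sub_mul, hc, hhr]
    have e1 : (q - r) * (h * q) * (q - r) = h * (q - r) := by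
      rw [← mul_assoc, ← hhqr, mul_assoc h, hq1, mul_assoc, hqrr]
    have e2 : (q - r) * (a • q) * (q - r) = a • (q - r) := by
      rw [mul_smul_comm, hq1, smul_mul_assoc, hqrr]
    rwa [e1, e2] at this
  · have e0 : q - r = (q - F) + (F - r) := by abel
    have e1 : h * (q - r) = h * (q - F) + c • (F - r) := by rw [← hr2, ← mul_add, ← e0]
    have e2 : c • (q - r) = c • (q - F) + c • (F - r) := by rw [← smul_add, ← e0]
    rw [e1, e2]
    exact add_le_add_left h4 _

end Crest.Agent.R95.VN
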