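import Crest.Agent.R95.VPiece
import Crest.Agent.R95.VSplit

/-! Row 95, V_CHAIN: `k` orthogonal projections of trace `s` almost diagonalising `h` (induction on `k` with `split`).

`norm_piece`: `T = (h - c) e` satisfies `0 ≤ T ≤ (c' - c) e`, so `‖T‖ ≤ c' - c`
(`CStarAlgebra.norm_le_norm_of_nonneg_of_le`, `‖e‖ ≤ 1`), and `T = T e`, so
`traceNormSq ξ T ≤ (c' - c)² traceNormSq ξ e` (`tn_mul_le`).
`chain`: induction on `k`.  `k = 0`: `D q = 0`, so `q = 0`.  Step: `split` with `t = k s`: `r` carries `k` pieces in
`[c, b]`, and `q - r` (trace `s`, values in `[a, c]`) is the last piece with `μ = a`.  The new error is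
`h q - ∑ μ e = (h r - ∑ …) + (h - a)(q - r)`, orthogonal (`r` and `q - r`), so by `tn_add_orth` the squared norms add:
`≤ s (b - c)² + s (c - a)² ≤ s (b - a)²`. -/

set_option autoImplicit false
set_option linter.unusedSectionVars false

open Crest.OpAlg Filter Topology
open scoped InnerProductSpace

namespace Crest.Agent.R95.VN

variable {H : Type*} [NormedAddCommGroup H] [InnerProductSpace ℂ H] [CompleteSpace H]
variable {ξ : ℕ → H} {N : VonNeumannAlgebra H}

theorem chain (hf : IsFactor N) (hξ : IsFaithfulTracialVectorState N ξ)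
    (hinf : ¬ FiniteDimensional ℂ N.toStarSubalgebra) {h : H →L[ℂ] H} (hh : h ∈ N)
    (hsa : star h = h) {s : ℝ} (hs : 0 ≤ s) (k : ℕ) :
    ∀ (q : H →L[ℂ] H), q ∈ N → IsStarProjection q → h * q = q * h → ∀ a b : ℝ, a ≤ b →
      a • q ≤ h * q → h * q ≤ b • q → traceNormSq ξ q = k * s →
      ∃ (e : Fin k → H →L[ℂ] H) (μ : Fin k → ℝ), (∀ i, e i ∈ N) ∧ (∀ i, IsStarProjection (e i)) ∧
        (∀ i j, i ≠ j → e i * e j = 0) ∧ (∑ i, e i = q) ∧ (∀ i, traceNormSq ξ (e i) = s) ∧
        (∀ i, a ≤ μ i ∧ μ i ≤ b) ∧
        traceNormSq ξ (h * q - ∑ i, μ i • e i) ≤ s * (b - a) ^ 2 := by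
  have hsum := sumsq hξ
  induction k with
  | zero =>
    intro q hqN hqp hc a b hab ha hb htr
    have hq0 : q = 0 := tn_eq_zero hξ hqN (by simpa using htr)
    refine ⟨fun i => i.elim0, fun i => i.elim0, fun i => i.elim0, fun i => i.elim0,
      fun i => i.elim0, by simp [hq0], fun i => i.elim0, fun i => i.elim0, ?_⟩
    rw [hq0]
    simp only [mul_zero, Finset.univ_eq_empty, Finset.sum_empty, sub_zero]
    rw [tn_zero]
    positivity
  | succ k ih =>
    intro q hqN hqp hc a b hab ha hb htr
    have ht0 : (0 : ℝ) ≤ k * s := by positivity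
    have ht1 : (k : ℝ) * s ≤ traceNormSq ξ q := by
      rw [htr]; push_cast; nlinarith
    obtain ⟨c, hac, hcb, r, hrN, hrp, hqr, hhr, hrt, h1, h2, h3, h4⟩ :=
      split hf hξ hinf hh hqN hsa hqp hc hab ha hb ht0 ht1
    obtain ⟨e, μ, he1, he2, he3, he4, he5, he6, he7⟩ :=
      ih r hrN hrp hhr c b hcb h1 h2 hrt
    set g : H →L[ℂ] H := q - r with hg
    have hgN : g ∈ N := sub_mem hqN hrN
    have hgp : IsStarProjection g := proj_sub hrp hqp hqr
    have hgt : traceNormSq ξ g = s := by
      rw [hg, tn_proj_sub hsum hrp hqp hqr, htr, hrt]; push_cast; ring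
    have hrq : r * q = r := proj_flip hrp hqp hqr
    have hrr : r * r = r := proj_mul hrp
    have hrg : r * g = 0 := by rw [hg, mul_sub, hrq, hrr, sub_self]
    have hgr : g * r = 0 := by rw [hg, sub_mul, hqr, hrr, sub_self]
    have hhg : h * g = g * h := by rw [hg, mul_sub, sub_mul, hc, hhr]
    have hgg : g * g = g := proj_mul hgp
    have her : ∀ i, r * e i = e i := by
      intro i
      rw [← he4, Finset.sum_mul]
      rw [Finset.sum_eq_single i]
      · exact proj_mul (he2 i)
      · intro j _ hj
        exact he3 j i hj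
      · intro hi
        exact absurd (Finset.mem_univ i) hi
    have her' : ∀ i, e i * r = e i := by
      intro i
      have := congrArg star (her i)
      rwa [star_mul, proj_star (he2 i), proj_star hrp] at this
    have heg : ∀ i, e i * g = 0 := by
      intro i
      rw [← her' i, mul_assoc, hrg, mul_zero]
    have hge : ∀ i, g * e i = 0 := by
      intro i
      rw [← her i, ← mul_assoc, hgr, zero_mul]
    refine ⟨Fin.snoc (α := fun _ => H →L[ℂ] H) e g, Fin.snoc (α := fun _ => ℝ) μ a,
      ?_, ?_, ?_, ?_, ?_, ?_, ?_⟩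
    · intro i
      refine Fin.lastCases ?_ (fun j => ?_) i
      · rw [Fin.snoc_last]; exact hgN
      · rw [Fin.snoc_castSucc]; exact he1 j
    · intro i
      refine Fin.lastCases ?_ (fun j => ?_) i
      · rw [Fin.snoc_last]; exact hgp
      · rw [Fin.snoc_castSucc]; exact he2 j
    · intro i j
      refine Fin.lastCases ?_ (fun i' => ?_) i <;> refine Fin.lastCases ?_ (fun j' => ?_) j
      · intro hij; exact absurd rfl hij
      · intro _
        rw [Fin.snoc_last, Fin.snoc_castSucc]; exact hge j'
      · intro _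
        rw [Fin.snoc_last, Fin.snoc_castSucc]; exact heg i'
      · intro hij
        rw [Fin.snoc_castSucc, Fin.snoc_castSucc]
        exact he3 i' j' fun hcon => hij (by rw [hcon])
    · rw [Fin.sum_univ_castSucc]
      simp only [Fin.snoc_castSucc, Fin.snoc_last]
      rw [he4, hg]; abel
    · intro i
      refine Fin.lastCases ?_ (fun j => ?_) i
      · rw [Fin.snoc_last]; exact hgt
      · rw [Fin.snoc_castSucc]; exact he5 j
    · intro i
      refine Fin.lastCases ?_ (fun j => ?_) i
      · rw [Fin.snoc_last]; exact ⟨le_rfl, hab⟩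
      · rw [Fin.snoc_castSucc]; exact ⟨hac.trans (he6 j).1, (he6 j).2⟩
    · rw [Fin.sum_univ_castSucc]
      simp only [Fin.snoc_castSucc, Fin.snoc_last]
      have hdec : h * q - (∑ i, μ i • e i + a • g) =
          (h * r - ∑ i, μ i • e i) + (h * g - a • g) := by
        have : h * q = h * r + h * g := by rw [hg, mul_sub]; abel
        rw [this]; abel
      have horth : star (h * r - ∑ i, μ i • e i) * (h * g - a • g) = 0 := by
        have hA : star (h * r - ∑ i, μ i • e i) * r = star (h * r - ∑ i, μ i • e i) := by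
          have hB : r * (h * r - ∑ i, μ i • e i) = h * r - ∑ i, μ i • e i := by
            rw [mul_sub, ← mul_assoc, ← hhr, mul_assoc, hrr, Finset.mul_sum]
            congr 1
            refine Finset.sum_congr rfl fun i _ => ?_
            rw [mul_smul_comm, her]
          have := congrArg star hB
          rwa [star_mul, proj_star hrp] at this
        have hC : r * (h * g - a • g) = 0 := by
          rw [mul_sub, mul_smul_comm, hrg, smul_zero, ← mul_assoc, ← hhr, mul_assoc, hrg, mul_zero,
            sub_zero]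
        rw [← hA, mul_assoc, hC, mul_zero]
      rw [hdec, tn_add_orth hsum horth]
      have hp := norm_piece hsum hsa hgp hhg hac h3 h4
      rw [hgt] at hp
      have h5 : 0 ≤ c - a := by linarith
      have h6 : 0 ≤ b - c := by linarith
      have h7 : s * (b - c) ^ 2 + (c - a) ^ 2 * s ≤ s * (b - a) ^ 2 := by
        have : (b - a) ^ 2 = (b - c) ^ 2 + (c - a) ^ 2 + 2 * ((b - c) * (c - a)) := by ring
        rw [this]
        have h8 : 0 ≤ s * ((b - c) * (c - a)) := mul_nonneg hs (mul_nonneg h6 h5)
        nlinarith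
      linarith

end Crest.Agent.R95.VN
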