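import Crest.Agent.R95.VCutA

/-! Row 95, V_CUT: spectral projections of `h` in the corner `q` (`q` a projection commuting with the selfadjoint `h`):
`cut h q c := rp (((h - c) * q)⁺)`.  Loewner order on `H →L[ℂ] H`.

Let `x = (h - c) q`, selfadjoint, `q x = x = x q`; `x = x⁺ - x⁻`, `x⁺ * x⁻ = 0` (`CFC.posPart_sub_negPart`,
`CFC.posPart_mul_negPart`); `e = rp x⁺` satisfies `e x⁺ = x⁺ = x⁺ e`, `x⁻ e = 0` (`mul_rp_eq_zero`), `q e = e`
(`q x⁺ = x⁺`: x⁺ is a limit of polynomials without constant term in x; or: (1-q) commutes with x⁺ and x⁻, and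
`(1-q) x⁺ - (1-q) x⁻ = 0` and multiplying by `x⁺`: `(1-q) x⁺ x⁺ = 0` so `(1-q) x⁺ = 0` by the C*-identity),
`x e = x⁺`.  So `h e - c e = (h - c) q e = x e = x⁺ ≥ 0`,
`h (q - e) - c (q - e) = x (1 - e) = - x⁻ ≤ 0`.
`e` commutes with everything commuting with `x` (`rp_posPart_comm`), in particular with `h` and `q`.

`cut_anti`: for `c ≤ c'`, `e' := cut h q c' ≤ e := cut h q c`.  `e'` commutes with `e` (`e` commutes with `h, q`, so with
`(h - c') q`).  `g := e' * (1 - e)` is a projection below `e'` and below `q - e`;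
`g (h - c') g = e'-part ≥ 0` and `g (h - c') g ≤ g (h - c) g ≤ 0`, so `g x'⁺ g = 0` with `x' = (h - c') q`
(`x' e' = x'⁺`), i.e. `sqrt(x'⁺) g = 0`, `x'⁺ g = 0`, `g x'⁺ = 0`, `g e' = 0` (`mul_rp_eq_zero`), `g = 0`. -/

set_option autoImplicit false
set_option linter.unusedSectionVars false

open Crest.OpAlg Filter Topology
open scoped InnerProductSpace

namespace Crest.Agent.R95.VN

variable {H : Type*} [NormedAddCommGroup H] [InnerProductSpace ℂ H] [CompleteSpace H]
variable {ξ : ℕ → H} {N : VonNeumannAlgebra H}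

/-- a projection `G` with `a G ≤ h G ≤ c G`, `c < a` vanishes. -/
theorem proj_squeeze {h G : H →L[ℂ] H} (hG : IsStarProjection G) {a c : ℝ}
    (h1 : a • G ≤ h * G) (h2 : h * G ≤ c • G) (hca : c < a) : G = 0 := by
  have h3 : a • G ≤ c • G := h1.trans h2
  have h4 : (a - c) • G ≤ 0 := by
    rw [sub_smul]; exact sub_nonpos.2 h3
  have h5 : 0 ≤ (a - c) • G := smul_nonneg (by linarith) hG.nonneg
  have h6 : (a - c) • G = 0 := le_antisymm h4 h5
  rcases smul_eq_zero.1 h6 with h7 | h7
  · linarith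
  · exact h7

/-- conjugating an inequality by a projection commuting with `h`. -/
theorem conj_le {h e G : H →L[ℂ] H} (hG : IsStarProjection G) (hhG : G * h = h * G)
    (heG : e * G = G) {a : ℝ} (h1 : h * e ≤ a • e) : h * G ≤ a • G := by
  have h2 := star_left_conjugate_le_conjugate h1 G
  rw [proj_star hG] at h2
  have h3 : G * (h * e) * G = h * G := by
    rw [mul_assoc, mul_assoc, heG, ← mul_assoc, hhG, mul_assoc, proj_mul hG]
  have h4 : G * (a • e) * G = a • G := by
    rw [mul_smul_comm, smul_mul_assoc, mul_assoc, heG, proj_mul hG]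
  rwa [h3, h4] at h2

theorem conj_ge {h e G : H →L[ℂ] H} (hG : IsStarProjection G) (hhG : G * h = h * G)
    (heG : e * G = G) {a : ℝ} (h1 : a • e ≤ h * e) : a • G ≤ h * G := by
  have h2 := star_left_conjugate_le_conjugate h1 G
  rw [proj_star hG] at h2
  have h3 : G * (h * e) * G = h * G := by
    rw [mul_assoc, mul_assoc, heG, ← mul_assoc, hhG, mul_assoc, proj_mul hG]
  have h4 : G * (a • e) * G = a • G := by
    rw [mul_smul_comm, smul_mul_assoc, mul_assoc, heG, proj_mul hG]
  rwa [h3, h4] at h2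

theorem cut_comm_h {h q : H →L[ℂ] H} (hsa : star h = h) (hq : IsStarProjection q)
    (hc : h * q = q * h) (c : ℝ) : h * cut h q c = cut h q c * h :=
  cut_comm hsa hq hc c rfl hc

theorem cut_comm_q {h q : H →L[ℂ] H} (hsa : star h = h) (hq : IsStarProjection q)
    (hc : h * q = q * h) (c : ℝ) : q * cut h q c = cut h q c * q :=
  cut_comm hsa hq hc c hc.symm rfl

theorem cut_anti {h q : H →L[ℂ] H} (hsa : star h = h) (hq : IsStarProjection q)
    (hc : h * q = q * h) {c c' : ℝ} (hcc : c ≤ c') : cut h q c * cut h q c' = cut h q c' := by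
  rcases hcc.eq_or_lt with rfl | hlt
  · exact proj_mul (cut_proj h q c)
  set e := cut h q c with he
  set e' := cut h q c' with he'
  have hep : IsStarProjection e := cut_proj h q c
  have hep' : IsStarProjection e' := cut_proj h q c'
  have hqe : q * e = e := cut_le hsa hq hc c
  have hqe' : q * e' = e' := cut_le hsa hq hc c'
  have hhe : h * e = e * h := cut_comm_h hsa hq hc c
  have hhe' : h * e' = e' * h := cut_comm_h hsa hq hc c'
  have hq1 : q * e = e * q := cut_comm_q hsa hq hc c
  have hq1' : q * e' = e' * q := cut_comm_q hsa hq hc c'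
  have hee : e * e' = e' * e := cut_comm hsa hq hc c' hhe.symm hq1.symm
  have hr : IsStarProjection (q - e) := proj_sub hep hq hqe
  have hcomm : e' * (q - e) = (q - e) * e' := by
    rw [mul_sub, sub_mul, hq1', hee]
  have hG : IsStarProjection (e' * (q - e)) := by
    refine ⟨?_, ?_⟩
    · show e' * (q - e) * (e' * (q - e)) = e' * (q - e)
      rw [mul_assoc, ← mul_assoc (q - e), ← hcomm, mul_assoc, proj_mul hr, ← mul_assoc,
        proj_mul hep']
    · show star (e' * (q - e)) = e' * (q - e)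
      rw [star_mul, proj_star hep', proj_star hr, hcomm]
  have hhG : e' * (q - e) * h = h * (e' * (q - e)) := by
    rw [mul_assoc, sub_mul, ← hc, ← hhe, ← mul_sub, ← mul_assoc, ← hhe', mul_assoc]
  have heG' : e' * (e' * (q - e)) = e' * (q - e) := by
    rw [← mul_assoc, proj_mul hep']
  have heG : (q - e) * (e' * (q - e)) = e' * (q - e) := by
    rw [← mul_assoc, ← hcomm, mul_assoc, proj_mul hr]
  have h0 : e' * (q - e) = 0 :=
    proj_squeeze hG (conj_ge hG hhG heG' (cut_ge hsa hq hc c'))
      (conj_le hG hhG heG (cut_rest hsa hq hc c)) hlt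
  rw [mul_sub, ← hq1', hqe', sub_eq_zero] at h0
  rw [hee, ← h0]

/-- `h q ≤ b q` implies `cut h q b = 0`. -/
theorem cut_top {h q : H →L[ℂ] H} (hsa : star h = h) (hq : IsStarProjection q)
    (hc : h * q = q * h) {b : ℝ} (hb : h * q ≤ b • q) : cut h q b = 0 := by
  have h1 : (h - b • 1) * q ≤ 0 := by
    rw [sub_mul, smul_mul_assoc, one_mul]
    exact sub_nonpos.2 hb
  have h2 : ((h - b • 1) * q)⁺ = 0 := by
    have h3 : star ((h - b • 1) * q) = (h - b • 1) * q := by
      rw [star_mul, star_sub, star_smul, star_one, hsa, proj_star hq, mul_sub, sub_mul, hc,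
        mul_smul_comm, smul_mul_assoc, one_mul, mul_one, star_trivial]
    exact (CFC.posPart_eq_zero_iff _ h3).2 h1
  unfold cut
  rw [h2]
  have := mul_rp_eq_zero (x := (0 : H →L[ℂ] H)) (y := 1) (mul_zero _)
  rwa [one_mul] at this

/-- `a q ≤ h q`, `c < a` implies `cut h q c = q`. -/
theorem cut_bot {h q : H →L[ℂ] H} (hsa : star h = h) (hq : IsStarProjection q)
    (hc : h * q = q * h) {a c : ℝ} (ha : a • q ≤ h * q) (hca : c < a) : cut h q c = q := by
  have hep : IsStarProjection (cut h q c) := cut_proj h q c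
  have hqe : q * cut h q c = cut h q c := cut_le hsa hq hc c
  have hhe : h * cut h q c = cut h q c * h := cut_comm_h hsa hq hc c
  have hr : IsStarProjection (q - cut h q c) := proj_sub hep hq hqe
  have hhG : (q - cut h q c) * h = h * (q - cut h q c) := by
    rw [sub_mul, mul_sub, hc, hhe]
  have hqG : q * (q - cut h q c) = q - cut h q c := by
    rw [mul_sub, proj_mul hq, hqe]
  have h0 := proj_squeeze hr (conj_ge hr hhG hqG ha) (cut_rest hsa hq hc c) hca
  exact (sub_eq_zero.1 h0).symm

end Crest.Agent.R95.VN
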