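import Crest.Agent.R95.VDefs

/-! Row 95, V_MONO: limits of monotone sequences of projections of `N` (pure Hilbert space).

Proof of `mono_proj`: `U n := range (p n)`; `p n = (U n).starProjection`
(`isStarProjection_iff_eq_starProjection_range`), `U` is monotone, and
`Submodule.starProjection_tendsto_closure_iSup` gives strong convergence to
`e := (⨆ n, U n).topologicalClosure.starProjection`.  `e ∈ N` by `mem_of_tendsto`.  `e * p n = p n`.
Convergence of `traceNormSq ξ (p n) = ∑ ‖p n (ξ k)‖²`: `tendsto_tsum_of_dominated_convergence`.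
`anti_proj`: apply `mono_proj` to `1 - p n` and put `e := 1 - e'`. -/

set_option autoImplicit false
set_option linter.unusedSectionVars false

open Crest.OpAlg Filter Topology
open scoped InnerProductSpace

namespace Crest.Agent.R95.VN

variable {H : Type*} [NormedAddCommGroup H] [InnerProductSpace ℂ H] [CompleteSpace H]
variable {ξ : ℕ → H} {N : VonNeumannAlgebra H}

theorem mono_proj (hξ : Summable fun n => ‖ξ n‖ ^ 2) (p : ℕ → H →L[ℂ] H)
    (hN : ∀ n, p n ∈ N) (hp : ∀ n, IsStarProjection (p n)) (hm : ∀ n, p (n + 1) * p n = p n) :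
    ∃ e ∈ N, IsStarProjection e ∧ (∀ n, e * p n = p n) ∧
      (∀ v, Tendsto (fun n => p n v) atTop (𝓝 (e v))) ∧
      Tendsto (fun n => traceNormSq ξ (p n)) atTop (𝓝 (traceNormSq ξ e)) := by
  have hex : ∀ n, ∃ (_ : (p n).range.HasOrthogonalProjection), p n = (p n).range.starProjection :=
    fun n => isStarProjection_iff_eq_starProjection_range.1 (hp n)
  have hop : ∀ n, (p n).range.HasOrthogonalProjection := fun n => (hex n).1
  have heq : ∀ n, p n = (p n).range.starProjection := fun n => (hex n).2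
  have hU : Monotone fun n => (p n).range := by
    refine monotone_nat_of_le_succ fun n => ?_
    rintro _ ⟨v, rfl⟩
    exact ⟨p n v, congrArg (fun T : H →L[ℂ] H => T v) (hm n)⟩
  set K := (⨆ n, (p n).range).topologicalClosure with hK
  have ht : ∀ v, Tendsto (fun n => p n v) atTop (𝓝 (K.starProjection v)) := by
    intro v
    have h := Submodule.starProjection_tendsto_closure_iSup (fun n => (p n).range) hU v
    refine h.congr fun n => ?_
    rw [← heq n]
  refine ⟨K.starProjection, mem_of_tendsto hN ht, isStarProjection_starProjection, ?_, ht, ?_⟩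
  · intro n
    ext v
    show K.starProjection (p n v) = p n v
    rw [Submodule.starProjection_eq_self_iff]
    refine Submodule.le_topologicalClosure _ ?_
    exact Submodule.mem_iSup_of_mem n ⟨v, rfl⟩
  · unfold traceNormSq
    refine tendsto_tsum_of_dominated_convergence (bound := fun k => ‖ξ k‖ ^ 2) hξ ?_ ?_
    · intro k
      exact ((ht (ξ k)).norm).pow 2
    · refine Filter.Eventually.of_forall fun n k => ?_
      rw [Real.norm_of_nonneg (by positivity)]
      refine pow_le_pow_left₀ (norm_nonneg _) ?_ 2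
      rw [heq n]
      exact Submodule.norm_starProjection_apply_le _ _

theorem anti_proj (hξ : Summable fun n => ‖ξ n‖ ^ 2) (p : ℕ → H →L[ℂ] H)
    (hN : ∀ n, p n ∈ N) (hp : ∀ n, IsStarProjection (p n)) (hm : ∀ n, p n * p (n + 1) = p (n + 1)) :
    ∃ e ∈ N, IsStarProjection e ∧ (∀ n, p n * e = e) ∧
      (∀ v, Tendsto (fun n => p n v) atTop (𝓝 (e v))) ∧
      Tendsto (fun n => traceNormSq ξ (p n)) atTop (𝓝 (traceNormSq ξ e)) := by
  have h1p : ∀ n, IsStarProjection (1 - p n) := fun n =>
    proj_sub (hp n) (IsStarProjection.one _) (one_mul _)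
  have h1N : ∀ n, 1 - p n ∈ N := fun n => sub_mem (one_mem N) (hN n)
  have h1m : ∀ n, (1 - p (n + 1)) * (1 - p n) = 1 - p n := by
    intro n
    have h2 : p (n + 1) * p n = p (n + 1) := proj_flip (hp (n + 1)) (hp n) (hm n)
    rw [mul_sub, mul_one, sub_mul, one_mul, h2]
    abel
  obtain ⟨e, heN, he, hle, ht, htn⟩ := mono_proj (ξ := ξ) hξ (fun n => 1 - p n) h1N h1p h1m
  have hp' : ∀ {q : H →L[ℂ] H}, IsStarProjection q →
      traceNormSq ξ (1 - q) = traceNormSq ξ 1 - traceNormSq ξ q := fun hq =>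
    tn_proj_sub hξ hq (IsStarProjection.one _) (one_mul _)
  refine ⟨1 - e, sub_mem (one_mem N) heN, proj_sub he (IsStarProjection.one _) (one_mul _),
    ?_, ?_, ?_⟩
  · intro n
    have h3 : e * (1 - p n) = 1 - p n := hle n
    have h4 : (1 - p n) * e = 1 - p n := proj_flip (h1p n) he h3
    have h5 : p n * e = e - (1 - p n) := by
      rw [← h4, sub_mul, one_mul]
      abel
    rw [mul_sub, mul_one, h5]
    abel
  · intro v
    have := (tendsto_const_nhds (x := v)).sub (ht v)
    refine Tendsto.congr (fun n => ?_) this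
    show v - (1 - p n) v = p n v
    rw [ContinuousLinearMap.sub_apply, ContinuousLinearMap.one_apply, sub_sub_cancel]
  · rw [hp' he]
    have := (tendsto_const_nhds (x := traceNormSq ξ 1)).sub htn
    refine Tendsto.congr (fun n => ?_) this
    rw [hp' (hp n), sub_sub_cancel]

/-- inequalities pass to strong limits. -/
theorem le_of_tendsto_strong (x y : ℕ → H →L[ℂ] H) (x' y' : H →L[ℂ] H)
    (hx : ∀ v, Tendsto (fun n => x n v) atTop (𝓝 (x' v)))
    (hy : ∀ v, Tendsto (fun n => y n v) atTop (𝓝 (y' v))) (h : ∀ n, x n ≤ y n) : x' ≤ y' := by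
  rw [ContinuousLinearMap.le_def, ContinuousLinearMap.isPositive_iff_complex]
  intro v
  have h1 : Tendsto (fun n => ⟪(y n - x n) v, v⟫_ℂ) atTop (𝓝 ⟪(y' - x') v, v⟫_ℂ) :=
    ((hy v).sub (hx v)).inner tendsto_const_nhds
  have h2 : ∀ n, ((RCLike.re ⟪(y n - x n) v, v⟫_ℂ : ℝ) : ℂ) = ⟪(y n - x n) v, v⟫_ℂ ∧
      0 ≤ RCLike.re ⟪(y n - x n) v, v⟫_ℂ := fun n =>
    (ContinuousLinearMap.isPositive_iff_complex _).1 ((ContinuousLinearMap.le_def _ _).1 (h n)) v
  have h3 : Tendsto (fun n => RCLike.re ⟪(y n - x n) v, v⟫_ℂ) atTop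
      (𝓝 (RCLike.re ⟪(y' - x') v, v⟫_ℂ)) := (RCLike.continuous_re.tendsto _).comp h1
  refine ⟨?_, ge_of_tendsto' h3 fun n => (h2 n).2⟩
  have h4 : Tendsto (fun n => ((RCLike.re ⟪(y n - x n) v, v⟫_ℂ : ℝ) : ℂ)) atTop
      (𝓝 ((RCLike.re ⟪(y' - x') v, v⟫_ℂ : ℝ) : ℂ)) :=
    (Complex.continuous_ofReal.tendsto _).comp h3
  exact tendsto_nhds_unique (h4.congr fun n => (h2 n).1) h1

end Crest.Agent.R95.VN
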