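import Crest.Agent.R95.VCutB
import Crest.Agent.R95.VMono

/-! Row 95, V_SPLIT: cutting a corner at a prescribed trace, compatibly with the order of the spectrum of `h`.

`f c := D (cut h q c)` is antitone, `f b = 0` (`cut_top`), `f c = D q` for `c < a` (`cut_bot`).
`S := {c ∈ Icc a b | f c ≤ t}` contains `b`; `c* := sInf S`.
Upper side: a sequence `c n ∈ S`, antitone, → `c*`; `cut h q (c n)` is increasing, `mono_proj` gives `E ∈ N` with
`D E ≤ t`, `c* • E ≤ h * E`, `h * (q - E) ≤ c* • (q - E)` (`le_of_tendsto_strong`), `E h = h E`, `q E = E`.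
Lower side: `c n := c* - 1/(n+1)`, `f (c n) ≥ t` (if `c n < a` then `f = D q ≥ t`, otherwise `c n ∉ S`);
decreasing; `anti_proj` gives `F ∈ N` with `D F ≥ t`, `c* • F ≤ h * F`, `h * (q - F) ≤ c* • (q - F)`, `F h = h F`,
`q F = F`, and `F * E = E` (each `cut h q (c* - 1/(n+1)) * cut h q (c m) = cut h q (c m)`; take limits).
`exists_between` gives `r` with `E ≤ r ≤ F`, `D r = t`.  On `F - E`: `h (F - E) = c* (F - E)`:
conjugate `c* F ≤ h F` and `h (q - E) ≤ c* (q - E)` by `F - E` (antisymmetry).  So `h (r - E) = h (F - E) (r - E) =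
c* (r - E)`, and everything follows: `h r = h E + c* (r - E)`, `h (q - r) = h (q - F) + c* (F - r)`. -/

set_option autoImplicit false
set_option linter.unusedSectionVars false

open Crest.OpAlg Filter Topology
open scoped InnerProductSpace

namespace Crest.Agent.R95.VN

variable {H : Type*} [NormedAddCommGroup H] [InnerProductSpace ℂ H] [CompleteSpace H]
variable {ξ : ℕ → H} {N : VonNeumannAlgebra H}

/-- the two-sided envelope. -/
theorem envelope (hξ : IsFaithfulTracialVectorState N ξ) {h q : H →L[ℂ] H} (hh : h ∈ N)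
    (hq : q ∈ N) (hsa : star h = h) (hqp : IsStarProjection q) (hc : h * q = q * h) {a b t : ℝ}
    (hab : a ≤ b) (ha : a • q ≤ h * q) (hb : h * q ≤ b • q) (ht0 : 0 ≤ t)
    (ht1 : t ≤ traceNormSq ξ q) :
    ∃ c : ℝ, a ≤ c ∧ c ≤ b ∧ ∃ E ∈ N, ∃ F ∈ N, IsStarProjection E ∧ IsStarProjection F ∧
      F * E = E ∧ q * F = F ∧ h * E = E * h ∧ h * F = F * h ∧
      traceNormSq ξ E ≤ t ∧ t ≤ traceNormSq ξ F ∧
      c • E ≤ h * E ∧ h * (q - E) ≤ c • (q - E) ∧ c • F ≤ h * F ∧ h * (q - F) ≤ c • (q - F) := by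
  have hsum := sumsq hξ
  set S : Set ℝ := {c | c ∈ Set.Icc a b ∧ traceNormSq ξ (cut h q c) ≤ t} with hS
  have hbS : b ∈ S := by
    refine ⟨⟨hab, le_rfl⟩, ?_⟩
    rw [cut_top hsa hqp hc hb, tn_zero]
    exact ht0
  have hSne : S.Nonempty := ⟨b, hbS⟩
  have hSbd : BddBelow S := ⟨a, fun c hc' => hc'.1.1⟩
  set c₀ : ℝ := sInf S with hc0
  have hglb : IsGLB S c₀ := isGLB_csInf hSne hSbd
  have hac : a ≤ c₀ := le_csInf hSne fun c hc' => hc'.1.1
  have hcb : c₀ ≤ b := csInf_le hSbd hbS
  -- common facts about limits of cuts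
  have hcomm : ∀ c, h * cut h q c = cut h q c * h := fun c =>
    cut_comm hsa hqp hc c rfl hc
  have hlim : ∀ (u : ℕ → ℝ) (E : H →L[ℂ] H), Tendsto u atTop (𝓝 c₀) →
      (∀ v, Tendsto (fun n => cut h q (u n) v) atTop (𝓝 (E v))) →
      q * E = E ∧ h * E = E * h ∧ c₀ • E ≤ h * E ∧ h * (q - E) ≤ c₀ • (q - E) := by
    intro u E hu hE
    have hhE : ∀ v, Tendsto (fun n => h (cut h q (u n) v)) atTop (𝓝 (h (E v))) := fun v =>
      (h.continuous.tendsto _).comp (hE v)
    refine ⟨?_, ?_, ?_, ?_⟩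
    · ext v
      have h1 : Tendsto (fun n => q (cut h q (u n) v)) atTop (𝓝 (q (E v))) :=
        (q.continuous.tendsto _).comp (hE v)
      have h2 : ∀ n, q (cut h q (u n) v) = cut h q (u n) v := fun n =>
        congrArg (fun T : H →L[ℂ] H => T v) (cut_le hsa hqp hc (u n))
      simp only [h2] at h1
      exact tendsto_nhds_unique h1 (hE v)
    · ext v
      have h1 : Tendsto (fun n => cut h q (u n) (h v)) atTop (𝓝 (E (h v))) := hE (h v)
      have h2 : ∀ n, cut h q (u n) (h v) = h (cut h q (u n) v) := fun n =>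
        (congrArg (fun T : H →L[ℂ] H => T v) (hcomm (u n))).symm
      simp only [h2] at h1
      exact tendsto_nhds_unique (hhE v) h1
    · refine le_of_tendsto_strong (fun n => u n • cut h q (u n)) (fun n => h * cut h q (u n))
        (c₀ • E) (h * E) (fun v => ?_) (fun v => ?_) (fun n => cut_ge hsa hqp hc (u n))
      · exact hu.smul (hE v)
      · exact hhE v
    · refine le_of_tendsto_strong (fun n => h * (q - cut h q (u n)))
        (fun n => u n • (q - cut h q (u n)))
        (h * (q - E)) (c₀ • (q - E)) (fun v => ?_) (fun v => ?_)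
        (fun n => cut_rest hsa hqp hc (u n))
      · exact (h.continuous.tendsto _).comp ((tendsto_const_nhds (x := q v)).sub (hE v))
      · exact hu.smul ((tendsto_const_nhds (x := q v)).sub (hE v))
  -- upper side
  obtain ⟨u, hu1, hu2, hu3, hu4⟩ := hglb.exists_seq_antitone_tendsto hSne
  obtain ⟨E, hEN, hEp, -, hElim, hEtn⟩ := mono_proj hsum (fun n => cut h q (u n))
    (fun n => cut_mem hh hq (u n)) (fun n => cut_proj h q (u n))
    (fun n => cut_anti hsa hqp hc (hu1 (Nat.le_succ n)))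
  obtain ⟨hE1, hE2, hE3, hE4⟩ := hlim u E hu3 hElim
  have hEt : traceNormSq ξ E ≤ t :=
    le_of_tendsto hEtn (Filter.Eventually.of_forall fun n => (hu4 n).2)
  -- lower side
  set d : ℕ → ℝ := fun n => c₀ - 1 / ((n : ℝ) + 1) with hd
  have hdlim : Tendsto d atTop (𝓝 c₀) := by
    have : Tendsto (fun n : ℕ => c₀ - 1 / ((n : ℝ) + 1)) atTop (𝓝 (c₀ - 0)) :=
      tendsto_const_nhds.sub tendsto_one_div_add_atTop_nhds_zero_nat
    rw [sub_zero] at this
    exact this
  have hdlt : ∀ n, d n < c₀ := fun n => by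
    have : (0 : ℝ) < 1 / ((n : ℝ) + 1) := by positivity
    simp only [hd]
    linarith
  have hdmono : ∀ n, d n ≤ d (n + 1) := fun n => by
    have : (1 : ℝ) / (((n + 1 : ℕ) : ℝ) + 1) ≤ 1 / ((n : ℝ) + 1) := by
      apply one_div_le_one_div_of_le (by positivity)
      push_cast
      linarith
    simp only [hd]
    linarith
  have hdt : ∀ n, t ≤ traceNormSq ξ (cut h q (d n)) := by
    intro n
    by_cases hda : d n < a
    · rw [cut_bot hsa hqp hc ha hda]
      exact ht1
    · push Not at hda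
      by_contra hcon
      push Not at hcon
      have hmem : d n ∈ S := ⟨⟨hda, ((hdlt n).trans_le hcb).le⟩, hcon.le⟩
      exact absurd (csInf_le hSbd hmem) (not_le.2 (hdlt n))
  obtain ⟨F, hFN, hFp, -, hFlim, hFtn⟩ := anti_proj hsum (fun n => cut h q (d n))
    (fun n => cut_mem hh hq (d n)) (fun n => cut_proj h q (d n))
    (fun n => cut_anti hsa hqp hc (hdmono n))
  obtain ⟨hF1, hF2, hF3, hF4⟩ := hlim d F hdlim hFlim
  have hFt : t ≤ traceNormSq ξ F :=
    ge_of_tendsto hFtn (Filter.Eventually.of_forall fun n => hdt n)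
  -- `F E = E`
  have hFE : F * E = E := by
    ext v
    have h1 : ∀ n, cut h q (d n) (E v) = E v := by
      intro n
      have h2 : Tendsto (fun m => cut h q (d n) (cut h q (u m) v)) atTop
          (𝓝 (cut h q (d n) (E v))) :=
        ((cut h q (d n)).continuous.tendsto _).comp (hElim v)
      have h3 : ∀ m, cut h q (d n) (cut h q (u m) v) = cut h q (u m) v := fun m =>
        congrArg (fun T : H →L[ℂ] H => T v)
          (cut_anti hsa hqp hc ((hdlt n).le.trans (hu2 m)))
      simp only [h3] at h2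
      exact tendsto_nhds_unique h2 (hElim v)
    have h4 := hFlim (E v)
    simp only [h1] at h4
    exact tendsto_nhds_unique tendsto_const_nhds h4 |>.symm
  exact ⟨c₀, hac, hcb, E, hEN, F, hFN, hEp, hFp, hFE, hF1, hE2, hF2, hEt, hFt, hE3, hE4, hF3, hF4⟩

end Crest.Agent.R95.VN
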