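import Crest.Agent.R95.VNa

/-!
# Row 95, piece COMPLETE

(1) DENSE: `M' ξ` is total: a vector `η` orthogonal to all `y ξ_n` (`y ∈ M'`) is `0`.
Proof: `K` = closed span of `{y ξ_n}`; `K` is `M'`-invariant so its projection `p` is in `M`
(`vn_proj_mem`); `(1 - p) ξ_n = 0` (`ξ_n = 1 ξ_n ∈ K`), `1 - p ∈ M`, so `1 - p = 0` as `ξ`
separates `M`.

(2) COMPLETE: `x_k ∈ M`, `‖x_k‖ ≤ C`, `n2`-Cauchy.  For `y ∈ M'`: `x_k (y ξ_n) = y (x_k ξ_n)` is
Cauchy (`‖(x_k - x_l) ξ_n‖ ≤ n2 (x_k - x_l)`); by (1) and boundedness `x_k v` is Cauchy for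
every `v`.  The limit `x` is linear, `‖x‖ ≤ C`, commutes with `M'`, so `x ∈ M`.
`n2 (x_k - x) ≤ liminf_l n2 (x_k - x_l)` by Fatou (or finite partial sums).
-/

set_option autoImplicit false

namespace Crest.Agent.R95

open Crest.OpAlg
open scoped InnerProductSpace ComplexConjugate Topology

variable {H : Type*} [NormedAddCommGroup H] [InnerProductSpace ℂ H] [CompleteSpace H]
variable {ξ : ℕ → H} {P M : VonNeumannAlgebra H}

theorem commutant_total (h : Trc M ξ) (η : H)
    (hη : ∀ y ∈ M.commutant, ∀ n, ⟪y (ξ n), η⟫_ℂ = 0) : η = 0 := by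
  set S : Set H := {v | ∃ y ∈ M.commutant, ∃ n, v = y (ξ n)} with hS
  set K₀ : Submodule ℂ H := Submodule.span ℂ S with hK₀
  set K : Submodule ℂ H := K₀.topologicalClosure with hK
  haveI : CompleteSpace K := K₀.isClosed_topologicalClosure.completeSpace_coe
  have hinv₀ : ∀ y ∈ M.commutant, ∀ v ∈ K₀, y v ∈ K₀ := by
    intro y hy v hv
    induction hv using Submodule.span_induction with
    | mem x hx =>
      obtain ⟨z, hz, n, rfl⟩ := hx
      exact Submodule.subset_span ⟨y * z, mul_mem hy hz, n, rfl⟩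
    | zero => simp
    | add a b _ _ ha hb => rw [map_add]; exact add_mem ha hb
    | smul c a _ ha => rw [map_smul]; exact K₀.smul_mem c ha
  have hinv : ∀ y ∈ M.commutant, ∀ v ∈ K, y v ∈ K := by
    intro y hy v hv
    have h1 : v ∈ closure (K₀ : Set H) := hv
    have h2 : Set.MapsTo y (K₀ : Set H) (K₀ : Set H) := fun w hw => hinv₀ y hy w hw
    exact h2.closure y.continuous h1
  have hp := vn_proj_mem M K hinv
  have hξ : ∀ n, ξ n ∈ K := fun n =>
    K₀.le_topologicalClosure (Submodule.subset_span ⟨1, one_mem _, n, rfl⟩)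
  have h1 : (1 : H →L[ℂ] H) - K.starProjection = 0 := by
    refine h.2.2 _ (sub_mem (one_mem _) hp) fun n => ?_
    rw [ContinuousLinearMap.sub_apply, ContinuousLinearMap.one_apply,
      Submodule.starProjection_eq_self_iff.2 (hξ n), sub_self]
  have h2 : η ∈ K := by
    rw [← Submodule.starProjection_eq_self_iff]
    have := congrArg (fun T : H →L[ℂ] H => T η) h1
    simp only [ContinuousLinearMap.sub_apply, ContinuousLinearMap.one_apply,
      ContinuousLinearMap.zero_apply] at this
    exact (sub_eq_zero.1 this).symm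
  have h3 : K₀ ≤ (ℂ ∙ η)ᗮ := by
    rw [hK₀, Submodule.span_le]
    rintro _ ⟨y, hy, n, rfl⟩
    exact Submodule.mem_orthogonal_singleton_iff_inner_left.2 (hη y hy n)
  have h4 : K ≤ (ℂ ∙ η)ᗮ :=
    K₀.topologicalClosure_minimal h3 (Submodule.isClosed_orthogonal _)
  have h5 := Submodule.mem_orthogonal_singleton_iff_inner_left.1 (h4 h2)
  exact inner_self_eq_zero.1 h5

theorem norm_apply_le_n2 (h : Nr ξ) (x : H →L[ℂ] H) (n : ℕ) : ‖x (ξ n)‖ ≤ n2 ξ x := by
  have h1 : ‖x (ξ n)‖ ^ 2 ≤ n2 ξ x ^ 2 := by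
    rw [n2_sq']
    exact (summable_n2 h x).le_tsum n (fun j _ => by positivity)
  exact (pow_le_pow_iff_left₀ (norm_nonneg _) (n2_nonneg _) two_ne_zero).1 h1

theorem vn_complete (h : Trc M ξ) (x : ℕ → (H →L[ℂ] H)) (hx : ∀ k, x k ∈ M) (C : ℝ)
    (hC : ∀ k, ‖x k‖ ≤ C)
    (hcau : ∀ ε : ℝ, 0 < ε → ∃ N, ∀ k l, N ≤ k → N ≤ l → n2 ξ (x k - x l) ≤ ε) :
    ∃ y ∈ M, ‖y‖ ≤ C ∧ Filter.Tendsto (fun k => n2 ξ (x k - y)) Filter.atTop (𝓝 0) := by
  have hC0 : 0 ≤ C := (norm_nonneg _).trans (hC 0)
  -- the set of good vectors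
  let D : Submodule ℂ H :=
    { carrier := {v | CauchySeq fun k => x k v}
      add_mem' := by
        intro a b ha hb
        change CauchySeq fun k => x k (a + b)
        simp only [map_add]
        exact CauchySeq.add ha hb
      zero_mem' := by
        change CauchySeq fun k => x k 0
        simp only [map_zero]
        exact cauchySeq_const _
      smul_mem' := by
        intro c a ha
        change CauchySeq fun k => x k (c • a)
        simp only [map_smul]
        exact ha.map (uniformContinuous_const_smul c) }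
  have hDmem : ∀ v, v ∈ D ↔ CauchySeq fun k => x k v := fun v => Iff.rfl
  have hDcl : IsClosed (D : Set H) := by
    rw [← closure_subset_iff_isClosed]
    intro v hv
    change v ∈ D
    rw [hDmem, Metric.cauchySeq_iff']
    intro ε hε
    obtain ⟨w, hw, hvw⟩ := Metric.mem_closure_iff.1 hv (ε / (3 * (C + 1))) (by positivity)
    have hw' : CauchySeq fun k => x k w := hw
    obtain ⟨N, hN⟩ := Metric.cauchySeq_iff'.1 hw' (ε / 3) (by positivity)
    refine ⟨N, fun n hn => ?_⟩
    have e1 : ∀ k, ‖x k v - x k w‖ ≤ ε / 3 := by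
      intro k
      rw [← map_sub]
      rw [dist_eq_norm] at hvw
      calc ‖x k (v - w)‖ ≤ ‖x k‖ * ‖v - w‖ := (x k).le_opNorm _
        _ ≤ (C + 1) * (ε / (3 * (C + 1))) := by
            have := hC k
            gcongr
            linarith
        _ = ε / 3 := by field_simp
    have e2 := hN n hn
    rw [dist_eq_norm] at e2 ⊢
    calc ‖x n v - x N v‖ = ‖(x n v - x n w) + (x n w - x N w) + (x N w - x N v)‖ := by
          congr 1; abel
      _ ≤ ‖x n v - x n w‖ + ‖x n w - x N w‖ + ‖x N w - x N v‖ := norm_add₃_le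
      _ < ε / 3 + ε / 3 + ε / 3 := by
          have a1 := e1 n
          have a2 := e1 N
          rw [norm_sub_rev] at a2
          linarith
      _ = ε := by ring
  have hDgen : ∀ y ∈ M.commutant, ∀ n, y (ξ n) ∈ D := by
    intro y hy n
    rw [hDmem]
    have e0 : (fun k => x k (y (ξ n))) = fun k => y (x k (ξ n)) := by
      funext k
      have := VonNeumannAlgebra.mem_commutant_iff.1 hy (x k) (hx k)
      exact congrArg (fun T : H →L[ℂ] H => T (ξ n)) this
    rw [e0]
    have e1 : CauchySeq fun k => x k (ξ n) := by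
      rw [Metric.cauchySeq_iff']
      intro ε hε
      obtain ⟨N, hN⟩ := hcau (ε / 2) (by positivity)
      refine ⟨N, fun k hk => ?_⟩
      rw [dist_eq_norm]
      have := norm_apply_le_n2 h.nr (x k - x N) n
      have h2 := hN k N hk le_rfl
      rw [ContinuousLinearMap.sub_apply] at this
      linarith
    exact e1.map y.uniformContinuous
  have hDtop : ∀ v, v ∈ D := by
    haveI : CompleteSpace D := hDcl.completeSpace_coe
    have hperp : Dᗮ = ⊥ := by
      rw [Submodule.eq_bot_iff]
      intro η hη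
      refine commutant_total h η fun y hy n => ?_
      exact (Submodule.mem_orthogonal D η).1 hη _ (hDgen y hy n)
    have htop : D = ⊤ := (Submodule.orthogonal_eq_bot_iff).1 hperp
    intro v; rw [htop]; trivial
  choose f hf using fun v => cauchySeq_tendsto_of_complete (hDtop v)
  have hft : Filter.Tendsto (fun k v => x k v) Filter.atTop (𝓝 f) := tendsto_pi_nhds.2 hf
  let y : H →L[ℂ] H := LinearMap.mkContinuous
    { toFun := f
      map_add' := fun a b => by
        refine tendsto_nhds_unique (hf (a + b)) ?_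
        simpa only [map_add] using (hf a).add (hf b)
      map_smul' := fun c a => by
        refine tendsto_nhds_unique (hf (c • a)) ?_
        simpa only [map_smul, RingHom.id_apply] using (hf a).const_smul c } C (by
      intro v
      refine le_of_tendsto (hf v).norm (Filter.Eventually.of_forall fun k => ?_)
      exact ((x k).le_opNorm v).trans (mul_le_mul_of_nonneg_right (hC k) (norm_nonneg _)))
  have hy : ∀ v, Filter.Tendsto (fun k => x k v) Filter.atTop (𝓝 (y v)) := hf
  refine ⟨y, ?_, ?_, ?_⟩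
  · refine vn_mem_of_comm M fun z hz => ?_
    ext v
    change y (z v) = z (y v)
    refine tendsto_nhds_unique (hy (z v)) ?_
    have e0 : (fun k => x k (z v)) = fun k => z (x k v) := by
      funext k
      have := VonNeumannAlgebra.mem_commutant_iff.1 hz (x k) (hx k)
      exact congrArg (fun T : H →L[ℂ] H => T v) this
    rw [e0]
    exact (z.continuous.tendsto _).comp (hy v)
  · exact LinearMap.mkContinuous_norm_le _ hC0 _
  · rw [Metric.tendsto_atTop]
    intro ε hε
    obtain ⟨N, hN⟩ := hcau (ε / 2) (by positivity)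
    refine ⟨N, fun k hk => ?_⟩
    rw [Real.dist_eq, sub_zero, abs_of_nonneg (n2_nonneg _)]
    refine lt_of_le_of_lt ?_ (half_lt_self hε)
    have hsq : n2 ξ (x k - y) ^ 2 ≤ (ε / 2) ^ 2 := by
      rw [n2_sq']
      refine (summable_n2 h.nr (x k - y)).tsum_le_of_sum_le fun s => ?_
      have ht : Filter.Tendsto (fun l => ∑ n ∈ s, ‖(x k - x l) (ξ n)‖ ^ 2) Filter.atTop
          (𝓝 (∑ n ∈ s, ‖(x k - y) (ξ n)‖ ^ 2)) := by
        refine tendsto_finsetSum _ fun n _ => ?_
        refine (Filter.Tendsto.norm ?_).pow 2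
        simp only [ContinuousLinearMap.sub_apply]
        exact tendsto_const_nhds.sub (hy (ξ n))
      refine le_of_tendsto ht ?_
      filter_upwards [Filter.eventually_ge_atTop N] with l hl
      have e1 := hN k l hk hl
      calc ∑ n ∈ s, ‖(x k - x l) (ξ n)‖ ^ 2 ≤ n2 ξ (x k - x l) ^ 2 := by
            rw [n2_sq']
            exact (summable_n2 h.nr (x k - x l)).sum_le_tsum s (fun j _ => by positivity)
        _ ≤ (ε / 2) ^ 2 := by
            have := n2_nonneg (ξ := ξ) (x k - x l)
            gcongr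
    exact (pow_le_pow_iff_left₀ (n2_nonneg _) (by positivity) two_ne_zero).1 hsq

end Crest.Agent.R95
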