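import Crest.Agent.R95.VNa

/-!
# Row 95, piece DENSITY (von Neumann density, amplified vector)

`A` a unital star subalgebra of `B(H)`, `x` in the bicommutant of `A`.  Then `x` is approximated
by elements of `A` in `n2`.
Proof.  `𝓗 = ℓ²(ℕ, H)` (`lp (fun _ : ℕ => H) 2`), `Ξ = (ξ_n)_n ∈ 𝓗`.  For `a ∈ B(H)` let `a^∞`
act coordinatewise.  `K` = closure of `{a^∞ Ξ : a ∈ A}`, a closed subspace invariant under `A^∞`.
Let `p` be its projection; `p` commutes with `a^∞`, `a ∈ A` (star algebra).  The matrix entries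
`p_{ij} = ι_i* p ι_j ∈ B(H)` commute with `A`, hence with `x`; so `p` commutes with `x^∞`
(check on finitely supported vectors).  `Ξ = 1^∞ Ξ ∈ K`, so `x^∞ Ξ = x^∞ p Ξ = p x^∞ Ξ ∈ K`.
`‖x^∞ Ξ - a^∞ Ξ‖² = ∑ ‖(x - a) ξ_n‖² = n2 (x - a)²`.
(Alternative without `lp`: minimize; use any concrete model you like.)
-/

set_option autoImplicit false

namespace Crest.Agent.R95

open Crest.OpAlg
open scoped InnerProductSpace ComplexConjugate Topology

variable {H : Type*} [NormedAddCommGroup H] [InnerProductSpace ℂ H] [CompleteSpace H]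
variable {ξ : ℕ → H} {P M : VonNeumannAlgebra H}

namespace VNdAux

/-- `ℓ²(ℕ, H)` -/
abbrev L2H (H : Type*) [NormedAddCommGroup H] : Type _ := lp (fun _ : ℕ => H) 2

/-- coordinatewise action -/
noncomputable def amp (a : H →L[ℂ] H) : L2H H →L[ℂ] L2H H :=
  lp.mapCLM 2 (fun _ => a) (norm_nonneg a) (fun _ => le_rfl)

omit [CompleteSpace H] in
theorem amp_apply (a : H →L[ℂ] H) (f : L2H H) (n : ℕ) : (amp a f : ℕ → H) n = a (f n) := rfl

omit [CompleteSpace H] in
theorem amp_mul (a b : H →L[ℂ] H) (f : L2H H) : amp (a * b) f = amp a (amp b f) := rfl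

theorem amp_inner (a : H →L[ℂ] H) (f g : L2H H) :
    ⟪amp a f, g⟫_ℂ = ⟪f, amp (star a) g⟫_ℂ := by
  rw [lp.inner_eq_tsum, lp.inner_eq_tsum]
  refine tsum_congr fun n => ?_
  rw [amp_apply, amp_apply, ContinuousLinearMap.star_eq_adjoint,
    ContinuousLinearMap.adjoint_inner_right]

/-- the vector -/
noncomputable def vec (h : Nr ξ) : L2H H :=
  ⟨ξ, memℓp_gen (by simpa using h.summable)⟩

/-- the orbit map -/
noncomputable def orb (f : L2H H) : (H →L[ℂ] H) →ₗ[ℂ] L2H H where
  toFun a := amp a f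
  map_add' a b := by ext n; rfl
  map_smul' c a := by ext n; rfl

/-- the orbit closure -/
noncomputable def K (A : StarSubalgebra ℂ (H →L[ℂ] H)) (f : L2H H) : Submodule ℂ (L2H H) :=
  (A.toSubalgebra.toSubmodule.map (orb f)).topologicalClosure

instance (A : StarSubalgebra ℂ (H →L[ℂ] H)) (f : L2H H) : CompleteSpace (K A f) :=
  (Submodule.isClosed_topologicalClosure _).completeSpace_coe

theorem K_inv (A : StarSubalgebra ℂ (H →L[ℂ] H)) (f : L2H H) {a : H →L[ℂ] H} (ha : a ∈ A)
    {v : L2H H} (hv : v ∈ K A f) : amp a v ∈ K A f := by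
  have h : K A f ≤ (K A f).comap (amp a : L2H H →ₗ[ℂ] L2H H) := by
    refine Submodule.topologicalClosure_minimal _ ?_ ?_
    · rintro w ⟨b, hb, rfl⟩
      refine Submodule.le_topologicalClosure _ ?_
      exact ⟨a * b, A.mul_mem ha hb, rfl⟩
    · exact (Submodule.isClosed_topologicalClosure _).preimage (amp a).continuous
  exact h hv

theorem K_comm (A : StarSubalgebra ℂ (H →L[ℂ] H)) (f : L2H H) {a : H →L[ℂ] H} (ha : a ∈ A)
    (v : L2H H) : (K A f).starProjection (amp a v) = amp a ((K A f).starProjection v) := by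
  refine Submodule.eq_starProjection_of_mem_of_inner_eq_zero
    (K_inv A f ha (Submodule.starProjection_apply_mem _ v)) ?_
  intro w hw
  rw [← map_sub, amp_inner]
  have h1 := Submodule.sub_starProjection_mem_orthogonal (K := K A f) v
  rw [Submodule.mem_orthogonal'] at h1
  exact h1 _ (K_inv A f (star_mem ha) hw)

end VNdAux

open VNdAux in
theorem vn_density (h : Nr ξ) (A : StarSubalgebra ℂ (H →L[ℂ] H)) {x : H →L[ℂ] H}
    (hx : ∀ T : H →L[ℂ] H, (∀ a ∈ A, a * T = T * a) → x * T = T * x) (ε : ℝ) (hε : 0 < ε) :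
    ∃ a ∈ A, n2 ξ (x - a) < ε := by
  set f : L2H H := vec h with hf
  set p := (K A f).starProjection with hp
  let T : ℕ → ℕ → (H →L[ℂ] H) := fun i j =>
    (lp.evalCLM ℂ (fun _ : ℕ => H) 2 i) ∘L p ∘L (lp.singleContinuousLinearMap ℂ (fun _ : ℕ => H) 2 j)
  have hT : ∀ i j v, T i j v = (p (lp.single 2 j v) : L2H H) i := fun i j v => rfl
  have hamp : ∀ (a : H →L[ℂ] H) j v, amp a (lp.single 2 j v) = lp.single 2 j (a v) := by
    intro a j v
    ext n
    rw [amp_apply]
    by_cases hn : n = j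
    · subst hn
      rw [lp.single_apply_self, lp.single_apply_self]
    · rw [lp.single_apply_ne _ _ _ hn, lp.single_apply_ne _ _ _ hn, map_zero]
  have hcomm : ∀ i j, x * T i j = T i j * x := by
    intro i j
    refine hx _ fun a ha => ?_
    ext v
    show a (T i j v) = T i j (a v)
    rw [hT, hT, ← hamp, hp, K_comm A f ha, amp_apply]
  have hxp : (amp x) ∘L p = p ∘L (amp x) := by
    refine lp.ext_continuousLinearMap (by norm_num) fun j => ?_
    ext v i
    have := DFunLike.congr_fun (hcomm i j) v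
    have h1 : x (T i j v) = T i j (x v) := this
    rw [hT, hT, ← hamp] at h1
    exact h1
  have hfK : f ∈ K A f := by
    refine Submodule.le_topologicalClosure _ ?_
    exact ⟨1, A.one_mem, by ext n; rfl⟩
  have hxf : amp x f ∈ K A f := by
    have h1 : amp x f = p (amp x f) := by
      have h2 := DFunLike.congr_fun hxp f
      have h3 : p f = f := Submodule.starProjection_eq_self_iff.2 hfK
      calc amp x f = amp x (p f) := by rw [h3]
        _ = p (amp x f) := h2
    rw [h1]
    exact Submodule.starProjection_apply_mem _ _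
  have hcl : amp x f ∈ closure ((A.toSubalgebra.toSubmodule.map (orb f) : Submodule ℂ (L2H H)) :
      Set (L2H H)) := hxf
  obtain ⟨w, hw, hd⟩ := Metric.mem_closure_iff.1 hcl ε hε
  obtain ⟨a, ha, rfl⟩ := hw
  refine ⟨a, ha, ?_⟩
  have h1 : n2 ξ (x - a) = ‖amp x f - amp a f‖ := by
    have h2 : ‖amp x f - amp a f‖ ^ 2 = traceNormSq ξ (x - a) := by
      have h3 := lp.norm_rpow_eq_tsum (p := 2) (by norm_num) (amp x f - amp a f)
      simp only [ENNReal.toReal_ofNat, Real.rpow_ofNat] at h3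
      rw [h3]
      rfl
    unfold n2
    rw [← h2, Real.sqrt_sq (norm_nonneg _)]
  rw [h1]
  rw [dist_eq_norm] at hd
  exact hd

end Crest.Agent.R95
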