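import Crest.Agent.R95.VNc
import Crest.Agent.R95.VNd

/-!
# Row 95, piece ALG: the algebra `AL P u` and generation

`AL P u ⊆ M` when `P ≤ M`, `u ∈ M` and the equivalence: all `x ∈ M` are `n2`-approximable by
`AL P u` iff `M ≤ N` for all von Neumann algebras `N ⊇ P ∪ {u}` (VNc one way, VNd applied to
`A = AL P u`, `N = gen (P ∪ {u})` the other way).
-/

set_option autoImplicit false

namespace Crest.Agent.R95

open Crest.OpAlg
open scoped InnerProductSpace ComplexConjugate Topology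

variable {H : Type*} [NormedAddCommGroup H] [InnerProductSpace ℂ H] [CompleteSpace H]
variable {ξ : ℕ → H} {P M : VonNeumannAlgebra H}

theorem al_le (hPM : P ≤ M) {u : H →L[ℂ] H} (hu : u ∈ M) {a : H →L[ℂ] H} (ha : a ∈ AL P u) :
    a ∈ M := by
  have h1 : AL P u ≤ M.toStarSubalgebra := by
    refine StarAlgebra.adjoin_le ?_
    rintro x (hx | hx)
    · exact hPM hx
    · rw [Set.mem_singleton_iff.1 hx]; exact hu
  exact h1 ha

theorem mem_al_of_mem {u a : H →L[ℂ] H} (ha : a ∈ P) : a ∈ AL P u :=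
  StarAlgebra.subset_adjoin ℂ _ (Or.inl ha)

theorem self_mem_al (P : VonNeumannAlgebra H) (u : H →L[ℂ] H) : u ∈ AL P u :=
  StarAlgebra.subset_adjoin ℂ _ (Or.inr rfl)

theorem generates_iff (h : Trc M ξ) (hPM : P ≤ M) {u : H →L[ℂ] H} (hu : u ∈ M) :
    (∀ N : VonNeumannAlgebra H, P ≤ N → u ∈ N → M ≤ N) ↔
      ∀ x ∈ M, ∀ ε : ℝ, 0 < ε → ∃ a ∈ AL P u, n2 ξ (x - a) < ε := by
  constructor
  · intro hgen x hx ε hε
    refine vn_density h.nr (AL P u) ?_ ε hε
    intro T hT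
    have hS : ((P : Set (H →L[ℂ] H)) ∪ {u}) ⊆ gen ((P : Set (H →L[ℂ] H)) ∪ {u}) := subset_gen _
    have hxg : x ∈ gen ((P : Set (H →L[ℂ] H)) ∪ {u}) :=
      hgen _ (fun y hy => hS (Or.inl hy)) (hS (Or.inr rfl)) hx
    refine mem_gen_iff.1 hxg T (fun s hs => hT s (StarAlgebra.subset_adjoin ℂ _ hs)) ?_
    intro s hs
    exact hT _ (star_mem (StarAlgebra.subset_adjoin ℂ _ hs))
  · intro happ N hPN huN x hx
    refine vn_closure h N hx fun ε hε => ?_
    obtain ⟨a, ha, hlt⟩ := happ x hx ε hε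
    exact ⟨a, al_le hPN huN ha, al_le hPM hu ha, hlt⟩

end Crest.Agent.R95
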