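import Crest.Agent.R95.VDefs

/-! Row 95, V_CHAIN: `k` orthogonal projections of trace `s` almost diagonalising `h` (induction on `k` with `split`).

`norm_piece`: `T = (h - c) e` satisfies `0 ≤ T ≤ (c' - c) e`, so `‖T‖ ≤ c' - c`
(`CStarAlgebra.norm_le_norm_of_nonneg_of_le`, `‖e‖ ≤ 1`), and `T = T e`, so
`traceNormSq ξ T ≤ (c' - c)² traceNormSq ξ e` (`tn_mul_le`).
`chain`: induction on `k`.  `k = 0`: `D q = 0`, so `q = 0`.  Step: `split` with `t = k s`: `r` carries `k` pieces in
`[c, b]`, and `q - r` (trace `s`, values in `[a, c]`) is the last piece with `μ = a`.  The new error is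
`h q - ∑ μ e = (h r - ∑ …) + (h - a)(q - r)`, orthogonal (`r` and `q - r`), so by `tn_add_orth` the squared norms add:
`≤ s (b - c)² + s (c - a)² ≤ s (b - a)²`. -/

set_option autoImplicit false
set_option linter.unusedSectionVars false

open Crest.OpAlg Filter Topology
open scoped InnerProductSpace

namespace Crest.Agent.R95.VN

variable {H : Type*} [NormedAddCommGroup H] [InnerProductSpace ℂ H] [CompleteSpace H]
variable {ξ : ℕ → H} {N : VonNeumannAlgebra H}

theorem norm_piece (hξ : Summable fun n => ‖ξ n‖ ^ 2) {h e : H →L[ℂ] H} (hsa : star h = h)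
    (he : IsStarProjection e) (hc : h * e = e * h) {c c' : ℝ} (hcc : c ≤ c')
    (h1 : c • e ≤ h * e) (h2 : h * e ≤ c' • e) :
    traceNormSq ξ (h * e - c • e) ≤ (c' - c) ^ 2 * traceNormSq ξ e := by
  have hT0 : 0 ≤ h * e - c • e := sub_nonneg.2 h1
  have hTle : h * e - c • e ≤ (c' - c) • e := by
    rw [sub_smul]
    exact sub_le_sub_right h2 _
  have hen : ‖e‖ ≤ 1 := by
    have h3 : ‖e‖ * ‖e‖ = ‖e‖ := by
      have := CStarRing.norm_star_mul_self (x := e)
      rw [proj_star he, proj_mul he] at this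
      exact this.symm
    by_contra hcon
    have h4 : 1 < ‖e‖ := not_le.1 hcon
    nlinarith
  have hTn : ‖h * e - c • e‖ ≤ c' - c := by
    refine (CStarAlgebra.norm_le_norm_of_nonneg_of_le hT0 hTle).trans ?_
    rw [norm_smul, Real.norm_of_nonneg (sub_nonneg.2 hcc)]
    exact mul_le_of_le_one_right (sub_nonneg.2 hcc) hen
  have hTe : h * e - c • e = (h * e - c • e) * e := by
    rw [sub_mul, mul_assoc, proj_mul he, smul_mul_assoc, proj_mul he]
  rw [hTe]
  refine (tn_mul_le hξ _ _).trans ?_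
  exact mul_le_mul_of_nonneg_right (pow_le_pow_left₀ (norm_nonneg _) hTn 2) (tn_nonneg e)

end Crest.Agent.R95.VN
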