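import Crest.Agent.R95.VChain
import Crest.Agent.R95.C6b

/-! Row 95, V_UNITS (C1): matrix units almost diagonalising a selfadjoint element: `chain` with `q = 1`,
`a = -‖h‖`, `b = ‖h‖`, `s = 1/k`, then `matrix_units`. -/

set_option autoImplicit false
set_option linter.unusedSectionVars false

open Crest.OpAlg Filter Topology
open scoped InnerProductSpace

namespace Crest.Agent.R95.VN

variable {H : Type*} [NormedAddCommGroup H] [InnerProductSpace ℂ H] [CompleteSpace H]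

/-- (C1) -/
theorem exists_matrixUnits_approx (N : VonNeumannAlgebra H) (hf : IsFactor N)
    (hinf : ¬ FiniteDimensional ℂ N.toStarSubalgebra) (ξ : ℕ → H)
    (hξ : IsFaithfulTracialVectorState N ξ) (h : H →L[ℂ] H) (hh : h ∈ N) (hsa : star h = h)
    (δ : ℝ) (hδ : 0 < δ) (k0 : ℕ) :
    ∃ k ≥ k0, ∃ e : Fin k → Fin k → (H →L[ℂ] H),
      (∀ i j, e i j ∈ N) ∧ (∀ i j, star (e i j) = e j i) ∧
      (∀ i j l m, e i j * e l m = if j = l then e i m else 0) ∧ (∑ i, e i i = 1) ∧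
      ∃ μ : Fin k → ℝ, (∀ i, |μ i| ≤ ‖h‖) ∧
        traceNormSq ξ (h - ∑ i, (μ i : ℂ) • e i i) < δ := by
  obtain ⟨k1, hk1⟩ := exists_nat_gt ((2 * ‖h‖) ^ 2 / δ)
  set k : ℕ := max (max k0 k1) 1 with hk
  have hkpos : (0 : ℝ) < k := by
    have : 1 ≤ k := le_max_right _ _
    exact_mod_cast this
  have hk1' : (k1 : ℝ) ≤ k := by
    have : k1 ≤ k := (le_max_right k0 k1).trans (le_max_left _ _)
    exact_mod_cast this
  have hlo : (-‖h‖) • (1 : H →L[ℂ] H) ≤ h * 1 := by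
    rw [mul_one]
    have := IsSelfAdjoint.neg_algebraMap_norm_le_self (a := h) hsa
    rw [Algebra.algebraMap_eq_smul_one] at this
    simpa using this
  have hhi : h * 1 ≤ ‖h‖ • (1 : H →L[ℂ] H) := by
    rw [mul_one]
    have := IsSelfAdjoint.le_algebraMap_norm_self (a := h) hsa
    rw [Algebra.algebraMap_eq_smul_one] at this
    simpa using this
  obtain ⟨e, μ, heN, hep, heo, hes, het, hμ, herr⟩ := chain hf hξ hinf hh hsa (s := 1 / k)
    (by positivity) k 1 (one_mem N) (IsStarProjection.one _) (by rw [mul_one, one_mul])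
    (-‖h‖) ‖h‖ (by linarith [norm_nonneg h]) hlo hhi (by rw [tn_one hξ]; field_simp)
  obtain ⟨E, hE, hEe⟩ := matrix_units (P := N) (ξ := ξ) ⟨hf, hinf, hξ⟩ (q := e)
    (fun i => ⟨heN i, hep i⟩) heo
    (fun i j => by rw [← tn_eq_tr hξ (hep i), ← tn_eq_tr hξ (hep j), het, het])
  refine ⟨k, (le_max_left k0 k1).trans (le_max_left _ _), E, hE.mem, hE.star,
    fun i j l m => hE.mul i j l m, by rw [hE.sum, hes], μ, fun i => abs_le.2 (hμ i), ?_⟩
  have h1 : h - ∑ i, (μ i : ℂ) • E i i = h * 1 - ∑ i, μ i • e i := by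
    rw [mul_one]
    congr 1
    refine Finset.sum_congr rfl fun i _ => ?_
    rw [hEe i]
    exact Complex.coe_smul _ _
  rw [h1]
  refine herr.trans_lt ?_
  have h2 : (2 * ‖h‖) ^ 2 / δ < k := hk1.trans_le hk1'
  rw [div_lt_iff₀ hδ] at h2
  have h3 : 1 / (k : ℝ) * (‖h‖ - -‖h‖) ^ 2 = (2 * ‖h‖) ^ 2 / k := by ring
  rw [h3, div_lt_iff₀ hkpos]
  linarith

end Crest.Agent.R95.VN
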